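import Vale.Agent.P120.Ker

/-!
P120 ADInt. Overview in notes/P120.md, definitions in Defs.lean.
Name every helper lemma of yours with the file name in front (for example adint_aux1).

PLAN.
Integrals against a measure of n-growth, by dyadic shells. It is easiest to prove two lintegral bounds first:
(near) lintegral over ball x r of ofReal (kk n 0 (y-x) * |y-x|^2) <= ofReal (2^n A r): cover ball x r minus {x} by the
shells r 2^(-j-1) <= |y-x| < r 2^(-j) (the integrand vanishes at y = x), on a shell the integrand is at most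
(r 2^(-j-1))^(1-n) (n >= 1), use lintegral_iUnion_le and a geometric series.
(far) lintegral over the complement of ball x r of ofReal (kk n 0 (y-x)) <= ofReal (2^(n+1) A / r), shells
r 2^j <= |y-x| < r 2^(j+1). Everything else follows: weight: split at |y-x| = s, far part <= s^(n+1) kk n 0;
sing: split at |y-x| = δ, use kk_le_kk_zero and kk_zero_sub_le (for y = x the integrand is 0);
tail: ww (n+1) y <= kk n 0 (y - 0) for y ≠ 0.
-/

open MeasureTheory Metric Set Filter Topology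
open scoped ENNReal NNReal RealInnerProductSpace

namespace Vale.Agent.P120

variable {d : ℕ}

/-- constant of the growth calculus -/
noncomputable def Cad (n : ℕ) : ℝ := (n + 2) * 2 ^ (n + 2)

theorem one_le_Cad (n : ℕ) : 1 ≤ Cad n := by
  have h1 : (1 : ℝ) ≤ 2 ^ (n + 2) := one_le_pow₀ one_le_two
  have h2 : (0 : ℝ) ≤ n := n.cast_nonneg
  rw [Cad]; nlinarith

variable {n : ℕ} {A : ℝ} {μ : Measure (E d)}

theorem Up.locFin (hU : Up n A μ) : IsLocallyFiniteMeasure μ :=
  ⟨fun x => ⟨ball x 1, ball_mem_nhds x one_pos, (hU x 1 one_pos).trans_lt ENNReal.ofReal_lt_top⟩⟩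
theorem Up.sigmaFinite (hU : Up n A μ) : SigmaFinite μ := by
  have := hU.locFin
  infer_instance
theorem Up.ball_lt_top (hU : Up n A μ) (x : E d) (r : ℝ) : μ (ball x r) < ∞ := by
  rcases le_or_gt r 0 with h | h
  · rw [ball_eq_empty.2 h]; simp
  · exact (hU x r h).trans_lt ENNReal.ofReal_lt_top
theorem Up.real_ball_le (hU : Up n A μ) (hA : 0 ≤ A) (x : E d) {r : ℝ} (hr : 0 < r) :
    μ.real (ball x r) ≤ A * r ^ n :=
  ENNReal.toReal_le_of_le_ofReal (by positivity) (hU x r hr)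
theorem Up.singleton (hn : 1 ≤ n) (hU : Up n A μ) (x : E d) : μ {x} = 0 := by
  have h1 : Tendsto (fun r : ℝ => ENNReal.ofReal (A * r ^ n)) (𝓝[>] 0) (𝓝 0) := by
    have h : Continuous fun r : ℝ => ENNReal.ofReal (A * r ^ n) :=
      ENNReal.continuous_ofReal.comp (by fun_prop)
    have h2 := h.tendsto 0
    simp only [zero_pow (Nat.one_le_iff_ne_zero.1 hn), mul_zero, ENNReal.ofReal_zero] at h2
    exact h2.mono_left nhdsWithin_le_nhds
  refine le_antisymm (ge_of_tendsto h1 ?_) bot_le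
  filter_upwards [self_mem_nhdsWithin] with r hr
  exact (measure_mono (singleton_subset_iff.2 (mem_ball_self hr))).trans (hU x r hr)
theorem Low.mono {ρ ρ' : ℝ} (hL : Low n A ρ μ) (h : ρ' ≤ ρ) : Low n A ρ' μ :=
  fun x hx r hr hr' => hL x hx r hr (hr'.trans h)
theorem Low.real_ball_ge {ρ : ℝ} (hL : Low n A ρ μ) (hU : Up n A μ) {x : E d}
    (hx : x ∈ μ.support) {r : ℝ} (hr : 0 < r) (hrρ : r ≤ ρ) :
    A⁻¹ * r ^ n ≤ μ.real (ball x r) :=
  (ENNReal.ofReal_le_iff_le_toReal (hU.ball_lt_top x r).ne).1 (hL x hx r hr hrρ)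

theorem adint_shell (hU : Up n A μ) (x : E d) {S : Set (E d)} (hS : MeasurableSet S)
    {f : E d → ℝ} (hf : Measurable f) (f0 : ∀ y, 0 ≤ f y) (T : ℕ → Set (E d))
    (hT : ∀ j, MeasurableSet (T j)) (ρ c : ℕ → ℝ) (hρ : ∀ j, 0 < ρ j) (c0 : ∀ j, 0 ≤ c j)
    (hcov : ∀ y ∈ S, f y ≠ 0 → ∃ j, y ∈ T j) (hsub : ∀ j, T j ⊆ ball x (ρ j))
    (hc : ∀ j, ∀ y ∈ T j, f y ≤ c j) {B : ℝ} (hB : 0 ≤ B)
    (h : ∀ j, c j * (A * ρ j ^ n) ≤ B * (1 / 2) ^ j) :
    IntegrableOn f S μ ∧ ∫ y in S, f y ∂μ ≤ 2 * B := by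
  have key : ∫⁻ y in S, ENNReal.ofReal (f y) ∂μ ≤ ENNReal.ofReal (2 * B) := by
    calc ∫⁻ y in S, ENNReal.ofReal (f y) ∂μ
        ≤ ∫⁻ y in S, ∑' j, (T j).indicator (fun _ => ENNReal.ofReal (c j)) y ∂μ := by
          refine setLIntegral_mono' hS fun y hy => ?_
          by_cases h0 : f y = 0
          · simp [h0]
          obtain ⟨j, hj⟩ := hcov y hy h0
          refine le_trans ?_ (ENNReal.le_tsum j)
          rw [indicator_of_mem hj]
          exact ENNReal.ofReal_le_ofReal (hc j y hj)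
      _ ≤ ∫⁻ y, ∑' j, (T j).indicator (fun _ => ENNReal.ofReal (c j)) y ∂μ :=
          setLIntegral_le_lintegral _ _
      _ = ∑' j, ENNReal.ofReal (c j) * μ (T j) := by
          rw [lintegral_tsum fun j => (measurable_const.indicator (hT j)).aemeasurable]
          simp only [lintegral_indicator_const (hT _)]
      _ ≤ ∑' j, ENNReal.ofReal (B * (1 / 2) ^ j) := by
          refine ENNReal.tsum_le_tsum fun j => ?_
          calc ENNReal.ofReal (c j) * μ (T j)
              ≤ ENNReal.ofReal (c j) * ENNReal.ofReal (A * ρ j ^ n) := by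
                gcongr; exact (measure_mono (hsub j)).trans (hU x _ (hρ j))
            _ = ENNReal.ofReal (c j * (A * ρ j ^ n)) := (ENNReal.ofReal_mul (c0 j)).symm
            _ ≤ _ := ENNReal.ofReal_le_ofReal (h j)
      _ = ENNReal.ofReal (2 * B) := by
          rw [← ENNReal.ofReal_tsum_of_nonneg (fun j => by positivity)
            (summable_geometric_two.mul_left B), tsum_mul_left, tsum_geometric_two, mul_comm]
  refine ⟨⟨hf.aestronglyMeasurable, ?_⟩, ?_⟩
  · rw [hasFiniteIntegral_iff_ofReal (Eventually.of_forall f0)]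
    exact key.trans_lt ENNReal.ofReal_lt_top
  · rw [integral_eq_lintegral_of_nonneg_ae (Eventually.of_forall f0) hf.aestronglyMeasurable]
    exact ENNReal.toReal_le_of_le_ofReal (by positivity) key

theorem adint_meas (n : ℕ) (t : ℝ) (x : E d) : Measurable fun y : E d => kk n t (y - x) :=
  (measurable_kk n t).comp (measurable_id.sub_const x)

theorem adint_meas_norm (x : E d) : Measurable fun y : E d => ‖y - x‖ :=
  (continuous_id.sub continuous_const).norm.measurable

theorem adint_near (hA : 0 ≤ A) (hU : Up n A μ) (x : E d) {r : ℝ} (hr : 0 < r) :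
    IntegrableOn (fun y => kk n 0 (y - x) * ‖y - x‖ ^ 2) (ball x r) μ ∧
      ∫ y in ball x r, kk n 0 (y - x) * ‖y - x‖ ^ 2 ∂μ ≤ 2 * (2 ^ (n + 1) * A * r) := by
  refine adint_shell hU x measurableSet_ball
    ((adint_meas n 0 x).mul ((adint_meas_norm x).pow_const 2))
    (fun y => mul_nonneg (kk_nonneg _ _ _) (by positivity))
    (fun j => ball x (r * (1 / 2) ^ j) \ ball x (r * (1 / 2) ^ j / 2))
    (fun j => measurableSet_ball.diff measurableSet_ball) (fun j => r * (1 / 2) ^ j)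
    (fun j => ((r * (1 / 2) ^ j / 2) ^ (n + 1))⁻¹ * (r * (1 / 2) ^ j) ^ 2)
    (fun j => by positivity) (fun j => by positivity) (fun y hy h0 => ?_)
    (fun j => sdiff_subset) (fun j y hy => ?_) (by positivity) (fun j => le_of_eq ?_)
  · have hne : y - x ≠ 0 := fun h => h0 (by simp [h])
    have hp : 0 < ‖y - x‖ := norm_pos_iff.2 hne
    rw [mem_ball_iff_norm] at hy
    have hex : ∃ j : ℕ, r * (1 / 2) ^ j / 2 ≤ ‖y - x‖ := by
      obtain ⟨j, hj⟩ := exists_pow_lt_of_lt_one (div_pos hp hr) (by norm_num : (1 / 2 : ℝ) < 1)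
      rw [lt_div_iff₀ hr] at hj
      have : 0 < r * (1 / 2) ^ j := by positivity
      exact ⟨j, by linarith⟩
    classical
    refine ⟨Nat.find hex, ?_, ?_⟩
    · rw [mem_ball_iff_norm]
      rcases h : Nat.find hex with _ | k
      · simpa using hy
      · have := Nat.find_min hex (m := k) (by omega)
        push Not at this
        rw [pow_succ]; linarith
    · rw [mem_ball_iff_norm, not_lt]; exact Nat.find_spec hex
  · have h1 := hy.1
    have h2 := hy.2
    rw [mem_ball_iff_norm] at h1 h2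
    push Not at h2
    refine mul_le_mul (kk_le_of_le n (by positivity) (by rwa [rr_zero]))
      (pow_le_pow_left₀ (norm_nonneg _) h1.le 2) (by positivity) (by positivity)
  · have : 0 < r * (1 / 2) ^ j := by positivity
    rw [mul_assoc (2 ^ (n + 1) * A)]
    generalize r * (1 / 2) ^ j = q at this
    rw [div_pow]
    field_simp
    ring

theorem adint_far (hA : 0 ≤ A) (hU : Up n A μ) (x : E d) {r : ℝ} (hr : 0 < r) :
    IntegrableOn (fun y => kk n 0 (y - x)) (ball x r)ᶜ μ ∧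
      ∫ y in (ball x r)ᶜ, kk n 0 (y - x) ∂μ ≤ 2 * (2 ^ n * A / r) := by
  refine adint_shell hU x measurableSet_ball.compl (adint_meas n 0 x)
    (fun y => kk_nonneg _ _ _)
    (fun j => ball x (2 * (r * 2 ^ j)) \ ball x (r * 2 ^ j))
    (fun j => measurableSet_ball.diff measurableSet_ball) (fun j => 2 * (r * 2 ^ j))
    (fun j => ((r * 2 ^ j) ^ (n + 1))⁻¹)
    (fun j => by positivity) (fun j => by positivity) (fun y hy _ => ?_)
    (fun j => sdiff_subset) (fun j y hy => ?_) (by positivity) (fun j => le_of_eq ?_)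
  · rw [mem_compl_iff, mem_ball_iff_norm, not_lt] at hy
    have hex : ∃ j : ℕ, ‖y - x‖ < 2 * (r * 2 ^ j) := by
      obtain ⟨j, hj⟩ := pow_unbounded_of_one_lt (‖y - x‖ / r) (by norm_num : (1 : ℝ) < 2)
      rw [div_lt_iff₀ hr] at hj
      have : 0 < r * 2 ^ j := by positivity
      exact ⟨j, by linarith⟩
    classical
    refine ⟨Nat.find hex, ?_, ?_⟩
    · rw [mem_ball_iff_norm]; exact Nat.find_spec hex
    · rw [mem_ball_iff_norm, not_lt]
      rcases h : Nat.find hex with _ | k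
      · simpa using hy
      · have := Nat.find_min hex (m := k) (by omega)
        push Not at this
        rw [pow_succ]; linarith
  · have h2 := hy.2
    rw [mem_ball_iff_norm] at h2
    push Not at h2
    exact kk_le_of_le n (by positivity) (by rwa [rr_zero])
  · rw [one_div_pow, mul_pow 2, pow_succ]
    have : 0 < (r * 2 ^ j) ^ n := by positivity
    field_simp

theorem adint_split {f g g' : E d → ℝ} {S : Set (E d)} (hS : MeasurableSet S) (hf : Measurable f)
    (f0 : ∀ y, 0 ≤ f y) (hg : IntegrableOn g S μ) (hg' : IntegrableOn g' Sᶜ μ)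
    (h : ∀ y ∈ S, f y ≤ g y) (h' : ∀ y ∈ Sᶜ, f y ≤ g' y) :
    Integrable f μ ∧ ∫ y, f y ∂μ ≤ ∫ y in S, g y ∂μ + ∫ y in Sᶜ, g' y ∂μ := by
  have i1 : IntegrableOn f S μ := hg.mono' hf.aestronglyMeasurable
    ((ae_restrict_iff' hS).2 (Eventually.of_forall fun y hy => by
      rw [Real.norm_of_nonneg (f0 y)]; exact h y hy))
  have i2 : IntegrableOn f Sᶜ μ := hg'.mono' hf.aestronglyMeasurable
    ((ae_restrict_iff' hS.compl).2 (Eventually.of_forall fun y hy => by
      rw [Real.norm_of_nonneg (f0 y)]; exact h' y hy))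
  have i3 : Integrable f μ := by
    rw [← integrableOn_univ, ← union_compl_self S]; exact i1.union i2
  refine ⟨i3, ?_⟩
  rw [← integral_add_compl hS i3]
  exact add_le_add (setIntegral_mono_on i1 hg hS h) (setIntegral_mono_on i2 hg' hS.compl h')

theorem Up.near (hn : 1 ≤ n) (hA : 0 ≤ A) (hU : Up n A μ) (x : E d) {r : ℝ} (hr : 0 < r) :
    IntegrableOn (fun y => kk n 0 (y - x) * ‖y - x‖ ^ 2) (ball x r) μ ∧
      ∫ y in ball x r, kk n 0 (y - x) * ‖y - x‖ ^ 2 ∂μ ≤ Cad n * A * r := by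
  have _ := hn
  refine ⟨(adint_near hA hU x hr).1, (adint_near hA hU x hr).2.trans ?_⟩
  have h : 0 ≤ ((n : ℝ) + 1) * (2 ^ (n + 2) * A * r) := by positivity
  rw [Cad, pow_succ 2 (n + 1)] at *
  linarith

theorem Up.far (hA : 0 ≤ A) (hU : Up n A μ) (x : E d) {r : ℝ} (hr : 0 < r) :
    IntegrableOn (fun y => kk n 0 (y - x)) (ball x r)ᶜ μ ∧
      ∫ y in (ball x r)ᶜ, kk n 0 (y - x) ∂μ ≤ Cad n * A / r := by
  refine ⟨(adint_far hA hU x hr).1, (adint_far hA hU x hr).2.trans ?_⟩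
  have h : 0 ≤ (4 * (n : ℝ) + 6) * (2 ^ n * (A / r)) := by positivity
  rw [Cad, pow_add, mul_div_assoc, mul_div_assoc]
  linarith

theorem Up.weight (hA : 0 ≤ A) (hU : Up n A μ) (x : E d) {s : ℝ} (hs : 0 < s) :
    Integrable (fun y => ((1 + ‖y - x‖ / s) ^ (n + 1))⁻¹) μ ∧
      ∫ y, ((1 + ‖y - x‖ / s) ^ (n + 1))⁻¹ ∂μ ≤ Cad n * A * s ^ n := by
  obtain ⟨f1, f2⟩ := adint_far hA hU x hs
  have hm : Measurable fun y : E d => ((1 + ‖y - x‖ / s) ^ (n + 1))⁻¹ :=
    ((((adint_meas_norm x).div_const s).const_add 1).pow_const _).inv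
  obtain ⟨i1, i2⟩ := adint_split (μ := μ) (g := fun _ => 1)
    (g' := fun y => s ^ (n + 1) * kk n 0 (y - x)) (S := ball x s) measurableSet_ball hm
    (fun y => by positivity) (integrableOn_const (hU.ball_lt_top x s).ne) (f1.const_mul _)
    (fun y _ => inv_le_one_of_one_le₀ (one_le_pow₀ (by
      have : 0 ≤ ‖y - x‖ / s := by positivity
      linarith)))
    (fun y hy => by
      rw [mem_compl_iff, mem_ball_iff_norm, not_lt] at hy
      have hp : 0 < ‖y - x‖ := hs.trans_le hy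
      rw [kk_zero_eq, ← div_eq_mul_inv, ← div_pow, ← inv_pow, ← inv_div ‖y - x‖ s]
      gcongr
      linarith)
  refine ⟨i1, i2.trans ?_⟩
  rw [integral_const_mul, setIntegral_const, smul_eq_mul, mul_one]
  have h1 := hU.real_ball_le hA x hs
  have h2 : s ^ (n + 1) * ∫ y in (ball x s)ᶜ, kk n 0 (y - x) ∂μ ≤
      s ^ (n + 1) * (2 * (2 ^ n * A / s)) := by gcongr
  have h3 : s ^ (n + 1) * (2 * (2 ^ n * A / s)) = 2 * (2 ^ n * (A * s ^ n)) := by
    field_simp
    ring
  have h4 : 1 * (A * s ^ n) ≤ 2 ^ n * (A * s ^ n) :=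
    mul_le_mul_of_nonneg_right (one_le_pow₀ one_le_two) (by positivity)
  have h : 0 ≤ (4 * (n : ℝ) + 5) * (2 ^ n * (A * s ^ n)) := by positivity
  rw [Cad, pow_add 2 n 2]
  linarith

theorem Up.sing (hn : 1 ≤ n) (hA : 0 ≤ A) (hU : Up n A μ) (x : E d) {δ : ℝ} (hδ : 0 < δ) :
    Integrable (fun y => |kk n 0 (y - x) - kk n δ (y - x)| * ‖y - x‖ ^ 2) μ ∧
      ∫ y, |kk n 0 (y - x) - kk n δ (y - x)| * ‖y - x‖ ^ 2 ∂μ ≤ Cad n * A * δ := by
  have _ := hn
  obtain ⟨f1, f2⟩ := adint_far hA hU x hδ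
  obtain ⟨g1, g2⟩ := adint_near hA hU x hδ
  have hm : Measurable fun y : E d => |kk n 0 (y - x) - kk n δ (y - x)| * ‖y - x‖ ^ 2 :=
    ((adint_meas n 0 x).sub (adint_meas n δ x)).abs.mul ((adint_meas_norm x).pow_const 2)
  obtain ⟨i1, i2⟩ := adint_split (μ := μ) (g := fun y => kk n 0 (y - x) * ‖y - x‖ ^ 2)
    (g' := fun y => ((n + 1) * δ ^ 2) * kk n 0 (y - x)) (S := ball x δ) measurableSet_ball hm
    (fun y => by positivity) g1 (f1.const_mul _)
    (fun y _ => by
      by_cases h0 : y - x = 0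
      · simp [h0]
      rw [abs_of_nonneg (sub_nonneg.2 (kk_le_kk_zero n δ h0))]
      exact mul_le_mul_of_nonneg_right (sub_le_self _ (kk_nonneg _ _ _)) (by positivity))
    (fun y hy => by
      rw [mem_compl_iff, mem_ball_iff_norm, not_lt] at hy
      have hp : 0 < ‖y - x‖ := hδ.trans_le hy
      have h0 : y - x ≠ 0 := norm_pos_iff.1 hp
      rw [abs_of_nonneg (sub_nonneg.2 (kk_le_kk_zero n δ h0))]
      refine (mul_le_mul_of_nonneg_right (kk_zero_sub_le n δ h0) (by positivity)).trans (le_of_eq ?_)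
      rw [kk_zero_eq]
      field_simp
      ring)
  refine ⟨i1, i2.trans ?_⟩
  rw [integral_const_mul]
  have h2 : ((n + 1) * δ ^ 2) * ∫ y in (ball x δ)ᶜ, kk n 0 (y - x) ∂μ ≤
      ((n + 1) * δ ^ 2) * (2 * (2 ^ n * A / δ)) := by gcongr
  have h3 : ((n + 1) * δ ^ 2) * (2 * (2 ^ n * A / δ)) = 2 * (n + 1) * (2 ^ n * (A * δ)) := by
    field_simp
  have h : 0 ≤ (2 * (n : ℝ) + 2) * (2 ^ n * (A * δ)) := by positivity
  rw [pow_succ] at g2
  rw [Cad, pow_add]
  linarith

theorem Up.integrable_ww (hA : 0 ≤ A) (hU : Up n A μ) :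
    Integrable (ww (n + 1) : E d → ℝ) μ ∧ ∫ y, ww (n + 1) y ∂μ ≤ Cad n * A := by
  have h := hU.weight hA 0 one_pos
  simp only [sub_zero, div_one, one_pow, mul_one] at h
  exact h

theorem Up.tail_ww (hA : 0 ≤ A) (hU : Up n A μ) {R : ℝ} (hR : 0 < R) :
    ∫ y in (ball (0 : E d) R)ᶜ, ww (n + 1) y ∂μ ≤ Cad n * A / R := by
  obtain ⟨f1, f2⟩ := hU.far hA 0 hR
  refine le_trans (setIntegral_mono_on (hU.integrable_ww hA).1.integrableOn f1
    measurableSet_ball.compl fun y hy => ?_) f2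
  rw [mem_compl_iff, mem_ball_zero_iff, not_lt] at hy
  have hp : 0 < ‖y‖ := hR.trans_le hy
  rw [sub_zero, kk_zero_eq, ww]
  gcongr
  linarith

theorem Up.integrable_of_le {G : Type*} [NormedAddCommGroup G] (hA : 0 ≤ A) (hU : Up n A μ)
    {φ : E d → G} (hφ : AEStronglyMeasurable φ μ) {C : ℝ}
    (h : ∀ y, ‖φ y‖ ≤ C * ww (n + 1) y) : Integrable φ μ :=
  ((hU.integrable_ww hA).1.const_mul C).mono' hφ (Eventually.of_forall h)

theorem up_volume (n : ℕ) : ∃ A : ℝ, 1 ≤ A ∧ Up n A (volume : Measure (E n)) := by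
  refine ⟨max 1 (volume (ball (0 : E n) 1)).toReal, le_max_left _ _, fun x r hr => ?_⟩
  rw [Measure.addHaar_ball_of_pos _ x hr, finrank_euclideanSpace_fin, mul_comm _ (r ^ n),
    ENNReal.ofReal_mul (by positivity)]
  gcongr
  rw [← ENNReal.ofReal_toReal (measure_ball_lt_top (μ := volume) (x := (0 : E n)) (r := 1)).ne]
  exact ENNReal.ofReal_le_ofReal (by simp)

end Vale.Agent.P120
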