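import Mathlib

open MeasureTheory Metric Set
open scoped ENNReal NNReal

namespace Vale.Agent.P120.Stmt

/-- n-Ahlfors-David regularity (open balls, radii up to the diameter of the support). -/
def ADreg {d : ℕ} (n : ℕ) (μ : Measure (EuclideanSpace ℝ (Fin d))) : Prop :=
  ∃ C : ℝ, 1 ≤ C ∧ ∀ x ∈ μ.support, ∀ r : ℝ, 0 < r → ENNReal.ofReal r ≤ Metric.ediam μ.support →
    ENNReal.ofReal (C⁻¹ * r ^ n) ≤ μ (ball x r) ∧ μ (ball x r) ≤ ENNReal.ofReal (C * r ^ n)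

/-- The Riesz kernel z / |z|^(n+1). -/
noncomputable def rieszK {d : ℕ} (n : ℕ) (z : EuclideanSpace ℝ (Fin d)) :
    EuclideanSpace ℝ (Fin d) :=
  (‖z‖ ^ (n + 1))⁻¹ • z

/-- The truncated Riesz transform. -/
noncomputable def rieszT {d : ℕ} (n : ℕ) (μ : Measure (EuclideanSpace ℝ (Fin d))) (ε : ℝ)
    (f : EuclideanSpace ℝ (Fin d) → ℝ) (x : EuclideanSpace ℝ (Fin d)) :
    EuclideanSpace ℝ (Fin d) :=
  ∫ y in {y | ε < ‖x - y‖}, f y • rieszK n (x - y) ∂μ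

/-- Uniform boundedness of the truncated Riesz transforms on L2. -/
def RieszBdd {d : ℕ} (n : ℕ) (μ : Measure (EuclideanSpace ℝ (Fin d))) : Prop :=
  ∃ C : ℝ, ∀ f : EuclideanSpace ℝ (Fin d) → ℝ, MemLp f 2 μ → ∀ ε : ℝ, 0 < ε →
    (∀ᵐ x ∂μ, IntegrableOn (fun y => f y • rieszK n (x - y)) {y | ε < ‖x - y‖} μ) ∧
      eLpNorm (rieszT n μ ε f) 2 μ ≤ ENNReal.ofReal C * eLpNorm f 2 μ

/-- Big pieces of Lipschitz images. -/
def UnifRect {d : ℕ} (n : ℕ) (μ : Measure (EuclideanSpace ℝ (Fin d))) : Prop :=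
  ∃ θ : ℝ, 0 < θ ∧ ∃ M : ℝ≥0, ∀ x ∈ μ.support, ∀ r : ℝ, 0 < r →
    ENNReal.ofReal r ≤ Metric.ediam μ.support →
      ∃ g : EuclideanSpace ℝ (Fin n) → EuclideanSpace ℝ (Fin d),
        LipschitzOnWith M g (ball 0 r) ∧
          ENNReal.ofReal (θ * r ^ n) ≤ μ (ball x r ∩ g '' ball 0 r)

end Vale.Agent.P120.Stmt
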