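import Vale.Agent.P120.Pack
import Vale.Agent.P120.Stmt

/-!
P120 ADUp. Overview in notes/P120.md, definitions in Defs.lean.
Name every helper lemma of yours with the file name in front (for example adup_aux1).

PLAN.
Take C from ADreg and A = 5^d 2^n C. Low: C⁻¹ >= A⁻¹ and r' <= r <= diameter. Up: if ball x r misses the support its measure is 0
(Measure.measure_compl_support). Otherwise pick y in the support inside it, ball x r ⊆ ball y (2r). If ofReal (2r) <= ediam, done.
Otherwise the diameter is finite, D = toReal ediam, 0 < r0 <= D < 2r; the support lies in closedBall y D; exists_net with R = D... use R = 2D or R = D and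
t = D gives at most 3^d <= 5^d points of the support whose balls of radius D cover it, each of mass <= C D^n (finrank (E d) = d).
-/

open MeasureTheory Metric Set Filter Topology
open scoped ENNReal NNReal RealInnerProductSpace

namespace Vale.Agent.P120

variable {d : ℕ}

theorem up_low_of_adreg {n : ℕ} {μ : Measure (E d)} (h : Stmt.ADreg n μ) :
    ∃ A : ℝ, 1 ≤ A ∧ ∀ r0 : ℝ, 0 < r0 → ENNReal.ofReal r0 ≤ Metric.ediam μ.support →
      Up n A μ ∧ Low n A r0 μ := by
  obtain ⟨C, hC, h⟩ := h
  have h3 : (1 : ℝ) ≤ 3 ^ d := one_le_pow₀ (by norm_num)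
  have key : ∀ (Y : Set (E d)) (z : E d) (t : ℝ), Y ⊆ μ.support → 0 < t →
      ENNReal.ofReal t ≤ Metric.ediam μ.support → (∀ y ∈ Y, dist y z ≤ t) →
      μ Y ≤ ENNReal.ofReal (3 ^ d * C * t ^ n) := fun Y z t hY ht hd hz => by
    obtain ⟨S, a1, -, a2, a3⟩ := exists_net Y z ht.le ht hz
    rw [finrank_euclideanSpace_fin, mul_div_assoc, div_self ht.ne'] at a3
    refine (measure_mono (t := ⋃ p ∈ S, ball p t) fun y hy => ?_).trans
      ((measure_biUnion_finset_le S _).trans ?_)
    · obtain ⟨p, hp, h1⟩ := a2 y hy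
      exact mem_biUnion hp h1
    · refine (Finset.sum_le_card_nsmul S _ _ fun p hp => (h p (hY (a1 hp)) t ht hd).2).trans ?_
      rw [nsmul_eq_mul, ← ENNReal.ofReal_natCast, ← ENNReal.ofReal_mul (Nat.cast_nonneg _),
        mul_assoc]
      refine ENNReal.ofReal_le_ofReal (mul_le_mul_of_nonneg_right ?_ (by positivity))
      norm_num at a3
      exact_mod_cast a3
  refine ⟨3 ^ d * C, one_le_mul_of_one_le_of_one_le h3 hC, fun r0 h0 hd => ⟨fun x r hr => ?_,
    fun x hx r hr hr' => le_trans (ENNReal.ofReal_le_ofReal (mul_le_mul_of_nonneg_right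
      (inv_anti₀ (by positivity) (le_mul_of_one_le_left (by positivity) h3)) (by positivity)))
      (h x hx r hr ((ENNReal.ofReal_le_ofReal hr').trans hd)).1⟩⟩
  rw [← measure_inter_conull Measure.measure_compl_support]
  rcases le_or_gt (ENNReal.ofReal r) (Metric.ediam μ.support) with h1 | h1
  · exact key _ x r inter_subset_right hr h1 fun y hy => le_of_lt hy.1
  · rcases (ball x r ∩ μ.support).eq_empty_or_nonempty with h2 | ⟨z, hz⟩
    · rw [h2, measure_empty]
      exact zero_le
    have h4 : Metric.ediam μ.support ≠ ⊤ := ne_top_of_lt h1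
    have h5 : 0 < Metric.diam μ.support :=
      h0.trans_le ((ENNReal.ofReal_le_iff_le_toReal h4).1 hd)
    refine (key _ z _ inter_subset_right h5 (ENNReal.ofReal_toReal h4).le
      fun y hy => dist_le_diam_of_mem' h4 hy.2 hz.2).trans (ENNReal.ofReal_le_ofReal ?_)
    exact mul_le_mul_of_nonneg_left (pow_le_pow_left₀ h5.le
      (ENNReal.toReal_le_of_le_ofReal hr.le h1.le) n) (by positivity)

end Vale.Agent.P120
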