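import Vale.Agent.P120.TestB

/-!
P120 Conv1. Overview in notes/P120.md, definitions in Defs.lean.
Name every helper lemma of yours with the file name in front (for example conv1_aux1).

PLAN.
Let w = ww (n+1). The finite measures m k = (μs k).withDensity (ofReal ∘ w) have mass <= Cad A (Up.integrable_ww) and give mass
<= Cad A / (j+1) to the complement of closedBall 0 (j+1) (Up.tail_ww). Prokhorov:
isCompact_setOfPred_finiteMeasure_mass_le_compl_isCompact_le (Mathlib/MeasureTheory/Measure/Prokhorov.lean) and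
IsCompact.ultrafilter_le_nhds for U.map m give a limit finite measure m∞; put μ = m∞.withDensity (ofReal ∘ w⁻¹).
For φ continuous with |φ| <= C w, φ / w is a bounded continuous function (BoundedContinuousFunction.ofNormedAddCommGroup);
FiniteMeasure.tendsto_iff_forall_integral_tendsto and integral_withDensity_eq_integral_smul (or the ofReal version).
Up for μ: for r' < r take the continuous cutoff φ = max 0 (min 1 ((r - dist y x)/(r - r'))): μ (ball x r') <= ∫ φ dμ = lim <= A r^n
(μ is finite on balls because w⁻¹ is bounded there); then ball x r is the increasing union of the balls of radius r' < r.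
-/

open MeasureTheory Metric Set Filter Topology
open scoped ENNReal NNReal RealInnerProductSpace

namespace Vale.Agent.P120

variable {d : ℕ}

theorem conv1_meas (m : ℕ) : Measurable fun y : E d => ENNReal.ofReal (ww m y) :=
  (continuous_ww m).measurable.ennreal_ofReal

theorem conv1_meas' (m : ℕ) : Measurable fun y : E d => ENNReal.ofReal (ww m y)⁻¹ :=
  (continuous_ww m).measurable.inv.ennreal_ofReal

/-- The weighted finite measure. -/
noncomputable def conv1M {n : ℕ} {A : ℝ} (hA : 0 ≤ A) {μ : Measure (E d)} (h : Up n A μ) :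
    FiniteMeasure (E d) :=
  ⟨μ.withDensity fun y => ENNReal.ofReal (ww (n + 1) y),
    isFiniteMeasure_withDensity_ofReal (h.integrable_ww hA).1.hasFiniteIntegral⟩

theorem conv1M_apply {n : ℕ} {A : ℝ} (hA : 0 ≤ A) {μ : Measure (E d)} (h : Up n A μ)
    {S : Set (E d)} (hS : MeasurableSet S) :
    conv1M hA h S = (∫ y in S, ww (n + 1) y ∂μ).toNNReal := by
  change ((μ.withDensity fun y => ENNReal.ofReal (ww (n + 1) y)) S).toNNReal = _
  rw [withDensity_apply _ hS, ← ofReal_integral_eq_lintegral_ofReal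
    (h.integrable_ww hA).1.integrableOn (Eventually.of_forall fun y => (ww_pos _ y).le)]
  rfl

/-- The quotient as a bounded continuous function. -/
noncomputable def conv1B (m : ℕ) {φ : E d → ℝ} (hφ : Continuous φ) {C : ℝ}
    (hC : ∀ y, |φ y| ≤ C * ww m y) : BoundedContinuousFunction (E d) ℝ :=
  BoundedContinuousFunction.ofNormedAddCommGroup (fun y => (ww m y)⁻¹ * φ y)
    (((continuous_ww m).inv₀ fun y => (ww_pos m y).ne').mul hφ) C fun y => by
      have h := ww_pos m y
      rw [norm_mul, Real.norm_of_nonneg (inv_pos.2 h).le, inv_mul_le_iff₀ h, mul_comm]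
      exact hC y

theorem exists_conv {n : ℕ} {A : ℝ} (hA : 0 ≤ A) (U : Ultrafilter ℕ) (μs : ℕ → Measure (E d))
    (h : ∀ k, Up n A (μs k)) : ∃ μ : Measure (E d), Conv n A (U : Filter ℕ) μs μ := by
  have hu : Tendsto (fun j : ℕ => (Cad n * A / ((j : ℝ) + 1)).toNNReal) atTop (𝓝 0) := by
    have h1 := tendsto_one_div_add_atTop_nhds_zero_nat (𝕜 := ℝ).const_mul (Cad n * A)
    have h2 := (continuous_real_toNNReal.tendsto _).comp h1
    simpa [Function.comp_def, div_eq_mul_inv] using h2
  have b1 : ∀ k, (conv1M hA (h k)).mass ≤ (Cad n * A).toNNReal := fun k => by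
    change conv1M hA (h k) univ ≤ _
    rw [conv1M_apply hA (h k) MeasurableSet.univ, Measure.restrict_univ]
    exact Real.toNNReal_le_toNNReal ((h k).integrable_ww hA).2
  have b2 : ∀ k (j : ℕ), conv1M hA (h k) (closedBall (0 : E d) ((j : ℝ) + 1))ᶜ ≤
      (Cad n * A / ((j : ℝ) + 1)).toNNReal := fun k j => by
    refine (FiniteMeasure.apply_mono _ (compl_subset_compl.2 ball_subset_closedBall)).trans ?_
    rw [conv1M_apply hA (h k) measurableSet_ball.compl]
    exact Real.toNNReal_le_toNNReal ((h k).tail_ww hA (by positivity))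
  obtain ⟨m, -, hm⟩ := (isCompact_setOfPred_finiteMeasure_mass_le_compl_isCompact_le
    (K := fun j : ℕ => closedBall (0 : E d) ((j : ℝ) + 1)) (Cad n * A).toNNReal hu
    (fun j => isCompact_closedBall _ _) (Or.inl inferInstance)).ultrafilter_le_nhds
    (U.map fun k => conv1M hA (h k)) (le_principal_iff.2 (mem_map.2 (Eventually.of_forall
      fun k => ⟨b1 k, b2 k⟩)))
  have hm' : Tendsto (fun k => conv1M hA (h k)) (U : Filter ℕ) (𝓝 m) := hm
  rw [FiniteMeasure.tendsto_iff_forall_integral_tendsto] at hm'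
  have hlt : ∀ᵐ y ∂(m : Measure (E d)), ENNReal.ofReal (ww (n + 1) y)⁻¹ < ∞ :=
    Eventually.of_forall fun y => ENNReal.ofReal_lt_top
  have e : ∀ y : E d, (ENNReal.ofReal (ww (n + 1) y)⁻¹).toReal = (ww (n + 1) y)⁻¹ := fun y =>
    ENNReal.toReal_ofReal (inv_pos.2 (ww_pos _ y)).le
  have hc : ∀ φ : E d → ℝ, Continuous φ → (∃ C : ℝ, ∀ y, |φ y| ≤ C * ww (n + 1) y) →
      Tendsto (fun k => ∫ y, φ y ∂(μs k)) (U : Filter ℕ) (𝓝 (∫ y, φ y
        ∂((m : Measure (E d)).withDensity fun y => ENNReal.ofReal (ww (n + 1) y)⁻¹))) := by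
    rintro φ hφ ⟨C, hC⟩
    rw [integral_withDensity_eq_integral_toReal_smul (conv1_meas' _) hlt]
    simp only [e]
    refine (hm' (conv1B (n + 1) hφ hC)).congr fun k => ?_
    change ∫ y, (ww (n + 1) y)⁻¹ * φ y
      ∂((μs k).withDensity fun y => ENNReal.ofReal (ww (n + 1) y)) = _
    rw [integral_withDensity_eq_integral_toReal_smul (conv1_meas _)
      (Eventually.of_forall fun y => ENNReal.ofReal_lt_top)]
    refine integral_congr_ae (Eventually.of_forall fun y => ?_)
    simp only [ENNReal.toReal_ofReal (ww_pos _ y).le, smul_eq_mul,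
      mul_inv_cancel_left₀ (ww_pos _ y).ne']
  refine ⟨_, h, fun x r hr => ?_, hc⟩
  have hun : ball x r = ⋃ j : ℕ, {y | 1 ≤ (j : ℝ) * (r - dist y x)} := by
    ext y
    simp only [mem_ball, mem_iUnion, mem_ofPred_eq]
    refine ⟨fun hy => ?_, fun ⟨j, hj⟩ => ?_⟩
    · obtain ⟨j, hj⟩ := exists_nat_ge (1 / (r - dist y x))
      exact ⟨j, (div_le_iff₀ (sub_pos.2 hy)).1 hj⟩
    · by_contra hn
      nlinarith [mul_nonneg (Nat.cast_nonneg (α := ℝ) j) (sub_nonneg.2 (not_lt.1 hn))]
  have hmono : Monotone fun j : ℕ => {y : E d | 1 ≤ (j : ℝ) * (r - dist y x)} := by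
    intro i j hij y hy
    have h1 : 1 ≤ (i : ℝ) * (r - dist y x) := hy
    have h2 : (i : ℝ) ≤ j := Nat.cast_le.2 hij
    have h3 : 0 ≤ r - dist y x := by
      by_contra hn
      nlinarith [mul_nonneg (Nat.cast_nonneg (α := ℝ) i) (neg_nonneg.2 (not_le.1 hn).le)]
    exact h1.trans (mul_le_mul_of_nonneg_right h2 h3)
  rw [hun, hmono.measure_iUnion]
  refine iSup_le fun j => ?_
  obtain ⟨φ, hφ⟩ : ∃ φ : E d → ℝ, φ = fun y => max 0 (min 1 ((j : ℝ) * (r - dist y x))) := ⟨_, rfl⟩
  have c1 : Continuous φ := by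
    rw [hφ]
    fun_prop
  have c2 : ∀ y, 0 ≤ φ y := fun y => hφ ▸ le_max_left _ _
  have c3 : ∀ y, φ y ≤ 1 := fun y => hφ ▸ max_le zero_le_one (min_le_left _ _)
  have c4 : ∀ y, r ≤ dist y x → φ y = 0 := fun y hy => hφ ▸ max_eq_left ((min_le_right _ _).trans
    (mul_nonpos_of_nonneg_of_nonpos (Nat.cast_nonneg j) (sub_nonpos.2 hy)))
  have c5 : ∀ y, |φ y| ≤ (1 + (‖x‖ + r)) ^ (n + 1) * ww (n + 1) y := fun y => by
    rw [abs_of_nonneg (c2 y)]
    by_cases hy : r ≤ dist y x
    · rw [c4 y hy]
      exact mul_nonneg (by positivity) (ww_pos _ y).le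
    · refine (c3 y).trans (one_le_mul_ww _ ?_)
      rw [dist_eq_norm, not_le] at hy
      linarith [norm_le_insert' y x]
  have c6 : Integrable φ
      ((m : Measure (E d)).withDensity fun y => ENNReal.ofReal (ww (n + 1) y)⁻¹) := by
    rw [integrable_withDensity_iff_integrable_smul' (conv1_meas' _) hlt]
    simp only [e]
    exact (conv1B (n + 1) c1 c5).integrable _
  refine (meas_le_lintegral₀ (f := fun y => ENNReal.ofReal (φ y))
    c1.measurable.ennreal_ofReal.aemeasurable fun y hy => ?_).trans ?_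
  · rw [hφ]
    simp only [min_eq_left (show 1 ≤ (j : ℝ) * (r - dist y x) from hy), max_eq_right zero_le_one,
      ENNReal.ofReal_one, le_refl]
  · rw [← ofReal_integral_eq_lintegral_ofReal c6 (Eventually.of_forall c2)]
    refine ENNReal.ofReal_le_ofReal (le_of_tendsto' (hc φ c1 ⟨_, c5⟩) fun k => ?_)
    refine (testb_int_le (h k) ((h k).integrable_of_le hA c1.aestronglyMeasurable c5) c3 c4).trans ?_
    rw [one_mul]
    exact (h k).real_ball_le hA x hr

end Vale.Agent.P120
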