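import Vale.Agent.P120.TestB

/-!
P120 EnB. Overview in notes/P120.md, definitions in Defs.lean.
Name every helper lemma of yours with the file name in front (for example enb_aux1).

PLAN.
Energy calculus. Key bound (enb_aux): if |g y - g z| <= L dist y z and |g y - g z| <= B for all y z, then for every x
and r > 0 the function y ↦ kk n 0 (x - y) (g x - g y)^2 has lintegral at most Cad A (L^2 r + B^2 / r)
(Up.near on ball x r, Up.far outside). The energy integrand vanishes unless z.1 or z.2 lies in ball x s, and it is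
symmetric (kk_sub_comm), so by Tonelli (lintegral_prod, lintegral_prod_symm; sigma-finiteness) its
lintegral is at most 2 * A s^n * Cad A (L^2 s + 4 L^2 s^2 / s). En_mul_le:
(η x v x - η y v y)^2 <= 2 (v x - v y)^2 + 2 (v y)^2 (η x - η y)^2 and the key bound with r = 1/M, B = 2.
-/

open MeasureTheory Metric Set Filter Topology
open scoped ENNReal NNReal RealInnerProductSpace

namespace Vale.Agent.P120

variable {d : ℕ}

variable {n : ℕ} {A : ℝ} {μ : Measure (E d)} {ψ : E d → ℝ} {x : E d} {s L : ℝ}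

theorem enb_aux (hn : 1 ≤ n) (hA : 0 ≤ A) (hU : Up n A μ) {g : E d → ℝ} {B r : ℝ}
    (hL : ∀ y z, |g y - g z| ≤ L * dist y z) (hB : ∀ y z, |g y - g z| ≤ B) (hr : 0 < r)
    (x : E d) :
    ∫⁻ y, ENNReal.ofReal (kk n 0 (x - y) * (g x - g y) ^ 2) ∂μ ≤
      ENNReal.ofReal (Cad n * A * (L ^ 2 * r + B ^ 2 / r)) := by
  obtain ⟨h1, h1'⟩ := hU.near hn hA x hr
  obtain ⟨h2, h2'⟩ := hU.far hA x hr
  have hm : MeasurableSet (ball x r) := measurableSet_ball
  have i1 : Integrable ((ball x r).indicator fun y => kk n 0 (y - x) * ‖y - x‖ ^ 2) μ :=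
    (integrable_indicator_iff hm).2 h1
  have i2 : Integrable ((ball x r)ᶜ.indicator fun y => kk n 0 (y - x)) μ :=
    (integrable_indicator_iff hm.compl).2 h2
  set G : E d → ℝ := fun y =>
    L ^ 2 * (ball x r).indicator (fun y => kk n 0 (y - x) * ‖y - x‖ ^ 2) y +
      B ^ 2 * (ball x r)ᶜ.indicator (fun y => kk n 0 (y - x)) y with hG
  have iG : Integrable G μ := (i1.const_mul _).add (i2.const_mul _)
  have hle : ∀ y, kk n 0 (x - y) * (g x - g y) ^ 2 ≤ G y := by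
    intro y
    have hk := kk_nonneg n 0 (y - x)
    rw [kk_sub_comm n 0 x y]
    by_cases hy : y ∈ ball x r
    · have hy' : y ∉ (ball x r)ᶜ := fun h => h hy
      simp only [hG, indicator_of_mem hy, indicator_of_notMem hy', mul_zero, add_zero]
      have h3 : (g x - g y) ^ 2 ≤ (L * dist x y) ^ 2 := by
        rw [← sq_abs (g x - g y)]
        exact pow_le_pow_left₀ (abs_nonneg _) (hL x y) 2
      rw [dist_comm, dist_eq_norm] at h3
      calc kk n 0 (y - x) * (g x - g y) ^ 2 ≤ kk n 0 (y - x) * (L * ‖y - x‖) ^ 2 :=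
            mul_le_mul_of_nonneg_left h3 hk
        _ = _ := by ring
    · have hy' : y ∈ (ball x r)ᶜ := hy
      simp only [hG, indicator_of_mem hy', indicator_of_notMem hy, mul_zero, zero_add]
      have h3 : (g x - g y) ^ 2 ≤ B ^ 2 := by
        rw [← sq_abs (g x - g y)]
        exact pow_le_pow_left₀ (abs_nonneg _) (hB x y) 2
      calc kk n 0 (y - x) * (g x - g y) ^ 2 ≤ kk n 0 (y - x) * B ^ 2 :=
            mul_le_mul_of_nonneg_left h3 hk
        _ = _ := by ring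
  have hG0 : ∀ y, 0 ≤ G y := fun y =>
    le_trans (mul_nonneg (kk_nonneg _ _ _) (sq_nonneg _)) (hle y)
  have hint : ∫ y, G y ∂μ ≤ Cad n * A * (L ^ 2 * r + B ^ 2 / r) := by
    rw [hG, integral_add (i1.const_mul _) (i2.const_mul _), integral_const_mul,
      integral_const_mul, integral_indicator hm, integral_indicator hm.compl]
    have e1 := mul_le_mul_of_nonneg_left h1' (sq_nonneg L)
    have e2 := mul_le_mul_of_nonneg_left h2' (sq_nonneg B)
    have : Cad n * A * (L ^ 2 * r + B ^ 2 / r) =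
        L ^ 2 * (Cad n * A * r) + B ^ 2 * (Cad n * A / r) := by ring
    linarith
  calc ∫⁻ y, ENNReal.ofReal (kk n 0 (x - y) * (g x - g y) ^ 2) ∂μ
      ≤ ∫⁻ y, ENNReal.ofReal (G y) ∂μ :=
        lintegral_mono fun y => ENNReal.ofReal_le_ofReal (hle y)
    _ = ENNReal.ofReal (∫ y, G y ∂μ) :=
        (ofReal_integral_eq_lintegral_ofReal iG (Eventually.of_forall hG0)).symm
    _ ≤ _ := ENNReal.ofReal_le_ofReal hint

theorem enb_meas (n : ℕ) {g : E d → ℝ} (hg : Measurable g) :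
    Measurable fun z : E d × E d => kk n 0 (z.1 - z.2) * (g z.1 - g z.2) ^ 2 :=
  ((measurable_kk n 0).comp (measurable_fst.sub measurable_snd)).mul
    (((hg.comp measurable_fst).sub (hg.comp measurable_snd)).pow_const 2)

theorem enb_fst (hn : 1 ≤ n) (hA : 0 ≤ A) (hU : Up n A μ) {g w : E d → ℝ} {B r : ℝ}
    (hg : Measurable g) (hL : ∀ y z, |g y - g z| ≤ L * dist y z) (hB : ∀ y z, |g y - g z| ≤ B)
    (hr : 0 < r) (hw : Measurable w) (hw0 : ∀ y, 0 ≤ w y) (hwi : Integrable w μ) :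
    Integrable (fun z : E d × E d => w z.1 * (kk n 0 (z.1 - z.2) * (g z.1 - g z.2) ^ 2))
        (μ.prod μ) ∧
      ∫ z : E d × E d, w z.1 * (kk n 0 (z.1 - z.2) * (g z.1 - g z.2) ^ 2) ∂(μ.prod μ) ≤
        Cad n * A * (L ^ 2 * r + B ^ 2 / r) * ∫ y, w y ∂μ := by
  have := hU.sigmaFinite
  set K : ℝ := Cad n * A * (L ^ 2 * r + B ^ 2 / r) with hK
  have hK0 : 0 ≤ K := by
    have := one_le_Cad n
    rw [hK]; positivity
  have hm : Measurable fun z : E d × E d =>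
      w z.1 * (kk n 0 (z.1 - z.2) * (g z.1 - g z.2) ^ 2) :=
    (hw.comp measurable_fst).mul (enb_meas n hg)
  have h0 : ∀ z : E d × E d, 0 ≤ w z.1 * (kk n 0 (z.1 - z.2) * (g z.1 - g z.2) ^ 2) :=
    fun z => mul_nonneg (hw0 _) (mul_nonneg (kk_nonneg _ _ _) (sq_nonneg _))
  have hI0 : 0 ≤ ∫ y, w y ∂μ := integral_nonneg hw0
  have key : ∫⁻ z : E d × E d,
      ENNReal.ofReal (w z.1 * (kk n 0 (z.1 - z.2) * (g z.1 - g z.2) ^ 2)) ∂(μ.prod μ) ≤
        ENNReal.ofReal (K * ∫ y, w y ∂μ) := by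
    rw [lintegral_prod _ hm.ennreal_ofReal.aemeasurable]
    calc ∫⁻ x, ∫⁻ y, ENNReal.ofReal (w x * (kk n 0 (x - y) * (g x - g y) ^ 2)) ∂μ ∂μ
        ≤ ∫⁻ x, ENNReal.ofReal (w x) * ENNReal.ofReal K ∂μ := by
          refine lintegral_mono fun x => ?_
          simp only [ENNReal.ofReal_mul (hw0 x)]
          rw [lintegral_const_mul' _ _ ENNReal.ofReal_ne_top]
          exact mul_le_mul_right (enb_aux hn hA hU hL hB hr x) _
      _ = ENNReal.ofReal (K * ∫ y, w y ∂μ) := by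
          rw [lintegral_mul_const' _ _ ENNReal.ofReal_ne_top,
            ← ofReal_integral_eq_lintegral_ofReal hwi (Eventually.of_forall hw0),
            ENNReal.ofReal_mul hK0, mul_comm]
  have hi : Integrable (fun z : E d × E d =>
      w z.1 * (kk n 0 (z.1 - z.2) * (g z.1 - g z.2) ^ 2)) (μ.prod μ) := by
    refine ⟨hm.aestronglyMeasurable, ?_⟩
    rw [hasFiniteIntegral_iff_ofReal (Eventually.of_forall h0)]
    exact lt_of_le_of_lt key ENNReal.ofReal_lt_top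
  refine ⟨hi, ?_⟩
  rw [← ofReal_integral_eq_lintegral_ofReal hi (Eventually.of_forall h0)] at key
  exact (ENNReal.ofReal_le_ofReal_iff (mul_nonneg hK0 hI0)).1 key

theorem enb_snd (hn : 1 ≤ n) (hA : 0 ≤ A) (hU : Up n A μ) {g w : E d → ℝ} {B r : ℝ}
    (hg : Measurable g) (hL : ∀ y z, |g y - g z| ≤ L * dist y z) (hB : ∀ y z, |g y - g z| ≤ B)
    (hr : 0 < r) (hw : Measurable w) (hw0 : ∀ y, 0 ≤ w y) (hwi : Integrable w μ) :
    Integrable (fun z : E d × E d => w z.2 * (kk n 0 (z.1 - z.2) * (g z.1 - g z.2) ^ 2))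
        (μ.prod μ) ∧
      ∫ z : E d × E d, w z.2 * (kk n 0 (z.1 - z.2) * (g z.1 - g z.2) ^ 2) ∂(μ.prod μ) ≤
        Cad n * A * (L ^ 2 * r + B ^ 2 / r) * ∫ y, w y ∂μ := by
  have := hU.sigmaFinite
  obtain ⟨h1, h2⟩ := enb_fst hn hA hU hg hL hB hr hw hw0 hwi
  have e : (fun z : E d × E d => w z.2 * (kk n 0 (z.1 - z.2) * (g z.1 - g z.2) ^ 2)) =
      (fun z : E d × E d => w z.1 * (kk n 0 (z.1 - z.2) * (g z.1 - g z.2) ^ 2)) ∘ Prod.swap := by
    funext z
    simp only [Function.comp, Prod.fst_swap, Prod.snd_swap]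
    rw [kk_sub_comm n 0 z.2 z.1]
    ring
  refine ⟨?_, ?_⟩
  · rw [e]
    exact h1.swap
  · rw [e]
    exact (integral_prod_swap (μ := μ) (ν := μ) (fun z : E d × E d =>
      w z.1 * (kk n 0 (z.1 - z.2) * (g z.1 - g z.2) ^ 2))).le.trans h2

theorem enb_both (hn : 1 ≤ n) (hA : 0 ≤ A) (hU : Up n A μ) (h : Test ψ x s L) (hs : 0 < s) :
    Integrable (fun z : E d × E d => kk n 0 (z.1 - z.2) * (ψ z.1 - ψ z.2) ^ 2) (μ.prod μ) ∧
      En n μ ψ ≤ 10 * Cad n * A ^ 2 * L ^ 2 * s ^ (n + 1) := by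
  have hB : ∀ y z, |ψ y - ψ z| ≤ 2 * (L * s) := by
    intro y z
    have := h.2.2.1 y
    have := h.2.2.1 z
    have := abs_sub (ψ y) (ψ z)
    linarith
  set w : E d → ℝ := (ball x s).indicator fun _ => (1 : ℝ) with hw
  have hwm : Measurable w := measurable_const.indicator measurableSet_ball
  have hw0 : ∀ y, 0 ≤ w y := fun y => indicator_nonneg (fun _ _ => zero_le_one) y
  have hwi : Integrable w μ :=
    (integrable_indicator_iff measurableSet_ball).2 (integrableOn_const (hU.ball_lt_top x s).ne)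
  have hwI : ∫ y, w y ∂μ ≤ A * s ^ n := by
    rw [hw, integral_indicator measurableSet_ball, setIntegral_const, smul_eq_mul, mul_one]
    exact hU.real_ball_le hA x hs
  obtain ⟨a1, a2⟩ := enb_fst hn hA hU h.measurable h.2.1 hB hs hwm hw0 hwi
  obtain ⟨b1, b2⟩ := enb_snd hn hA hU h.measurable h.2.1 hB hs hwm hw0 hwi
  have h0 : ∀ z : E d × E d, 0 ≤ kk n 0 (z.1 - z.2) * (ψ z.1 - ψ z.2) ^ 2 :=
    fun z => mul_nonneg (kk_nonneg _ _ _) (sq_nonneg _)
  have hle : ∀ z : E d × E d, kk n 0 (z.1 - z.2) * (ψ z.1 - ψ z.2) ^ 2 ≤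
      w z.1 * (kk n 0 (z.1 - z.2) * (ψ z.1 - ψ z.2) ^ 2) +
        w z.2 * (kk n 0 (z.1 - z.2) * (ψ z.1 - ψ z.2) ^ 2) := by
    intro z
    have p1 := mul_nonneg (hw0 z.1) (h0 z)
    have p2 := mul_nonneg (hw0 z.2) (h0 z)
    by_cases h1 : z.1 ∈ ball x s
    · have : w z.1 = 1 := by rw [hw, indicator_of_mem h1]
      rw [this] at p1 ⊢
      linarith
    · by_cases h2 : z.2 ∈ ball x s
      · have : w z.2 = 1 := by rw [hw, indicator_of_mem h2]
        rw [this] at p2 ⊢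
        linarith
      · have e1 : ψ z.1 = 0 := h.2.2.2 _ (not_lt.1 (by simpa [mem_ball] using h1))
        have e2 : ψ z.2 = 0 := h.2.2.2 _ (not_lt.1 (by simpa [mem_ball] using h2))
        simp [e1, e2]
  have hi : Integrable (fun z : E d × E d => kk n 0 (z.1 - z.2) * (ψ z.1 - ψ z.2) ^ 2)
      (μ.prod μ) := by
    refine (a1.add b1).mono' (enb_meas n h.measurable).aestronglyMeasurable
      (Eventually.of_forall fun z => ?_)
    rw [Real.norm_of_nonneg (h0 z)]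
    exact hle z
  refine ⟨hi, ?_⟩
  have hK : Cad n * A * (L ^ 2 * s + (2 * (L * s)) ^ 2 / s) = 5 * Cad n * A * L ^ 2 * s := by
    field_simp
    ring
  have hK0 : 0 ≤ 5 * Cad n * A * L ^ 2 * s := by
    have := one_le_Cad n
    positivity
  rw [hK] at a2 b2
  have c1 := mul_le_mul_of_nonneg_left hwI hK0
  have hI : En n μ ψ ≤
      ∫ z : E d × E d, w z.1 * (kk n 0 (z.1 - z.2) * (ψ z.1 - ψ z.2) ^ 2) ∂(μ.prod μ) +
      ∫ z : E d × E d, w z.2 * (kk n 0 (z.1 - z.2) * (ψ z.1 - ψ z.2) ^ 2) ∂(μ.prod μ) := by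
    rw [← integral_add a1 b1]
    exact integral_mono hi (a1.add b1) hle
  have e : 10 * Cad n * A ^ 2 * L ^ 2 * s ^ (n + 1) =
      2 * (5 * Cad n * A * L ^ 2 * s * (A * s ^ n)) := by ring
  linarith

theorem En_nonneg (n : ℕ) (μ : Measure (E d)) (ψ : E d → ℝ) : 0 ≤ En n μ ψ :=
  integral_nonneg fun _ => mul_nonneg (kk_nonneg _ _ _) (sq_nonneg _)

theorem Test.en_integrable (hn : 1 ≤ n) (hA : 0 ≤ A) (hU : Up n A μ) (h : Test ψ x s L)
    (hs : 0 < s) :
    Integrable (fun z : E d × E d => kk n 0 (z.1 - z.2) * (ψ z.1 - ψ z.2) ^ 2) (μ.prod μ) :=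
  (enb_both hn hA hU h hs).1

theorem Test.en_le (hn : 1 ≤ n) (hA : 0 ≤ A) (hU : Up n A μ) (h : Test ψ x s L) (hs : 0 < s) :
    En n μ ψ ≤ 10 * Cad n * A ^ 2 * L ^ 2 * s ^ (n + 1) :=
  (enb_both hn hA hU h hs).2

theorem En_const_mul (n : ℕ) (μ : Measure (E d)) (ψ : E d → ℝ) (c : ℝ) :
    En n μ (fun y => c * ψ y) = c ^ 2 * En n μ ψ := by
  unfold En
  rw [← integral_const_mul]
  congr 1
  funext z
  ring

theorem En_sub_mul_le (hn : 1 ≤ n) (hA : 0 ≤ A) (hU : Up n A μ) {φ : E d → ℝ} {x' : E d}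
    {s' L' : ℝ} (h : Test ψ x s L) (hs : 0 < s) (h' : Test φ x' s' L') (hs' : 0 < s') (c : ℝ) :
    En n μ (fun y => ψ y - c * φ y) ≤ 2 * En n μ ψ + 2 * c ^ 2 * En n μ φ := by
  have a := h.en_integrable hn hA hU hs
  have b := h'.en_integrable hn hA hU hs'
  unfold En
  rw [← integral_const_mul, ← integral_const_mul,
    ← integral_add (a.const_mul _) (b.const_mul _)]
  refine integral_mono_of_nonneg
    (Eventually.of_forall fun z => mul_nonneg (kk_nonneg _ _ _) (sq_nonneg _))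
    ((a.const_mul _).add (b.const_mul _)) (Eventually.of_forall fun z => ?_)
  have hk := kk_nonneg n 0 (z.1 - z.2)
  have h3 : (ψ z.1 - c * φ z.1 - (ψ z.2 - c * φ z.2)) ^ 2 ≤
      2 * (ψ z.1 - ψ z.2) ^ 2 + 2 * c ^ 2 * (φ z.1 - φ z.2) ^ 2 := by
    nlinarith [sq_nonneg (ψ z.1 - ψ z.2 + c * (φ z.1 - φ z.2))]
  have := mul_le_mul_of_nonneg_left h3 hk
  show kk n 0 (z.1 - z.2) * (ψ z.1 - c * φ z.1 - (ψ z.2 - c * φ z.2)) ^ 2 ≤
    2 * (kk n 0 (z.1 - z.2) * (ψ z.1 - ψ z.2) ^ 2) +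
      2 * c ^ 2 * (kk n 0 (z.1 - z.2) * (φ z.1 - φ z.2) ^ 2)
  linarith

theorem En_mul_le (hn : 1 ≤ n) (hA : 0 ≤ A) (hU : Up n A μ) (h : Test ψ x s L) (hs : 0 < s)
    {η : E d → ℝ} {M : ℝ} (hM : 0 < M) (hη : ∀ y z, |η y - η z| ≤ M * dist y z)
    (hη1 : ∀ y, |η y| ≤ 1) :
    En n μ (fun y => η y * ψ y) ≤ 2 * En n μ ψ + 10 * Cad n * A * M * ∫ y, ψ y ^ 2 ∂μ := by
  have a := h.en_integrable hn hA hU hs
  have hηc : Continuous η := by
    refine (LipschitzWith.of_dist_le_mul (K := ⟨M, hM.le⟩) fun y z => ?_).continuous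
    rw [Real.dist_eq]
    exact hη y z
  have hB : ∀ y z, |η y - η z| ≤ 2 := by
    intro y z
    have := hη1 y
    have := hη1 z
    have := abs_sub (η y) (η z)
    linarith
  obtain ⟨b, b2⟩ := enb_snd hn hA hU hηc.measurable hη hB (inv_pos.2 hM)
    (h.measurable.pow_const 2) (fun y => sq_nonneg (ψ y)) (h.integrable_sq hU)
  have hK : Cad n * A * (M ^ 2 * M⁻¹ + 2 ^ 2 / M⁻¹) = 5 * Cad n * A * M := by
    field_simp
    ring
  rw [hK] at b2
  have hI : En n μ (fun y => η y * ψ y) ≤ 2 * En n μ ψ +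
      2 * ∫ z : E d × E d, ψ z.2 ^ 2 * (kk n 0 (z.1 - z.2) * (η z.1 - η z.2) ^ 2) ∂(μ.prod μ) := by
    unfold En
    rw [← integral_const_mul, ← integral_const_mul,
      ← integral_add (a.const_mul _) (b.const_mul _)]
    refine integral_mono_of_nonneg
      (Eventually.of_forall fun z => mul_nonneg (kk_nonneg _ _ _) (sq_nonneg _))
      ((a.const_mul _).add (b.const_mul _)) (Eventually.of_forall fun z => ?_)
    have hk := kk_nonneg n 0 (z.1 - z.2)
    have h1 : η z.1 ^ 2 ≤ 1 := by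
      have := hη1 z.1
      rw [← sq_abs]
      nlinarith [abs_nonneg (η z.1)]
    have h2 : η z.1 ^ 2 * (ψ z.1 - ψ z.2) ^ 2 ≤ 1 * (ψ z.1 - ψ z.2) ^ 2 :=
      mul_le_mul_of_nonneg_right h1 (sq_nonneg _)
    have h3 : (η z.1 * ψ z.1 - η z.2 * ψ z.2) ^ 2 ≤
        2 * (ψ z.1 - ψ z.2) ^ 2 + 2 * (ψ z.2 ^ 2 * (η z.1 - η z.2) ^ 2) := by
      nlinarith [sq_nonneg (η z.1 * (ψ z.1 - ψ z.2) - ψ z.2 * (η z.1 - η z.2))]
    have := mul_le_mul_of_nonneg_left h3 hk
    show kk n 0 (z.1 - z.2) * (η z.1 * ψ z.1 - η z.2 * ψ z.2) ^ 2 ≤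
      2 * (kk n 0 (z.1 - z.2) * (ψ z.1 - ψ z.2) ^ 2) +
        2 * (ψ z.2 ^ 2 * (kk n 0 (z.1 - z.2) * (η z.1 - η z.2) ^ 2))
    linarith
  linarith

end Vale.Agent.P120
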