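import Vale.Agent.P120.Lam1

/-!
P120 Lam2. Overview in notes/P120.md, definitions in Defs.lean.
Name every helper lemma of yours with the file name in front (for example lam2_aux1).

PLAN.
Lam_reg: let G z = ψ z.1 • (KK δ (z.1 - z.2) - KK t (a - z.2)). It is integrable on the product (KK_diff_le_ww gives
norm <= |ψ z.1| C ww (n+1) z.2; Integrable.mul_prod), lamI z = G z + G (swap z) by KK_neg, and
integral_prod_swap gives the formula; then integral_prod and integral_smul.
Lam_sing_le: lamI 0 - lamI δ = (ψ z.1 - ψ z.2)(kk 0 - kk δ)(z.1-z.2) • (z.1-z.2), norm at most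
L |kk 0 - kk δ| |z.1-z.2|^2 (1_B z.1 + 1_B z.2); Up.sing and Fubini/Tonelli.
Lam_norm_le: use δ = t: Lam_sing_le plus Lam_reg; for dist x a < t, KK_sub_le with m = (t + |y - a|)/4
(half_add_le_rr), then Up.weight with centre a and scale t.
-/

open MeasureTheory Metric Set Filter Topology
open scoped ENNReal NNReal RealInnerProductSpace

namespace Vale.Agent.P120

variable {d : ℕ}

variable {n : ℕ} {A : ℝ} {μ : Measure (E d)} {ψ : E d → ℝ} {x : E d} {s L : ℝ}

theorem Lam_reg (hA : 0 ≤ A) (hU : Up n A μ) (h : Test ψ x s L) (a : E d) {t δ : ℝ} (ht : 0 < t)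
    (hδ : 0 < δ) :
    Integrable (fun z : E d × E d => ψ z.1 • (KK n δ (z.1 - z.2) - KK n t (a - z.2))) (μ.prod μ) ∧
    Lam n μ a t δ ψ =
      ∫ z : E d × E d, ψ z.1 • (KK n δ (z.1 - z.2) - KK n t (a - z.2)) ∂(μ.prod μ) ∧
    Lam n μ a t δ ψ = ∫ u, ψ u • ∫ y, (KK n δ (u - y) - KK n t (a - y)) ∂μ ∂μ := by
  have := hU.sigmaFinite
  set G : E d × E d → E d := fun z => ψ z.1 • (KK n δ (z.1 - z.2) - KK n t (a - z.2)) with hG
  have hi : Integrable G (μ.prod μ) := by
    obtain ⟨C, -, hC⟩ := KK_diff_le_ww (d := d) n hδ ht (max (‖x‖ + s) ‖a‖)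
    have hc : Continuous G := (h.continuous.comp continuous_fst).smul
      (((continuous_KK n hδ).comp (continuous_fst.sub continuous_snd)).sub
        ((continuous_KK n ht).comp (continuous_const.sub continuous_snd)))
    refine (((h.integrable hU).abs.mul_prod
      ((hU.integrable_ww hA).1.const_mul C))).mono' hc.aestronglyMeasurable (ae_of_all _ fun z => ?_)
    rw [hG]
    simp only [norm_smul, Real.norm_eq_abs]
    by_cases hz : s ≤ dist z.1 x
    · rw [h.2.2.2 _ hz, abs_zero, zero_mul, zero_mul]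
    · refine mul_le_mul_of_nonneg_left (hC _ _ _ (le_trans ?_ (le_max_left _ _)) (le_max_right _ _))
        (abs_nonneg _)
      have h1 := norm_sub_norm_le z.1 x
      rw [dist_eq_norm] at hz
      linarith [not_le.1 hz]
  have e : lamI n a t δ ψ = fun z => G z + G z.swap := by
    funext z
    simp only [hG, lamI, Prod.fst_swap, Prod.snd_swap]
    rw [← neg_sub z.1 z.2, KK_neg]
    simp only [sub_smul, smul_sub, smul_neg]
    abel
  have e2 : Lam n μ a t δ ψ = ∫ z, G z ∂(μ.prod μ) := by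
    have hs : Integrable (fun z : E d × E d => G z.swap) (μ.prod μ) := hi.swap
    rw [Lam, e, integral_add hi hs, integral_prod_swap, ← two_smul ℝ, smul_smul]
    norm_num
  refine ⟨hi, e2, ?_⟩
  rw [e2, integral_prod _ hi]
  simp only [hG, integral_smul]

theorem lam2_H (hn : 1 ≤ n) (hA : 0 ≤ A) (hU : Up n A μ) (x : E d) (hs : 0 < s) {δ : ℝ}
    (hδ : 0 < δ) :
    Integrable (fun z : E d × E d => (ball x s).indicator (fun _ => (1 : ℝ)) z.1 *
      (|kk n 0 (z.2 - z.1) - kk n δ (z.2 - z.1)| * ‖z.2 - z.1‖ ^ 2)) (μ.prod μ) ∧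
    ∫ z : E d × E d, (ball x s).indicator (fun _ => (1 : ℝ)) z.1 *
      (|kk n 0 (z.2 - z.1) - kk n δ (z.2 - z.1)| * ‖z.2 - z.1‖ ^ 2) ∂(μ.prod μ) ≤
      A * s ^ n * (Cad n * A * δ) := by
  have := hU.sigmaFinite
  set H : E d × E d → ℝ := fun z => (ball x s).indicator (fun _ => (1 : ℝ)) z.1 *
      (|kk n 0 (z.2 - z.1) - kk n δ (z.2 - z.1)| * ‖z.2 - z.1‖ ^ 2) with hH
  have ms : Measurable fun z : E d × E d => z.2 - z.1 := measurable_snd.sub measurable_fst
  have hm : Measurable H :=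
    ((measurable_const.indicator measurableSet_ball).comp measurable_fst).mul
      ((((measurable_kk n 0).comp ms).sub ((measurable_kk n δ).comp ms)).abs.mul
        (ms.norm.pow_const 2))
  have i0 : ∀ u, 0 ≤ (ball x s).indicator (fun _ => (1 : ℝ)) u :=
    fun u => indicator_nonneg (fun _ _ => zero_le_one) u
  have h0 : ∀ z, 0 ≤ H z := fun z => mul_nonneg (i0 _) (by positivity)
  have hb : Integrable (fun u => (ball x s).indicator (fun _ => (1 : ℝ)) u * (Cad n * A * δ)) μ :=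
    ((integrable_indicator_iff measurableSet_ball).2
      (integrableOn_const (hU.ball_lt_top x s).ne)).mul_const _
  have h1 : ∀ u, ∫ y, H (u, y) ∂μ ≤
      (ball x s).indicator (fun _ => (1 : ℝ)) u * (Cad n * A * δ) := fun u => by
    simp only [hH]
    rw [integral_const_mul]
    exact mul_le_mul_of_nonneg_left (hU.sing hn hA u hδ).2 (i0 u)
  have hi : Integrable H (μ.prod μ) := by
    refine (integrable_prod_iff hm.aestronglyMeasurable).2
      ⟨ae_of_all _ fun u => (hU.sing hn hA u hδ).1.const_mul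
        ((ball x s).indicator (fun _ => (1 : ℝ)) u), ?_⟩
    refine hb.mono' hm.aestronglyMeasurable.norm.integral_prod_right' (ae_of_all _ fun u => ?_)
    rw [Real.norm_of_nonneg (integral_nonneg fun _ => norm_nonneg _)]
    simp only [Real.norm_of_nonneg (h0 _)]
    exact h1 u
  refine ⟨hi, ?_⟩
  rw [integral_prod _ hi]
  refine (integral_mono hi.integral_prod_left hb h1).trans ?_
  rw [integral_mul_const, integral_indicator measurableSet_ball, setIntegral_const, smul_eq_mul,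
    mul_one]
  have := one_le_Cad n
  exact mul_le_mul_of_nonneg_right (hU.real_ball_le hA x hs) (by positivity)

theorem lam2_sym [SigmaFinite μ] {H : E d × E d → ℝ} {F : E d × E d → E d} {B : ℝ}
    (hi : Integrable H (μ.prod μ)) (hL : 0 ≤ L) (hb : ∫ z, H z ∂(μ.prod μ) ≤ B)
    (key : ∀ z, ‖F z‖ ≤ L * (H z + H z.swap)) : ‖∫ z, F z ∂(μ.prod μ)‖ ≤ L * (2 * B) := by
  have hs : Integrable (fun z : E d × E d => H z.swap) (μ.prod μ) := hi.swap
  have h2 : Integrable (fun z : E d × E d => L * (H z + H z.swap)) (μ.prod μ) :=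
    (hi.add hs).const_mul L
  refine (norm_integral_le_of_norm_le h2 (ae_of_all _ key)).trans ?_
  rw [integral_const_mul, integral_add hi hs, integral_prod_swap]
  exact mul_le_mul_of_nonneg_left (by linarith) hL

theorem Lam_sing_le (hn : 1 ≤ n) (hA : 0 ≤ A) (hU : Up n A μ) (h : Test ψ x s L) (hs : 0 < s)
    (a : E d) {t δ : ℝ} (ht : 0 < t) (hδ : 0 < δ) :
    ‖Lam n μ a t 0 ψ - Lam n μ a t δ ψ‖ ≤ Cad n * A ^ 2 * L * s ^ n * δ := by
  have := hU.sigmaFinite
  obtain ⟨hi, hb⟩ := lam2_H hn hA hU x hs hδ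
  set H : E d × E d → ℝ := fun z => (ball x s).indicator (fun _ => (1 : ℝ)) z.1 *
      (|kk n 0 (z.2 - z.1) - kk n δ (z.2 - z.1)| * ‖z.2 - z.1‖ ^ 2) with hH
  have i0 : ∀ u, 0 ≤ (ball x s).indicator (fun _ => (1 : ℝ)) u :=
    fun u => indicator_nonneg (fun _ _ => zero_le_one) u
  have key : ∀ z, ‖lamI n a t 0 ψ z - lamI n a t δ ψ z‖ ≤ L * (H z + H z.swap) := by
    intro z
    have e : lamI n a t 0 ψ z - lamI n a t δ ψ z =
        (ψ z.1 - ψ z.2) • (kk n 0 (z.1 - z.2) - kk n δ (z.1 - z.2)) • (z.1 - z.2) := by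
      simp only [lamI, KK]
      rw [sub_smul (kk n 0 _), smul_sub (ψ z.1 - ψ z.2)]
      abel
    have e2 : L * (H z + H z.swap) = L * ‖z.1 - z.2‖ *
        ((ball x s).indicator (fun _ => (1 : ℝ)) z.1 + (ball x s).indicator (fun _ => (1 : ℝ)) z.2) *
        (|kk n 0 (z.1 - z.2) - kk n δ (z.1 - z.2)| * ‖z.1 - z.2‖) := by
      simp only [hH, Prod.fst_swap, Prod.snd_swap]
      rw [kk_sub_comm n 0 z.2, kk_sub_comm n δ z.2, norm_sub_rev z.2]
      ring
    rw [e, e2, norm_smul, norm_smul, Real.norm_eq_abs, Real.norm_eq_abs]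
    refine mul_le_mul_of_nonneg_right ?_ (by positivity)
    have hL := h.1
    have l1 := h.2.1 z.1 z.2
    rw [dist_eq_norm] at l1
    by_cases h1 : z.1 ∈ ball x s
    · rw [indicator_of_mem h1]
      exact l1.trans (le_mul_of_one_le_right (by positivity) (by linarith [i0 z.2]))
    by_cases h2 : z.2 ∈ ball x s
    · rw [indicator_of_mem h2]
      exact l1.trans (le_mul_of_one_le_right (by positivity) (by linarith [i0 z.1]))
    rw [h.2.2.2 _ (not_lt.1 h1), h.2.2.2 _ (not_lt.1 h2), sub_zero, abs_zero]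
    exact mul_nonneg (by positivity) (add_nonneg (i0 _) (i0 _))
  rw [Lam, Lam, ← smul_sub, ← integral_sub (lamI_integrable hn hA hU h hs a ht le_rfl)
    (lamI_integrable hn hA hU h hs a ht hδ.le), norm_smul]
  have k2 := lam2_sym hi h.1 hb key
  rw [Real.norm_of_nonneg (by norm_num)]
  refine (mul_le_mul_of_nonneg_left k2 (by norm_num)).trans (le_of_eq ?_)
  ring

theorem lam2_in (hA : 0 ≤ A) (hU : Up n A μ) {a u : E d} {t : ℝ} (ht : 0 < t)
    (hu : dist u a < t) :
    ‖∫ y, (KK n t (u - y) - KK n t (a - y)) ∂μ‖ ≤ (n + 2) * 4 ^ (n + 1) * (Cad n * A) := by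
  obtain ⟨w1, w2⟩ := hU.weight hA a ht
  rw [dist_eq_norm] at hu
  have key : ∀ y, ‖KK n t (u - y) - KK n t (a - y)‖ ≤
      (n + 2) * t * ((t / 4) ^ (n + 1))⁻¹ * ((1 + ‖y - a‖ / t) ^ (n + 1))⁻¹ := by
    intro y
    have p := norm_nonneg (y - a)
    have q1 := half_add_le_rr ht.le (u - y)
    have q2 := half_add_le_rr ht.le (a - y)
    have q3 : ‖y - a‖ ≤ ‖u - y‖ + ‖u - a‖ := by
      have := norm_sub_le (u - a) (u - y)
      rw [show u - a - (u - y) = y - a by abel] at this
      linarith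
    have q4 := norm_nonneg (u - y)
    rw [norm_sub_rev a] at q2
    refine (KK_sub_le n (m := t / 4 * (1 + ‖y - a‖ / t)) (by positivity) ?_ ?_).trans ?_
    · rw [show t / 4 * (1 + ‖y - a‖ / t) = (t + ‖y - a‖) / 4 by field_simp]
      linarith
    · rw [show t / 4 * (1 + ‖y - a‖ / t) = (t + ‖y - a‖) / 4 by field_simp]
      linarith
    · rw [mul_pow, mul_inv, ← mul_assoc, sub_self, abs_zero, add_zero,
        show u - y - (a - y) = u - a by abel]
      gcongr
  refine (norm_integral_le_of_norm_le (w1.const_mul _) (ae_of_all _ key)).trans ?_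
  rw [integral_const_mul]
  refine (mul_le_mul_of_nonneg_left w2 (by positivity)).trans (le_of_eq ?_)
  rw [div_pow, pow_succ t]
  field_simp

theorem Lam_norm_le (n d : ℕ) (hn : 1 ≤ n) (A : ℝ) (hA : 0 ≤ A) :
    ∃ C : ℝ, 0 < C ∧ ∀ μ : Measure (E d), Up n A μ → ∀ (ψ : E d → ℝ) (a : E d) (t L : ℝ), 0 < t →
      Test ψ a t L → ‖Lam n μ a t 0 ψ‖ ≤ C * L * t ^ (n + 1) := by
  have hC := one_le_Cad n
  refine ⟨Cad n * A ^ 2 + A * ((n + 2) * 4 ^ (n + 1) * (Cad n * A)) + 1, by positivity,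
    fun μ hU ψ a t L ht h => ?_⟩
  have h1 := Lam_sing_le hn hA hU h ht a ht ht
  have h2 := (Lam_reg hA hU h a ht ht).2.2
  set C1 : ℝ := (n + 2) * 4 ^ (n + 1) * (Cad n * A) with hC1
  have c1 : 0 ≤ C1 := by positivity
  have h3 : ‖Lam n μ a t t ψ‖ ≤ L * t * (A * t ^ n) * C1 := by
    rw [h2]
    refine (norm_integral_le_of_norm_le ((h.integrable hU).abs.mul_const C1)
      (ae_of_all _ fun u => ?_)).trans ?_
    · rw [norm_smul, Real.norm_eq_abs]
      by_cases hu : t ≤ dist u a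
      · rw [h.2.2.2 _ hu, abs_zero, zero_mul, zero_mul]
      · exact mul_le_mul_of_nonneg_left (lam2_in hA hU ht (not_le.1 hu)) (abs_nonneg _)
    · rw [integral_mul_const]
      exact mul_le_mul_of_nonneg_right (h.integral_abs_le' hA hU ht) c1
  have h4 := norm_le_norm_add_norm_sub' (Lam n μ a t 0 ψ) (Lam n μ a t t ψ)
  have h5 : 0 ≤ L * t ^ (n + 1) := mul_nonneg h.1 (by positivity)
  rw [pow_succ t] at h5 ⊢
  nlinarith

end Vale.Agent.P120
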