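import Vale.Agent.P120.TestB

/-!
P120 Lam1. Overview in notes/P120.md, definitions in Defs.lean.
Name every helper lemma of yours with the file name in front (for example lam1_aux1).

PLAN.
lamI_integrable: measurable (measurable_KK). The integrand vanishes unless z.1 or z.2 is in B = ball x s, and
lamI (swap z) = lamI z (KK_neg), so it is enough to bound the lintegral over z.1 in B. Let R = s + dist a x + t + δ + 1.
For z.1 in B and z.2 in ball z.1 (2R): norm <= L kk n 0 (z.1-z.2) |z.1-z.2|^2 + 2 L s t^(-n) (kk_le_kk_zero,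
norm_KK_le with m = t). For z.1 in B and dist z.2 z.1 >= 2R: ψ z.2 = 0 and the integrand is
ψ z.1 • (KK δ (z.1-z.2) - KK t (a - z.2)), bounded through KK_sub_le with m = |z.2 - z.1| / 2 by C kk n 0 (z.2-z.1);
use Up.near, Up.far, Tonelli (haveI := hU.sigmaFinite). A dominating function of the form
1_B(z.1) G(z.1,z.2) + 1_B(z.2) G(z.2,z.1) with Integrable.mono' is convenient.
Lam_change: the difference of integrands is ψ z.1 • g z.2 + ψ z.2 • g z.1 with g the integrable kernel difference;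
integral_prod_smul / Integrable.smul_prod type lemmas (or integral_prod and integral_smul_const).
-/

open MeasureTheory Metric Set Filter Topology
open scoped ENNReal NNReal RealInnerProductSpace

namespace Vale.Agent.P120

variable {d : ℕ}

variable {n : ℕ} {A : ℝ} {μ : Measure (E d)} {ψ : E d → ℝ} {x : E d} {s L : ℝ}

theorem lam1_prod (hU : Up n A μ) {H : E d → ℝ} (hm : Measurable H) (h0 : ∀ w, 0 ≤ H w) {C : ℝ}
    (hC : ∀ y, Integrable (fun w => H (w - y)) μ ∧ ∫ w, H (w - y) ∂μ ≤ C) (x : E d) (s : ℝ) :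
    Integrable (fun z : E d × E d => (ball x s).indicator (fun _ => (1 : ℝ)) z.1 * H (z.2 - z.1))
      (μ.prod μ) := by
  have := hU.sigmaFinite
  have m : AEStronglyMeasurable (fun z : E d × E d =>
      (ball x s).indicator (fun _ => (1 : ℝ)) z.1 * H (z.2 - z.1)) (μ.prod μ) :=
    (((measurable_const.indicator measurableSet_ball).comp measurable_fst).mul
      (hm.comp (measurable_snd.sub measurable_fst))).aestronglyMeasurable
  refine (integrable_prod_iff m).2 ⟨ae_of_all _ fun y =>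
    (hC y).1.const_mul ((ball x s).indicator (fun _ => (1 : ℝ)) y), ?_⟩
  refine Integrable.mono' (g := (ball x s).indicator fun _ => C)
    ((integrableOn_const (hU.ball_lt_top x s).ne).integrable_indicator measurableSet_ball)
    m.norm.integral_prod_right' (ae_of_all _ fun y => ?_)
  rw [Real.norm_of_nonneg (integral_nonneg fun _ => norm_nonneg _)]
  by_cases c : y ∈ ball x s
  · simp only [indicator_of_mem c, one_mul, Real.norm_of_nonneg (h0 _)]
    exact (hC y).2
  · simp [indicator_of_notMem c]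

theorem lam1_sing (hn : 1 ≤ n) (hA : 0 ≤ A) (hU : Up n A μ) {δ : ℝ} (hδ : 0 ≤ δ) (y : E d) :
    Integrable (fun w => |kk n 0 (w - y) - kk n δ (w - y)| * ‖w - y‖ ^ 2) μ ∧
      ∫ w, |kk n 0 (w - y) - kk n δ (w - y)| * ‖w - y‖ ^ 2 ∂μ ≤ Cad n * A * δ := by
  rcases hδ.eq_or_lt with e | e
  · subst e
    simp
  · exact hU.sing hn hA y e

theorem lam1_diag (hn : 1 ≤ n) (hA : 0 ≤ A) (hU : Up n A μ) (h : Test ψ x s L) {δ : ℝ}
    (hδ : 0 ≤ δ) : Integrable (fun z : E d × E d =>
      (ψ z.1 - ψ z.2) • (KK n 0 (z.1 - z.2) - KK n δ (z.1 - z.2))) (μ.prod μ) := by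
  have := hU.sigmaFinite
  have h0 : ∀ w : E d, 0 ≤ |kk n 0 w - kk n δ w| * ‖w‖ ^ 2 := fun w => by positivity
  have h1 := lam1_prod hU (H := fun w => |kk n 0 w - kk n δ w| * ‖w‖ ^ 2)
    (((measurable_kk n 0).sub (measurable_kk n δ)).abs.mul (measurable_norm.pow_const 2)) h0
    (lam1_sing hn hA hU hδ) x s
  refine Integrable.mono' ((h1.add h1.swap).const_mul L)
    (((h.measurable.comp measurable_fst).sub (h.measurable.comp measurable_snd)).smul
      (((measurable_KK n 0).sub (measurable_KK n δ)).comp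
        (measurable_fst.sub measurable_snd))).aestronglyMeasurable (ae_of_all _ fun z => ?_)
  have e : ‖(ψ z.1 - ψ z.2) • (KK n 0 (z.1 - z.2) - KK n δ (z.1 - z.2))‖ ≤
      L * (|kk n 0 (z.1 - z.2) - kk n δ (z.1 - z.2)| * ‖z.1 - z.2‖ ^ 2) := by
    rw [KK, KK, ← sub_smul, norm_smul, norm_smul, Real.norm_eq_abs, Real.norm_eq_abs]
    refine (mul_le_mul_of_nonneg_right (h.2.1 _ _) (by positivity)).trans (le_of_eq ?_)
    rw [dist_eq_norm]
    ring
  have i0 : ∀ y, 0 ≤ (ball x s).indicator (fun _ => (1 : ℝ)) y := fun y =>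
    indicator_nonneg (fun _ _ => zero_le_one) y
  simp only [Pi.add_apply, Function.comp, Prod.fst_swap, Prod.snd_swap]
  by_cases c1 : z.1 ∈ ball x s
  · refine e.trans (mul_le_mul_of_nonneg_left ?_ h.1)
    rw [indicator_of_mem c1, one_mul, kk_sub_comm n 0 z.2, kk_sub_comm n δ z.2, norm_sub_rev z.2]
    exact le_add_of_nonneg_right (mul_nonneg (i0 _) (h0 _))
  · by_cases c2 : z.2 ∈ ball x s
    · refine e.trans (mul_le_mul_of_nonneg_left ?_ h.1)
      rw [indicator_of_mem c2, one_mul]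
      exact le_add_of_nonneg_left (mul_nonneg (i0 _) (h0 _))
    · rw [h.2.2.2 _ (not_lt.1 c1), h.2.2.2 _ (not_lt.1 c2), sub_zero, zero_smul, norm_zero]
      exact mul_nonneg h.1 (add_nonneg (mul_nonneg (i0 _) (h0 _)) (mul_nonneg (i0 _) (h0 _)))

theorem lam1_far (hA : 0 ≤ A) (hU : Up n A μ) (h : Test ψ x s L) (hs : 0 < s) (a : E d) {t : ℝ}
    (ht : 0 < t) : Integrable (fun z : E d × E d =>
      ψ z.1 • (KK n 1 (z.1 - z.2) - KK n t (a - z.2))) (μ.prod μ) := by
  have := hU.sigmaFinite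
  obtain ⟨C, C0, hC⟩ := KK_diff_le_ww (d := d) n one_pos ht (‖x‖ + s + ‖a‖)
  refine Integrable.mono' ((h.integrable hU).norm.mul_prod ((hU.integrable_ww hA).1.const_mul C))
    ((h.measurable.comp measurable_fst).smul (((measurable_KK n 1).comp
      (measurable_fst.sub measurable_snd)).sub ((measurable_KK n t).comp
        (measurable_const.sub measurable_snd)))).aestronglyMeasurable (ae_of_all _ fun z => ?_)
  rw [norm_smul]
  by_cases c : z.1 ∈ ball x s
  · refine mul_le_mul_of_nonneg_left (hC _ _ _ ?_ ?_) (norm_nonneg _)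
    · have h1 := norm_le_norm_add_norm_sub' z.1 x
      rw [mem_ball, dist_eq_norm] at c
      linarith [norm_nonneg a]
    · linarith [norm_nonneg x]
  · rw [h.2.2.2 _ (not_lt.1 c), norm_zero, zero_mul, zero_mul]

theorem lamI_integrable (hn : 1 ≤ n) (hA : 0 ≤ A) (hU : Up n A μ) (h : Test ψ x s L) (hs : 0 < s)
    (a : E d) {t δ : ℝ} (ht : 0 < t) (hδ : 0 ≤ δ) :
    Integrable (lamI n a t δ ψ) (μ.prod μ) := by
  have := hU.sigmaFinite
  have h1 := lam1_far hA hU h hs a ht
  refine ((((lam1_diag hn hA hU h zero_le_one).sub (lam1_diag hn hA hU h hδ)).add h1).add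
    h1.swap).congr (ae_of_all _ fun z => ?_)
  simp only [Pi.add_apply, Pi.sub_apply, Function.comp, Prod.fst_swap, Prod.snd_swap, lamI]
  rw [← neg_sub z.1 z.2, KK_neg]
  module

theorem Lam_sub_mul (hn : 1 ≤ n) (hA : 0 ≤ A) (hU : Up n A μ) {φ : E d → ℝ} {x' : E d}
    {s' L' : ℝ} (h : Test ψ x s L) (hs : 0 < s) (h' : Test φ x' s' L') (hs' : 0 < s') (c : ℝ)
    (a : E d) {t δ : ℝ} (ht : 0 < t) (hδ : 0 ≤ δ) :
    Lam n μ a t δ (fun y => ψ y - c * φ y) = Lam n μ a t δ ψ - c • Lam n μ a t δ φ := by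
  have h1 : Integrable (fun z => c • lamI n a t δ φ z) (μ.prod μ) :=
    (lamI_integrable hn hA hU h' hs' a ht hδ).smul c
  rw [Lam, Lam, Lam, smul_comm c, ← smul_sub, ← integral_smul c,
    ← integral_sub (lamI_integrable hn hA hU h hs a ht hδ) h1]
  congr 2
  funext z
  simp only [lamI]
  module

theorem KK_diff_integrable (hA : 0 ≤ A) (hU : Up n A μ) (a a' : E d) {t t' : ℝ} (ht : 0 < t)
    (ht' : 0 < t') : Integrable (fun y => KK n t' (a' - y) - KK n t (a - y)) μ := by
  obtain ⟨C, C0, hC⟩ := KK_diff_le_ww (d := d) n ht' ht (‖a‖ + ‖a'‖)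
  exact hU.integrable_of_le hA (((measurable_KK n t').comp (measurable_const.sub measurable_id)).sub
    ((measurable_KK n t).comp (measurable_const.sub measurable_id))).aestronglyMeasurable
    fun y => hC _ _ y (le_add_of_nonneg_left (norm_nonneg _)) (le_add_of_nonneg_right (norm_nonneg _))

theorem Lam_change (hn : 1 ≤ n) (hA : 0 ≤ A) (hU : Up n A μ) (h : Test ψ x s L) (hs : 0 < s)
    (a a' : E d) {t t' δ : ℝ} (ht : 0 < t) (ht' : 0 < t') (hδ : 0 ≤ δ) :
    Lam n μ a t δ ψ - Lam n μ a' t' δ ψ =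
      (∫ y, ψ y ∂μ) • ∫ y, (KK n t' (a' - y) - KK n t (a - y)) ∂μ := by
  have := hU.sigmaFinite
  have h1 : Integrable (fun z : E d × E d => ψ z.1 • (KK n t' (a' - z.2) - KK n t (a - z.2)))
      (μ.prod μ) := (h.integrable hU).smul_prod (KK_diff_integrable hA hU a a' ht ht')
  have h2 : Integrable (fun z : E d × E d => ψ z.2 • (KK n t' (a' - z.1) - KK n t (a - z.1)))
      (μ.prod μ) := h1.swap
  have e : ∀ z, lamI n a t δ ψ z - lamI n a' t' δ ψ z =
      ψ z.1 • (KK n t' (a' - z.2) - KK n t (a - z.2)) +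
        ψ z.2 • (KK n t' (a' - z.1) - KK n t (a - z.1)) := fun z => by
    simp only [lamI]
    module
  have e2 := integral_prod_swap (μ := μ) (ν := μ)
    fun z : E d × E d => ψ z.1 • (KK n t' (a' - z.2) - KK n t (a - z.2))
  simp only [Prod.fst_swap, Prod.snd_swap] at e2
  rw [Lam, Lam, ← smul_sub, ← integral_sub (lamI_integrable hn hA hU h hs a ht hδ)
    (lamI_integrable hn hA hU h hs a' ht' hδ)]
  simp only [e]
  rw [integral_add h1 h2, e2,
    integral_prod_smul ψ fun y => KK n t' (a' - y) - KK n t (a - y)]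
  module

theorem Lam_eq_of_mean_zero (hn : 1 ≤ n) (hA : 0 ≤ A) (hU : Up n A μ) (h : Test ψ x s L)
    (hs : 0 < s) (h0 : ∫ y, ψ y ∂μ = 0) (a a' : E d) {t t' δ : ℝ} (ht : 0 < t) (ht' : 0 < t')
    (hδ : 0 ≤ δ) : Lam n μ a t δ ψ = Lam n μ a' t' δ ψ := by
  rw [← sub_eq_zero, Lam_change hn hA hU h hs a a' ht ht' hδ, h0, zero_smul]

end Vale.Agent.P120
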