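import Vale.Agent.P120.Sim1
import Vale.Agent.P120.Lam1

/-!
P120 Sim2. Overview in notes/P120.md, definitions in Defs.lean.
Name every helper lemma of yours with the file name in front (for example sim2_aux1).

PLAN.
Scaling of the forms. With c = s⁻¹: KK n (δ/s) (sim y - sim z) = s^n • U (KK n δ (y - z)) by sim_sub, kk_smul (write δ/s = c δ)
and kk_iso/KK_iso for U.toLinearIsometry. Then integral_resc_prod, integral_smul and
ContinuousLinearEquiv.integral_comp_comm (or LinearIsometryEquiv.integral_comp_comm).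
Dfc.resc: apply the hypothesis to ψ ∘ sim (Test.comp_sim), integral_resc for the mean and the L2 norm; algebra of
square roots (Real.sqrt_mul, compare by writing s^n = (√(s^n))^2). HH.resc: Dfc.resc with a = x, r = 2^m s, sim_self.
RR.resc: ψ ∘ sim is a test function centred at x, hence also centred at 0 with a larger radius (Test.mono);
Lam_eq_of_mean_zero moves (a,t) = (x,s) to (0,1). HH.mono: monotonicity in ν (if ρ < 0 then Low is vacuous).
-/

open MeasureTheory Metric Set Filter Topology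
open scoped ENNReal NNReal RealInnerProductSpace

namespace Vale.Agent.P120

variable {d : ℕ}

variable {n : ℕ} {A : ℝ} {μ : Measure (E d)} {x : E d} {s : ℝ} {U : E d ≃ₗᵢ[ℝ] E d}

theorem Test.comp_sim {ψ : E d → ℝ} {a : E d} {r L : ℝ} (hs : 0 < s)
    (h : Test ψ (sim x s U a) (r / s) L) : Test (fun y => ψ (sim x s U y)) a r (L / s) := by
  obtain ⟨h0, h1, h2, h3⟩ := h
  refine ⟨div_nonneg h0 hs.le, fun y z => ?_, fun y => ?_, fun y hy => h3 _ ?_⟩
  · refine (h1 _ _).trans_eq ?_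
    rw [dist_sim hs]
    ring
  · refine (h2 _).trans_eq ?_
    ring
  · rw [dist_sim hs]
    exact div_le_div_of_nonneg_right hy hs.le

theorem sim2_kk (hs : 0 < s) (δ : ℝ) (y z : E d) :
    kk n (δ / s) (sim x s U y - sim x s U z) = s ^ (n + 1) * kk n δ (y - z) := by
  rw [sim_sub, div_eq_inv_mul, kk_smul n (inv_pos.2 hs), inv_pow, inv_inv]
  exact congrArg _ (kk_iso n δ U.toLinearIsometry _)

theorem sim2_KK (hs : 0 < s) (δ : ℝ) (y z : E d) :
    KK n (δ / s) (sim x s U y - sim x s U z) = s ^ n • U (KK n δ (y - z)) := by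
  rw [KK, KK, sim2_kk hs, sim_sub, map_smul, smul_smul, smul_smul]
  refine congrArg (· • U (y - z)) ?_
  field_simp
  ring

theorem sim2_mean (hs : 0 < s) {ψ : E d → ℝ} (h : ∫ y, ψ y ∂(resc n μ x s U) = 0) :
    ∫ y, ψ (sim x s U y) ∂μ = 0 := by
  rw [integral_resc hs] at h
  exact (smul_eq_zero.1 h).resolve_left (inv_ne_zero (pow_ne_zero n hs.ne'))

theorem sim2_low (hs : 0 < s) {ρ : ℝ} (h : Low n A (ρ * s) μ) : Low n A ρ (resc n μ x s U) := by
  have h1 := h.resc (x := x) (U := U) hs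
  rwa [mul_div_cancel_right₀ _ hs.ne'] at h1

theorem Lam_resc (hU : Up n A μ) (hs : 0 < s) (a : E d) (t δ : ℝ) (ψ : E d → ℝ) :
    Lam n (resc n μ x s U) (sim x s U a) (t / s) (δ / s) ψ =
      (s ^ n)⁻¹ • U (Lam n μ a t δ (fun y => ψ (sim x s U y))) := by
  have := hU.sigmaFinite
  have e : ∀ z : E d × E d, lamI n (sim x s U a) (t / s) (δ / s) ψ (sim x s U z.1, sim x s U z.2) =
      s ^ n • U.toLinearIsometry (lamI n a t δ (fun y => ψ (sim x s U y)) z) := fun z => by
    simp only [lamI, sim2_KK hs, map_sub, map_smul, smul_sub, smul_comm (s ^ n),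
      LinearIsometryEquiv.coe_toLinearIsometry]
  rw [Lam, Lam, integral_resc_prod hs]
  simp only [e]
  rw [integral_smul, LinearIsometry.integral_comp_comm, map_smul, smul_smul, smul_smul, smul_smul]
  refine congrArg (· • U _) ?_
  field_simp

theorem En_resc (hU : Up n A μ) (hs : 0 < s) (ψ : E d → ℝ) :
    En n (resc n μ x s U) ψ = s * (s ^ n)⁻¹ * En n μ (fun y => ψ (sim x s U y)) := by
  have := hU.sigmaFinite
  have e : ∀ y z : E d, kk n 0 (sim x s U y - sim x s U z) = s ^ (n + 1) * kk n 0 (y - z) :=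
    fun y z => by rw [← sim2_kk hs, zero_div]
  rw [En, En, integral_resc_prod hs]
  simp only [e, mul_assoc]
  rw [integral_const_mul, smul_eq_mul]
  field_simp
  ring

theorem Dfc.resc (hU : Up n A μ) (hs : 0 < s) {a : E d} {r ν : ℝ} (hr : 0 < r)
    (h : Dfc n μ a r ν) : Dfc n (resc n μ x s U) (sim x s U a) (r / s) ν := by
  intro ψ L hT h0
  have _ := hr
  have h1 := h _ _ (hT.comp_sim hs) (sim2_mean hs h0)
  have h2 := Lam_resc (x := x) (U := U) hU hs a r 0 ψ
  have hq : 0 ≤ (s ^ n)⁻¹ := by positivity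
  have e1 : r / s * (s * (s ^ n)⁻¹ * En n μ fun y => ψ (sim x s U y)) =
      (r * En n μ fun y => ψ (sim x s U y)) * (s ^ n)⁻¹ := by field_simp
  rw [zero_div] at h2
  rw [h2, norm_smul, LinearIsometryEquiv.norm_map, Real.norm_of_nonneg hq, En_resc hU hs,
    integral_resc hs, smul_eq_mul, e1, div_pow, div_eq_mul_inv, Real.sqrt_mul' _ hq,
    Real.sqrt_mul' _ hq, Real.sqrt_mul hq]
  refine (mul_le_mul_of_nonneg_left h1 hq).trans_eq ?_
  conv_lhs => rw [← Real.mul_self_sqrt hq]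
  ring

theorem HH.resc (hs : 0 < s) {ν : ℝ} (h : HH n A μ x s ν) :
    HH n A (resc n μ x s U) 0 1 ν := by
  obtain ⟨hU, h1, h2, h3, h4⟩ := h
  refine ⟨hU.resc hs, fun ρ hρ => sim2_low hs (h1 _ ?_), ?_, h3, fun m hm => ?_⟩
  · rw [mul_right_comm]
    exact mul_le_of_le_one_left hs.le hρ
  · rw [← sim_self x s U]
    exact (mem_support_resc hs x).2 h2
  · have h5 := (h4 m hm).resc (x := x) (U := U) hU hs (by positivity)
    rwa [sim_self, mul_div_assoc, div_self hs.ne'] at h5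

theorem RR.resc (hn : 1 ≤ n) (hA : 0 ≤ A) (hs : 0 < s) (h : RR n A μ) :
    RR n A (resc n μ x s U) := by
  obtain ⟨hU, h1, h2⟩ := h
  refine ⟨hU.resc hs, fun ρ => sim2_low hs (h1 _), fun ψ R L hR hT h0 => ?_⟩
  have h3 := Lam_resc (x := x) (U := U) hU hs x s 0 ψ
  rw [sim_self, div_self hs.ne', zero_div] at h3
  have h4 : Test (fun y => ψ (sim x s U y)) x (R * s) (L / s) :=
    Test.comp_sim hs (by rwa [sim_self, mul_div_cancel_right₀ _ hs.ne'])
  have h5 := sim2_mean hs h0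
  rw [h3, Lam_eq_of_mean_zero hn hA hU h4 (by positivity) h5 x 0 hs one_pos le_rfl,
    h2 _ (dist x 0 + R * s) _ (by positivity) (h4.mono le_rfl le_rfl (by positivity)) h5,
    map_zero, smul_zero]

theorem HH.mono {ν ν' : ℝ} (h : HH n A μ x s ν) (hν : ν ≤ ν') : HH n A μ x s ν' := by
  obtain ⟨hU, h1, h2, h3, h4⟩ := h
  refine ⟨hU, fun ρ hρ => ?_, h2, h3.trans hν, fun m hm ψ L hT h0 => ?_⟩
  · rcases le_or_gt 0 ρ with h5 | h5
    · exact h1 ρ ((mul_le_mul_of_nonneg_left hν h5).trans hρ)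
    · exact fun y _ r hr hr' => absurd (hr.trans_le hr') h5.not_gt
  · have h5 : 2 ^ m * ν ≤ 2 ^ m * ν' := mul_le_mul_of_nonneg_left hν (by positivity)
    exact (h4 m (h5.trans hm) ψ L hT h0).trans (mul_le_mul_of_nonneg_right
      (mul_le_mul_of_nonneg_right h5 (Real.sqrt_nonneg _)) (by positivity))

theorem RR.hh (hn : 1 ≤ n) (hA : 0 ≤ A) (h : RR n A μ) (h0 : (0 : E d) ∈ μ.support) :
    HH n A μ 0 1 0 := by
  obtain ⟨hU, h1, h2⟩ := h
  refine ⟨hU, fun ρ _ => h1 ρ, h0, le_rfl, fun m _ ψ L hT hm => ?_⟩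
  rw [Lam_eq_of_mean_zero hn hA hU hT (by positivity) hm 0 0 (by positivity) one_pos le_rfl,
    h2 ψ _ L (by positivity) hT hm, norm_zero, mul_zero, zero_mul, zero_mul]

end Vale.Agent.P120
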