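import Vale.Agent.P120.Conv3
import Vale.Agent.P120.Lam2
import Vale.Agent.P120.EnB
import Vale.Agent.P120.Sim2

/-!
P120 Conv4. Overview in notes/P120.md, definitions in Defs.lean.
Name every helper lemma of yours with the file name in front (for example conv4_aux1).

PLAN.
lam_tendsto: for δ > 0 use Lam_reg (product form) and Conv.double coordinatewise (G z c is continuous, bounded by
C ww (n+1) z.1 ww (n+1) z.2: Test.le_ww, KK_diff_le_ww; coordinates commute with integrals); Lam_sing_le makes the error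
<= Cad A^2 L s^n δ uniformly in k; ε/3 argument (Metric.tendsto_nhds).
rr: Low by Conv.low (ρ ν_k <= 1 eventually), zero_mem. Rfl: given Test ψ 0 R L with mean zero for μ, pick m with 2^m >= max R 1,
φ0 = bump 0 1, c_k = (∫ ψ dμ_k)/(∫ φ0 dμ_k) → 0 (le_integral_bump gives a uniform lower bound, Conv.test), ψ_k = ψ - c_k φ0 is a
mean zero Test 0 (2^m) (L + |c_k| 2); Dfc with Test.en_le and Test.integral_sq_le gives |Lam μ_k 0 (2^m) 0 ψ_k| <= C ν_k → 0;
Lam_eq_of_mean_zero, Lam_sub_mul, Lam_norm_le give Lam μ_k 0 1 0 ψ → 0; uniqueness of limits.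
-/

open MeasureTheory Metric Set Filter Topology
open scoped ENNReal NNReal RealInnerProductSpace

namespace Vale.Agent.P120

variable {d : ℕ}

variable {n : ℕ} {A : ℝ} {l : Filter ℕ} {μs : ℕ → Measure (E d)} {μ : Measure (E d)}

theorem conv4_reg (hA : 0 ≤ A) (h : Conv n A l μs μ) {ψ : E d → ℝ} {x : E d}
    {s L : ℝ} (hψ : Test ψ x s L) (a : E d) {t δ : ℝ} (ht : 0 < t) (hδ : 0 < δ) :
    Tendsto (fun k => Lam n (μs k) a t δ ψ) l (𝓝 (Lam n μ a t δ ψ)) := by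
  obtain ⟨C1, h1⟩ := hψ.le_ww (n + 1)
  obtain ⟨C2, hC2, h2⟩ := KK_diff_le_ww (d := d) n hδ ht (‖x‖ + |s| + ‖a‖)
  have hc : Continuous fun z : E d × E d => ψ z.1 • (KK n δ (z.1 - z.2) - KK n t (a - z.2)) :=
    (hψ.continuous.comp continuous_fst).smul
      (((continuous_KK n hδ).comp (continuous_fst.sub continuous_snd)).sub
        ((continuous_KK n ht).comp (continuous_const.sub continuous_snd)))
  have hb : ∀ u y : E d, ‖ψ u • (KK n δ (u - y) - KK n t (a - y))‖ ≤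
      C1 * C2 * ww (n + 1) u * ww (n + 1) y := by
    intro u y
    have a1 := h1 u
    have a2 := ww_pos (n + 1) y
    have a3 := (abs_nonneg _).trans a1
    rw [show C1 * C2 * ww (n + 1) u * ww (n + 1) y = C1 * ww (n + 1) u * (C2 * ww (n + 1) y) by ring]
    by_cases hu : s ≤ dist u x
    · rw [hψ.2.2.2 u hu, zero_smul, norm_zero]
      positivity
    · rw [norm_smul, Real.norm_eq_abs]
      refine mul_le_mul a1 (h2 u a y ?_ ?_) (norm_nonneg _) a3
      · rw [dist_eq_norm, not_le] at hu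
        linarith [norm_le_insert' u x, le_abs_self s, norm_nonneg a]
      · linarith [norm_nonneg x, abs_nonneg s]
  refine (EuclideanSpace.equiv (Fin d) ℝ).toHomeomorph.isInducing.tendsto_nhds_iff.2
    (tendsto_pi_nhds.2 fun c => ?_)
  have e : ∀ ν : Measure (E d), Up n A ν → Lam n ν a t δ ψ c = ∫ z : E d × E d,
      (ψ z.1 • (KK n δ (z.1 - z.2) - KK n t (a - z.2))) c ∂(ν.prod ν) := by
    intro ν hν
    obtain ⟨i1, i2, -⟩ := Lam_reg hA hν hψ a ht hδ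
    rw [i2]
    exact ((EuclideanSpace.proj c : E d →L[ℝ] ℝ).integral_comp_comm i1).symm
  have h3 := h.double hA ((EuclideanSpace.proj c : E d →L[ℝ] ℝ).continuous.comp hc)
    (C := C1 * C2) fun u y => (PiLp.norm_apply_le _ c).trans (hb u y)
  change Tendsto (fun k => Lam n (μs k) a t δ ψ c) l (𝓝 (Lam n μ a t δ ψ c))
  rw [e μ h.2.1]
  exact h3.congr fun k => (e _ (h.1 k)).symm

theorem Conv.lam_tendsto (hn : 1 ≤ n) (hA : 0 ≤ A) (h : Conv n A l μs μ) {ψ : E d → ℝ} {x : E d}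
    {s L : ℝ} (hψ : Test ψ x s L) (hs : 0 < s) (a : E d) {t : ℝ} (ht : 0 < t) :
    Tendsto (fun k => Lam n (μs k) a t 0 ψ) l (𝓝 (Lam n μ a t 0 ψ)) := by
  refine Metric.tendsto_nhds.2 fun ε hε => ?_
  have hL := hψ.1
  have hC := one_le_Cad n
  obtain ⟨δ, hδ, hδ'⟩ := conv3_pick (show 0 ≤ Cad n * A ^ 2 * L * s ^ n by positivity)
    (show 0 < ε / 3 by positivity)
  filter_upwards [Metric.tendsto_nhds.1 (conv4_reg hA h hψ a ht hδ) (ε / 3) (by positivity)]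
    with k hk
  have a1 := Lam_sing_le hn hA (h.1 k) hψ hs a ht hδ
  have a2 := Lam_sing_le hn hA h.2.1 hψ hs a ht hδ
  rw [← dist_eq_norm] at a1 a2
  have a3 := dist_triangle4 (Lam n (μs k) a t 0 ψ) (Lam n (μs k) a t δ ψ) (Lam n μ a t δ ψ)
    (Lam n μ a t 0 ψ)
  rw [dist_comm] at a2
  linarith

theorem Conv.rr [l.NeBot] (hn : 1 ≤ n) (hA : 1 ≤ A) (h : Conv n A l μs μ) {νs : ℕ → ℝ}
    (hH : ∀ k, HH n A (μs k) 0 1 (νs k)) (hν : Tendsto νs l (𝓝 0)) :
    RR n A μ ∧ (0 : E d) ∈ μ.support := by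
  have hA0 : 0 ≤ A := zero_le_one.trans hA
  have hev : ∀ ρ : ℝ, ∀ᶠ k in l, ρ * νs k ≤ 1 := fun ρ =>
    (hν.const_mul ρ).eventually_le_const (by simp)
  have hL : ∀ ρ : ℝ, ∀ᶠ k in l, Low n A ρ (μs k) := fun ρ =>
    (hev ρ).mono fun k hk => (hH k).2.1 ρ hk
  have h0 := h.zero_mem hA ((hL 1).mono fun k hk => ⟨hk, (hH k).2.2.1⟩)
  refine ⟨⟨h.2.1, h.low hL, fun ψ R L hR hψ hm => ?_⟩, h0⟩
  obtain ⟨m, hm1⟩ := pow_unbounded_of_one_lt R (one_lt_two (α := ℝ))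
  have hm2 : (1 : ℝ) ≤ 2 ^ m := one_le_pow₀ one_le_two
  have hs : (0 : ℝ) < 2 ^ m * 1 := by positivity
  have t1 : Test ψ 0 (2 ^ m * 1) L := hψ.mono (by simpa using hm1.le) le_rfl hR.le
  have t2 : Test (bump (0 : E d) 1) 0 (2 ^ m * 1) (2 / 1) :=
    (bump_test 0 one_pos).mono (by simpa using hm2) le_rfl zero_le_one
  have hb : ∫ y, bump (0 : E d) 1 y ∂μ ≠ 0 :=
    (lt_of_lt_of_le (by positivity)
      (le_integral_bump h.2.1 (h.low hL 1) h0 one_pos (by norm_num))).ne'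
  have c1 := (h.test t1).div (h.test t2) hb
  rw [hm, zero_div] at c1
  have c2 := (h.lam_tendsto hn hA0 t1 hs 0 one_pos).sub
    (c1.smul (h.lam_tendsto hn hA0 t2 hs 0 one_pos))
  rw [zero_smul, sub_zero] at c2
  have c3 := hν.mul_const (2 ^ m * √((2 ^ m * 1) ^ n) *
    (√(2 ^ m * 1 * (10 * Cad n * A ^ 2 * (L + 2 / 1) ^ 2 * (2 ^ m * 1) ^ (n + 1))) +
      √(((L + 2 / 1) * (2 ^ m * 1)) ^ 2 * (A * (2 ^ m * 1) ^ n))))
  rw [zero_mul] at c3
  refine norm_le_zero_iff.1 (le_of_tendsto_of_tendsto c2.norm c3 ?_)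
  filter_upwards [hev (2 ^ m), (h.test t2).eventually_ne hb,
    c1.abs.eventually_le_const (show |(0 : ℝ)| < 1 by simp)] with k k1 k2 k3
  simp only [Pi.div_apply] at k3 ⊢
  generalize hc : (∫ y, ψ y ∂(μs k)) / ∫ y, bump (0 : E d) 1 y ∂(μs k) = c at k3 ⊢
  have t3 : Test (fun y => ψ y - c * bump (0 : E d) 1 y) 0 (2 ^ m * 1) (L + 2 / 1) :=
    (t1.sub_mul t2 c).mono (by simp) (by linarith) hs.le
  have m0 : ∫ y, (ψ y - c * bump (0 : E d) 1 y) ∂(μs k) = 0 := by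
    rw [integral_sub (t1.integrable (h.1 k)) ((t2.integrable (h.1 k)).const_mul c),
      integral_const_mul, ← hc, div_mul_cancel₀ _ k2, sub_self]
  have d1 := (hH k).2.2.2.2 m k1 _ _ t3 m0
  rw [Lam_eq_of_mean_zero hn hA0 (h.1 k) t3 hs m0 0 0 hs one_pos le_rfl,
    Lam_sub_mul hn hA0 (h.1 k) t1 hs t2 hs c 0 one_pos le_rfl] at d1
  refine d1.trans ?_
  have d2 := t3.en_le hn hA0 (h.1 k) hs
  have d3 := t3.integral_sq_le hA0 (h.1 k) hs
  have d4 := (hH k).2.2.2.1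
  rw [mul_comm (2 ^ m) (νs k), mul_assoc, mul_assoc, ← mul_assoc (2 ^ m)]
  gcongr

end Vale.Agent.P120
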