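import Vale.Agent.P120.Defs

/-!
P120 Mart2. Overview in notes/P120.md, definitions in Defs.lean.
Name every helper lemma of yours with the file name in front (for example mart2_aux1).

PLAN.
Shifted dyadic lattices. Coordinatewise, with u = 2^j x c / 8 and σ = (-1)^j a, a in {0, 1/3}:
idx (j+1) = floor (2u + σ), idx j = floor (u - σ) = floor ((2u + σ - 3σ)/2) and 3σ is an integer, so
idx j = (idx (j+1) - 3σ) / 2 (Int.floor_div_natCast / Int.floor_div_ofNat, Int.floor_sub_intCast).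
idx_dist: equal floors differ by less than 1, so |x c - y c| <= 8 sc j; then EuclideanSpace.norm_eq and
sqrt d <= d (or the l1 bound). idx_ball: choose α c coordinatewise: |u_y - u_x| < 1/8 (|y c - x c| <= dist y x,
EuclideanSpace / PiLp.dist_apply_le or norm_apply_le); if fract u_x is in [1/8, 7/8] take a = 0; otherwise fract (u_x - σ) with
|σ| = 1/3 is in [1/8,7/8] and a = 1/3 works. sc lemmas are trivial.
-/

open MeasureTheory Metric Set Filter Topology
open scoped ENNReal NNReal RealInnerProductSpace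

namespace Vale.Agent.P120

variable {d : ℕ}

theorem sc_pos (i : ℕ) : 0 < sc i := pow_pos (by norm_num) i
theorem sc_le_one (i : ℕ) : sc i ≤ 1 := pow_le_one₀ (by norm_num) (by norm_num)
theorem sc_zero : sc 0 = 1 := pow_zero _
theorem sc_add (i j : ℕ) : sc (i + j) = sc i * sc j := pow_add _ i j
theorem sc_anti {i j : ℕ} (h : i ≤ j) : sc j ≤ sc i :=
  pow_le_pow_of_le_one (by norm_num) (by norm_num) h
theorem mart2_one (m : ℕ) : 2 ^ m * sc m = 1 := by
  rw [sc, ← mul_pow]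
  norm_num
theorem two_pow_mul_sc {m i : ℕ} (h : m ≤ i) : 2 ^ m * sc i = sc (i - m) := by
  obtain ⟨k, rfl⟩ := Nat.exists_eq_add_of_le h
  rw [sc_add, ← mul_assoc, mart2_one, one_mul, Nat.add_sub_cancel_left]
theorem le_of_two_pow_mul_sc {m i : ℕ} (h : 2 ^ m * sc i ≤ 1) : m ≤ i := by
  rw [← mart2_one i] at h
  exact (pow_le_pow_iff_right₀ one_lt_two).1 (le_of_mul_le_mul_right h (sc_pos i))
theorem le_of_sc_le {i j : ℕ} (h : sc j ≤ sc i) : i ≤ j :=
  le_of_two_pow_mul_sc ((mul_le_mul_of_nonneg_left h (by positivity)).trans_eq (mart2_one i))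
theorem exists_sc_near {r : ℝ} (hr : 0 < r) (h1 : r ≤ 1) : ∃ i, r / 2 < sc i ∧ sc i ≤ r := by
  obtain ⟨n, h2, h3⟩ := exists_nat_pow_near_of_lt_one hr h1 (y := (1 / 2 : ℝ)) (by norm_num)
    (by norm_num)
  rcases h3.eq_or_lt with h4 | h4
  · exact ⟨n, by rw [sc, ← h4]; linarith, h4.ge⟩
  · exact ⟨n + 1, by rw [sc, pow_succ]; linarith, h2.le⟩
theorem tendsto_sc : Tendsto sc atTop (𝓝 0) :=
  tendsto_pow_atTop_nhds_zero_of_lt_one (by norm_num) (by norm_num)

theorem mart2_floor (b : Bool) (j : ℕ) (t : ℝ) :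
    ⌊2 ^ j * t / 8 - (-1) ^ j * (if b then (1 / 3 : ℝ) else 0)⌋ =
      (⌊2 ^ (j + 1) * t / 8 - (-1) ^ (j + 1) * (if b then (1 / 3 : ℝ) else 0)⌋ -
        (-1) ^ j * (if b then 1 else 0)) / (2 : ℕ) := by
  rw [← Int.floor_sub_intCast, ← Int.floor_div_natCast]
  congr 1
  cases b <;> push_cast <;> simp <;> ring

theorem mart2_eq {u v : ℝ} (k : ℤ) (h : |v - u| < 1 / 8) (h1 : k + 1 / 8 ≤ u) (h2 : u ≤ k + 7 / 8) :
    ⌊v⌋ = ⌊u⌋ := by
  rw [abs_lt] at h
  rw [(Int.floor_eq_iff (z := k)).2 ⟨by linarith, by linarith⟩,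
    (Int.floor_eq_iff (z := k)).2 ⟨by linarith, by linarith⟩]

theorem mart2_ball (j : ℕ) (u : ℝ) : ∃ b : Bool, ∀ v, |v - u| < 1 / 8 →
    ⌊v - (-1) ^ j * (if b then (1 / 3 : ℝ) else 0)⌋ =
      ⌊u - (-1) ^ j * (if b then (1 / 3 : ℝ) else 0)⌋ := by
  have h1 := Int.floor_le u
  have h2 := Int.lt_floor_add_one u
  by_cases h : ⌊u⌋ + 1 / 8 ≤ u ∧ u ≤ ⌊u⌋ + 7 / 8
  · exact ⟨false, fun v hv => by simpa using mart2_eq _ hv h.1 h.2⟩
  refine ⟨true, fun v hv => ?_⟩
  rw [← sub_sub_sub_cancel_right _ _ ((-1) ^ j * (1 / 3 : ℝ))] at hv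
  rw [if_pos rfl]
  rw [not_and_or, not_le, not_le] at h
  rcases neg_one_pow_eq_or ℝ j with e | e <;> rw [e] at hv ⊢ <;> rcases h with h | h
  · exact mart2_eq (⌊u⌋ - 1) hv (by push_cast; linarith) (by push_cast; linarith)
  · exact mart2_eq ⌊u⌋ hv (by linarith) (by linarith)
  · exact mart2_eq ⌊u⌋ hv (by linarith) (by linarith)
  · exact mart2_eq (⌊u⌋ + 1) hv (by push_cast; linarith) (by push_cast; linarith)

theorem idx_meas (α : Fin d → Bool) (j : ℕ) (q : Fin d → ℤ) :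
    MeasurableSet {x : E d | idx α j x = q} := by
  have : Measurable (idx α j) :=
    measurable_pi_lambda _ fun c => Int.measurable_floor.comp (by fun_prop)
  exact this (measurableSet_singleton q)
theorem idx_nest (α : Fin d → Bool) (j : ℕ) (x y : E d)
    (h : idx α (j + 1) x = idx α (j + 1) y) : idx α j x = idx α j y := by
  funext c
  have := congrFun h c
  unfold idx at this ⊢
  rw [mart2_floor, this, ← mart2_floor]
theorem idx_dist (α : Fin d → Bool) (j : ℕ) (x y : E d) (h : idx α j x = idx α j y) :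
    dist x y ≤ 8 * d * sc j := by
  have h0 := sc_pos j
  have h1 : ∀ c, dist (x c) (y c) ^ 2 ≤ (8 * sc j) ^ 2 := fun c => by
    have h2 := Int.abs_sub_lt_one_of_floor_eq_floor (congrFun h c)
    rw [sub_sub_sub_cancel_right, ← sub_div, ← mul_sub, abs_div, abs_mul,
      abs_of_pos (by positivity), abs_of_pos (by norm_num : (0 : ℝ) < 8), div_lt_one (by norm_num),
      ← Real.dist_eq] at h2
    refine pow_le_pow_left₀ dist_nonneg ?_ 2
    calc _ = sc j * (2 ^ j * dist (x c) (y c)) := by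
          rw [← mul_assoc, mul_comm (sc j), mart2_one, one_mul]
      _ ≤ sc j * 8 := by gcongr
      _ = _ := mul_comm _ _
  rw [EuclideanSpace.dist_eq]
  refine Real.sqrt_le_iff.2 ⟨by positivity, (Finset.sum_le_sum fun c _ => h1 c).trans ?_⟩
  rw [Finset.sum_const, Finset.card_fin, nsmul_eq_mul]
  have : (d : ℝ) ≤ d ^ 2 := by exact_mod_cast Nat.le_self_pow two_ne_zero d
  nlinarith [sq_nonneg (8 * sc j)]
theorem idx_ball (x : E d) (i : ℕ) :
    ∃ α : Fin d → Bool, ∀ y, dist y x < sc i → idx α i y = idx α i x := by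
  choose α hα using fun c => mart2_ball i (2 ^ i * x c / 8)
  refine ⟨α, fun y hy => funext fun c => hα c _ ?_⟩
  have h1 : dist (y c) (x c) < sc i := (PiLp.dist_apply_le y x c).trans_lt hy
  rw [← sub_div, ← mul_sub, abs_div, abs_mul, abs_of_pos (by positivity),
    abs_of_pos (by norm_num : (0 : ℝ) < 8), ← Real.dist_eq, ← mart2_one i]
  gcongr

end Vale.Agent.P120
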