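import Vale.Agent.P120.ADInt

/-!
P120 Exc. Overview in notes/P120.md, definitions in Defs.lean.
Name every helper lemma of yours with the file name in front (for example exc_aux1).

PLAN.
hh p V y is the component of y - p orthogonal to V. Use Submodule.starProjection lemmas
(starProjection_orthogonal_val, starProjection_apply_eq_zero_iff, norm_starProjection_apply_le or opNorm <= 1).
ex_integrable: |hh p V y| <= |y - x| + |x - p| <= C (1 + |y-x|/s), so the integrand is at most C (1+|y-x|/s)^(-(n+1)) (Up.weight).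
ex_center: 1 + |y-x|/s <= (1 + |y-x'|/s)(1 + dist x x'/s). ex_scale: the weight at scale s' is below the weight at scale s.
ex_point: if |hh y| > κ s, put r = min (κ/2) 1 * s; on ball y r, |hh| >= κ s/2 and the weight is >= 12^(-(n+3)), so
ex >= (κ/2)^2 12^(-(n+3)) A⁻¹ (min (κ/2) 1)^n; choose ε with ε^2 smaller than that.
ex_l1: Cauchy-Schwarz, ww (n+2) = sqrt(ww (n+3)) sqrt(ww (n+1)), or 2ab <= a^2/c + c b^2 and optimise.
support_subset_of_ex_zero: continuous nonnegative integrand with zero integral vanishes a.e., the zero set V is closed,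
Measure.support_subset_of_isClosed.
-/

open MeasureTheory Metric Set Filter Topology
open scoped ENNReal NNReal RealInnerProductSpace

namespace Vale.Agent.P120

variable {d : ℕ}

variable {n : ℕ} {A : ℝ} {μ : Measure (E d)}

theorem hh_sub (p : E d) (V : Submodule ℝ (E d)) (y z : E d) :
    hh p V y - hh p V z = Vᗮ.starProjection (y - z) := by
  unfold hh
  rw [← map_sub, sub_sub_sub_cancel_right]

theorem hh_lip (p : E d) (V : Submodule ℝ (E d)) (y z : E d) :
    ‖hh p V y - hh p V z‖ ≤ ‖y - z‖ := by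
  rw [hh_sub]
  exact Submodule.norm_starProjection_apply_le _ _

theorem hh_self (p : E d) (V : Submodule ℝ (E d)) : hh p V p = 0 := by
  simp [hh]

theorem hh_mem (p : E d) (V : Submodule ℝ (E d)) (y : E d) : hh p V y ∈ Vᗮ :=
  Submodule.starProjection_apply_mem _ _

theorem hh_eq_zero_iff (p : E d) (V : Submodule ℝ (E d)) (y : E d) :
    hh p V y = 0 ↔ y - p ∈ V := by
  unfold hh
  rw [Submodule.starProjection_apply_eq_zero_iff, Submodule.orthogonal_orthogonal]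

theorem hh_congr {p q : E d} {V : Submodule ℝ (E d)} (h : q - p ∈ V) : hh q V = hh p V := by
  funext y
  have h1 := hh_sub p V y q
  rw [(hh_eq_zero_iff p V q).2 h, sub_zero] at h1
  exact h1.symm

theorem hh_norm_le {p q : E d} {V : Submodule ℝ (E d)} (h : q - p ∈ V) (y : E d) :
    ‖hh p V y‖ ≤ ‖y - q‖ := by
  rw [← hh_congr h]
  exact Submodule.norm_starProjection_apply_le _ _

theorem continuous_hh (p : E d) (V : Submodule ℝ (E d)) : Continuous (hh p V) :=
  (Vᗮ.starProjection).continuous.comp (continuous_id.sub continuous_const)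

theorem pj_sub (p : E d) (V : Submodule ℝ (E d)) (y z : E d) :
    pj p V y - pj p V z = V.starProjection (y - z) := by
  have h := hh_sub p V y z
  rw [Submodule.starProjection_orthogonal_val] at h
  unfold pj
  rw [sub_sub_sub_comm, h, sub_sub_cancel]

theorem pj_mem (p : E d) (V : Submodule ℝ (E d)) (y : E d) : pj p V y - p ∈ V := by
  have h := pj_sub p V y p
  have h2 : pj p V p = p := by simp [pj, hh_self]
  rw [h2] at h
  rw [h]
  exact Submodule.starProjection_apply_mem _ _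

theorem exc_cont (x : E d) {s : ℝ} (hs : 0 < s) (p : E d) (V : Submodule ℝ (E d)) (m : ℕ) :
    Continuous fun y => ‖hh p V y‖ ^ 2 * ((1 + ‖y - x‖ / s) ^ m)⁻¹ := by
  have h := continuous_hh p V
  refine (h.norm.pow 2).mul (Continuous.inv₀ (by fun_prop) fun y => ?_)
  positivity

theorem ex_integrable (hA : 0 ≤ A) (hU : Up n A μ) (x : E d) {s : ℝ} (hs : 0 < s) (p : E d)
    (V : Submodule ℝ (E d)) :
    Integrable (fun y => ‖hh p V y‖ ^ 2 * ((1 + ‖y - x‖ / s) ^ (n + 3))⁻¹) μ := by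
  refine ((hU.weight hA x hs).1.const_mul ((s + ‖x - p‖) ^ 2)).mono'
    (exc_cont x hs p V _).aestronglyMeasurable (Eventually.of_forall fun y => ?_)
  have h1 : ‖hh p V y‖ ≤ (s + ‖x - p‖) * (1 + ‖y - x‖ / s) := by
    have a1 := hh_norm_le (p := p) (q := p) (V := V) (by simp) y
    have a2 : ‖y - p‖ ≤ ‖y - x‖ + ‖x - p‖ := norm_sub_le_norm_sub_add_norm_sub _ _ _
    have a3 : (s + ‖x - p‖) * (1 + ‖y - x‖ / s) =
        s + ‖x - p‖ + ‖y - x‖ + ‖x - p‖ * (‖y - x‖ / s) := by field_simp; ring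
    have a4 : 0 ≤ ‖x - p‖ * (‖y - x‖ / s) := by positivity
    linarith
  have h2 : 0 < 1 + ‖y - x‖ / s := by positivity
  rw [Real.norm_of_nonneg (by positivity)]
  calc ‖hh p V y‖ ^ 2 * ((1 + ‖y - x‖ / s) ^ (n + 3))⁻¹
      ≤ ((s + ‖x - p‖) * (1 + ‖y - x‖ / s)) ^ 2 * ((1 + ‖y - x‖ / s) ^ (n + 3))⁻¹ := by gcongr
    _ = _ := by
      generalize 1 + ‖y - x‖ / s = w at h2
      field_simp
      ring

theorem ex_nonneg (n : ℕ) (μ : Measure (E d)) (x : E d) {s : ℝ} (hs : 0 < s) (p : E d)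
    (V : Submodule ℝ (E d)) : 0 ≤ ex n μ x s p V :=
  mul_nonneg (by positivity) (integral_nonneg fun y => by positivity)

theorem ex_unit (n : ℕ) (μ : Measure (E d)) (p : E d) (V : Submodule ℝ (E d)) :
    ex n μ 0 1 p V = ∫ y, ‖hh p V y‖ ^ 2 * ww (n + 3) y ∂μ := by
  simp [ex, ww]

theorem ex_unit_integrable (hA : 0 ≤ A) (hU : Up n A μ) (p : E d) (V : Submodule ℝ (E d)) :
    Integrable (fun y => ‖hh p V y‖ ^ 2 * ww (n + 3) y) μ := by
  simpa [ww] using ex_integrable hA hU 0 one_pos p V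

theorem ex_center (hA : 0 ≤ A) (hU : Up n A μ) (x x' : E d) {s : ℝ} (hs : 0 < s) (p : E d)
    (V : Submodule ℝ (E d)) :
    ex n μ x' s p V ≤ (1 + dist x x' / s) ^ (n + 3) * ex n μ x s p V := by
  unfold ex
  rw [mul_left_comm, ← integral_const_mul ((1 + dist x x' / s) ^ (n + 3))]
  refine mul_le_mul_of_nonneg_left (integral_mono (ex_integrable hA hU x' hs p V)
    ((ex_integrable hA hU x hs p V).const_mul _) fun y => ?_) (by positivity)
  have h1 : 1 + ‖y - x‖ / s ≤ (1 + dist x x' / s) * (1 + ‖y - x'‖ / s) := by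
    have a2 : ‖y - x‖ ≤ ‖y - x'‖ + ‖x' - x‖ := norm_sub_le_norm_sub_add_norm_sub _ _ _
    rw [← dist_eq_norm x' x, dist_comm x' x] at a2
    have a3 : ‖y - x‖ / s ≤ ‖y - x'‖ / s + dist x x' / s := by
      rw [← add_div]
      gcongr
    have a4 : 0 ≤ dist x x' / s * (‖y - x'‖ / s) := by positivity
    nlinarith
  have h2 : 0 < 1 + ‖y - x‖ / s := by positivity
  have h3 : 0 < 1 + ‖y - x'‖ / s := by positivity
  have h4 : 0 < 1 + dist x x' / s := by positivity
  beta_reduce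
  rw [mul_left_comm]
  refine mul_le_mul_of_nonneg_left ?_ (by positivity)
  rw [← div_eq_mul_inv, inv_eq_one_div, div_le_div_iff₀ (by positivity) (by positivity), one_mul,
    ← mul_pow]
  gcongr

theorem ex_scale (hA : 0 ≤ A) (hU : Up n A μ) (x : E d) {s s' : ℝ} (hs' : 0 < s') (h : s' ≤ s)
    (p : E d) (V : Submodule ℝ (E d)) :
    ex n μ x s' p V ≤ (s / s') ^ (n + 2) * ex n μ x s p V := by
  have hs : 0 < s := hs'.trans_le h
  unfold ex
  have e : (s / s') ^ (n + 2) * (s ^ (n + 2))⁻¹ = (s' ^ (n + 2))⁻¹ := by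
    rw [div_pow]
    field_simp
  rw [← mul_assoc, e]
  refine mul_le_mul_of_nonneg_left (integral_mono (ex_integrable hA hU x hs' p V)
    (ex_integrable hA hU x hs p V) fun y => ?_) (by positivity)
  beta_reduce
  gcongr

theorem ex_local (hA : 0 ≤ A) (hU : Up n A μ) (x : E d) {s R : ℝ} (hs : 0 < s) (hR : 0 < R)
    (p : E d) (V : Submodule ℝ (E d)) :
    IntegrableOn (fun y => ‖hh p V y‖ ^ 2) (ball x (R * s)) μ ∧
    ∫ y in ball x (R * s), ‖hh p V y‖ ^ 2 ∂μ ≤
      (1 + R) ^ (n + 3) * s ^ (n + 2) * ex n μ x s p V := by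
  have hi := (ex_integrable hA hU x hs p V).const_mul ((1 + R) ^ (n + 3))
  have hb : ∀ y ∈ ball x (R * s), ‖hh p V y‖ ^ 2 ≤
      (1 + R) ^ (n + 3) * (‖hh p V y‖ ^ 2 * ((1 + ‖y - x‖ / s) ^ (n + 3))⁻¹) := by
    intro y hy
    rw [mem_ball, dist_eq_norm] at hy
    have h1 : ‖y - x‖ / s ≤ R := by
      rw [div_le_iff₀ hs]
      exact hy.le
    rw [mul_left_comm, ← div_eq_mul_inv]
    refine le_mul_of_one_le_right (by positivity) ?_
    rw [one_le_div (by positivity)]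
    gcongr
  have h1 : IntegrableOn (fun y => ‖hh p V y‖ ^ 2) (ball x (R * s)) μ := by
    refine hi.integrableOn.mono' ((continuous_hh p V).norm.pow 2).aestronglyMeasurable ?_
    refine (ae_restrict_iff' measurableSet_ball).2 (Eventually.of_forall fun y hy => ?_)
    rw [Real.norm_of_nonneg (by positivity)]
    exact hb y hy
  refine ⟨h1, (setIntegral_mono_on h1 hi.integrableOn measurableSet_ball hb).trans
    ((setIntegral_le_integral hi (Eventually.of_forall fun y => by positivity)).trans_eq ?_)⟩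
  rw [integral_const_mul]
  unfold ex
  field_simp

theorem ex_l1 (hA : 0 ≤ A) (hU : Up n A μ) (p : E d) (V : Submodule ℝ (E d)) {ε : ℝ}
    (hε : 0 ≤ ε) (h : ex n μ 0 1 p V ≤ ε ^ 2) :
    Integrable (fun y => ‖hh p V y‖ * ww (n + 2) y) μ ∧
      ∫ y, ‖hh p V y‖ * ww (n + 2) y ∂μ ≤ √(Cad n * A) * ε := by
  have i1 := ex_unit_integrable hA hU p V
  obtain ⟨i2, b2⟩ := hU.integrable_ww hA
  rw [ex_unit] at h
  have hb : ∀ c : ℝ, 0 < c → ∀ y, ‖hh p V y‖ * ww (n + 2) y ≤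
      (2 * c)⁻¹ * (‖hh p V y‖ ^ 2 * ww (n + 3) y) + c / 2 * ww (n + 1) y := by
    intro c hc y
    have h1 : 0 < 1 + ‖y‖ := by positivity
    have e : (2 * c)⁻¹ * (‖hh p V y‖ ^ 2 * ww (n + 3) y) + c / 2 * ww (n + 1) y -
        ‖hh p V y‖ * ww (n + 2) y =
        (‖hh p V y‖ - c * (1 + ‖y‖)) ^ 2 / (2 * c * (1 + ‖y‖) ^ (n + 3)) := by
      unfold ww
      field_simp
      ring
    have : 0 ≤ (‖hh p V y‖ - c * (1 + ‖y‖)) ^ 2 / (2 * c * (1 + ‖y‖) ^ (n + 3)) := by positivity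
    linarith
  have hi : Integrable (fun y => ‖hh p V y‖ * ww (n + 2) y) μ := by
    refine ((i1.const_mul (2 * 1)⁻¹).add (i2.const_mul (1 / 2))).mono' ?_
      (Eventually.of_forall fun y => ?_)
    · refine ((continuous_hh p V).norm.mul ?_).aestronglyMeasurable
      exact Continuous.inv₀ (by fun_prop) fun y => by positivity
    · rw [Real.norm_of_nonneg (by unfold ww; positivity)]
      exact hb 1 one_pos y
  have hI : ∀ c : ℝ, 0 < c → ∫ y, ‖hh p V y‖ * ww (n + 2) y ∂μ ≤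
      (2 * c)⁻¹ * ε ^ 2 + c / 2 * (Cad n * A) := by
    intro c hc
    refine (integral_mono hi ((i1.const_mul (2 * c)⁻¹).add (i2.const_mul (c / 2)))
      (hb c hc)).trans ?_
    simp only [Pi.add_apply]
    rw [integral_add (i1.const_mul _) (i2.const_mul _), integral_const_mul, integral_const_mul]
    gcongr
  refine ⟨hi, le_of_forall_pos_le_add fun η hη => ?_⟩
  have hC : 0 ≤ Cad n * A := mul_nonneg (zero_le_one.trans (one_le_Cad n)) hA
  obtain ⟨K, hK, hK2⟩ : ∃ K : ℝ, 0 ≤ K ∧ K ^ 2 = Cad n * A := ⟨_, Real.sqrt_nonneg _, Real.sq_sqrt hC⟩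
  rw [← hK2] at hI ⊢
  rw [Real.sqrt_sq hK]
  obtain ⟨t, ht, ht'⟩ : ∃ t : ℝ, 0 < t ∧ t * (ε + K) ≤ η := by
    refine ⟨η / (ε + K + 1), by positivity, ?_⟩
    rw [div_mul_eq_mul_div, div_le_iff₀ (by positivity)]
    nlinarith
  refine (hI ((ε + t) / (K + t)) (by positivity)).trans ?_
  have a1 : (2 * ((ε + t) / (K + t)))⁻¹ * ε ^ 2 ≤ (K + t) * ε / 2 := by
    rw [show (2 * ((ε + t) / (K + t)))⁻¹ * ε ^ 2 = (K + t) * ε / 2 * (ε / (ε + t)) by field_simp]
    refine mul_le_of_le_one_right (by positivity) ?_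
    rw [div_le_one (by positivity)]
    linarith
  have a2 : (ε + t) / (K + t) / 2 * K ^ 2 ≤ (ε + t) * K / 2 := by
    rw [show (ε + t) / (K + t) / 2 * K ^ 2 = (ε + t) * K / 2 * (K / (K + t)) by field_simp]
    refine mul_le_of_le_one_right (by positivity) ?_
    rw [div_le_one (by positivity)]
    linarith
  nlinarith [mul_nonneg ht.le hε, mul_nonneg ht.le hK]

theorem ex_point (n d : ℕ) (A : ℝ) (hA : 1 ≤ A) (κ : ℝ) (hκ : 0 < κ) :
    ∃ ε : ℝ, 0 < ε ∧ ∀ μ : Measure (E d), Up n A μ → ∀ (x : E d) (s : ℝ), 0 < s → Low n A s μ →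
      ∀ (p : E d) (V : Submodule ℝ (E d)), ex n μ x s p V ≤ ε ^ 2 →
        ∀ y ∈ μ.support, dist y x ≤ 10 * s → ‖hh p V y‖ ≤ κ * s := by
  have hA0 : 0 < A := one_pos.trans_le hA
  obtain ⟨c, hc, hc1, hc2⟩ : ∃ c : ℝ, 0 < c ∧ c ≤ 1 ∧ c ≤ κ / 2 :=
    ⟨min 1 (κ / 2), by positivity, min_le_left _ _, min_le_right _ _⟩
  have hq : 0 < (κ / 2) ^ 2 * (A⁻¹ * c ^ n) / (1 + 11) ^ (n + 3) / 2 := by positivity
  refine ⟨√((κ / 2) ^ 2 * (A⁻¹ * c ^ n) / (1 + 11) ^ (n + 3) / 2), Real.sqrt_pos.2 hq,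
    fun μ hU x s hs hL p V h y hy hyx => ?_⟩
  rw [Real.sq_sqrt hq.le] at h
  by_contra hn
  push Not at hn
  obtain ⟨i1, b1⟩ := ex_local hA0.le hU x hs (R := 11) (by norm_num) p V
  have hcs : c * s ≤ s := by nlinarith
  have hsub : ball y (c * s) ⊆ ball x (11 * s) := fun z hz => by
    rw [mem_ball] at hz ⊢
    linarith [dist_triangle z y x]
  have hm := hL.real_ball_ge hU hy (mul_pos hc hs) hcs
  have h1 : (κ / 2 * s) ^ 2 * μ.real (ball y (c * s)) ≤
      ∫ z in ball y (c * s), ‖hh p V z‖ ^ 2 ∂μ := by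
    refine setIntegral_ge_of_const_le_real measurableSet_ball (hU.ball_lt_top _ _).ne
      (fun z hz => ?_) (i1.mono_set hsub)
    rw [mem_ball, dist_eq_norm] at hz
    have a1 := hh_lip p V z y
    have a2 : ‖hh p V y‖ ≤ ‖hh p V z‖ + ‖hh p V z - hh p V y‖ := norm_le_insert _ _
    have a3 : c * s ≤ κ / 2 * s := by gcongr
    have a4 : κ / 2 * s ≤ ‖hh p V z‖ := by linarith
    gcongr
  have h2 := setIntegral_mono_set i1 (Eventually.of_forall fun z => by positivity)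
    hsub.eventuallyLE
  have h3 : (κ / 2 * s) ^ 2 * (A⁻¹ * (c * s) ^ n) ≤ (1 + 11) ^ (n + 3) * s ^ (n + 2) *
      ((κ / 2) ^ 2 * (A⁻¹ * c ^ n) / (1 + 11) ^ (n + 3) / 2) := by
    refine (mul_le_mul_of_nonneg_left hm (by positivity)).trans (h1.trans (h2.trans (b1.trans ?_)))
    gcongr
  have e : (1 + 11 : ℝ) ^ (n + 3) * s ^ (n + 2) *
      ((κ / 2) ^ 2 * (A⁻¹ * c ^ n) / (1 + 11) ^ (n + 3) / 2) =
      (κ / 2 * s) ^ 2 * (A⁻¹ * (c * s) ^ n) / 2 := by
    rw [mul_pow c]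
    field_simp
    ring
  have : 0 < (κ / 2 * s) ^ 2 * (A⁻¹ * (c * s) ^ n) := by positivity
  linarith

theorem support_subset_of_ex_zero (hA : 0 ≤ A) (hU : Up n A μ) (V : Submodule ℝ (E d))
    (h : ex n μ 0 1 0 V = 0) : μ.support ⊆ (V : Set (E d)) := by
  rw [ex_unit, integral_eq_zero_iff_of_nonneg (fun y => by unfold ww; positivity)
    (ex_unit_integrable hA hU 0 V)] at h
  refine Measure.support_subset_of_isClosed V.closed_of_finiteDimensional ?_
  filter_upwards [h] with y hy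
  have h1 : ww (n + 3) y ≠ 0 := by unfold ww; positivity
  have h2 : ‖hh 0 V y‖ ^ 2 = 0 := (mul_eq_zero.1 hy).resolve_right h1
  have h3 := (hh_eq_zero_iff 0 V y).1 (norm_eq_zero.1 (pow_eq_zero_iff two_ne_zero |>.1 h2))
  simpa using h3

theorem ex_eq_zero_of_support (V : Submodule ℝ (E d)) (h : μ.support ⊆ (V : Set (E d)))
    (x : E d) (s : ℝ) : ex n μ x s 0 V = 0 := by
  unfold ex
  rw [integral_eq_zero_of_ae, mul_zero]
  filter_upwards [Measure.support_mem_ae (μ := μ)] with y hy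
  have h1 := (hh_eq_zero_iff 0 V y).2 (by simpa using h hy)
  simp [h1]

theorem Flat.mono {x : E d} {s ε ε' : ℝ} (h : Flat n μ x s ε) (hε : 0 ≤ ε) (hε' : ε ≤ ε') :
    Flat n μ x s ε' := by
  obtain ⟨p, V, h1, h2⟩ := h
  exact ⟨p, V, h1, h2.trans (by gcongr)⟩

theorem exc_sq {a ε : ℝ} (ha : 1 ≤ a) : a * ε ^ 2 ≤ (a * ε) ^ 2 := by
  rw [mul_pow]
  exact mul_le_mul_of_nonneg_right (by nlinarith) (sq_nonneg _)

theorem Flat.center (hA : 0 ≤ A) (hU : Up n A μ) {x x' : E d} {s ε c : ℝ} (hs : 0 < s)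
    (h : Flat n μ x s ε) (hc : dist x x' ≤ c * s) : Flat n μ x' s ((1 + c) ^ (n + 3) * ε) := by
  obtain ⟨p, V, h1, h2⟩ := h
  have h3 : dist x x' / s ≤ c := (div_le_iff₀ hs).2 hc
  have h4 : 0 ≤ c := le_trans (by positivity) h3
  refine ⟨p, V, h1, (ex_center hA hU x x' hs p V).trans
    (le_trans ?_ (exc_sq (one_le_pow₀ (by linarith))))⟩
  have := ex_nonneg n μ x hs p V
  gcongr

theorem Flat.scale (hA : 0 ≤ A) (hU : Up n A μ) {x : E d} {s s' ε c : ℝ} (hs' : 0 < s')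
    (hss : s' ≤ s) (hc : s ≤ c * s') (h : Flat n μ x s ε) :
    Flat n μ x s' (c ^ (n + 2) * ε) := by
  obtain ⟨p, V, h1, h2⟩ := h
  have hs : 0 < s := hs'.trans_le hss
  have h3 : s / s' ≤ c := (div_le_iff₀ hs').2 hc
  have h4 : 1 ≤ c := ((one_le_div hs').2 hss).trans h3
  refine ⟨p, V, h1, (ex_scale hA hU x hs' hss p V).trans
    (le_trans ?_ (exc_sq (one_le_pow₀ h4)))⟩
  have := ex_nonneg n μ x hs p V
  gcongr

end Vale.Agent.P120
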