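import Vale.Agent.P120.Sim2
import Vale.Agent.P120.Exc

/-!
P120 Sim3. Overview in notes/P120.md, definitions in Defs.lean.
Name every helper lemma of yours with the file name in front (for example sim3_aux1).

PLAN.
hh_sim: the orthogonal projection commutes with U: LinearIsometry.map_starProjection or uniqueness
(Submodule.eq_starProjection_of_mem_of_inner_eq_zero) with (V.map U)ᗮ = Vᗮ.map U.
ex_resc: integral_resc, hh_sim, sim_sub. flat_resc_iff: finrank of V.map U (LinearEquiv.finrank_map_eq); every plane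
(p', V') is (sim p, V.map U) with p = x + s • U.symm p' (sim_inv) and V = V'.map U.symm.
exists_rot: LinearIsometryEquiv between V and W from orthonormal bases (stdOrthonormalBasis, reindex by the finrank
equality, or LinearIsometryEquiv.ofInnerProductSpace type lemmas), LinearIsometry.extend, then
LinearIsometry.toLinearIsometryEquiv; the image of V lies in W and has the same finrank (Submodule.eq_of_le_of_finrank_eq).
GoodF.resc: f' y = f (x + s • y) with U = refl; use memLp_resc_iff, integral_resc, Lam_resc, Test.comp_sim.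
-/

open MeasureTheory Metric Set Filter Topology
open scoped ENNReal NNReal RealInnerProductSpace

namespace Vale.Agent.P120

variable {d : ℕ}

variable {n : ℕ} {A : ℝ} {μ : Measure (E d)} {x : E d} {s : ℝ} {U : E d ≃ₗᵢ[ℝ] E d}

theorem sim3_proj (V : Submodule ℝ (E d)) (U : E d ≃ₗᵢ[ℝ] E d) (z : E d) :
    (V.map (U.toLinearEquiv : E d →ₗ[ℝ] E d)).starProjection (U z) = U (V.starProjection z) := by
  refine Submodule.eq_starProjection_of_mem_of_inner_eq_zero
    ⟨_, V.starProjection_apply_mem z, rfl⟩ ?_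
  rintro _ ⟨w, hw, rfl⟩
  rw [← map_sub]
  exact (U.inner_map_map _ w).trans (V.starProjection_inner_eq_zero z w hw)

theorem hh_sim (p : E d) (V : Submodule ℝ (E d)) (y : E d) :
    hh (sim x s U p) (V.map (U.toLinearEquiv : E d →ₗ[ℝ] E d)) (sim x s U y) =
      s⁻¹ • U (hh p V y) := by
  unfold hh
  rw [sim_sub, map_smul, Submodule.starProjection_orthogonal_val, sim3_proj,
    Submodule.starProjection_orthogonal_val, map_sub U (y - p)]

theorem ex_resc (hs : 0 < s) (a : E d) {r : ℝ} (hr : 0 < r) (p : E d) (V : Submodule ℝ (E d)) :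
    ex n (resc n μ x s U) (sim x s U a) (r / s) (sim x s U p)
      (V.map (U.toLinearEquiv : E d →ₗ[ℝ] E d)) = ex n μ a r p V := by
  unfold ex
  rw [integral_resc hs]
  have e : ∀ y, ‖hh (sim x s U p) (V.map (U.toLinearEquiv : E d →ₗ[ℝ] E d)) (sim x s U y)‖ ^ 2 *
      ((1 + ‖sim x s U y - sim x s U a‖ / (r / s)) ^ (n + 3))⁻¹ =
      (s ^ 2)⁻¹ * (‖hh p V y‖ ^ 2 * ((1 + ‖y - a‖ / r) ^ (n + 3))⁻¹) := by
    intro y
    rw [hh_sim, ← dist_eq_norm, dist_sim hs, dist_eq_norm, norm_smul, U.norm_map,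
      div_div_div_cancel_right₀ hs.ne', Real.norm_of_nonneg (inv_pos.2 hs).le, mul_pow, inv_pow,
      mul_assoc]
  simp only [e]
  rw [integral_const_mul, smul_eq_mul, div_pow, pow_add s]
  field_simp

theorem flat_resc_iff (hs : 0 < s) (a : E d) {r : ℝ} (hr : 0 < r) (ε : ℝ) :
    Flat n (resc n μ x s U) (sim x s U a) (r / s) ε ↔ Flat n μ a r ε := by
  constructor
  · rintro ⟨p, V, h1, h2⟩
    refine ⟨x + s • U.symm p, V.map (U.symm.toLinearEquiv : E d →ₗ[ℝ] E d),
      (LinearEquiv.finrank_map_eq _ _).trans h1, ?_⟩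
    rw [← ex_resc (x := x) (U := U) hs a hr, sim_inv hs, ← Submodule.map_comp]
    have e : (U.toLinearEquiv : E d →ₗ[ℝ] E d).comp (U.symm.toLinearEquiv : E d →ₗ[ℝ] E d) =
        LinearMap.id := by
      ext1 y
      simp
    rwa [e, Submodule.map_id]
  · rintro ⟨p, V, h1, h2⟩
    exact ⟨_, _, (LinearEquiv.finrank_map_eq _ _).trans h1, (ex_resc hs a hr p V).trans_le h2⟩

theorem exists_rot (V W : Submodule ℝ (E d)) (h : Module.finrank ℝ V = Module.finrank ℝ W) :
    ∃ U : E d ≃ₗᵢ[ℝ] E d, V.map (U.toLinearEquiv : E d →ₗ[ℝ] E d) = W := by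
  let e : V ≃ₗᵢ[ℝ] W := (stdOrthonormalBasis ℝ V).equiv (stdOrthonormalBasis ℝ W) (finCongr h)
  let L : V →ₗᵢ[ℝ] E d := W.subtypeₗᵢ.comp e.toLinearIsometry
  refine ⟨L.extend.toLinearIsometryEquiv rfl, Submodule.eq_of_le_of_finrank_eq ?_ ?_⟩
  · rintro _ ⟨v, hv, rfl⟩
    have h1 := L.extend_apply ⟨v, hv⟩
    change L.extend v ∈ W
    rw [h1]
    exact (e ⟨v, hv⟩).2
  · rw [LinearEquiv.finrank_map_eq, h]

theorem GoodF.resc (hU : Up n A μ) (hs : 0 < s) {C : ℝ} (h : GoodF n μ x s C) :
    GoodF n (resc n μ x s (LinearIsometryEquiv.refl ℝ (E d))) 0 1 C := by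
  obtain ⟨f, h1, h2, h3⟩ := h
  have e : ∀ y, x + s • sim x s (LinearIsometryEquiv.refl ℝ (E d)) y = y := fun y => by
    simp [sim, smul_smul, mul_inv_cancel₀ hs.ne']
  have hp : 0 < s ^ n := pow_pos hs n
  refine ⟨fun y => f (x + s • y), ?_, ?_, fun a ha r hr hr1 ψ L hψ h0 => ?_⟩
  · rw [memLp_resc_iff hs]
    simpa only [e] using h1
  · rw [integral_resc hs]
    simp only [e, smul_eq_mul, one_pow, mul_one]
    rw [inv_mul_le_iff₀ hp, mul_comm]
    exact h2
  · have ea : sim x s (LinearIsometryEquiv.refl ℝ (E d)) (x + s • a) = a := sim_inv hs a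
    have er : r * s / s = r := mul_div_cancel_right₀ r hs.ne'
    have hb : x + s • a ∈ ball x s := by
      rw [mem_ball_zero_iff] at ha
      rw [mem_ball, dist_self_add_left, norm_smul, Real.norm_of_nonneg hs.le]
      exact mul_lt_of_lt_one_right hs ha
    rw [integral_resc hs, smul_eq_zero, or_iff_right (inv_pos.2 hp).ne'] at h0
    have hψ' : Test ψ (sim x s (LinearIsometryEquiv.refl ℝ (E d)) (x + s • a)) (r * s / s) L := by
      rwa [ea, er]
    have k1 := h3 _ hb (r * s) (mul_pos hr hs) (mul_le_of_le_one_left hs.le hr1) _ _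
      (hψ'.comp_sim hs) h0
    have k2 := Lam_resc (x := x) (U := LinearIsometryEquiv.refl ℝ (E d)) hU hs (x + s • a) (r * s)
      0 ψ
    rw [ea, er, zero_div] at k2
    rw [k2, integral_resc hs, integral_resc hs]
    simp only [e, LinearIsometryEquiv.coe_refl, id, smul_eq_mul, div_one]
    rw [← smul_sub, norm_smul, Real.norm_of_nonneg (inv_pos.2 hp).le, mul_left_comm]
    rw [er] at k1
    exact mul_le_mul_of_nonneg_left k1 (inv_pos.2 hp).le

end Vale.Agent.P120
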