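import Vale.Agent.P120.Touch
import Vale.Agent.P120.Conv1
import Vale.Agent.P120.Conv4
import Vale.Agent.P120.Sim3
import Vale.Agent.P120.Mart2

/-!
P120 Blow. Overview in notes/P120.md, definitions in Defs.lean.
Name every helper lemma of yours with the file name in front (for example blow_aux1).

PLAN.
The support is closed and nonempty; IsClosed.exists_infDist_eq_dist gives y0 nearest to z, r0 = dist y0 z > 0, r0 <= |z| (0 is in the support),
e = r0⁻¹ • (z - y0) in W, |e| = 1; expanding |y - z|^2 >= r0^2 gives the touching inequality. W' = W ⊓ (ℝ ∙ e)ᗮ, finrank W' + 1 = finrank W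
(Submodule.finrank_add_inf_finrank_orthogonal with ℝ ∙ e <= W, finrank_span_singleton). μs k = resc n μ y0 (sc (k+1)) refl, RR.resc, RR.hh, 0 = sim y0 is in the
support (mem_support_resc, sim_self). ν from exists_conv (hyperfilter ℕ), Conv.rr with νs = 0. Support in W: supports of μs k lie in W
(sim_inv, mem_support_resc), ex_eq_zero_of_support, Conv.ex_tendsto, support_subset_of_ex_zero. Support in (ℝ ∙ e)ᗮ: ex_resc with a = p = y0, r = s
(V.map of refl is V, div_self), touch composed with k ↦ sc (k+1) (tendsto_sc, Nat.hyperfilter_le_atTop), uniqueness of limits.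
Transfer: Conv.flat_transfer with r = 1/2 - |x'|, Eventually.exists, flat_resc_iff with a = y0 + sc (k+1) • y.
-/

open MeasureTheory Metric Set Filter Topology
open scoped ENNReal NNReal RealInnerProductSpace

namespace Vale.Agent.P120

variable {d : ℕ}

theorem blow_touch {y y0 z : E d} (h0 : 0 < dist y0 z) (h : dist y0 z ≤ dist y z) :
    ⟪y - y0, (dist y0 z)⁻¹ • (z - y0)⟫ ≤ ‖y - y0‖ ^ 2 / (2 * dist y0 z) := by
  have e := norm_sub_sq_real (y - y0) (z - y0)
  rw [sub_sub_sub_cancel_right, ← dist_eq_norm y z, ← dist_eq_norm z y0, dist_comm z y0] at e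
  have h1 := pow_le_pow_left₀ h0.le h 2
  rw [real_inner_smul_right, inv_mul_eq_div, div_le_div_iff₀ h0 (by positivity)]
  exact le_trans (le_of_eq (by ring)) (mul_le_mul_of_nonneg_right
    (show 2 * ⟪y - y0, z - y0⟫ ≤ ‖y - y0‖ ^ 2 by linarith) h0.le)

theorem blow {n : ℕ} {A : ℝ} {μ : Measure (E d)} (hn : 1 ≤ n) (hA : 1 ≤ A) (h : RR n A μ)
    (h0 : (0 : E d) ∈ μ.support) (W : Submodule ℝ (E d)) (hW : μ.support ⊆ (W : Set (E d)))
    {z : E d} (hz : z ∈ W) (hz' : z ∉ μ.support) :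
    ∃ y0 ∈ μ.support, dist y0 z ≤ ‖z‖ ∧ ∃ W' : Submodule ℝ (E d),
      Module.finrank ℝ W' + 1 = Module.finrank ℝ W ∧ ∃ ν : Measure (E d), RR n A ν ∧
        (0 : E d) ∈ ν.support ∧ ν.support ⊆ (W' : Set (E d)) ∧
        ∀ x' ∈ ν.support, ‖x'‖ < 1 / 2 → ∀ s ε : ℝ, 0 < s → s ≤ 1 / 2 → 0 < ε → Flat n ν x' s ε →
          ∃ x'' ∈ μ.support, dist x'' y0 < 1 / 4 ∧ ∃ s' : ℝ, 0 < s' ∧ s' ≤ 1 / 2 ∧
            Flat n μ x'' s' (2 ^ (n + 4) * ε) := by
  have A0 : 0 ≤ A := zero_le_one.trans hA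
  obtain ⟨y0, hy0, hd⟩ := μ.isClosed_support.exists_infDist_eq_dist ⟨0, h0⟩ z
  have near : ∀ y ∈ μ.support, dist y0 z ≤ dist y z := fun y hy => by
    rw [dist_comm y0, ← hd, dist_comm y]
    exact infDist_le_dist_of_mem hy
  have r0 : 0 < dist y0 z := dist_pos.2 fun e => hz' (e ▸ hy0)
  obtain ⟨e, he⟩ : ∃ e, e = (dist y0 z)⁻¹ • (z - y0) := ⟨_, rfl⟩
  have e1 : ‖e‖ = 1 := by
    rw [he, norm_smul, ← dist_eq_norm, dist_comm z, Real.norm_of_nonneg (inv_nonneg.2 r0.le),
      inv_mul_cancel₀ r0.ne']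
  have eW : ℝ ∙ e ≤ W := (Submodule.span_singleton_le_iff_mem _ _).2
    (he ▸ W.smul_mem _ (W.sub_mem hz (hW hy0)))
  have ht := touch hn hA h h0 hy0 e1 r0 fun y hy => he ▸ blow_touch r0 (near y hy)
  obtain ⟨U, hU⟩ : ∃ U, U = LinearIsometryEquiv.refl ℝ (E d) := ⟨_, rfl⟩
  have Us : ∀ y, U.symm y = y := fun y => by rw [hU]; rfl
  have sp : ∀ k, 0 < sc (k + 1) := fun k => sc_pos _
  have hR : ∀ k, RR n A (resc n μ y0 (sc (k + 1)) U) := fun k => h.resc hn A0 (sp k)
  obtain ⟨ν, hν⟩ := exists_conv A0 (hyperfilter ℕ) _ fun k => (hR k).1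
  obtain ⟨n1, n2⟩ := hν.rr hn hA (νs := fun _ => 0) (fun k => (hR k).hh hn A0 (by
    have := (mem_support_resc (n := n) (x := y0) (U := U) (sp k) y0).2 hy0
    rwa [sim_self] at this)) tendsto_const_nhds
  have back : ∀ k, ∀ y ∈ (resc n μ y0 (sc (k + 1)) U).support,
      y0 + sc (k + 1) • U.symm y ∈ μ.support := fun k y hy =>
    (mem_support_resc (sp k) _).1 (by rwa [sim_inv (sp k)])
  refine ⟨y0, hy0, by simpa using near 0 h0, (ℝ ∙ e)ᗮ ⊓ W, ?_, ν, n1, n2, ?_,
    fun x' hx' x1 s ε s0 s1 ε0 hF => ?_⟩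
  · have := Submodule.finrank_add_inf_finrank_orthogonal eW
    rw [finrank_span_singleton (norm_ne_zero_iff.1 (by rw [e1]; exact one_ne_zero))] at this
    omega
  · refine subset_inter (support_subset_of_ex_zero A0 n1.1 _ ?_)
      (support_subset_of_ex_zero A0 n1.1 _ ?_)
    · refine tendsto_nhds_unique (hν.ex_tendsto 0 one_pos 0 _) ?_
      have t1 : Tendsto (fun k => sc (k + 1)) atTop (𝓝[>] 0) := tendsto_nhdsWithin_iff.2
        ⟨tendsto_sc.comp (tendsto_add_atTop_nat 1), Eventually.of_forall sp⟩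
      refine ((ht.comp t1).mono_left Nat.hyperfilter_le_atTop).congr fun k => ?_
      have := ex_resc (n := n) (μ := μ) (x := y0) (U := U) (sp k) y0 (sp k) y0 (ℝ ∙ e)ᗮ
      rw [sim_self, div_self (sp k).ne'] at this
      rw [Function.comp, ← this, hU]
      congr 1
      exact Submodule.map_id _
    · refine tendsto_nhds_unique (hν.ex_tendsto 0 one_pos 0 _)
        (tendsto_const_nhds.congr fun k => (ex_eq_zero_of_support W (fun y hy => ?_) _ _).symm)
      have h1 := W.sub_mem (hW (back k y hy)) (hW hy0)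
      rw [add_sub_cancel_left, Us] at h1
      exact (W.smul_mem_iff (sp k).ne').1 h1
  · obtain ⟨k, y, hy, y1, y2⟩ := (hν.flat_transfer A0 hx' (sub_pos.2 x1) s0 ε0 hF).exists
    have s2 : sc (k + 1) ≤ 1 / 2 := (sc_anti (Nat.le_add_left 1 k)).trans_eq (pow_one _)
    refine ⟨_, back k y hy, ?_, s * sc (k + 1), mul_pos s0 (sp k),
      (mul_le_of_le_one_right s0.le (sc_le_one _)).trans s1, ?_⟩
    · have h1 := norm_le_norm_add_norm_sub' y x'
      rw [dist_eq_norm] at y1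
      rw [dist_self_add_left, Us, norm_smul, Real.norm_of_nonneg (sp k).le]
      nlinarith [norm_nonneg y]
    · refine (flat_resc_iff (x := y0) (U := U) (sp k) _ (mul_pos s0 (sp k)) _).1 ?_
      rwa [sim_inv (sp k), mul_div_cancel_right₀ _ (sp k).ne']

end Vale.Agent.P120
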