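import Vale.Agent.P120.Defs2
import Vale.Agent.P120.Lam2
import Vale.Agent.P120.EnB
import Vale.Agent.P120.Exc

/-!
P120 Cacc1. Overview in notes/P120.md, definitions in Defs.lean.
Name every helper lemma of yours with the file name in front (for example cacc1_aux1).

PLAN.
Let h = hh p V, η = bump 0 (2R) (equal to 1 on closedBall 0 R), B = ball 0 R, T = Vᗮ.starProjection (a continuous linear map of norm <= 1; it commutes with integrals).
T (lamI 0 z - lamI δ z) = (ψ z.1 - ψ z.2)(kk 0 - kk δ)(z.1 - z.2) • (h z.1 - h z.2) (hh_sub). Bound the norm of the integrand pointwise by N z + F z + F (swap z):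
N z = 1_(B×B) |kk 0 - kk δ| L |z.1 - z.2| norm (η h z.1 - η h z.2); F z = 1_(ball 0 (R/2))(z.1) 1_(Bᶜ)(z.2) (L R/2) K δ^2 ww (n+3) z.2 (|h z.1| + |h z.2|)
(kk_zero_sub_le, |z.1 - z.2| >= |z.2|/2 >= (1+|z.2|)/4 as R >= 1). For N use 2ab <= c a^2 + b^2/c with
a^2 = L^2 |kk 0 - kk δ| |z.1-z.2|^2 1_B (integral <= L^2 A R^n Cad A δ, Up.sing) and b^2 = kk 0 * ∑ i (η h_i z.1 - η h_i z.2)^2 (integral EE;
|kk 0 - kk δ| <= kk 0 off the diagonal, and on the diagonal N = 0), then optimise in c (or Cauchy-Schwarz). height_test gives the test property of η h_i.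
For F use ex_l1 (|h| on ball 0 (R/2) is bounded by (1+R)^(n+2) |h| ww (n+2)), Up.integrable_ww, Integrable.mul_prod, and δ^2 <= sqrt δ.
-/

open MeasureTheory Metric Set Filter Topology
open scoped ENNReal NNReal RealInnerProductSpace

namespace Vale.Agent.P120

variable {d : ℕ}

theorem height_test (p : E d) (V : Submodule ℝ (E d)) (i : Fin d) {r : ℝ} (hr : 0 < r) :
    ∃ L : ℝ, Test (fun y => bump 0 r y * hh p V y i) 0 r L := by
  have hc : ∀ w : E d, |w i| ≤ ‖w‖ := fun w => by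
    simpa [Real.norm_eq_abs] using PiLp.norm_apply_le w i
  refine ⟨_, (bump_test (0 : E d) hr).mul (B := r + ‖p‖) (M := 1) hr.le (abs_bump_le_one 0 r)
    zero_le_one (by positivity) (fun y z => ?_) (fun y hy => ?_)⟩
  · have h1 := hc (hh p V y - hh p V z)
    rw [PiLp.sub_apply] at h1
    rw [one_mul, dist_eq_norm]
    exact h1.trans (hh_lip p V y z)
  · have h1 := hh_norm_le (p := p) (q := p) (V := V) (by simp) y
    have h2 := norm_sub_le y p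
    rw [dist_zero_right] at hy
    linarith [hc (hh p V y)]

theorem EE_nonneg (n : ℕ) (μ : Measure (E d)) (R : ℝ) (p : E d) (V : Submodule ℝ (E d)) :
    0 ≤ EE n μ R p V := Finset.sum_nonneg fun _ _ => En_nonneg _ _ _

theorem cacc1_opt {X L a b : ℝ} (hL : 0 ≤ L) (ha : 0 < a) (hb : 0 ≤ b)
    (h : ∀ c : ℝ, 0 < c → X ≤ L * (c * a + c⁻¹ * b)) : X ≤ L * (2 * (√a * √b)) := by
  have sa : 0 < √a := Real.sqrt_pos.2 ha
  have sb : 0 ≤ √b := Real.sqrt_nonneg b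
  have ea : √a * √a = a := Real.mul_self_sqrt ha.le
  have eb : √b * √b = b := Real.mul_self_sqrt hb
  have key : ∀ θ : ℝ, 0 < θ → X ≤ L * (2 * (√a * √b)) + θ * (L * √a) := by
    intro θ hθ
    have hp : 0 < √b + θ := by linarith
    have h1 := h ((√b + θ) / √a) (by positivity)
    have h2 : (√b + θ) / √a * a = (√b + θ) * √a := by
      rw [div_mul_eq_mul_div, div_eq_iff sa.ne', mul_assoc, ea]
    have h3 : ((√b + θ) / √a)⁻¹ * b ≤ √a * √b := by
      rw [inv_div, div_mul_eq_mul_div, div_le_iff₀ hp]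
      have : √a * √b * (√b + θ) = √a * b + √a * √b * θ := by
        rw [mul_add, mul_assoc, eb]
      rw [this]
      have : 0 ≤ √a * √b * θ := by positivity
      linarith
    rw [h2] at h1
    have h4 := mul_le_mul_of_nonneg_left (add_le_add_left h3 ((√b + θ) * √a)) hL
    nlinarith [h1, h4]
  refine le_of_forall_pos_le_add fun e he => ?_
  have hM : 0 ≤ L * √a := by positivity
  refine (key (e / (L * √a + 1)) (by positivity)).trans ?_
  have : e / (L * √a + 1) * (L * √a) ≤ e := by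
    rw [div_mul_eq_mul_div, div_le_iff₀ (by positivity)]
    nlinarith
  linarith

theorem cacc1_near (n : ℕ) {ψ : E d → ℝ} {L s : ℝ} (hψ : Test ψ 0 s L) (δ : ℝ) (u v : E d)
    {N c : ℝ} (hN : 0 ≤ N) (hc : 0 < c) :
    |ψ u - ψ v| * (|kk n 0 (u - v) - kk n δ (u - v)| * N) ≤
      L * (c * (|kk n 0 (v - u) - kk n δ (v - u)| * ‖v - u‖ ^ 2) +
        c⁻¹ * (kk n 0 (u - v) * N ^ 2)) := by
  have hL := hψ.1
  have k0 := kk_nonneg n 0 (u - v)
  by_cases huv : u - v = 0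
  · have : u = v := sub_eq_zero.1 huv
    subst this
    rw [sub_self (ψ u), abs_zero, zero_mul]
    have := kk_nonneg n 0 (u - u)
    positivity
  have k1 := kk_le_kk_zero n δ huv
  have k2 := kk_nonneg n δ (u - v)
  rw [kk_sub_comm n 0 v, kk_sub_comm n δ v, norm_sub_rev v]
  have l1 := hψ.2.1 u v
  rw [dist_eq_norm] at l1
  set D := |kk n 0 (u - v) - kk n δ (u - v)| with hD
  have D0 : 0 ≤ D := abs_nonneg _
  have D1 : D ≤ kk n 0 (u - v) := by
    rw [hD, abs_of_nonneg (by linarith)]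
    linarith
  set w := ‖u - v‖ with hw
  have w0 : 0 ≤ w := norm_nonneg _
  have h1 : w * N ≤ c * w ^ 2 + c⁻¹ * N ^ 2 := by
    have e : c * w ^ 2 + c⁻¹ * N ^ 2 - w * N = c⁻¹ * ((c * w - N) ^ 2 + c * w * N) := by
      field_simp
      ring
    have : 0 ≤ c⁻¹ * ((c * w - N) ^ 2 + c * w * N) := by positivity
    linarith
  calc |ψ u - ψ v| * (D * N) ≤ L * w * (D * N) :=
        mul_le_mul_of_nonneg_right l1 (by positivity)
    _ = L * (D * (w * N)) := by ring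
    _ ≤ L * (D * (c * w ^ 2 + c⁻¹ * N ^ 2)) := by gcongr
    _ = L * (c * (D * w ^ 2) + c⁻¹ * (D * N ^ 2)) := by ring
    _ ≤ _ := by gcongr

theorem cacc1_far (n : ℕ) {ψ : E d → ℝ} {L R : ℝ} (hR : 1 ≤ R) (hψ : Test ψ 0 (R / 2) L) (δ : ℝ)
    (h : E d → E d) (u v : E d) (hv : R ≤ ‖v‖) :
    |ψ u - ψ v| * (|kk n 0 (u - v) - kk n δ (u - v)| * ‖h u - h v‖) ≤
      L * (R / 2 * ((n + 1) * 4 ^ (n + 3)) * (1 + R) ^ (n + 2) * δ ^ 2 *
        (‖h u‖ * ww (n + 2) u * ww (n + 1) v + ‖h v‖ * ww (n + 2) v * ww (n + 1) u)) := by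
  have hL := hψ.1
  have w1 := (ww_pos (n + 2) u).le
  have w2 := (ww_pos (n + 1) u).le
  have w3 := (ww_pos (n + 2) v).le
  have w4 := (ww_pos (n + 1) v).le
  have w5 := (ww_pos (n + 3) v).le
  have z2 : ψ v = 0 := hψ.2.2.2 v (by rw [dist_zero_right]; linarith)
  by_cases hu : R / 2 ≤ ‖u‖
  · rw [z2, hψ.2.2.2 u (by rwa [dist_zero_right]), sub_self, abs_zero, zero_mul]
    positivity
  have hu' : ‖u‖ < R / 2 := not_le.1 hu
  have n1 : (1 + ‖v‖) / 4 ≤ ‖u - v‖ := by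
    have := norm_sub_norm_le v u
    rw [norm_sub_rev v] at this
    linarith
  have n2 : 0 < (1 + ‖v‖) / 4 := by positivity
  have huv : u - v ≠ 0 := norm_pos_iff.1 (n2.trans_le n1)
  have k1 := kk_le_kk_zero n δ huv
  have k2 : |kk n 0 (u - v) - kk n δ (u - v)| ≤
      (n + 1) * δ ^ 2 * (4 ^ (n + 3) * ww (n + 3) v) := by
    rw [abs_of_nonneg (by linarith)]
    refine (kk_zero_sub_le n δ huv).trans (mul_le_mul_of_nonneg_left ?_ (by positivity))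
    have e : (4 : ℝ) ^ (n + 3) * ww (n + 3) v = (((1 + ‖v‖) / 4) ^ (n + 3))⁻¹ := by
      rw [ww, div_pow, inv_div, div_eq_mul_inv]
    rw [e]
    exact inv_anti₀ (by positivity) (pow_le_pow_left₀ n2.le n1 _)
  have o1 : 1 ≤ (1 + R) ^ (n + 2) * ww (n + 2) u := one_le_mul_ww (n + 2) (by linarith)
  have a1 : ww (n + 3) v ≤ ww (n + 1) v := ww_anti (by omega) v
  have a2 : ww (n + 3) v ≤ ww (n + 2) v := ww_anti (by omega) v
  have a3 : ww (n + 2) u ≤ ww (n + 1) u := ww_anti (by omega) u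
  have P0 : 0 ≤ (1 + R) ^ (n + 2) := by positivity
  set P := (1 + R) ^ (n + 2) with hP
  have b1 : ww (n + 3) v * ‖h u‖ ≤ P * (‖h u‖ * ww (n + 2) u * ww (n + 1) v) := by
    calc ww (n + 3) v * ‖h u‖ = 1 * (ww (n + 3) v * ‖h u‖) := (one_mul _).symm
      _ ≤ P * ww (n + 2) u * (ww (n + 1) v * ‖h u‖) := by gcongr
      _ = _ := by ring
  have b2 : ww (n + 3) v * ‖h v‖ ≤ P * (‖h v‖ * ww (n + 2) v * ww (n + 1) u) := by
    calc ww (n + 3) v * ‖h v‖ = 1 * (ww (n + 3) v * ‖h v‖) := (one_mul _).symm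
      _ ≤ P * ww (n + 2) u * (ww (n + 2) v * ‖h v‖) := by gcongr
      _ ≤ P * ww (n + 1) u * (ww (n + 2) v * ‖h v‖) := by gcongr
      _ = _ := by ring
  have l1 := hψ.2.2.1 u
  rw [z2, sub_zero]
  calc |ψ u| * (|kk n 0 (u - v) - kk n δ (u - v)| * ‖h u - h v‖)
      ≤ L * (R / 2) * ((n + 1) * δ ^ 2 * (4 ^ (n + 3) * ww (n + 3) v) * (‖h u‖ + ‖h v‖)) := by
        gcongr
        exact norm_sub_le _ _
    _ = L * (R / 2 * ((n + 1) * 4 ^ (n + 3)) * δ ^ 2 *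
        (ww (n + 3) v * ‖h u‖ + ww (n + 3) v * ‖h v‖)) := by ring
    _ ≤ L * (R / 2 * ((n + 1) * 4 ^ (n + 3)) * δ ^ 2 *
        (P * (‖h u‖ * ww (n + 2) u * ww (n + 1) v) +
          P * (‖h v‖ * ww (n + 2) v * ww (n + 1) u))) := by gcongr
    _ = _ := by ring

theorem cacc1_key (n : ℕ) {ψ : E d → ℝ} {L R : ℝ} (hR : 1 ≤ R) (hψ : Test ψ 0 (R / 2) L) (δ : ℝ)
    (h : E d → E d) {c : ℝ} (hc : 0 < c) {H : E d × E d → ℝ}
    (hH : ∀ z, H z = c * ((ball (0 : E d) R).indicator (fun _ => (1 : ℝ)) z.1 *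
        (|kk n 0 (z.2 - z.1) - kk n δ (z.2 - z.1)| * ‖z.2 - z.1‖ ^ 2)) +
      c⁻¹ * (∑ i : Fin d, kk n 0 (z.1 - z.2) *
        (bump 0 (2 * R) z.1 * h z.1 i - bump 0 (2 * R) z.2 * h z.2 i) ^ 2) +
      R / 2 * ((n + 1) * 4 ^ (n + 3)) * (1 + R) ^ (n + 2) * δ ^ 2 *
        (‖h z.1‖ * ww (n + 2) z.1 * ww (n + 1) z.2)) (z : E d × E d) :
    |ψ z.1 - ψ z.2| * (|kk n 0 (z.1 - z.2) - kk n δ (z.1 - z.2)| * ‖h z.1 - h z.2‖) ≤
      L * (H z + H z.swap) := by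
  have hL := hψ.1
  obtain ⟨u, v⟩ := z
  rw [hH, hH]
  simp only [Prod.fst_swap, Prod.snd_swap]
  have i0 : ∀ y, 0 ≤ (ball (0 : E d) R).indicator (fun _ => (1 : ℝ)) y :=
    fun y => indicator_nonneg (fun _ _ => zero_le_one) y
  have t1 : ∀ x y : E d, 0 ≤ c * ((ball (0 : E d) R).indicator (fun _ => (1 : ℝ)) x *
      (|kk n 0 (y - x) - kk n δ (y - x)| * ‖y - x‖ ^ 2)) := fun x y =>
    mul_nonneg hc.le (mul_nonneg (i0 x) (by positivity))
  have t2 : ∀ x y : E d, 0 ≤ c⁻¹ * (∑ i : Fin d, kk n 0 (x - y) *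
      (bump 0 (2 * R) x * h x i - bump 0 (2 * R) y * h y i) ^ 2) := fun x y =>
    mul_nonneg (inv_nonneg.2 hc.le)
      (Finset.sum_nonneg fun i _ => mul_nonneg (kk_nonneg _ _ _) (sq_nonneg _))
  have t3 : ∀ x y : E d, 0 ≤ R / 2 * ((n + 1) * 4 ^ (n + 3)) * (1 + R) ^ (n + 2) * δ ^ 2 *
      (‖h x‖ * ww (n + 2) x * ww (n + 1) y) := fun x y => by
    have := (ww_pos (n + 2) x).le
    have := (ww_pos (n + 1) y).le
    positivity
  by_cases hv : R ≤ ‖v‖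
  · refine (cacc1_far n hR hψ δ h u v hv).trans (mul_le_mul_of_nonneg_left ?_ hL)
    rw [mul_add (R / 2 * ((n + 1) * 4 ^ (n + 3)) * (1 + R) ^ (n + 2) * δ ^ 2)]
    linarith [t1 u v, t1 v u, t2 u v, t2 v u]
  by_cases hu : R ≤ ‖u‖
  · rw [abs_sub_comm (ψ u), kk_sub_comm n 0 u, kk_sub_comm n δ u, norm_sub_rev (h u)]
    refine (cacc1_far n hR hψ δ h v u hu).trans (mul_le_mul_of_nonneg_left ?_ hL)
    rw [mul_add (R / 2 * ((n + 1) * 4 ^ (n + 3)) * (1 + R) ^ (n + 2) * δ ^ 2),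
      kk_sub_comm n 0 v u, kk_sub_comm n δ v u]
    have := t1 u v
    rw [kk_sub_comm n 0 v u, kk_sub_comm n δ v u] at this
    have h2 := t2 v u
    rw [kk_sub_comm n 0 v u] at h2
    linarith [t1 v u, t2 u v]
  have hu' : ‖u‖ < R := not_le.1 hu
  have hv' : ‖v‖ < R := not_le.1 hv
  have e1 : bump 0 (2 * R) u = 1 :=
    bump_eq_one (by linarith) (by rw [dist_zero_right]; linarith)
  have e2 : bump 0 (2 * R) v = 1 :=
    bump_eq_one (by linarith) (by rw [dist_zero_right]; linarith)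
  have e3 : ∑ i : Fin d, kk n 0 (u - v) *
      (bump 0 (2 * R) u * h u i - bump 0 (2 * R) v * h v i) ^ 2 =
      kk n 0 (u - v) * ‖h u - h v‖ ^ 2 := by
    rw [e1, e2, ← Finset.mul_sum, EuclideanSpace.real_norm_sq_eq]
    simp only [one_mul, PiLp.sub_apply]
  refine (cacc1_near n hψ δ u v (norm_nonneg (h u - h v)) hc).trans
    (mul_le_mul_of_nonneg_left ?_ hL)
  have h1 := t1 v u
  have h2 := t2 v u
  rw [e3, indicator_of_mem (mem_ball_zero_iff.2 hu'), one_mul]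
  linarith [t3 u v, t3 v u]

theorem cacc1_EE {n : ℕ} (hn : 1 ≤ n) {A R : ℝ} (hA : 0 ≤ A) (hR : 1 ≤ R)
    {μ : Measure (E d)} (hU : Up n A μ) (p : E d) (V : Submodule ℝ (E d)) :
    Integrable (fun z : E d × E d => ∑ i : Fin d, kk n 0 (z.1 - z.2) *
      (bump 0 (2 * R) z.1 * hh p V z.1 i - bump 0 (2 * R) z.2 * hh p V z.2 i) ^ 2) (μ.prod μ) ∧
    ∫ z : E d × E d, ∑ i : Fin d, kk n 0 (z.1 - z.2) *
      (bump 0 (2 * R) z.1 * hh p V z.1 i - bump 0 (2 * R) z.2 * hh p V z.2 i) ^ 2 ∂(μ.prod μ) =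
      EE n μ R p V := by
  have i2 : ∀ i : Fin d, Integrable (fun z : E d × E d => kk n 0 (z.1 - z.2) *
      (bump 0 (2 * R) z.1 * hh p V z.1 i - bump 0 (2 * R) z.2 * hh p V z.2 i) ^ 2)
      (μ.prod μ) := fun i => by
    obtain ⟨M, hM⟩ := height_test p V i (r := 2 * R) (by linarith)
    have h2 : 0 < 2 * R := by linarith
    have h3 := hM.en_integrable hn hA hU h2
    beta_reduce at h3
    exact h3
  refine ⟨integrable_finsetSum Finset.univ fun i _ => i2 i, ?_⟩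
  rw [integral_finsetSum Finset.univ fun i _ => i2 i]
  simp only [EE, En]

theorem cacc1_G {n : ℕ} {A : ℝ} (hA : 0 ≤ A) {μ : Measure (E d)} (hU : Up n A μ) (p : E d)
    (V : Submodule ℝ (E d)) {ε : ℝ} (hε : 0 ≤ ε) (hex : ex n μ 0 1 p V ≤ ε ^ 2) :
    Integrable (fun z : E d × E d => ‖hh p V z.1‖ * ww (n + 2) z.1 * ww (n + 1) z.2)
      (μ.prod μ) ∧
    ∫ z : E d × E d, ‖hh p V z.1‖ * ww (n + 2) z.1 * ww (n + 1) z.2 ∂(μ.prod μ) ≤
      √(Cad n * A) * ε * (Cad n * A) := by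
  have := hU.sigmaFinite
  obtain ⟨j1, j2⟩ := ex_l1 hA hU p V hε hex
  obtain ⟨j3, j4⟩ := hU.integrable_ww hA
  refine ⟨j1.mul_prod j3, ?_⟩
  rw [integral_prod_mul (fun y => ‖hh p V y‖ * ww (n + 2) y) (ww (n + 1))]
  exact mul_le_mul j2 j4 (integral_nonneg fun y => (ww_pos _ y).le) (by positivity)

theorem cacc1_lin {X : Type*} [MeasurableSpace X] {ν : Measure X} {f g k : X → ℝ}
    {a b c A B C : ℝ} (ha : 0 ≤ a) (hc : 0 ≤ c) (h1 : Integrable f ν ∧ ∫ z, f z ∂ν ≤ A)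
    (h2 : Integrable g ν ∧ ∫ z, g z ∂ν = B) (h3 : Integrable k ν ∧ ∫ z, k z ∂ν ≤ C) :
    Integrable (fun z => a * f z + b * g z + c * k z) ν ∧
      ∫ z, (a * f z + b * g z + c * k z) ∂ν ≤ a * A + b * B + c * C := by
  have f1 := h1.1.const_mul a
  have f2 := h2.1.const_mul b
  have f3 := h3.1.const_mul c
  have f4 : Integrable (fun z => a * f z + b * g z) ν := f1.add f2
  refine ⟨f4.add f3, ?_⟩
  rw [integral_add f4 f3, integral_add f1 f2, integral_const_mul, integral_const_mul,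
    integral_const_mul, h2.2]
  have := mul_le_mul_of_nonneg_left h1.2 ha
  have := mul_le_mul_of_nonneg_left h3.2 hc
  linarith

theorem cacc1_main {n : ℕ} (hn : 1 ≤ n) {A R : ℝ} (hA : 0 ≤ A) (hR : 1 ≤ R)
    {μ : Measure (E d)} (hU : Up n A μ) (p : E d) (V : Submodule ℝ (E d)) {ε : ℝ} (hε : 0 ≤ ε)
    (hex : ex n μ 0 1 p V ≤ ε ^ 2) {ψ : E d → ℝ} {L : ℝ} (hψ : Test ψ 0 (R / 2) L) (a : E d)
    {t δ c : ℝ} (ht : 0 < t) (hδ : 0 < δ) (hc : 0 < c) :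
    ‖Vᗮ.starProjection (Lam n μ a t 0 ψ - Lam n μ a t δ ψ)‖ ≤
      L * (c * (A * R ^ n * (Cad n * A * δ)) + c⁻¹ * EE n μ R p V +
        R / 2 * ((n + 1) * 4 ^ (n + 3)) * (1 + R) ^ (n + 2) * δ ^ 2 *
          (√(Cad n * A) * ε * (Cad n * A))) := by
  have := hU.sigmaFinite
  have hR0 : 0 < R := by linarith
  have hR2 : 0 < R / 2 := by linarith
  obtain ⟨hi, hb⟩ := cacc1_lin (b := c⁻¹)
    (c := R / 2 * ((n + 1) * 4 ^ (n + 3)) * (1 + R) ^ (n + 2) * δ ^ 2) hc.le (by positivity)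
    (lam2_H hn hA hU (0 : E d) hR0 hδ) (cacc1_EE hn hA hR hU p V) (cacc1_G hA hU p V hε hex)
  have l0 := lamI_integrable hn hA hU hψ hR2 a ht (le_refl (0 : ℝ))
  have l1 := lamI_integrable hn hA hU hψ hR2 a ht hδ.le
  have l2 : Integrable (fun z => lamI n a t 0 ψ z - lamI n a t δ ψ z) (μ.prod μ) := l0.sub l1
  have k2 := lam2_sym (F := fun z => Vᗮ.starProjection (lamI n a t 0 ψ z - lamI n a t δ ψ z))
    hi hψ.1 hb fun z => by
      have e : lamI n a t 0 ψ z - lamI n a t δ ψ z =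
          (ψ z.1 - ψ z.2) • (kk n 0 (z.1 - z.2) - kk n δ (z.1 - z.2)) • (z.1 - z.2) := by
        simp only [lamI, KK]
        rw [sub_smul (kk n 0 _), smul_sub (ψ z.1 - ψ z.2)]
        abel
      rw [e, map_smul, map_smul, ← hh_sub p, norm_smul, norm_smul, Real.norm_eq_abs,
        Real.norm_eq_abs]
      exact cacc1_key n hR hψ δ (hh p V) hc (fun _ => rfl) z
  rw [ContinuousLinearMap.integral_comp_comm _ l2] at k2
  rw [Lam, Lam, ← smul_sub, ← integral_sub l0 l1, map_smul, norm_smul,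
    Real.norm_of_nonneg (by norm_num)]
  refine (mul_le_mul_of_nonneg_left k2 (by norm_num)).trans (le_of_eq ?_)
  ring

theorem normal_sing_le (n d : ℕ) (hn : 1 ≤ n) (A R : ℝ) (hA : 1 ≤ A) (hR : 1 ≤ R) :
    ∃ C : ℝ, 0 < C ∧ ∀ μ : Measure (E d), Up n A μ →
      ∀ (p : E d) (V : Submodule ℝ (E d)) (ε : ℝ), 0 ≤ ε → ex n μ 0 1 p V ≤ ε ^ 2 →
      ∀ (ψ : E d → ℝ) (L : ℝ), Test ψ 0 (R / 2) L → ∀ (a : E d) (t δ : ℝ), 0 < t → 0 < δ → δ ≤ 1 →
        ‖Vᗮ.starProjection (Lam n μ a t 0 ψ - Lam n μ a t δ ψ)‖ ≤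
          C * L * √δ * (√(EE n μ R p V) + ε) := by
  have hC := one_le_Cad n
  have hA0 : 0 ≤ A := by linarith
  set a0 : ℝ := A * R ^ n * (Cad n * A) with ha0
  have a1 : 0 < a0 := by positivity
  set K : ℝ := R / 2 * ((n + 1) * 4 ^ (n + 3)) * (1 + R) ^ (n + 2) *
    (√(Cad n * A) * (Cad n * A)) with hK
  have K0 : 0 ≤ K := by positivity
  refine ⟨2 * √a0 + K + 1, by positivity,
    fun μ hU p V ε hε hex ψ L hψ a t δ ht hδ hδ1 => ?_⟩
  have hL := hψ.1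
  have hE := EE_nonneg n μ R p V
  have h1 : ‖Vᗮ.starProjection (Lam n μ a t 0 ψ - Lam n μ a t δ ψ)‖ - L * (K * δ ^ 2 * ε) ≤
      L * (2 * (√(a0 * δ) * √(EE n μ R p V))) := by
    refine cacc1_opt hL (by positivity) hE fun c hc => ?_
    have h2 := cacc1_main hn hA0 hR hU p V hε hex hψ a ht hδ hc
    rw [sub_le_iff_le_add]
    refine h2.trans (le_of_eq ?_)
    rw [ha0, hK]
    ring
  have h3 : δ ^ 2 ≤ √δ := by
    have : δ ≤ √δ := Real.le_sqrt_of_sq_le (by nlinarith)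
    nlinarith
  rw [Real.sqrt_mul a1.le] at h1
  have s1 := Real.sqrt_nonneg a0
  have s2 := Real.sqrt_nonneg δ
  have s3 := Real.sqrt_nonneg (EE n μ R p V)
  have h4 : L * (K * δ ^ 2 * ε) ≤ L * (K * √δ * ε) := by gcongr
  have h5 : 0 ≤ L * √δ * (2 * √a0 * ε + K * √(EE n μ R p V) + √(EE n μ R p V) + ε) := by
    positivity
  nlinarith [h1, h4, h5]

end Vale.Agent.P120
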