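import Vale.Agent.P120.Defs2
import Vale.Agent.P120.Lam2
import Vale.Agent.P120.Exc

/-!
P120 Cacc2. Overview in notes/P120.md, definitions in Defs.lean.
Name every helper lemma of yours with the file name in front (for example cacc2_aux1).

PLAN.
normal_reg_eq: Lam_reg (product form). The map v ↦ (Vᗮ.starProjection v) i is a continuous linear map (EuclideanSpace.proj i ∘L ...), commute it with the integral.
With h = hh p V: T (KK δ (x - y)) = kk δ (x-y) • (h x - h y) and T (KK 1 (p - y)) = - kk 1 (p - y) • h y (hh_sub, hh_self). So the integrand is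
ψ x kk δ (x-y) h_i x - ψ x (kk δ (x-y) - kk 1 (p-y)) h_i y. Both pieces are integrable on the product: the first is bounded by C |ψ x| ww (n+1) y (kk_le_ww, h bounded on
the support of ψ), the second by C |ψ x| ww (n+2) y |h y| <= C' |ψ x| ww (n+1) y (kk_diff_le_ww, |h y| <= |y| + |p|). Swap the variables in the first piece
(integral_prod_swap), recombine, integral_prod_symm, integral_const_mul. FF_bound: Test.le_ww, kk_le_ww, kk_diff_le_ww, one_le_mul_ww.
normal_one_le: either from normal_reg_eq with explicit constants, or directly: norm <= ∫ |ψ x| |h x| ∫ kk 1 (x-y) + ∫ |ψ x| ∫ C ww (n+2) y |h y|, ex_l1; norm <= sum of coordinates.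
-/

open MeasureTheory Metric Set Filter Topology
open scoped ENNReal NNReal RealInnerProductSpace

namespace Vale.Agent.P120

variable {d : ℕ}

theorem continuous_FF (n : ℕ) {δ : ℝ} (hδ : 0 < δ) (p : E d) {ψ : E d → ℝ} (hψ : Continuous ψ) :
    Continuous (FF n δ p ψ) :=
  ((hψ.comp continuous_snd).mul ((continuous_kk n hδ).comp (continuous_snd.sub continuous_fst))).sub
    ((hψ.comp continuous_fst).mul (((continuous_kk n hδ).comp (continuous_fst.sub continuous_snd)).sub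
      ((continuous_kk n one_pos).comp (continuous_const.sub continuous_snd))))

theorem cacc2_bd (n d : ℕ) {δ : ℝ} (hδ : 0 < δ) {R : ℝ} (hR : 0 ≤ R) :
    ∃ C : ℝ, 0 < C ∧ ∀ (p : E d) (ψ : E d → ℝ) (M : ℝ), ‖p‖ ≤ R → (∀ y, ψ y ≠ 0 → ‖y‖ ≤ R) →
      (∀ y, |ψ y| ≤ M) → ∀ u y,
        |ψ y * kk n δ (y - u)| ≤ C * M * ww (n + 1) u * ww (n + 2) y ∧
        |ψ u * (kk n δ (u - y) - kk n 1 (p - y))| ≤ C * M * ww (n + 1) u * ww (n + 2) y := by
  obtain ⟨C1, h1, H1⟩ := kk_le_ww (d := d) n hδ R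
  obtain ⟨C2, h2, H2⟩ := kk_diff_le_ww (d := d) n hδ one_pos R
  refine ⟨C1 * (1 + R) ^ (n + 2) + C2 * (1 + R) ^ (n + 1), by positivity, ?_⟩
  intro p ψ M hp hs hM u y
  have hM0 : 0 ≤ M := (abs_nonneg _).trans (hM u)
  have w1 := ww_pos (n + 1) u
  have w2 := ww_pos (n + 2) y
  constructor
  · by_cases h : ψ y = 0
    · rw [h, zero_mul, abs_zero]
      positivity
    have a1 := H1 y u (hs y h)
    have a2 := one_le_mul_ww (n + 2) (hs y h)
    rw [abs_mul, abs_of_nonneg (kk_nonneg _ _ _)]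
    calc |ψ y| * kk n δ (y - u) ≤ M * (C1 * ww (n + 1) u) :=
          mul_le_mul (hM y) a1 (kk_nonneg _ _ _) hM0
      _ ≤ M * (C1 * ww (n + 1) u) * ((1 + R) ^ (n + 2) * ww (n + 2) y) :=
          le_mul_of_one_le_right (by positivity) a2
      _ = C1 * (1 + R) ^ (n + 2) * M * ww (n + 1) u * ww (n + 2) y := by ring
      _ ≤ _ := by
          gcongr
          exact le_add_of_nonneg_right (by positivity)
  · by_cases h : ψ u = 0
    · rw [h, zero_mul, abs_zero]
      positivity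
    have a1 := H2 u p y (hs u h) hp
    have a2 := one_le_mul_ww (n + 1) (hs u h)
    rw [abs_mul]
    calc |ψ u| * |kk n δ (u - y) - kk n 1 (p - y)| ≤ M * (C2 * ww (n + 2) y) :=
          mul_le_mul (hM u) a1 (abs_nonneg _) hM0
      _ ≤ M * (C2 * ww (n + 2) y) * ((1 + R) ^ (n + 1) * ww (n + 1) u) :=
          le_mul_of_one_le_right (by positivity) a2
      _ = C2 * (1 + R) ^ (n + 1) * M * ww (n + 1) u * ww (n + 2) y := by ring
      _ ≤ _ := by
          gcongr
          exact le_add_of_nonneg_left (by positivity)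

theorem cacc2_supp {ψ : E d → ℝ} {x : E d} {s L : ℝ} (hψ : Test ψ x s L) {y : E d}
    (h : ψ y ≠ 0) : ‖y‖ ≤ ‖x‖ + s := by
  have h1 : dist y x < s := lt_of_not_ge fun h' => h (hψ.2.2.2 y h')
  have h2 := norm_le_norm_add_norm_sub' y x
  rw [dist_eq_norm] at h1
  linarith

theorem cacc2_bd' (n : ℕ) {δ : ℝ} (hδ : 0 < δ) (p : E d) {ψ : E d → ℝ} {x : E d} {s L : ℝ}
    (hψ : Test ψ x s L) : ∃ C : ℝ, ∀ u y,
      |ψ y * kk n δ (y - u)| ≤ C * ww (n + 1) u * ww (n + 2) y ∧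
      |ψ u * (kk n δ (u - y) - kk n 1 (p - y))| ≤ C * ww (n + 1) u * ww (n + 2) y := by
  obtain ⟨C, -, H⟩ := cacc2_bd n d hδ (R := ‖x‖ + |s| + ‖p‖) (by positivity)
  refine ⟨C * (L * s), H p ψ _ ?_ (fun y hy => ?_) hψ.2.2.1⟩
  · linarith [norm_nonneg x, abs_nonneg s]
  · linarith [cacc2_supp hψ hy, le_abs_self s, norm_nonneg p]

theorem FF_bound (n : ℕ) {δ : ℝ} (hδ : 0 < δ) (p : E d) {ψ : E d → ℝ} {x : E d} {s L : ℝ}
    (hψ : Test ψ x s L) :
    ∃ C : ℝ, ∀ u y, |FF n δ p ψ (u, y)| ≤ C * ww (n + 1) u * ww (n + 2) y := by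
  obtain ⟨C, H⟩ := cacc2_bd' n hδ p hψ
  refine ⟨2 * C, fun u y => (abs_sub _ _).trans ?_⟩
  linarith [(H u y).1, (H u y).2]

theorem cacc2_int {n : ℕ} {A : ℝ} {μ : Measure (E d)} (hA : 0 ≤ A) (hU : Up n A μ)
    (p : E d) (V : Submodule ℝ (E d)) {F : E d × E d → ℝ} (hF : Continuous F) {C : ℝ}
    (hC : ∀ u y, |F (u, y)| ≤ C * ww (n + 1) u * ww (n + 2) y) :
    Integrable (fun z : E d × E d => C * (ww (n + 1) z.1 * (‖hh p V z.2‖ * ww (n + 2) z.2)))
      (μ.prod μ) ∧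
    (∀ z : E d × E d, ‖F z • hh p V z.2‖ ≤
      C * (ww (n + 1) z.1 * (‖hh p V z.2‖ * ww (n + 2) z.2))) ∧
    Integrable (fun z : E d × E d => F z • hh p V z.2) (μ.prod μ) := by
  have := hU.sigmaFinite
  have h1 := (ex_l1 hA hU p V (Real.sqrt_nonneg _)
    (Real.sq_sqrt (ex_nonneg n μ 0 one_pos p V)).ge).1
  have h2 := (((hU.integrable_ww hA).1).mul_prod h1).const_mul C
  have h3 : ∀ z : E d × E d, ‖F z • hh p V z.2‖ ≤
      C * (ww (n + 1) z.1 * (‖hh p V z.2‖ * ww (n + 2) z.2)) := fun z => by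
    rw [norm_smul, Real.norm_eq_abs]
    calc |F z| * ‖hh p V z.2‖ ≤ C * ww (n + 1) z.1 * ww (n + 2) z.2 * ‖hh p V z.2‖ :=
          mul_le_mul_of_nonneg_right (hC z.1 z.2) (norm_nonneg _)
      _ = _ := by ring
  exact ⟨h2, h3, h2.mono'
    (hF.smul ((continuous_hh p V).comp continuous_snd)).aestronglyMeasurable
    (Eventually.of_forall h3)⟩

theorem cacc2_vec {n : ℕ} {A : ℝ} {μ : Measure (E d)} (hA : 0 ≤ A) (hU : Up n A μ)
    (p : E d) (V : Submodule ℝ (E d)) {ψ : E d → ℝ} {x : E d} {s L : ℝ} (hψ : Test ψ x s L)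
    {δ : ℝ} (hδ : 0 < δ) :
    Vᗮ.starProjection (Lam n μ p 1 δ ψ) =
      ∫ z : E d × E d, FF n δ p ψ z • hh p V z.2 ∂(μ.prod μ) := by
  have := hU.sigmaFinite
  obtain ⟨i0, e0, -⟩ := Lam_reg hA hU hψ p one_pos hδ
  obtain ⟨C, H⟩ := cacc2_bd' n hδ p hψ
  have hc := hψ.continuous
  have i1 := (cacc2_int hA hU p V (F := fun z => ψ z.2 * kk n δ (z.2 - z.1))
    ((hc.comp continuous_snd).mul ((continuous_kk n hδ).comp (continuous_snd.sub continuous_fst)))
    fun u y => (H u y).1).2.2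
  have i2 := (cacc2_int hA hU p V
    (F := fun z => ψ z.1 * (kk n δ (z.1 - z.2) - kk n 1 (p - z.2)))
    ((hc.comp continuous_fst).mul (((continuous_kk n hδ).comp (continuous_fst.sub continuous_snd)).sub
      ((continuous_kk n one_pos).comp (continuous_const.sub continuous_snd))))
    fun u y => (H u y).2).2.2
  have i3 : Integrable (fun z : E d × E d => (ψ z.1 * kk n δ (z.1 - z.2)) • hh p V z.1)
      (μ.prod μ) := i1.swap
  have e1 : ∀ z : E d × E d,
      Vᗮ.starProjection (ψ z.1 • (KK n δ (z.1 - z.2) - KK n 1 (p - z.2))) =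
        (ψ z.1 * kk n δ (z.1 - z.2)) • hh p V z.1 -
          (ψ z.1 * (kk n δ (z.1 - z.2) - kk n 1 (p - z.2))) • hh p V z.2 := fun z => by
    rw [KK, KK, map_smul, map_sub, map_smul, map_smul, ← hh_sub p V, ← hh_sub p V, hh_self]
    module
  rw [e0, ← ContinuousLinearMap.integral_comp_comm _ i0]
  simp only [e1]
  rw [integral_sub i3 i2,
    ← integral_prod_swap fun z : E d × E d => (ψ z.1 * kk n δ (z.1 - z.2)) • hh p V z.1]
  simp only [Prod.fst_swap, Prod.snd_swap]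
  rw [← integral_sub i1 i2]
  simp only [FF, sub_smul]

theorem normal_reg_eq {n : ℕ} {A : ℝ} {μ : Measure (E d)} (hA : 0 ≤ A) (hU : Up n A μ)
    (p : E d) (V : Submodule ℝ (E d)) {ψ : E d → ℝ} {x : E d} {s L : ℝ} (hψ : Test ψ x s L)
    {δ : ℝ} (hδ : 0 < δ) (i : Fin d) :
    Vᗮ.starProjection (Lam n μ p 1 δ ψ) i =
      ∫ y, hh p V y i * ∫ u, FF n δ p ψ (u, y) ∂μ ∂μ := by
  have := hU.sigmaFinite
  obtain ⟨C, H⟩ := FF_bound n hδ p hψ
  have i1 := (cacc2_int hA hU p V (continuous_FF n hδ p hψ.continuous) H).2.2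
  have e := ContinuousLinearMap.integral_comp_comm (EuclideanSpace.proj (𝕜 := ℝ) i) i1
  have i2 := ContinuousLinearMap.integrable_comp (EuclideanSpace.proj (𝕜 := ℝ) i) i1
  rw [integral_prod_symm _ i2] at e
  rw [cacc2_vec hA hU p V hψ hδ]
  refine e.symm.trans (integral_congr_ae (Eventually.of_forall fun y => ?_))
  simp only
  rw [← integral_const_mul]
  refine integral_congr_ae (Eventually.of_forall fun u => ?_)
  simp [mul_comm]

theorem normal_one_le (n d : ℕ) (A R : ℝ) (hA : 1 ≤ A) (hR : 0 < R) :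
    ∃ C : ℝ, 0 < C ∧ ∀ μ : Measure (E d), Up n A μ →
      ∀ (p : E d) (V : Submodule ℝ (E d)) (ε : ℝ), ‖p‖ ≤ 1 → 0 ≤ ε → ex n μ 0 1 p V ≤ ε ^ 2 →
      ∀ (ψ : E d → ℝ) (L : ℝ), Test ψ 0 R L →
        ‖Vᗮ.starProjection (Lam n μ p 1 1 ψ)‖ ≤ C * L * ε := by
  obtain ⟨C, hC, H⟩ := cacc2_bd n d one_pos (R := R + 1) (by positivity)
  have hA0 : 0 ≤ A := by linarith
  have hc : 0 < Cad n * A := mul_pos (by linarith [one_le_Cad n]) (by linarith)
  refine ⟨2 * C * R * (Cad n * A * √(Cad n * A)), by positivity, ?_⟩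
  intro μ hU p V ε hp hε hex ψ L hψ
  have := hU.sigmaFinite
  have hL := hψ.1
  have H' := H p ψ (L * R) (by linarith)
    (fun y hy => by have := cacc2_supp hψ hy; rw [norm_zero] at this; linarith) hψ.2.2.1
  obtain ⟨i1, i2, -⟩ := cacc2_int hA0 hU p V (continuous_FF n one_pos p hψ.continuous)
    (C := 2 * (C * (L * R))) fun u y => (abs_sub _ _).trans (by linarith [(H' u y).1, (H' u y).2])
  rw [cacc2_vec hA0 hU p V hψ one_pos]
  refine (norm_integral_le_of_norm_le i1 (Eventually.of_forall i2)).trans ?_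
  rw [integral_const_mul,
    integral_prod_mul (ww (n + 1)) fun y => ‖hh p V y‖ * ww (n + 2) y]
  calc _ ≤ 2 * (C * (L * R)) * (Cad n * A * (√(Cad n * A) * ε)) :=
        mul_le_mul_of_nonneg_left (mul_le_mul (hU.integrable_ww hA0).2
          (ex_l1 hA0 hU p V hε hex).2
          (integral_nonneg fun y => mul_nonneg (norm_nonneg _) (ww_pos _ _).le) hc.le)
          (by positivity)
    _ = _ := by ring

end Vale.Agent.P120
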