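import Vale.Agent.P120.Defs2
import Vale.Agent.P120.EnB
import Vale.Agent.P120.Exc

/-!
P120 Cacc3a. Overview in notes/P120.md, definitions in Defs.lean.
Name every helper lemma of yours with the file name in front (for example cacc3a_aux1).

PLAN.
η = bump 0 (2R) is (1/R)-Lipschitz (bump_test), 0 <= η <= 1, η = 0 for |y| >= 2R. Let B = ball 0 (4R), B' = ball 0 (2R). Pointwise (WW_bound):
|WW (x,y)| <= 1_B x 1_B y (kk 0 (x-y) |x-y|^2 + 2) + K (1_B' x ww (n+2) y + 1_B' y ww (n+2) x): if both points are in B use kk 1 <= 1 (kk_le_of_le with m = 1);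
if |y| >= 4R then η y = 0 and WW = η x^2 (kk 0 (x-y) - kk 1 (p-y)), nonzero only for |x| < 2R, and kk_sub_le with m = (1+|y|)/4 applies; symmetric case by kk_sub_comm.
Then |h x| |h y| <= (|h x|^2 + |h y|^2)/2 on the first term with Up.near (centre x, radius 8R) and ex_local; the other terms are products, ex_l1.
Working with lintegrals and Tonelli first, then integrable_of lintegral finite (measurable integrand), is convenient.
-/

open MeasureTheory Metric Set Filter Topology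
open scoped ENNReal NNReal RealInnerProductSpace

namespace Vale.Agent.P120

variable {d : ℕ}

theorem cacc3a_far (n : ℕ) {R : ℝ} (hR : 1 ≤ R) {p y : E d} (hp : ‖p‖ ≤ 1) (hy : 4 * R ≤ ‖y‖)
    (x : E d) : |bump 0 (2 * R) x ^ 2 * (kk n 0 (x - y) - kk n 1 (p - y))| ≤
      (n + 1) * (2 * R + 2) * 4 ^ (n + 2) * (1 + 4 * R) ^ (n + 2) *
        (ww (n + 2) x * ww (n + 2) y) := by
  have w1 := ww_pos (n + 2) x
  have w2 := ww_pos (n + 2) y
  rcases le_or_gt (2 * R) ‖x‖ with hx | hx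
  · rw [bump_eq_zero (by linarith) (by simpa using hx), zero_pow two_ne_zero, zero_mul, abs_zero]
    positivity
  have h1 := kk_sub_le n (δ := 0) (t := 1) (m := (1 + ‖y‖) / 4) (z := x - y) (w := p - y)
    (by positivity) ((norm_le_rr _ _).trans' (by linarith [norm_sub_norm_le y x, norm_sub_rev y x]))
    ((norm_le_rr _ _).trans' (by linarith [norm_sub_norm_le y p, norm_sub_rev y p]))
  have h2 : ‖x - y - (p - y)‖ + |(0 : ℝ) - 1| ≤ 2 * R + 2 := by
    rw [sub_sub_sub_cancel_right, zero_sub, abs_neg, abs_one]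
    linarith [norm_sub_le x p]
  have h3 : (((1 + ‖y‖) / 4) ^ (n + 2))⁻¹ = 4 ^ (n + 2) * ww (n + 2) y := by
    rw [ww, div_pow, inv_div, div_eq_mul_inv]
  rw [abs_mul, abs_pow]
  refine (mul_le_of_le_one_left (abs_nonneg _)
    (pow_le_one₀ (abs_nonneg _) (abs_bump_le_one _ _ _))).trans (h1.trans ?_)
  rw [h3]
  refine (mul_le_mul_of_nonneg_right (mul_le_mul_of_nonneg_left h2 (by positivity))
    (by positivity)).trans ((le_mul_of_one_le_right (by positivity)
      (one_le_mul_ww (n + 2) (R := 4 * R) (y := x) (by linarith))).trans_eq (by ring))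

theorem cacc3a_alg {a b c T W u v u' v' : ℝ} (ha : 0 ≤ a) (hb : 0 ≤ b) (hc : 0 ≤ c) (hT : 0 ≤ T)
    (hW : W ≤ T + 2) (hu : 1 ≤ c * u) (hv : 1 ≤ c * v) (hu' : u ≤ u') (hv' : v ≤ v') :
    a * b * W ≤ c * (a ^ 2 * u * T + b ^ 2 * v * T) + 2 * c ^ 2 * (a * u' * (b * v')) := by
  have h1 := hu.trans (mul_le_mul_of_nonneg_left hu' hc)
  have h2 := hv.trans (mul_le_mul_of_nonneg_left hv' hc)
  have h3 := mul_le_mul_of_nonneg_left (one_le_mul_of_one_le_of_one_le h1 h2) (mul_nonneg ha hb)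
  have h4 := mul_le_mul_of_nonneg_left hu (mul_nonneg (sq_nonneg a) hT)
  have h5 := mul_le_mul_of_nonneg_left hv (mul_nonneg (sq_nonneg b) hT)
  have h6 := mul_le_mul_of_nonneg_left hW (mul_nonneg ha hb)
  have h7 := mul_nonneg (sq_nonneg (a - b)) hT
  have h8 := mul_nonneg (mul_nonneg ha hb) hT
  nlinarith

theorem cacc3a_pt (n : ℕ) {R : ℝ} (hR : 1 ≤ R) : ∃ c K : ℝ, 0 < c ∧ 0 < K ∧ ∀ p x y : E d, ‖p‖ ≤ 1 →
    ∀ a b : ℝ, 0 ≤ a → 0 ≤ b → a * b * |WW n R p (x, y)| ≤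
      c * (a ^ 2 * ww (n + 3) x * (kk n 0 (x - y) * (bump 0 (2 * R) x - bump 0 (2 * R) y) ^ 2) +
        b ^ 2 * ww (n + 3) y * (kk n 0 (x - y) * (bump 0 (2 * R) x - bump 0 (2 * R) y) ^ 2)) +
      K * (a * ww (n + 2) x * (b * ww (n + 2) y)) := by
  obtain ⟨K, hK⟩ : ∃ K : ℝ, K = (n + 1) * (2 * R + 2) * 4 ^ (n + 2) * (1 + 4 * R) ^ (n + 2) :=
    ⟨_, rfl⟩
  obtain ⟨c, hc⟩ : ∃ c : ℝ, c = (1 + 4 * R) ^ (n + 3) := ⟨_, rfl⟩
  have K0 : 0 < K := by rw [hK]; positivity
  have c0 : 0 < c := by rw [hc]; positivity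
  refine ⟨c, 2 * c ^ 2 + K, c0, by positivity, fun p x y hp a b ha hb => ?_⟩
  have w1 := ww_pos (n + 2) x
  have w2 := ww_pos (n + 2) y
  have w3 := ww_pos (n + 3) x
  have w4 := ww_pos (n + 3) y
  have hT := mul_nonneg (kk_nonneg n 0 (x - y)) (sq_nonneg (bump 0 (2 * R) x - bump 0 (2 * R) y))
  have far : |WW n R p (x, y)| ≤ K * (ww (n + 2) x * ww (n + 2) y) → a * b * |WW n R p (x, y)| ≤
      (2 * c ^ 2 + K) * (a * ww (n + 2) x * (b * ww (n + 2) y)) := fun h =>
    ((mul_le_mul_of_nonneg_left h (mul_nonneg ha hb)).trans_eq (by ring)).trans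
      (mul_le_mul_of_nonneg_right (le_add_of_nonneg_left (by positivity)) (by positivity))
  rcases le_or_gt (4 * R) ‖y‖ with hy | hy
  · refine (far ?_).trans (le_add_of_nonneg_left (by positivity))
    refine (hK ▸ cacc3a_far n hR hp hy x).trans_eq' (congrArg _ ?_)
    simp only [WW]
    rw [bump_eq_zero (y := y) (by linarith) (by rw [dist_zero_right]; linarith)]
    ring
  rcases le_or_gt (4 * R) ‖x‖ with hx | hx
  · refine (far ?_).trans (le_add_of_nonneg_left (by positivity))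
    rw [mul_comm (ww _ x)]
    refine (hK ▸ cacc3a_far n hR hp hx y).trans_eq' (congrArg _ ?_)
    simp only [WW]
    rw [bump_eq_zero (y := x) (by linarith) (by rw [dist_zero_right]; linarith), kk_sub_comm n 0 y]
    ring
  have k : ∀ u z : E d, 0 ≤ bump 0 (2 * R) u ^ 2 * kk n 1 z ∧ bump 0 (2 * R) u ^ 2 * kk n 1 z ≤ 1 :=
    fun u z => ⟨mul_nonneg (sq_nonneg _) (kk_nonneg _ _ _), mul_le_one₀
      (pow_le_one₀ (bump_nonneg _ _ _) (bump_le_one _ _ _)) (kk_nonneg _ _ _)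
      ((kk_le_of_le n one_pos ((le_abs_self _).trans (abs_le_rr _ _))).trans_eq (by simp))⟩
  refine (cacc3a_alg ha hb c0.le hT (abs_le.2 ?_) (hc ▸ one_le_mul_ww _ hx.le)
    (hc ▸ one_le_mul_ww _ hy.le) (ww_anti (n + 2).le_succ x) (ww_anti (n + 2).le_succ y)).trans
      (add_le_add le_rfl (mul_le_mul_of_nonneg_right (by linarith) (by positivity)))
  simp only [WW]
  constructor <;> linarith [k x (p - y), k y (p - x)]

theorem WW_integral_le (n d : ℕ) (hn : 1 ≤ n) (A R : ℝ) (hA : 1 ≤ A) (hR : 1 ≤ R) :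
    ∃ C : ℝ, 0 < C ∧ ∀ μ : Measure (E d), Up n A μ →
      ∀ (p : E d) (V : Submodule ℝ (E d)) (ε : ℝ), ‖p‖ ≤ 1 → 0 ≤ ε → ex n μ 0 1 p V ≤ ε ^ 2 →
        Integrable (fun z : E d × E d => ⟪hh p V z.1, hh p V z.2⟫ * WW n R p z) (μ.prod μ) ∧
        |∫ z : E d × E d, ⟪hh p V z.1, hh p V z.2⟫ * WW n R p z ∂(μ.prod μ)| ≤ C * ε ^ 2 := by
  obtain ⟨c, K, c0, K0, hpt⟩ := cacc3a_pt (d := d) n hR
  have hA0 : 0 ≤ A := by linarith
  have hC : 0 < Cad n * A := mul_pos (by linarith [one_le_Cad n]) (by linarith)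
  refine ⟨c * (2 * (Cad n * A * ((2 / (2 * R)) ^ 2 * 1 + 1 ^ 2 / 1))) + K * (Cad n * A),
    by positivity, fun μ hU p V ε hp hε hex => ?_⟩
  have := hU.sigmaFinite
  have ht := bump_test (0 : E d) (r := 2 * R) (by linarith)
  have hB : ∀ y z : E d, |bump 0 (2 * R) y - bump 0 (2 * R) z| ≤ 1 := fun y z =>
    abs_sub_le_of_nonneg_of_le (bump_nonneg _ _ _) (bump_le_one _ _ _) (bump_nonneg _ _ _)
      (bump_le_one _ _ _)
  have hh0 := continuous_hh p V
  have hw : Measurable fun y => ‖hh p V y‖ ^ 2 * ww (n + 3) y :=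
    ((hh0.norm.pow 2).mul (continuous_ww _)).measurable
  have hw0 : ∀ y, 0 ≤ ‖hh p V y‖ ^ 2 * ww (n + 3) y := fun y =>
    mul_nonneg (sq_nonneg _) (ww_pos _ _).le
  obtain ⟨i1, b1⟩ := enb_fst hn hA0 hU ht.measurable ht.2.1 hB one_pos hw hw0
    (ex_unit_integrable hA0 hU p V)
  obtain ⟨i2, b2⟩ := enb_snd hn hA0 hU ht.measurable ht.2.1 hB one_pos hw hw0
    (ex_unit_integrable hA0 hU p V)
  obtain ⟨i3, b3⟩ := ex_l1 hA0 hU p V hε hex
  have i4 := i3.mul_prod i3
  have hI := ((i1.add i2).const_mul c).add (i4.const_mul K)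
  have hb : ∀ z : E d × E d, ‖⟪hh p V z.1, hh p V z.2⟫ * WW n R p z‖ ≤ _ := fun z =>
    ((norm_mul _ _).trans_le (mul_le_mul_of_nonneg_right (norm_inner_le_norm _ _)
      (norm_nonneg _))).trans (hpt p z.1 z.2 hp _ _ (norm_nonneg _) (norm_nonneg _))
  have m1 : Measurable fun z : E d × E d => bump 0 (2 * R) z.1 := ht.measurable.comp measurable_fst
  have m2 : Measurable fun z : E d × E d => bump 0 (2 * R) z.2 := ht.measurable.comp measurable_snd
  refine ⟨hI.mono' (Measurable.aestronglyMeasurable (Measurable.mul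
    (Continuous.measurable (by fun_prop)) (((enb_meas n ht.measurable).sub ((m1.pow_const 2).mul
      ((measurable_kk n 1).comp (measurable_const.sub measurable_snd)))).sub ((m2.pow_const 2).mul
        ((measurable_kk n 1).comp (measurable_const.sub measurable_fst)))))) (ae_of_all _ hb),
    (norm_integral_le_of_norm_le hI (ae_of_all _ hb)).trans ?_⟩
  rw [← ex_unit] at b1 b2
  have b4 := mul_self_le_mul_self (integral_nonneg fun y =>
    mul_nonneg (norm_nonneg _) (ww_pos _ _).le) b3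
  rw [mul_mul_mul_comm, Real.mul_self_sqrt hC.le] at b4
  have b5 := mul_le_mul_of_nonneg_left hex
    (by positivity : 0 ≤ Cad n * A * ((2 / (2 * R)) ^ 2 * 1 + 1 ^ 2 / 1))
  rw [integral_add' ((i1.add i2).const_mul c) (i4.const_mul K), integral_const_mul,
    integral_const_mul, integral_add' i1 i2,
    integral_prod_mul (fun y => ‖hh p V y‖ * ww (n + 2) y) (fun y => ‖hh p V y‖ * ww (n + 2) y)]
  refine (add_le_add (mul_le_mul_of_nonneg_left (add_le_add (b1.trans b5) (b2.trans b5)) c0.le)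
    (mul_le_mul_of_nonneg_left b4 K0.le)).trans_eq (by ring)

end Vale.Agent.P120
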