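import Vale.Agent.P120.Cacc1
import Vale.Agent.P120.Cacc3a

/-!
P120 Cacc3b. Overview in notes/P120.md, definitions in Defs.lean.
Name every helper lemma of yours with the file name in front (for example cacc3b_aux1).

PLAN.
φ i y = η y * (η y * h y i) is a test function (height_test, Test.mul or Test via bump). Coordinates and finite sums commute with the integral (lamI_integrable,
EuclideanSpace.proj, integral_finset_sum). Pointwise, for v in E d and w in Vᗮ, ∑ i, w i * v i = ⟪w, v⟫ = ⟪w, Vᗮ.starProjection v⟫ (hh_mem, PiLp.inner_apply,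
Submodule.inner_starProjection_left_eq_right, starProjection_eq_self_iff), so
∑ i, (lamI n p 1 0 (φ i) z) i = kk 0 (x-y) ⟪η x^2 h x - η y^2 h y, h x - h y⟫ + η x^2 kk 1 (p-y) ⟪h x, h y⟫ + η y^2 kk 1 (p-x) ⟪h x, h y⟫
= kk 0 (x-y) ∑ i (η x h_i x - η y h_i y)^2 - ⟪h x, h y⟫ WW z. Integrate (Test.en_integrable, WW_integral_le).
-/

open MeasureTheory Metric Set Filter Topology
open scoped ENNReal NNReal RealInnerProductSpace

namespace Vale.Agent.P120

variable {d : ℕ}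

theorem cacc3b_inner (p : E d) (V : Submodule ℝ (E d)) (x v : E d) :
    ⟪hh p V x, v⟫ = ⟪hh p V x, Vᗮ.starProjection v⟫ := by
  rw [← Submodule.inner_starProjection_left_eq_right,
    Submodule.starProjection_eq_self_iff.2 (hh_mem p V x)]

theorem cacc3b_sum (u v : E d) : ∑ i, u i * v i = ⟪u, v⟫ := by
  rw [PiLp.inner_apply]
  refine Finset.sum_congr rfl fun i _ => ?_
  simp [mul_comm]

theorem cacc3b_coord {α : Type*} [MeasurableSpace α] {ν : Measure α} {F : α → E d}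
    (hF : Integrable F ν) (i : Fin d) :
    Integrable (fun z => F z i) ν ∧ ∫ z, F z i ∂ν = (∫ z, F z ∂ν) i :=
  ⟨(EuclideanSpace.proj (𝕜 := ℝ) i : E d →L[ℝ] ℝ).integrable_comp hF,
    (EuclideanSpace.proj (𝕜 := ℝ) i : E d →L[ℝ] ℝ).integral_comp_comm hF⟩

theorem cacc3b_point (n : ℕ) (R : ℝ) (p : E d) (V : Submodule ℝ (E d)) (z : E d × E d) :
    ∑ i : Fin d, lamI n p 1 0
        (fun y => bump 0 (2 * R) y * (bump 0 (2 * R) y * hh p V y i)) z i =
      ∑ i : Fin d, kk n 0 (z.1 - z.2) *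
          (bump 0 (2 * R) z.1 * hh p V z.1 i - bump 0 (2 * R) z.2 * hh p V z.2 i) ^ 2 -
        ⟪hh p V z.1, hh p V z.2⟫ * WW n R p z := by
  obtain ⟨x, y⟩ := z
  have hxy : ∀ w : E d, ⟪hh p V w, x - y⟫ = ⟪hh p V w, hh p V x⟫ - ⟪hh p V w, hh p V y⟫ := by
    intro w
    rw [cacc3b_inner, ← hh_sub p V x y, inner_sub_right]
  have hp : ∀ w v : E d, ⟪hh p V w, p - v⟫ = -⟪hh p V w, hh p V v⟫ := by
    intro w v
    rw [cacc3b_inner, ← hh_sub p V p v, hh_self, zero_sub, inner_neg_right]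
  have e1 := hxy x
  have e2 := hxy y
  have e3 := hp x y
  have e4 := hp y x
  have e5 : ⟪hh p V y, hh p V x⟫ = ⟪hh p V x, hh p V y⟫ := real_inner_comm _ _
  rw [e5] at e2 e4
  simp only [← cacc3b_sum] at e1 e2 e3 e4 ⊢
  set a := bump 0 (2 * R) x with ha
  set b := bump 0 (2 * R) y with hb
  set k0 := kk n 0 (x - y) with hk0
  set k1 := kk n 1 (p - y) with hk1
  set k2 := kk n 1 (p - x) with hk2
  have l : ∀ i : Fin d, lamI n p 1 0
        (fun y => bump 0 (2 * R) y * (bump 0 (2 * R) y * hh p V y i)) (x, y) i =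
      a ^ 2 * k0 * (hh p V x i * (x - y) i) - b ^ 2 * k0 * (hh p V y i * (x - y) i) -
        a ^ 2 * k1 * (hh p V x i * (p - y) i) - b ^ 2 * k2 * (hh p V y i * (p - x) i) := by
    intro i
    simp only [lamI, KK, PiLp.sub_apply, PiLp.smul_apply, smul_eq_mul]
    ring
  have r : ∀ i : Fin d, k0 * (a * hh p V x i - b * hh p V y i) ^ 2 =
      a ^ 2 * k0 * (hh p V x i * hh p V x i) - 2 * a * b * k0 * (hh p V x i * hh p V y i) +
        b ^ 2 * k0 * (hh p V y i * hh p V y i) := by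
    intro i
    ring
  simp only [l, r, Finset.sum_sub_distrib, Finset.sum_add_distrib, ← Finset.mul_sum, e1, e2, e3, e4,
    WW]
  ring

theorem cacc_identity (n d : ℕ) (hn : 1 ≤ n) (A R : ℝ) (hA : 1 ≤ A) (hR : 1 ≤ R) :
    ∃ C : ℝ, 0 < C ∧ ∀ μ : Measure (E d), Up n A μ →
      ∀ (p : E d) (V : Submodule ℝ (E d)) (ε : ℝ), ‖p‖ ≤ 1 → 0 ≤ ε → ex n μ 0 1 p V ≤ ε ^ 2 →
        EE n μ R p V / 2 - C * ε ^ 2 ≤
          ∑ i : Fin d, Lam n μ p 1 0
            (fun y => bump 0 (2 * R) y * (bump 0 (2 * R) y * hh p V y i)) i := by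
  obtain ⟨C, hC, hW⟩ := WW_integral_le n d hn A R hA hR
  refine ⟨C, hC, fun μ hU p V ε hp hε hex => ?_⟩
  obtain ⟨hWi, hWb⟩ := hW μ hU p V ε hp hε hex
  have hA0 : 0 ≤ A := by linarith
  have hR2 : 0 < 2 * R := by linarith
  have hT : ∀ i : Fin d, ∃ L : ℝ, Test (fun y => bump 0 (2 * R) y * hh p V y i) 0 (2 * R) L :=
    fun i => height_test p V i hR2
  have hT2 : ∀ i : Fin d, ∃ L : ℝ,
      Test (fun y => bump 0 (2 * R) y * (bump 0 (2 * R) y * hh p V y i)) 0 (2 * R) L := by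
    intro i
    obtain ⟨L, hL⟩ := hT i
    exact ⟨_, (bump_test (0 : E d) hR2).mul hR2.le (abs_bump_le_one _ _) hL.1
      (mul_nonneg hL.1 hR2.le) hL.2.1 (fun y _ => hL.2.2.1 y)⟩
  have hI : ∀ i : Fin d, Integrable (lamI n p 1 0
      (fun y => bump 0 (2 * R) y * (bump 0 (2 * R) y * hh p V y i))) (μ.prod μ) := by
    intro i
    obtain ⟨L, hL⟩ := hT2 i
    exact lamI_integrable hn hA0 hU hL hR2 p one_pos le_rfl
  have hE : ∀ i : Fin d, Integrable (fun z : E d × E d => kk n 0 (z.1 - z.2) *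
      (bump 0 (2 * R) z.1 * hh p V z.1 i - bump 0 (2 * R) z.2 * hh p V z.2 i) ^ 2) (μ.prod μ) := by
    intro i
    obtain ⟨L, hL⟩ := hT i
    have h1 := hL.en_integrable hn hA0 hU hR2
    beta_reduce at h1
    exact h1
  have hc : ∀ i : Fin d, Lam n μ p 1 0
      (fun y => bump 0 (2 * R) y * (bump 0 (2 * R) y * hh p V y i)) i =
      (1 / 2) * ∫ z, lamI n p 1 0
        (fun y => bump 0 (2 * R) y * (bump 0 (2 * R) y * hh p V y i)) z i ∂(μ.prod μ) := by
    intro i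
    rw [(cacc3b_coord (hI i) i).2, Lam, PiLp.smul_apply, smul_eq_mul]
  have hI' : ∀ i : Fin d, Integrable (fun z => lamI n p 1 0
      (fun y => bump 0 (2 * R) y * (bump 0 (2 * R) y * hh p V y i)) z i) (μ.prod μ) := fun i =>
    (cacc3b_coord (hI i) i).1
  have hsum : ∑ i : Fin d, ∫ z, lamI n p 1 0
        (fun y => bump 0 (2 * R) y * (bump 0 (2 * R) y * hh p V y i)) z i ∂(μ.prod μ) =
      EE n μ R p V - ∫ z : E d × E d, ⟪hh p V z.1, hh p V z.2⟫ * WW n R p z ∂(μ.prod μ) := by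
    rw [← integral_finset_sum _ (fun i _ => hI' i)]
    simp only [cacc3b_point]
    rw [integral_sub (integrable_finset_sum _ (fun i _ => hE i)) hWi,
      integral_finset_sum _ (fun i _ => hE i)]
    rfl
  simp only [hc]
  rw [← Finset.mul_sum, hsum]
  have h1 := (abs_le.1 hWb).2
  have h2 : 0 ≤ C * ε ^ 2 := by positivity
  linarith

end Vale.Agent.P120
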