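import Vale.Agent.P120.Cacc2
import Vale.Agent.P120.Cacc3b

/-!
P120 Cacc4. Overview in notes/P120.md, definitions in Defs.lean.
Name every helper lemma of yours with the file name in front (for example cacc4_aux1).

PLAN.
η = bump 0 (2R), φ i = η (η h_i), φ0 = bump 0 (1/2) (Test 0 (1/2) 4, so Test 0 (R/2) 4 and Test 0 S 4 by Test.mono), I0 = ∫ φ0 >= A⁻¹ 4^(-n), m i = ∫ φ i,
|m i| <= K ε (ex_l1, one_le_mul_ww), c i = m i / I0, ψ i = φ i - c i φ0 is a mean zero test at (0,S). Let X = sqrt EE.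
Dfc: |Lam 0 S 0 (ψ i)| <= ν K (X + ε): En (ψ i) <= 2 En (φ i) + 2 c^2 En φ0 (En_sub_mul_le), En (φ i) <= 2 En (η h_i) + K ∫ (η h_i)^2 (En_mul_le), ex_local, Test.en_le.
Lam_eq_of_mean_zero moves to (p,1); Lam p 1 0 (φ i) = Lam (ψ i) + c i • Lam φ0 (Lam_sub_mul). The vector M = ∫ η^2 • h has coordinates m i and lies in Vᗮ
(starProjection commutes with the integral), so ∑ i c i (Lam φ0) i = ⟪M, Vᗮ.starProjection (Lam φ0)⟫ / I0, bounded by K ε (X + ε) through normal_sing_le (δ = 1) and normal_one_le.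
So X^2/2 <= K ε^2 + K ν (X + ε) + K ε (X + ε); finish with 2ab <= a^2/c + c b^2 (nlinarith).
-/

open MeasureTheory Metric Set Filter Topology
open scoped ENNReal NNReal RealInnerProductSpace

namespace Vale.Agent.P120

variable {d : ℕ}

theorem cacc4_fin {X ε ν C1 a b : ℝ} (hC1 : 0 ≤ C1)
    (h : X ^ 2 / 2 - C1 * ε ^ 2 ≤ (a * ν + b * ε) * (X + ε)) :
    X ^ 2 ≤ (4 * C1 + 2 + 12 * a ^ 2 + 12 * b ^ 2) * (ε ^ 2 + ν ^ 2) := by
  have h1 : (a * ν + b * ε) ^ 2 ≤ 2 * (a * ν) ^ 2 + 2 * (b * ε) ^ 2 := by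
    nlinarith [sq_nonneg (a * ν - b * ε)]
  generalize a * ν + b * ε = u at h h1
  have h2 : X ^ 2 ≤ 4 * C1 * ε ^ 2 + 6 * u ^ 2 + 2 * ε ^ 2 := by
    nlinarith [sq_nonneg (X - 2 * u), sq_nonneg (u - ε)]
  have h3 : 0 ≤ C1 * ν ^ 2 := by positivity
  have h4 : 0 ≤ a ^ 2 * ε ^ 2 := by positivity
  have h5 : 0 ≤ b ^ 2 * ν ^ 2 := by positivity
  nlinarith [sq_nonneg ν]

theorem cacc4_sqrt {a K Y : ℝ} (hK : 0 ≤ K) (hY : 0 ≤ Y) (h : a ≤ K * Y ^ 2) :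
    √a ≤ √K * Y := by
  calc √a ≤ √(K * Y ^ 2) := Real.sqrt_le_sqrt h
    _ = √K * Y := by rw [Real.sqrt_mul hK, Real.sqrt_sq hY]

theorem cacc4_pt (m : ℕ) {r : ℝ} (hr : 0 < r) (y : E d) :
    bump 0 r y ≤ (1 + r) ^ m * ww m y := by
  by_cases hy : ‖y‖ ≤ r
  · exact (bump_le_one _ _ _).trans (one_le_mul_ww m hy)
  · rw [bump_eq_zero hr (by rw [dist_zero_right]; exact (not_le.mp hy).le)]
    have := ww_pos m y
    positivity

theorem cacc4_sq {n : ℕ} {A : ℝ} {μ : Measure (E d)} (hA : 0 ≤ A) (hU : Up n A μ) {r : ℝ}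
    (hr : 0 < r) (p : E d) (V : Submodule ℝ (E d)) {ε : ℝ} (h : ex n μ 0 1 p V ≤ ε ^ 2)
    (i : Fin d) :
    ∫ y, (bump 0 r y * hh p V y i) ^ 2 ∂μ ≤ (1 + r) ^ (n + 3) * ε ^ 2 := by
  rw [ex_unit] at h
  calc ∫ y, (bump 0 r y * hh p V y i) ^ 2 ∂μ
      ≤ ∫ y, (1 + r) ^ (n + 3) * (‖hh p V y‖ ^ 2 * ww (n + 3) y) ∂μ := by
        refine integral_mono_of_nonneg (Eventually.of_forall fun y => sq_nonneg _)
          ((ex_unit_integrable hA hU p V).const_mul _) (Eventually.of_forall fun y => ?_)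
        have h1 := cacc4_pt (n + 3) hr y
        have h2 := bump_nonneg (0 : E d) r y
        have h3 := bump_le_one (0 : E d) r y
        have h4 : (hh p V y i) ^ 2 ≤ ‖hh p V y‖ ^ 2 := by
          rw [← sq_abs]
          exact pow_le_pow_left₀ (abs_nonneg _) (PiLp.norm_apply_le (hh p V y) i) 2
        have h5 : bump (0 : E d) r y ^ 2 ≤ (1 + r) ^ (n + 3) * ww (n + 3) y := by nlinarith
        calc (bump 0 r y * hh p V y i) ^ 2 = bump (0 : E d) r y ^ 2 * (hh p V y i) ^ 2 := by ring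
          _ ≤ ((1 + r) ^ (n + 3) * ww (n + 3) y) * ‖hh p V y‖ ^ 2 :=
            mul_le_mul h5 h4 (sq_nonneg _) ((sq_nonneg _).trans h5)
          _ = _ := by ring
    _ = (1 + r) ^ (n + 3) * ∫ y, ‖hh p V y‖ ^ 2 * ww (n + 3) y ∂μ := integral_const_mul _ _
    _ ≤ _ := by gcongr

theorem cacc4_vec {n : ℕ} {A : ℝ} {μ : Measure (E d)} (hA : 0 ≤ A) (hU : Up n A μ) {r : ℝ}
    (hr : 0 < r) (p : E d) (V : Submodule ℝ (E d)) {ε : ℝ} (hε : 0 ≤ ε)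
    (h : ex n μ 0 1 p V ≤ ε ^ 2) :
    ∃ M : E d, ‖M‖ ≤ (1 + r) ^ (n + 2) * √(Cad n * A) * ε ∧ Vᗮ.starProjection M = M ∧
      ∀ i, M i = ∫ y, bump 0 r y * (bump 0 r y * hh p V y i) ∂μ := by
  obtain ⟨hi, hb⟩ := ex_l1 hA hU p V hε h
  have hc := (bump_test (0 : E d) hr).continuous
  have hpt : ∀ y, ‖(bump (0 : E d) r y * bump 0 r y) • hh p V y‖ ≤
      (1 + r) ^ (n + 2) * (‖hh p V y‖ * ww (n + 2) y) := by
    intro y
    have h1 := cacc4_pt (n + 2) hr y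
    have h2 := bump_nonneg (0 : E d) r y
    have h3 := bump_le_one (0 : E d) r y
    have h5 : bump (0 : E d) r y * bump 0 r y ≤ (1 + r) ^ (n + 2) * ww (n + 2) y := by nlinarith
    rw [norm_smul, Real.norm_of_nonneg (mul_nonneg h2 h2)]
    calc _ ≤ ((1 + r) ^ (n + 2) * ww (n + 2) y) * ‖hh p V y‖ :=
          mul_le_mul_of_nonneg_right h5 (norm_nonneg _)
      _ = _ := by ring
  have hI : Integrable (fun y => (bump (0 : E d) r y * bump 0 r y) • hh p V y) μ :=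
    (hi.const_mul _).mono' ((hc.mul hc).smul (continuous_hh p V)).aestronglyMeasurable
      (Eventually.of_forall hpt)
  refine ⟨∫ y, (bump (0 : E d) r y * bump 0 r y) • hh p V y ∂μ, ?_, ?_, fun i => ?_⟩
  · refine (norm_integral_le_of_norm_le (hi.const_mul _) (Eventually.of_forall hpt)).trans ?_
    rw [integral_const_mul, mul_assoc]
    gcongr
  · rw [← ContinuousLinearMap.integral_comp_comm _ hI]
    refine integral_congr_ae (Eventually.of_forall fun y => ?_)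
    exact Submodule.starProjection_eq_self_iff.mpr (Submodule.smul_mem _ _ (hh_mem p V y))
  · have := (EuclideanSpace.proj (𝕜 := ℝ) i).integral_comp_comm hI
    refine Eq.trans this.symm ?_
    refine integral_congr_ae (Eventually.of_forall fun y => ?_)
    simp [mul_assoc]

theorem cacc4_en {n : ℕ} {A R : ℝ} {μ : Measure (E d)} (hn : 1 ≤ n) (hA0 : 0 ≤ A) (hU : Up n A μ)
    (hR : 1 ≤ R) (p : E d) (V : Submodule ℝ (E d)) (i : Fin d) {L L' K0 K1 X ε c : ℝ}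
    (hg : Test (fun y => bump 0 (2 * R) y * hh p V y i) 0 (2 * R) L)
    (hφ : Test (fun y => bump 0 (2 * R) y * (bump 0 (2 * R) y * hh p V y i)) 0 (2 * R) L')
    (hT0 : Test (bump (0 : E d) (1 / 2)) 0 (1 / 2) 4) (hK0' : 0 ≤ K0) (hX0 : 0 ≤ X) (hε : 0 ≤ ε)
    (hX2 : EE n μ R p V = X ^ 2)
    (hsq : ∫ y, (bump 0 (2 * R) y * hh p V y i) ^ 2 ∂μ ≤ K0 * ε ^ 2)
    (hc : c ^ 2 ≤ K1 ^ 2 * ε ^ 2) :
    En n μ (fun y => bump 0 (2 * R) y * (bump 0 (2 * R) y * hh p V y i) -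
        c * bump (0 : E d) (1 / 2) y) ≤ (4 + 2 * (10 * Cad n * A * (2 / (2 * R)) * K0) +
      2 * K1 ^ 2 * (10 * Cad n * A ^ 2 * 4 ^ 2 * (1 / 2) ^ (n + 1))) * (X + ε) ^ 2 := by
  have hr : 0 < 2 * R := by linarith
  have hCad : 0 ≤ Cad n := le_trans zero_le_one (one_le_Cad n)
  have hη := bump_test (0 : E d) hr
  have hεX : ε ^ 2 ≤ (X + ε) ^ 2 := by nlinarith
  have hXX : X ^ 2 ≤ (X + ε) ^ 2 := by nlinarith
  have e1 : En n μ (fun y => bump 0 (2 * R) y * hh p V y i) ≤ X ^ 2 := by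
    rw [← hX2]
    exact Finset.single_le_sum (f := fun j : Fin d =>
      En n μ (fun y => bump 0 (2 * R) y * hh p V y j)) (fun j _ => En_nonneg _ _ _)
      (Finset.mem_univ i)
  have e2 := En_mul_le hn hA0 hU hg hr (η := bump 0 (2 * R)) (M := 2 / (2 * R))
    (by positivity) hη.2.1 (abs_bump_le_one _ _)
  have e3 := En_sub_mul_le hn hA0 hU hφ hr hT0 (by norm_num) c
  have e4 := hT0.en_le hn hA0 hU (by norm_num)
  refine e3.trans ?_
  have f1 : 10 * Cad n * A * (2 / (2 * R)) * ∫ y, (bump 0 (2 * R) y * hh p V y i) ^ 2 ∂μ ≤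
      10 * Cad n * A * (2 / (2 * R)) * (K0 * (X + ε) ^ 2) := by
    refine mul_le_mul_of_nonneg_left (hsq.trans ?_) (by positivity)
    exact mul_le_mul_of_nonneg_left hεX hK0'
  have f2 : c ^ 2 * En n μ (bump (0 : E d) (1 / 2)) ≤
      (K1 ^ 2 * (X + ε) ^ 2) * (10 * Cad n * A ^ 2 * 4 ^ 2 * (1 / 2) ^ (n + 1)) :=
    mul_le_mul (hc.trans (mul_le_mul_of_nonneg_left hεX (sq_nonneg _))) e4 (En_nonneg _ _ _)
      (by positivity)
  linarith

theorem cacc4_l2 {n : ℕ} {A R : ℝ} {μ : Measure (E d)} (hA0 : 0 ≤ A) (hU : Up n A μ)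
    (p : E d) (V : Submodule ℝ (E d)) (i : Fin d) {L K0 K1 X ε c : ℝ}
    (hg : Test (fun y => bump 0 (2 * R) y * hh p V y i) 0 (2 * R) L)
    (hT0 : Test (bump (0 : E d) (1 / 2)) 0 (1 / 2) 4) (hK0' : 0 ≤ K0) (hX0 : 0 ≤ X) (hε : 0 ≤ ε)
    (hsq : ∫ y, (bump 0 (2 * R) y * hh p V y i) ^ 2 ∂μ ≤ K0 * ε ^ 2)
    (hc : c ^ 2 ≤ K1 ^ 2 * ε ^ 2) :
    ∫ y, (bump 0 (2 * R) y * (bump 0 (2 * R) y * hh p V y i) -
        c * bump (0 : E d) (1 / 2) y) ^ 2 ∂μ ≤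
      (2 * K0 + 2 * K1 ^ 2 * ((4 * (1 / 2)) ^ 2 * (A * (1 / 2) ^ n))) * (X + ε) ^ 2 := by
  have hεX : ε ^ 2 ≤ (X + ε) ^ 2 := by nlinarith
  have f0 := hT0.integral_sq_le hA0 hU (by norm_num)
  have f1 : ∫ y, (bump 0 (2 * R) y * (bump 0 (2 * R) y * hh p V y i) -
      c * bump (0 : E d) (1 / 2) y) ^ 2 ∂μ ≤
      ∫ y, (2 * (bump 0 (2 * R) y * hh p V y i) ^ 2 +
        2 * c ^ 2 * bump (0 : E d) (1 / 2) y ^ 2) ∂μ := by
    refine integral_mono_of_nonneg (Eventually.of_forall fun y => sq_nonneg _)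
      (((hg.integrable_sq hU).const_mul _).add ((hT0.integrable_sq hU).const_mul _))
      (Eventually.of_forall fun y => ?_)
    have g1 := bump_nonneg (0 : E d) (2 * R) y
    have g2 := bump_le_one (0 : E d) (2 * R) y
    have g3 : bump (0 : E d) (2 * R) y ^ 2 ≤ 1 := by nlinarith
    have g4 := mul_le_mul_of_nonneg_right g3 (sq_nonneg (bump 0 (2 * R) y * hh p V y i))
    show _ ≤ _
    linarith [sq_nonneg (bump 0 (2 * R) y * (bump 0 (2 * R) y * hh p V y i) +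
      c * bump (0 : E d) (1 / 2) y)]
  rw [integral_add ((hg.integrable_sq hU).const_mul _) ((hT0.integrable_sq hU).const_mul _),
    integral_const_mul, integral_const_mul] at f1
  refine f1.trans ?_
  have f2 : c ^ 2 * ∫ y, bump (0 : E d) (1 / 2) y ^ 2 ∂μ ≤
      (K1 ^ 2 * (X + ε) ^ 2) * ((4 * (1 / 2)) ^ 2 * (A * (1 / 2) ^ n)) :=
    mul_le_mul (hc.trans (mul_le_mul_of_nonneg_left hεX (sq_nonneg _))) f0
      (integral_nonneg fun y => sq_nonneg _) (by positivity)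
  have f3 := hsq.trans (mul_le_mul_of_nonneg_left hεX hK0')
  linarith

theorem cacc (n d : ℕ) (hn : 1 ≤ n) (A R S : ℝ) (hA : 1 ≤ A) (hR : 1 ≤ R) (hS : 2 * R ≤ S) :
    ∃ C : ℝ, 0 < C ∧ ∀ μ : Measure (E d), Up n A μ → Low n A 1 μ → (0 : E d) ∈ μ.support →
      ∀ (p : E d) (V : Submodule ℝ (E d)) (ε ν : ℝ), ‖p‖ ≤ 1 → 0 ≤ ε → 0 ≤ ν →
        ex n μ 0 1 p V ≤ ε ^ 2 → Dfc n μ 0 S ν → EE n μ R p V ≤ C * (ε ^ 2 + ν ^ 2) := by
  have hA0 : 0 ≤ A := by linarith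
  have hr : 0 < 2 * R := by linarith
  have hS0 : 0 < S := by linarith
  have hCad : 0 ≤ Cad n := le_trans zero_le_one (one_le_Cad n)
  obtain ⟨C1, hC1, H1⟩ := cacc_identity n d hn A R hA hR
  obtain ⟨C2, hC2, H2⟩ := normal_sing_le n d hn A R hA hR
  obtain ⟨C3, hC3, H3⟩ := normal_one_le n d A (1 / 2) hA (by norm_num)
  obtain ⟨K1, hK1⟩ : ∃ K1 : ℝ, K1 = A * 4 ^ n * ((1 + 2 * R) ^ (n + 2) * √(Cad n * A)) := ⟨_, rfl⟩
  obtain ⟨K0, hK0⟩ : ∃ K0 : ℝ, K0 = (1 + 2 * R) ^ (n + 3) := ⟨_, rfl⟩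
  obtain ⟨K2, hK2⟩ : ∃ K2 : ℝ, K2 = 4 + 2 * (10 * Cad n * A * (2 / (2 * R)) * K0) +
      2 * K1 ^ 2 * (10 * Cad n * A ^ 2 * 4 ^ 2 * (1 / 2) ^ (n + 1)) := ⟨_, rfl⟩
  obtain ⟨K3, hK3⟩ : ∃ K3 : ℝ, K3 = 2 * K0 + 2 * K1 ^ 2 * ((4 * (1 / 2)) ^ 2 * (A * (1 / 2) ^ n)) :=
    ⟨_, rfl⟩
  have hK1' : 0 ≤ K1 := by rw [hK1]; positivity
  have hK0' : 0 ≤ K0 := by rw [hK0]; positivity
  have hK2' : 0 ≤ K2 := by rw [hK2]; positivity
  have hK3' : 0 ≤ K3 := by rw [hK3]; positivity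
  refine ⟨4 * C1 + 2 + 12 * (d * (√(S ^ n) * (√(S * K2) + √K3))) ^ 2 +
    12 * (K1 * (C2 * 4 + C3 * 4)) ^ 2, by positivity, ?_⟩
  intro μ hU hL h0 p V ε ν hp hε hν hex hD
  have hE0 := EE_nonneg n μ R p V
  obtain ⟨X, hX⟩ : ∃ X : ℝ, X = √(EE n μ R p V) := ⟨_, rfl⟩
  have hX0 : 0 ≤ X := by rw [hX]; exact Real.sqrt_nonneg _
  have hX2 : EE n μ R p V = X ^ 2 := by rw [hX, Real.sq_sqrt hE0]
  rw [hX2]
  refine cacc4_fin hC1.le ?_
  have hid := H1 μ hU p V ε hp hε hex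
  rw [hX2] at hid
  refine hid.trans ?_
  have hT0 : Test (bump (0 : E d) (1 / 2)) 0 (1 / 2) 4 := by
    have := bump_test (0 : E d) (r := 1 / 2) (by norm_num)
    norm_num at this ⊢
    exact this
  obtain ⟨I0, hI0⟩ : ∃ I0 : ℝ, I0 = ∫ y, bump (0 : E d) (1 / 2) y ∂μ := ⟨_, rfl⟩
  have hI1 : A⁻¹ * (1 / 2 / 2) ^ n ≤ I0 := by
    rw [hI0]; exact le_integral_bump hU hL h0 (by norm_num) (by norm_num)
  have hIpos : 0 < I0 := lt_of_lt_of_le (by positivity) hI1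
  have hI2 : I0⁻¹ ≤ A * 4 ^ n := by
    rw [inv_le_comm₀ hIpos (by positivity), mul_inv, ← inv_pow]
    refine le_trans (le_of_eq ?_) hI1
    norm_num
  obtain ⟨M, hM1, hM2, hM3⟩ := cacc4_vec hA0 hU hr p V hε hex
  have hMI : I0⁻¹ * ‖M‖ ≤ K1 * ε := by
    rw [hK1]
    calc I0⁻¹ * ‖M‖ ≤ (A * 4 ^ n) * ((1 + 2 * R) ^ (n + 2) * √(Cad n * A) * ε) := by gcongr
      _ = _ := by ring
  have hsum : ∀ i : Fin d,
      Lam n μ p 1 0 (fun y => bump 0 (2 * R) y * (bump 0 (2 * R) y * hh p V y i)) i ≤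
        (√(S ^ n) * (√(S * K2) + √K3)) * ν * (X + ε) +
          I0⁻¹ * (M i * Lam n μ p 1 0 (bump 0 (1 / 2)) i) := by
    intro i
    obtain ⟨L, hg⟩ := height_test p V i hr
    have hη := bump_test (0 : E d) hr
    have hφ := hη.mul hr.le (abs_bump_le_one _ _) hg.1 (mul_nonneg hg.1 hr.le) hg.2.1
      (fun y _ => hg.2.2.1 y)
    have hφS := hφ.mono (x' := 0) (s' := S) (by simpa using hS) le_rfl hr.le
    have hT0S := hT0.mono (x' := 0) (s' := S) (by simp; linarith) le_rfl (by norm_num)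
    have hψ := hφS.sub_mul hT0S (I0⁻¹ * M i)
    have hc : (I0⁻¹ * M i) ^ 2 ≤ K1 ^ 2 * ε ^ 2 := by
      rw [← mul_pow, ← sq_abs]
      refine pow_le_pow_left₀ (abs_nonneg _) (le_trans ?_ hMI) 2
      rw [abs_mul, abs_of_pos (inv_pos.mpr hIpos)]
      exact mul_le_mul_of_nonneg_left (PiLp.norm_apply_le M i) (inv_pos.mpr hIpos).le
    have hmean : ∫ y, (bump 0 (2 * R) y * (bump 0 (2 * R) y * hh p V y i) -
        I0⁻¹ * M i * bump (0 : E d) (1 / 2) y) ∂μ = 0 := by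
      rw [integral_sub (hφ.integrable hU) ((hT0.integrable hU).const_mul _), integral_const_mul,
        ← hM3, ← hI0]
      field_simp
      ring
    have hd := hD _ _ hψ hmean
    rw [Lam_eq_of_mean_zero hn hA0 hU hψ hS0 hmean 0 p hS0 one_pos le_rfl,
      Lam_sub_mul hn hA0 hU hφS hS0 hT0S hS0 _ p one_pos le_rfl] at hd
    have hsq := cacc4_sq hA0 hU hr p V hex i
    rw [← hK0] at hsq
    have e5 := cacc4_en hn hA0 hU hR p V i hg hφ hT0 hK0' hX0 hε hX2 hsq hc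
    have e6 := cacc4_l2 hA0 hU p V i hg hT0 hK0' hX0 hε hsq hc
    rw [← hK2] at e5
    rw [← hK3] at e6
    have hY : 0 ≤ X + ε := by positivity
    have e7 := cacc4_sqrt (mul_nonneg hS0.le hK2') hY
      ((mul_le_mul_of_nonneg_left e5 hS0.le).trans (le_of_eq (mul_assoc _ _ _).symm))
    have e8 := cacc4_sqrt hK3' hY e6
    have e9 := hd.trans (mul_le_mul_of_nonneg_left (add_le_add e7 e8) (by positivity))
    have e10 := (le_abs_self _).trans ((PiLp.norm_apply_le _ i).trans e9)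
    simp only [PiLp.sub_apply, PiLp.smul_apply, smul_eq_mul] at e10
    linarith
  refine (Finset.sum_le_sum fun i _ => hsum i).trans ?_
  rw [Finset.sum_add_distrib, Finset.sum_const, ← Finset.mul_sum, Finset.card_univ,
    Fintype.card_fin, nsmul_eq_mul]
  have hin : ∑ i : Fin d, M i * Lam n μ p 1 0 (bump 0 (1 / 2)) i =
      ⟪M, Vᗮ.starProjection (Lam n μ p 1 0 (bump 0 (1 / 2)))⟫ := by
    rw [← Submodule.inner_starProjection_left_eq_right, hM2, PiLp.inner_apply]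
    refine Finset.sum_congr rfl fun i _ => ?_
    simp [mul_comm]
  have b1 := H2 μ hU p V ε hε hex _ _
    (hT0.mono (x' := 0) (s' := R / 2) (by simp; linarith) le_rfl (by norm_num)) p 1 1
    one_pos one_pos le_rfl
  have b2 := H3 μ hU p V ε hp hε hex _ _ hT0
  rw [Real.sqrt_one, ← hX, map_sub] at b1
  have b3 : ‖Vᗮ.starProjection (Lam n μ p 1 0 (bump 0 (1 / 2)))‖ ≤ (C2 * 4 + C3 * 4) * (X + ε) := by
    have := norm_le_norm_add_norm_sub' (Vᗮ.starProjection (Lam n μ p 1 0 (bump 0 (1 / 2))))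
      (Vᗮ.starProjection (Lam n μ p 1 1 (bump 0 (1 / 2))))
    linarith [mul_nonneg hC3.le hX0]
  have b4 : I0⁻¹ * ⟪M, Vᗮ.starProjection (Lam n μ p 1 0 (bump 0 (1 / 2)))⟫ ≤
      K1 * ε * ((C2 * 4 + C3 * 4) * (X + ε)) := by
    refine (mul_le_mul_of_nonneg_left (real_inner_le_norm _ _) (inv_pos.mpr hIpos).le).trans ?_
    rw [← mul_assoc]
    exact mul_le_mul hMI b3 (norm_nonneg _) (by positivity)
  rw [hin]
  linarith

end Vale.Agent.P120
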