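import Vale.Agent.P120.Tube

/-!
P120 Close. Overview in notes/P120.md, definitions in Defs.lean.
Name every helper lemma of yours with the file name in front (for example close_aux1).

PLAN.
Write P = V.starProjection, P' = V'.starProjection, Q = 1 - P, Q' = 1 - P', B = ball x s, μ B >= A⁻¹ s^n.
Chebyshev (ex_local with R = 1): μ {y in B : |hh y| > K ε s} <= 2^(n+3) s^n / K^2, same for the other plane.
Step 1 (close_aux, one-sided): for every u in V'ᗮ, |P u| <= C ε |u|. Let a = |P u| > 0, |u| = 1, g y = ⟪u, pj p V y - p'⟫;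
|g y| <= |hh p V y| + |hh p' V' y| (since ⟪u, y - p'⟫ = ⟪u, hh p' V' y⟫), and g y - g z = ⟪P u, y - z⟫.
W = V ⊓ (span {P u})ᗮ has finrank n - 1; z0 = pj p V x - (g x / a^2) • P u. If |g y| <= c a s and |hh p V y| <= c s then
|hh z0 W y| <= 2 c s (hh_norm_le with q = pj p V y - (g y / a^2) • P u). Choose c with C_tube 2c <= A⁻¹/4 and K with
2^(n+3)/K^2 <= A⁻¹/8. If K ε <= c there is y in B outside the tube with both |hh| <= K ε s, so c a s < |g y| <= 2 K ε s.
If K ε > c use a <= 1 <= K ε / c. Step 2: P - P' = P Q' - Q P', |P Q'| <= Cε by step 1, and Q P' is the adjoint of P' Q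
(step 1 with the planes exchanged; ⟪Q P' v, w⟫ = ⟪v, P' Q w⟫). Step 3: pick y0 in B with both |hh| <= K ε s,
|pj y0 - pj' y0| <= 2Kεs, and pj_sub for general y with dist y x <= 4 s.
Near.scale: compare with y = x and use pj_sub.
-/

open MeasureTheory Metric Set Filter Topology
open scoped ENNReal NNReal RealInnerProductSpace

namespace Vale.Agent.P120

variable {d : ℕ}

theorem close_cheb {n : ℕ} {A : ℝ} (hA : 0 ≤ A) {μ : Measure (E d)} (hU : Up n A μ) (x : E d)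
    {s ε K : ℝ} (hs : 0 < s) (hε : 0 < ε) (hK : 0 < K) (p : E d) (V : Submodule ℝ (E d))
    (h : ex n μ x s p V ≤ ε ^ 2) :
    μ.real ({y | (K * ε * s) ^ 2 ≤ ‖hh p V y‖ ^ 2} ∩ ball x s) ≤ 2 ^ (n + 3) / K ^ 2 * s ^ n := by
  obtain ⟨h1, h2⟩ := ex_local hA hU x hs one_pos p V
  rw [one_mul] at h1 h2
  have h3 := mul_meas_ge_le_integral_of_nonneg (μ := μ.restrict (ball x s))
    (Eventually.of_forall fun y => sq_nonneg ‖hh p V y‖) h1 ((K * ε * s) ^ 2)
  rw [measureReal_restrict_apply' measurableSet_ball] at h3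
  have h4 := (h3.trans h2).trans (mul_le_mul_of_nonneg_left h (by positivity))
  rw [← le_div_iff₀' (by positivity)] at h4
  refine h4.trans (le_of_eq ?_)
  rw [one_add_one_eq_two]
  field_simp
  ring

theorem close_pt (n d : ℕ) (A : ℝ) (hA : 1 ≤ A) :
    ∃ c K : ℝ, 0 < c ∧ 0 < K ∧ ∀ μ : Measure (E d), Up n A μ → ∀ x ∈ μ.support, ∀ s : ℝ, 0 < s →
      Low n A s μ → ∀ (p p' : E d) (V V' : Submodule ℝ (E d)) (ε : ℝ), 0 < ε →
        ex n μ x s p V ≤ ε ^ 2 → ex n μ x s p' V' ≤ ε ^ 2 → ∀ (z : E d) (W : Submodule ℝ (E d)),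
        Module.finrank ℝ W + 1 ≤ n → ∃ y ∈ ball x s, 2 * c * s < ‖hh z W y‖ ∧
          ‖hh p V y‖ ≤ K * ε * s ∧ ‖hh p' V' y‖ ≤ K * ε * s := by
  obtain ⟨C, hC, hT⟩ := tube_le n d A hA
  have hA0 : 0 < A := by linarith
  have h2 : (1 : ℝ) ≤ 2 ^ (n + 3) := one_le_pow₀ one_le_two
  refine ⟨min (1 / 2) (A⁻¹ / (8 * C)), 8 * A * 2 ^ (n + 3), by positivity, by positivity,
    fun μ hU x hx s hs hL p p' V V' ε hε h h' z W hW => ?_⟩
  obtain ⟨c, hc⟩ : ∃ c, c = min (1 / 2) (A⁻¹ / (8 * C)) := ⟨_, rfl⟩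
  obtain ⟨K, hK⟩ : ∃ K, K = 8 * A * 2 ^ (n + 3) := ⟨_, rfl⟩
  rw [← hc, ← hK]
  have c0 : 0 < c := by rw [hc]; positivity
  have c1 : c ≤ 1 / 2 := hc ▸ min_le_left _ _
  have c2 : C * (2 * c) ≤ A⁻¹ / 4 := by
    have : c ≤ A⁻¹ / (8 * C) := hc ▸ min_le_right _ _
    rw [le_div_iff₀ (by positivity)] at this
    linarith
  have K1 : 1 ≤ K := by
    rw [hK]; exact one_le_mul_of_one_le_of_one_le (by linarith) h2
  have K0 : 0 < K := by linarith
  have K2 : 2 ^ (n + 3) / K ^ 2 ≤ A⁻¹ / 8 := by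
    calc _ ≤ 2 ^ (n + 3) / K := div_le_div_of_nonneg_left (by positivity) K0
          (le_self_pow₀ K1 (by norm_num))
      _ = _ := by rw [hK]; field_simp
  by_contra hcon
  have hb := (hU.ball_lt_top x s).ne
  have fin : ∀ S : Set (E d), μ (S ∩ ball x s) ≠ ∞ := fun S =>
    ne_top_of_le_ne_top hb (measure_mono inter_subset_right)
  have hsub : ball x s ⊆ ({y | ‖hh z W y‖ ≤ 2 * c * s} ∩ ball x s ∪
      {y | (K * ε * s) ^ 2 ≤ ‖hh p V y‖ ^ 2} ∩ ball x s) ∪
      {y | (K * ε * s) ^ 2 ≤ ‖hh p' V' y‖ ^ 2} ∩ ball x s := fun y hy => by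
    by_cases q1 : ‖hh z W y‖ ≤ 2 * c * s
    · exact Or.inl (Or.inl ⟨q1, hy⟩)
    by_cases q2 : ‖hh p V y‖ ≤ K * ε * s
    · have q3 : K * ε * s < ‖hh p' V' y‖ := not_le.1 fun q3 => hcon ⟨y, hy, not_le.1 q1, q2, q3⟩
      exact Or.inr ⟨pow_le_pow_left₀ (by positivity) q3.le 2, hy⟩
    · exact Or.inl (Or.inr ⟨pow_le_pow_left₀ (by positivity) (not_le.1 q2).le 2, hy⟩)
  have a1 := (hL.real_ball_ge hU hx hs le_rfl).trans ((measureReal_mono hsub
    (measure_union_ne_top (measure_union_ne_top (fin _) (fin _)) (fin _))).trans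
      ((measureReal_union_le _ _).trans (add_le_add_left (measureReal_union_le _ _) _)))
  have a2 : μ.real ({y | ‖hh z W y‖ ≤ 2 * c * s} ∩ ball x s) ≤ C * (2 * c) * s ^ n := by
    rw [inter_comm]
    exact ENNReal.toReal_le_of_le_ofReal (by positivity)
      (hT μ hU W hW z x s (2 * c) hs (by positivity) (by linarith))
  have a3 := close_cheb hA0.le hU x hs hε K0 p V h
  have a4 := close_cheb hA0.le hU x hs hε K0 p' V' h'
  have hsn : 0 < s ^ n := by positivity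
  have a5 := mul_le_mul_of_nonneg_right c2 hsn.le
  have a6 := mul_le_mul_of_nonneg_right K2 hsn.le
  have a7 : 0 < A⁻¹ * s ^ n := by positivity
  linarith

theorem close_one {n : ℕ} {p p' x : E d} {V V' : Submodule ℝ (E d)} {c b s : ℝ} (hc : 0 < c)
    (hb : 0 < b) (hs : 0 < s) (hV : Module.finrank ℝ V = n)
    (h : ∀ (z : E d) (W : Submodule ℝ (E d)), Module.finrank ℝ W + 1 ≤ n →
      ∃ y ∈ ball x s, 2 * c * s < ‖hh z W y‖ ∧ ‖hh p V y‖ ≤ b * s ∧ ‖hh p' V' y‖ ≤ b * s)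
    {u : E d} (hu : u ∈ V'ᗮ) : ‖V.starProjection u‖ ≤ 2 * b / c * ‖u‖ := by
  by_cases hbc : c ≤ b
  · refine (V.norm_starProjection_apply_le u).trans (le_mul_of_one_le_left (norm_nonneg _) ?_)
    rw [le_div_iff₀ hc]
    linarith
  obtain ⟨w, hw⟩ : ∃ w, w = V.starProjection u := ⟨_, rfl⟩
  rw [← hw]
  have wV : w ∈ V := hw ▸ V.starProjection_apply_mem u
  rcases (norm_nonneg w).eq_or_lt with h0 | h0
  · rw [← h0]; positivity
  have hlt : V ⊓ (ℝ ∙ w)ᗮ < V := lt_of_le_of_ne inf_le_left fun e => by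
    have := Submodule.mem_orthogonal_singleton_iff_inner_right.1 (e.ge wV).2
    rw [real_inner_self_eq_norm_sq] at this
    exact (pow_pos h0 2).ne' this
  obtain ⟨g, hg⟩ : ∃ g : E d → ℝ, ∀ y, g y = ⟪u, pj p V y - p'⟫ := ⟨_, fun _ => rfl⟩
  obtain ⟨y, -, y1, y2, y3⟩ := h (pj p V x - (g x / ‖w‖ ^ 2) • w) (V ⊓ (ℝ ∙ w)ᗮ)
    (hV ▸ Submodule.finrank_lt_finrank_of_lt hlt)
  have a1 : g y - g x = ⟪w, V.starProjection (y - x)⟫ := by
    rw [hg, hg, ← inner_sub_right, sub_sub_sub_cancel_right, pj_sub, hw,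
      Submodule.inner_starProjection_left_eq_right, Submodule.starProjection_eq_self_iff.2
        (V.starProjection_apply_mem _)]
  have a2 : pj p V y - (g y / ‖w‖ ^ 2) • w - (pj p V x - (g x / ‖w‖ ^ 2) • w) =
      V.starProjection (y - x) - ((g y - g x) / ‖w‖ ^ 2) • w := by
    rw [← pj_sub p, sub_div, sub_smul]
    abel
  have a3 := hh_norm_le (p := pj p V x - (g x / ‖w‖ ^ 2) • w)
    (q := pj p V y - (g y / ‖w‖ ^ 2) • w) (V := V ⊓ (ℝ ∙ w)ᗮ) (by
      rw [a2]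
      refine ⟨sub_mem (V.starProjection_apply_mem _) (V.smul_mem _ wV),
        Submodule.mem_orthogonal_singleton_iff_inner_right.2 ?_⟩
      rw [inner_sub_right, real_inner_smul_right, real_inner_self_eq_norm_sq, ← a1,
        div_mul_cancel₀ _ (pow_pos h0 2).ne', sub_self]) y
  have a4 : y - (pj p V y - (g y / ‖w‖ ^ 2) • w) = hh p V y + (g y / ‖w‖ ^ 2) • w := by
    rw [pj]; abel
  have a5 : ‖(g y / ‖w‖ ^ 2) • w‖ = |g y| / ‖w‖ := by
    rw [norm_smul, Real.norm_eq_abs, abs_div, abs_of_pos (pow_pos h0 2)]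
    field_simp
  have a6 : g y = ⟪u, hh p' V' y - hh p V y⟫ := by
    have e : pj p V y - p' = hh p' V' y - hh p V y + (pj p' V' y - p') := by
      rw [pj, pj]; abel
    rw [hg, e, inner_add_right, Submodule.inner_left_of_mem_orthogonal (pj_mem p' V' y) hu, add_zero]
  have a7 : |g y| ≤ ‖u‖ * (2 * b * s) := by
    rw [a6]
    refine (abs_real_inner_le_norm _ _).trans (mul_le_mul_of_nonneg_left
      ((norm_sub_le _ _).trans ?_) (norm_nonneg _))
    linarith
  rw [a4] at a3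
  have a8 := a3.trans (norm_add_le _ _)
  rw [a5] at a8
  have a9 : c * s ≤ |g y| / ‖w‖ := by
    have := mul_le_mul_of_nonneg_right (not_le.1 hbc).le hs.le
    linarith
  rw [le_div_iff₀ h0] at a9
  rw [div_mul_eq_mul_div, le_div_iff₀ hc]
  refine le_of_mul_le_mul_right ?_ hs
  linarith

theorem close_two {V V' : Submodule ℝ (E d)} {b : ℝ} (hb : 0 ≤ b)
    (h : ∀ u ∈ V'ᗮ, ‖V.starProjection u‖ ≤ b * ‖u‖)
    (h' : ∀ u ∈ Vᗮ, ‖V'.starProjection u‖ ≤ b * ‖u‖) :
    ‖V.starProjection - V'.starProjection‖ ≤ 2 * b := by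
  refine ContinuousLinearMap.opNorm_le_bound _ (by positivity) fun v => ?_
  have e : (V.starProjection - V'.starProjection) v = V.starProjection (V'ᗮ.starProjection v) -
      Vᗮ.starProjection (V'.starProjection v) := by
    rw [Submodule.starProjection_orthogonal_val, Submodule.starProjection_orthogonal_val, map_sub,
      sub_apply]
    abel
  have a1 := (h _ (V'ᗮ.starProjection_apply_mem v)).trans
    (mul_le_mul_of_nonneg_left (V'ᗮ.norm_starProjection_apply_le v) hb)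
  obtain ⟨r, hr⟩ : ∃ r, r = Vᗮ.starProjection (V'.starProjection v) := ⟨_, rfl⟩
  have rV : r ∈ Vᗮ := hr ▸ Vᗮ.starProjection_apply_mem _
  have a2 : ‖r‖ * ‖r‖ = ⟪V'.starProjection r, v⟫ := by
    rw [Submodule.inner_starProjection_left_eq_right, ← real_inner_self_eq_norm_mul_norm]
    conv_lhs => rw [hr, ← Submodule.inner_starProjection_left_eq_right, ← hr,
      Submodule.starProjection_eq_self_iff.2 rV]
  have a3 : ‖r‖ ≤ b * ‖v‖ := by
    rcases (norm_nonneg r).eq_or_lt with h0 | h0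
    · rw [← h0]; positivity
    refine le_of_mul_le_mul_left (a2.le.trans ((real_inner_le_norm _ _).trans ?_)) h0
    exact (mul_le_mul_of_nonneg_right (h' r rV) (norm_nonneg _)).trans (le_of_eq (by ring))
  rw [e, ← hr]
  linarith [norm_sub_le (V.starProjection (V'ᗮ.starProjection v)) r]

theorem close_move (p p' : E d) (V V' : Submodule ℝ (E d)) (y z : E d) :
    ‖pj p V y - pj p' V' y‖ ≤
      ‖pj p V z - pj p' V' z‖ + ‖V.starProjection - V'.starProjection‖ * dist y z := by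
  have e : pj p V y - pj p' V' y =
      pj p V z - pj p' V' z + (V.starProjection - V'.starProjection) (y - z) := by
    rw [sub_apply, ← pj_sub p, ← pj_sub p']
    abel
  rw [e, dist_eq_norm]
  exact (norm_add_le _ _).trans (add_le_add_right (ContinuousLinearMap.le_opNorm _ _) _)

theorem near_of_ex (n d : ℕ) (hn : 1 ≤ n) (A : ℝ) (hA : 1 ≤ A) :
    ∃ C : ℝ, 0 < C ∧ ∀ μ : Measure (E d), Up n A μ → ∀ x ∈ μ.support, ∀ s : ℝ, 0 < s →
      Low n A s μ → ∀ (p p' : E d) (V V' : Submodule ℝ (E d)) (ε : ℝ),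
        Module.finrank ℝ V = n → Module.finrank ℝ V' = n → 0 < ε →
        ex n μ x s p V ≤ ε ^ 2 → ex n μ x s p' V' ≤ ε ^ 2 → Near p V p' V' x s (C * ε) := by
  obtain ⟨c, K, hc, hK, h⟩ := close_pt n d A hA
  refine ⟨2 * K + 20 * (K / c), by positivity,
    fun μ hU x hx s hs hL p p' V V' ε hV hV' hε h1 h2 => ?_⟩
  have hb : 0 < K * ε := mul_pos hK hε
  have a1 := close_two (b := 2 * (K * ε) / c) (by positivity)
    (fun u hu => close_one hc hb hs hV (h μ hU x hx s hs hL p p' V V' ε hε h1 h2) hu)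
    fun u hu => close_one hc hb hs hV' (h μ hU x hx s hs hL p' p V' V ε hε h2 h1) hu
  have e : 2 * (2 * (K * ε) / c) = 4 * (K / c * ε) := by ring
  have a2 : 0 < K / c * ε := by positivity
  rw [e] at a1
  refine ⟨by linarith, fun y hy => ?_⟩
  obtain ⟨z, z1, -, z2, z3⟩ := h μ hU x hx s hs hL p p' V V' ε hε h1 h2 0 ⊥
    (by rwa [finrank_bot])
  have a3 : ‖pj p V z - pj p' V' z‖ ≤ 2 * (K * ε * s) := by
    rw [pj, pj, sub_sub_sub_cancel_left]
    linarith [norm_sub_le (hh p' V' z) (hh p V z)]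
  have a4 : dist y z ≤ 5 * s := by linarith [dist_triangle_right y z x, mem_ball.1 z1]
  have a5 := mul_le_mul a1 a4 dist_nonneg (by positivity)
  linarith [close_move p p' V V' y z]

theorem Near.mono {p p' x : E d} {V V' : Submodule ℝ (E d)} {t b b' : ℝ} (ht : 0 ≤ t)
    (h : Near p V p' V' x t b) (hb : b ≤ b') : Near p V p' V' x t b' :=
  ⟨h.1.trans hb, fun y hy => (h.2 y hy).trans (mul_le_mul_of_nonneg_right hb ht)⟩

theorem Near.scale {p p' x : E d} {V V' : Submodule ℝ (E d)} {t t' b : ℝ} (ht' : 0 ≤ t')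
    (htt : t' ≤ t) (h : Near p V p' V' x t' b) : Near p V p' V' x t (5 * b) := by
  have hb : 0 ≤ b := (norm_nonneg _).trans h.1
  refine ⟨by linarith [h.1], fun y hy => ?_⟩
  have a1 := h.2 x (by rw [dist_self]; linarith)
  have a2 := mul_le_mul h.1 hy dist_nonneg hb
  have a3 := mul_le_mul_of_nonneg_left htt hb
  linarith [close_move p p' V V' y x]

end Vale.Agent.P120
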