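import Vale.Agent.P120.TestB
import Vale.Agent.P120.Exc

/-!
P120 Conv2. Overview in notes/P120.md, definitions in Defs.lean.
Name every helper lemma of yours with the file name in front (for example conv2_aux1).

PLAN.
Consequences of Conv tested on bumps. exists_near: ∫ bump x r dμ > 0 (it dominates μ (ball x (r/2)) > 0), so eventually
∫ bump x r dμ_k > 0, so μ_k (ball x r) > 0 and Measure.nonempty_inter_support_of_pos.
low: for 0 < r' < r, η = (r - r')/3, cutoff φ = max 0 (min 1 ((r - dist y x)/η)) is 1 on ball x (r - η); eventually there is x_k in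
support μ_k with dist x_k x < η, ball x_k r' lies in ball x (r - η), so A⁻¹ r'^n <= ∫ φ dμ_k → ∫ φ dμ <= μ (ball x r); let r' → r.
zero_mem: the same with x = x_k = 0: μ (ball 0 r) >= A⁻¹ (min r 1 / 2)^n > 0. vec: coordinatewise (tendsto_pi / EuclideanSpace.proj, integral_comp_comm).
ex_tendsto: the integrand is continuous and bounded by C ww (n+1).
flat_transfer: ex μ_k x s p V → ex μ x s p V <= ε^2 < (2ε)^2; exists_near with min r s; Flat.center with c = 1.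
-/

open MeasureTheory Metric Set Filter Topology
open scoped ENNReal NNReal RealInnerProductSpace

namespace Vale.Agent.P120

variable {d : ℕ}

variable {n : ℕ} {A : ℝ} {l : Filter ℕ} {μs : ℕ → Measure (E d)} {μ : Measure (E d)}

theorem Conv.test (h : Conv n A l μs μ) {ψ : E d → ℝ} {x : E d} {s L : ℝ} (hψ : Test ψ x s L) :
    Tendsto (fun k => ∫ y, ψ y ∂(μs k)) l (𝓝 (∫ y, ψ y ∂μ)) :=
  h.2.2 ψ hψ.continuous (hψ.le_ww _)

theorem Conv.vec (hA : 0 ≤ A) (h : Conv n A l μs μ) {m : ℕ} {φ : E d → E m} (hφ : Continuous φ)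
    {C : ℝ} (hC : ∀ y, ‖φ y‖ ≤ C * ww (n + 1) y) :
    Tendsto (fun k => ∫ y, φ y ∂(μs k)) l (𝓝 (∫ y, φ y ∂μ)) := by
  have e : ∀ ν : Measure (E d), Up n A ν → ∀ i, (∫ y, φ y ∂ν) i = ∫ y, φ y i ∂ν := fun ν hν i =>
    ((EuclideanSpace.proj i : E m →L[ℝ] ℝ).integral_comp_comm
      (hν.integrable_of_le hA hφ.aestronglyMeasurable hC)).symm
  have h1 : Tendsto (fun k => (∫ y, φ y ∂(μs k)).ofLp) l (𝓝 (∫ y, φ y ∂μ).ofLp) := by
    refine tendsto_pi_nhds.2 fun i => ?_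
    simp only [e _ (h.1 _), e _ h.2.1]
    exact h.2.2 _ (by fun_prop) ⟨C, fun y => (PiLp.norm_apply_le (φ y) i).trans (hC y)⟩
  exact ((PiLp.continuous_toLp 2 _).tendsto _).comp h1

theorem conv2_cut (h : Conv n A l μs μ) (x : E d) {a b : ℝ} (hab : a < b) :
    ∃ φ : E d → ℝ, Tendsto (fun k => ∫ y, φ y ∂(μs k)) l (𝓝 (∫ y, φ y ∂μ)) ∧
      ∀ ν : Measure (E d), Up n A ν →
        ν.real (ball x a) ≤ ∫ y, φ y ∂ν ∧ ∫ y, φ y ∂ν ≤ ν.real (ball x b) := by
  have hp : 0 < b - a := sub_pos.2 hab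
  obtain ⟨φ, hφ⟩ : ∃ φ : E d → ℝ, φ = fun y => max 0 (min 1 ((b - dist y x) / (b - a))) := ⟨_, rfl⟩
  have hc : Continuous φ := by rw [hφ]; fun_prop
  have h0 : ∀ y, 0 ≤ φ y := fun y => hφ ▸ le_max_left _ _
  have h1 : ∀ y, φ y ≤ 1 := fun y => hφ ▸ max_le zero_le_one (min_le_left _ _)
  have h2 : ∀ y, b ≤ dist y x → φ y = 0 := fun y hy => by
    rw [hφ]
    exact max_eq_left ((min_le_right _ _).trans
      (div_nonpos_of_nonpos_of_nonneg (sub_nonpos.2 hy) hp.le))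
  have h3 : ∀ y ∈ ball x a, φ y = 1 := fun y hy => by
    rw [hφ]
    have : 1 ≤ (b - dist y x) / (b - a) := (one_le_div hp).2 (by linarith [mem_ball.1 hy])
    simp only [min_eq_left this, max_eq_right (zero_le_one' ℝ)]
  refine ⟨φ, h.2.2 φ hc ⟨(1 + (‖x‖ + |b|)) ^ (n + 1), fun y => ?_⟩, fun ν hν => ?_⟩
  · rcases le_or_gt b (dist y x) with hy | hy
    · rw [h2 y hy, abs_zero]
      exact mul_nonneg (by positivity) (ww_pos _ y).le
    · rw [abs_of_nonneg (h0 y)]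
      refine (h1 y).trans (one_le_mul_ww _ ?_)
      have := norm_le_norm_add_norm_sub' y x
      rw [dist_eq_norm] at hy
      linarith [le_abs_self b]
  · have := hν.locFin
    have hi : Integrable φ ν := hc.integrable_of_hasCompactSupport (testb_supp h2)
    refine ⟨?_, by simpa only [one_mul] using testb_int_le hν hi h1 h2⟩
    have h4 : ∫ y, (ball x a).indicator (fun _ => (1 : ℝ)) y ∂ν ≤ ∫ y, φ y ∂ν := by
      refine integral_mono (testb_ind hν x _ 1) hi fun y => ?_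
      by_cases hy : y ∈ ball x a
      · simp only [indicator_of_mem hy]; exact (h3 y hy).ge
      · simp only [indicator_of_notMem hy]; exact h0 y
    rwa [integral_indicator_const _ measurableSet_ball, smul_eq_mul, mul_one] at h4

theorem conv2_upper [l.NeBot] (h : Conv n A l μs μ) {x : E d} {a b c : ℝ} (hab : a < b)
    (hc : ∀ᶠ k in l, c ≤ (μs k).real (ball x a)) : c ≤ μ.real (ball x b) := by
  obtain ⟨φ, h1, h2⟩ := conv2_cut h x hab
  exact (ge_of_tendsto h1 (hc.mono fun k hk => hk.trans (h2 _ (h.1 k)).1)).trans (h2 _ h.2.1).2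

theorem conv2_lower (h : Conv n A l μs μ) {x : E d} {a b c : ℝ} (hab : a < b)
    (hc : c < μ.real (ball x a)) : ∀ᶠ k in l, c < (μs k).real (ball x b) := by
  obtain ⟨φ, h1, h2⟩ := conv2_cut h x hab
  exact (h1.eventually_const_lt (hc.trans_le (h2 _ h.2.1).1)).mono fun k hk =>
    hk.trans_le (h2 _ (h.1 k)).2

theorem Conv.exists_near (h : Conv n A l μs μ) {x : E d} (hx : x ∈ μ.support) {r : ℝ}
    (hr : 0 < r) : ∀ᶠ k in l, ∃ y ∈ (μs k).support, dist y x < r := by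
  have h1 : 0 < μ.real (ball x (r / 2)) :=
    ENNReal.toReal_pos ((Measure.mem_support_iff_forall x).1 hx _
      (ball_mem_nhds x (half_pos hr))).ne' (h.2.1.ball_lt_top x _).ne
  refine (conv2_lower h (half_lt_self hr) h1).mono fun k hk => ?_
  obtain ⟨y, hy1, hy2⟩ := Measure.nonempty_inter_support_of_pos (ENNReal.toReal_pos_iff.1 hk).1
  exact ⟨y, hy2, hy1⟩

theorem Conv.low [l.NeBot] (h : Conv n A l μs μ) (hL : ∀ ρ : ℝ, ∀ᶠ k in l, Low n A ρ (μs k))
    (ρ : ℝ) : Low n A ρ μ := by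
  intro x hx r hr _
  refine ENNReal.ofReal_le_of_le_toReal ?_
  have h1 : Tendsto (fun t : ℝ => A⁻¹ * t ^ n) (𝓝[<] r) (𝓝 (A⁻¹ * r ^ n)) :=
    ((by fun_prop : Continuous fun t : ℝ => A⁻¹ * t ^ n).tendsto r).mono_left nhdsWithin_le_nhds
  refine le_of_tendsto h1 (eventually_of_mem (Ioo_mem_nhdsLT hr) fun t ht => ?_)
  have hη : 0 < (r - t) / 2 := half_pos (sub_pos.2 ht.2)
  refine conv2_upper h (a := t + (r - t) / 2) (by linarith [ht.2]) ?_
  filter_upwards [h.exists_near hx hη, hL t] with k ⟨y, hy1, hy2⟩ hk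
  refine (hk.real_ball_ge (h.1 k) hy1 ht.1 le_rfl).trans ?_
  exact measureReal_mono (ball_subset_ball' (by linarith)) ((h.1 k).ball_lt_top x _).ne

theorem Conv.zero_mem [l.NeBot] (hA : 1 ≤ A) (h : Conv n A l μs μ)
    (hL : ∀ᶠ k in l, Low n A 1 (μs k) ∧ (0 : E d) ∈ (μs k).support) :
    (0 : E d) ∈ μ.support := by
  refine (Measure.mem_support_iff_forall _).2 fun U hU => ?_
  obtain ⟨ε, hε, hb⟩ := Metric.mem_nhds_iff.1 hU
  have h0 : 0 < min ε 1 := lt_min hε one_pos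
  have h1 : A⁻¹ * (min ε 1 / 2) ^ n ≤ μ.real (ball 0 ε) :=
    conv2_upper h ((half_lt_self h0).trans_le (min_le_left _ _)) (hL.mono fun k hk =>
      hk.1.real_ball_ge (h.1 k) hk.2 (half_pos h0) ((half_lt_self h0).le.trans (min_le_right _ _)))
  have h2 : 0 < A⁻¹ * (min ε 1 / 2) ^ n := by positivity
  exact (ENNReal.toReal_pos_iff.1 (h2.trans_le h1)).1.trans_le (measure_mono hb)

theorem Conv.ex_tendsto (h : Conv n A l μs μ) (x : E d) {s : ℝ} (hs : 0 < s) (p : E d)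
    (V : Submodule ℝ (E d)) :
    Tendsto (fun k => ex n (μs k) x s p V) l (𝓝 (ex n μ x s p V)) := by
  refine (h.2.2 _ (exc_cont x hs p V _)
    ⟨(s + ‖x - p‖) ^ 2 * (1 + s + ‖x‖) ^ (n + 1), fun y => ?_⟩).const_mul _
  have h1 : ‖hh p V y‖ ≤ (s + ‖x - p‖) * (1 + ‖y - x‖ / s) := by
    have a1 := hh_norm_le (p := p) (q := p) (V := V) (by simp) y
    have a2 : ‖y - p‖ ≤ ‖y - x‖ + ‖x - p‖ := norm_sub_le_norm_sub_add_norm_sub _ _ _
    have a3 : (s + ‖x - p‖) * (1 + ‖y - x‖ / s) =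
        s + ‖x - p‖ + ‖y - x‖ + ‖x - p‖ * (‖y - x‖ / s) := by field_simp; ring
    have a4 : 0 ≤ ‖x - p‖ * (‖y - x‖ / s) := by positivity
    linarith
  have h3 : 1 + ‖y‖ ≤ (1 + s + ‖x‖) * (1 + ‖y - x‖ / s) := by
    have a2 := norm_le_norm_add_norm_sub' y x
    have a3 : (1 + s + ‖x‖) * (1 + ‖y - x‖ / s) =
        1 + s + ‖x‖ + ‖y - x‖ + (1 + ‖x‖) * (‖y - x‖ / s) := by field_simp; ring
    have a4 : 0 ≤ (1 + ‖x‖) * (‖y - x‖ / s) := by positivity
    linarith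
  have h2 : 0 < 1 + ‖y - x‖ / s := by positivity
  rw [abs_of_nonneg (by positivity), ww]
  generalize 1 + ‖y - x‖ / s = w at h1 h2 h3
  have h4 : (w ^ (n + 1))⁻¹ ≤ (1 + s + ‖x‖) ^ (n + 1) * ((1 + ‖y‖) ^ (n + 1))⁻¹ := by
    rw [← div_eq_mul_inv, inv_eq_one_div, div_le_div_iff₀ (by positivity) (by positivity), one_mul,
      ← mul_pow]
    exact pow_le_pow_left₀ (by positivity) h3 _
  calc ‖hh p V y‖ ^ 2 * (w ^ (n + 3))⁻¹ ≤ ((s + ‖x - p‖) * w) ^ 2 * (w ^ (n + 3))⁻¹ := by gcongr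
    _ = (s + ‖x - p‖) ^ 2 * (w ^ (n + 1))⁻¹ := by field_simp; ring
    _ ≤ _ := by rw [mul_assoc]; exact mul_le_mul_of_nonneg_left h4 (sq_nonneg _)

theorem Conv.flat_transfer (hA : 0 ≤ A) (h : Conv n A l μs μ) {x : E d} (hx : x ∈ μ.support)
    {r s ε : ℝ} (hr : 0 < r) (hs : 0 < s) (hε : 0 < ε) (hF : Flat n μ x s ε) :
    ∀ᶠ k in l, ∃ y ∈ (μs k).support, dist y x < r ∧ Flat n (μs k) y s (2 ^ (n + 4) * ε) := by
  obtain ⟨p, V, hV, h1⟩ := hF
  have h2 : ex n μ x s p V < (2 * ε) ^ 2 := h1.trans_lt (by nlinarith [mul_pos hε hε])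
  filter_upwards [(h.ex_tendsto x hs p V).eventually_lt_const h2,
    h.exists_near hx (lt_min hr hs)] with k hk ⟨y, hy1, hy2⟩
  refine ⟨y, hy1, hy2.trans_le (min_le_left _ _), ?_⟩
  have h3 := Flat.center hA (h.1 k) (x' := y) (c := 1) hs ⟨p, V, hV, hk.le⟩
    (by rw [dist_comm, one_mul]; exact (hy2.trans_le (min_le_right _ _)).le)
  have h4 : (1 + 1 : ℝ) ^ (n + 3) * (2 * ε) = 2 ^ (n + 4) * ε := by
    rw [one_add_one_eq_two]; ring
  rwa [h4] at h3

end Vale.Agent.P120
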