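import Vale.Agent.P120.Conv2

/-!
P120 Conv3. Overview in notes/P120.md, definitions in Defs.lean.
Name every helper lemma of yours with the file name in front (for example conv3_aux1).

PLAN.
continuous_param: continuous_of_dominated locally (continuousAt_of_dominated with bound C ww (n+1) on |y| <= R).
unif: equicontinuity. Given ε and R, take C from hb, T with 2 C Cad A / T <= ε/6 (Up.tail_ww); F is uniformly continuous on the compact
closedBall 0 T ×ˢ closedBall 0 R, so there is δ with |F (x,y) - F (x,y')| <= ε / (6 (A T^n + 1)) for |x| <= T, dist y y' < δ.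
Hence for every measure ν with Up n A ν, |∫ F(.,y) dν - ∫ F(.,y') dν| <= ε/3. Cover closedBall 0 R by finitely many δ-balls
centred in it (IsCompact.elim_nhds_subcover or exists_net), use Conv at the finitely many centres (Filter.eventually_all_finset).
double: integrable on the product (Integrable.mul_prod), integral_prod_symm; with Φ_k y = ∫ F(.,y) dμ_k and Φ, |Φ_k y| <= C Cad A ww (n+1) y;
∫ Φ_k dμ_k - ∫ Φ dμ = ∫ (Φ_k - Φ) dμ_k + (∫ Φ dμ_k - ∫ Φ dμ); split the first integral at |y| = R (unif, tail_ww).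
-/

open MeasureTheory Metric Set Filter Topology
open scoped ENNReal NNReal RealInnerProductSpace

namespace Vale.Agent.P120

variable {d : ℕ}

variable {n : ℕ} {A : ℝ} {l : Filter ℕ} {μs : ℕ → Measure (E d)} {μ : Measure (E d)}

theorem Up.continuous_param (hA : 0 ≤ A) (hU : Up n A μ) {F : E d × E d → ℝ} (hF : Continuous F)
    (hb : ∀ R : ℝ, ∃ C : ℝ, ∀ x y, ‖y‖ ≤ R → |F (x, y)| ≤ C * ww (n + 1) x) :
    Continuous fun y => ∫ x, F (x, y) ∂μ := by
  refine continuous_iff_continuousAt.2 fun y0 => ?_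
  obtain ⟨C, hC⟩ := hb (‖y0‖ + 1)
  refine continuousAt_of_dominated (bound := fun x => C * ww (n + 1) x)
    (Eventually.of_forall fun y => (hF.comp (Continuous.prodMk_left y)).aestronglyMeasurable) ?_
    ((hU.integrable_ww hA).1.const_mul C)
    (Eventually.of_forall fun x => (hF.comp (Continuous.prodMk_right x)).continuousAt)
  filter_upwards [ball_mem_nhds y0 one_pos] with y hy
  refine Eventually.of_forall fun x => hC x y ?_
  rw [mem_ball, dist_eq_norm] at hy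
  linarith [norm_le_insert' y y0]

theorem conv3_split {ν : Measure (E d)} {w g : E d → ℝ} (hw : Integrable w ν)
    (hw0 : ∀ x, 0 ≤ w x) {T η K : ℝ} (hη : 0 ≤ η) (hK : 0 ≤ K)
    (h1 : ∀ x, ‖x‖ < T → |g x| ≤ η * w x) (h2 : ∀ x, |g x| ≤ K * w x) :
    |∫ x, g x ∂ν| ≤ η * ∫ x, w x ∂ν + K * ∫ x in (ball (0 : E d) T)ᶜ, w x ∂ν := by
  have i1 := hw.const_mul η
  have i2 := (hw.indicator (measurableSet_ball (x := (0 : E d)) (ε := T)).compl).const_mul K
  rw [← integral_indicator measurableSet_ball.compl, ← integral_const_mul, ← integral_const_mul,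
    ← integral_add i1 i2, ← Real.norm_eq_abs]
  refine norm_integral_le_of_norm_le (i1.add i2) (Eventually.of_forall fun x => ?_)
  by_cases hx : x ∈ (ball (0 : E d) T)ᶜ
  · rw [indicator_of_mem hx]
    exact (h2 x).trans (le_add_of_nonneg_left (mul_nonneg hη (hw0 x)))
  · rw [indicator_of_notMem hx, mul_zero, add_zero]
    exact h1 x (mem_ball_zero_iff.1 (not_not.1 hx))

theorem conv3_pick {K ε : ℝ} (hK : 0 ≤ K) (hε : 0 < ε) : ∃ η : ℝ, 0 < η ∧ η * K ≤ ε := by
  refine ⟨ε / (K + 1), by positivity, ?_⟩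
  rw [div_mul_eq_mul_div, div_le_iff₀ (by positivity)]
  nlinarith

theorem conv3_abs {a C w : ℝ} (h : a ≤ C * w) (hw : 0 ≤ w) : a ≤ |C| * w :=
  h.trans (mul_le_mul_of_nonneg_right (le_abs_self C) hw)

theorem Conv.unif (hA : 0 ≤ A) (h : Conv n A l μs μ) {F : E d × E d → ℝ} (hF : Continuous F)
    (hb : ∀ R : ℝ, ∃ C : ℝ, ∀ x y, ‖y‖ ≤ R → |F (x, y)| ≤ C * ww (n + 1) x) (R : ℝ) {ε : ℝ}
    (hε : 0 < ε) :
    ∀ᶠ k in l, ∀ y, ‖y‖ ≤ R → |∫ x, F (x, y) ∂(μs k) - ∫ x, F (x, y) ∂μ| ≤ ε := by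
  obtain ⟨C, hC⟩ := hb R
  have hK : 0 ≤ Cad n * A := mul_nonneg (zero_le_one.trans (one_le_Cad n)) hA
  obtain ⟨η, hη, hη'⟩ := conv3_pick hK (show 0 < ε / 6 by positivity)
  obtain ⟨τ, hτ, hτ'⟩ := conv3_pick (show 0 ≤ 2 * |C| * (Cad n * A) by positivity)
    (show 0 < ε / 6 by positivity)
  have hT : 0 < τ⁻¹ := inv_pos.2 hτ
  have hc : IsCompact (closedBall (0 : E d) τ⁻¹ ×ˢ closedBall (0 : E d) R) :=
    (isCompact_closedBall _ _).prod (isCompact_closedBall _ _)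
  obtain ⟨δ, hδ, hδ'⟩ := Metric.uniformContinuousOn_iff.1
    (hc.uniformContinuousOn_of_continuous hF.continuousOn) (η / (1 + τ⁻¹) ^ (n + 1))
    (by positivity)
  have key : ∀ ν : Measure (E d), Up n A ν → ∀ y y', ‖y‖ ≤ R → ‖y'‖ ≤ R → dist y y' < δ →
      |∫ x, F (x, y) ∂ν - ∫ x, F (x, y') ∂ν| ≤ ε / 3 := by
    intro ν hν y y' hy hy' hd
    have hi : ∀ z, ‖z‖ ≤ R → Integrable (fun x => F (x, z)) ν := fun z hz =>
      hν.integrable_of_le hA (hF.comp (Continuous.prodMk_left z)).aestronglyMeasurable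
        fun x => hC x z hz
    rw [← integral_sub (hi y hy) (hi y' hy')]
    refine (conv3_split (hν.integrable_ww hA).1 (fun x => (ww_pos _ x).le) (T := τ⁻¹) hη.le
      (show 0 ≤ 2 * |C| by positivity) (fun x hx => ?_) fun x => ?_).trans ?_
    · have a1 := hδ' (x, y) ⟨mem_closedBall_zero_iff.2 hx.le, mem_closedBall_zero_iff.2 hy⟩
        (x, y') ⟨mem_closedBall_zero_iff.2 hx.le, mem_closedBall_zero_iff.2 hy'⟩
        (by simpa [Prod.dist_eq, hδ] using hd)
      rw [Real.dist_eq, lt_div_iff₀ (by positivity)] at a1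
      have a2 := one_le_mul_ww (n + 1) hx.le
      have a3 := ww_pos (n + 1) x
      nlinarith [abs_nonneg (F (x, y) - F (x, y'))]
    · have a1 := conv3_abs (hC x y hy) (ww_pos _ x).le
      have a2 := conv3_abs (hC x y' hy') (ww_pos _ x).le
      linarith [abs_sub (F (x, y)) (F (x, y'))]
    · have a1 := mul_le_mul_of_nonneg_left (hν.integrable_ww hA).2 hη.le
      have a2 := mul_le_mul_of_nonneg_left (hν.tail_ww hA hT) (show 0 ≤ 2 * |C| by positivity)
      rw [div_inv_eq_mul] at a2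
      nlinarith
  obtain ⟨t, ht, htf, hcov⟩ := finite_cover_balls_of_compact (isCompact_closedBall (0 : E d) R) hδ
  have hev : ∀ᶠ k in l, ∀ y ∈ t, |∫ x, F (x, y) ∂(μs k) - ∫ x, F (x, y) ∂μ| < ε / 3 := by
    refine (eventually_all_finite htf).2 fun y hy => ?_
    exact Metric.tendsto_nhds.1 (h.2.2 _ (hF.comp (Continuous.prodMk_left y))
      ⟨C, fun x => hC x y (mem_closedBall_zero_iff.1 (ht hy))⟩) _ (by positivity)
  filter_upwards [hev] with k hk y hy
  obtain ⟨y', hy', hd⟩ := mem_iUnion₂.1 (hcov (mem_closedBall_zero_iff.2 hy))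
  have hR' := mem_closedBall_zero_iff.1 (ht hy')
  have a1 := abs_le.1 (key _ (h.1 k) y y' hy hR' hd)
  have a2 := abs_le.1 (key _ h.2.1 y y' hy hR' hd)
  have a3 := abs_lt.1 (hk y' hy')
  rw [abs_le]
  constructor <;> linarith [a1.1, a1.2, a2.1, a2.2, a3.1, a3.2]

theorem conv3_small (m : ℕ) {us Ψ : ℕ → E d → ℝ} {K K' : ℝ}
    (hi : ∀ k, Integrable (fun y => |us k y| * ww m y) (μs k) ∧
      ∫ y, |us k y| * ww m y ∂(μs k) ≤ K)
    (ht : ∀ ε : ℝ, 0 < ε → ∃ R : ℝ, 0 < R ∧ ∀ k,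
      ∫ y in (ball (0 : E d) R)ᶜ, |us k y| * ww m y ∂(μs k) ≤ ε)
    (hΨ : ∀ k y, |Ψ k y| ≤ K' * ww m y)
    (hu : ∀ R ε : ℝ, 0 < ε → ∀ᶠ k in l, ∀ y, ‖y‖ ≤ R → |Ψ k y| ≤ ε) :
    Tendsto (fun k => ∫ y, us k y * Ψ k y ∂(μs k)) l (𝓝 0) := by
  refine Metric.tendsto_nhds.2 fun ε hε => ?_
  obtain ⟨η, hη, hη'⟩ := conv3_pick (abs_nonneg K) (show 0 < ε / 3 by positivity)
  obtain ⟨τ, hτ, hτ'⟩ := conv3_pick (abs_nonneg K') (show 0 < ε / 3 by positivity)
  obtain ⟨R, hR, hR'⟩ := ht τ hτ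
  filter_upwards [hu R (η / (1 + R) ^ m) (by positivity)] with k hk
  rw [Real.dist_eq, sub_zero]
  refine (conv3_split (hi k).1 (fun y => mul_nonneg (abs_nonneg _) (ww_pos _ y).le) (T := R) hη.le
    (abs_nonneg K') (fun y hy => ?_) fun y => ?_).trans_lt ?_
  · rw [abs_mul, mul_left_comm]
    refine mul_le_mul_of_nonneg_left ?_ (abs_nonneg _)
    have a1 := hk y hy.le
    rw [le_div_iff₀ (by positivity)] at a1
    have a2 := one_le_mul_ww m hy.le
    have a3 := ww_pos m y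
    nlinarith [abs_nonneg (Ψ k y)]
  · rw [abs_mul, mul_left_comm]
    exact mul_le_mul_of_nonneg_left (conv3_abs (hΨ k y) (ww_pos _ y).le) (abs_nonneg _)
  · have a1 := mul_le_mul_of_nonneg_left ((hi k).2.trans (le_abs_self K)) hη.le
    have a2 := mul_le_mul_of_nonneg_left (hR' k) (abs_nonneg K')
    linarith

theorem conv3_inner (hA : 0 ≤ A) {ν : Measure (E d)} (hν : Up n A ν) {F : E d × E d → ℝ} {C : ℝ}
    {m : ℕ} (hb : ∀ x y, |F (x, y)| ≤ C * ww (n + 1) x * ww m y) (y : E d) :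
    |∫ x, F (x, y) ∂ν| ≤ |C| * (Cad n * A) * ww m y := by
  obtain ⟨i1, b1⟩ := hν.integrable_ww hA
  have a1 := ww_pos m y
  rw [← Real.norm_eq_abs]
  refine (norm_integral_le_of_norm_le (i1.const_mul (|C| * ww m y))
    (Eventually.of_forall fun x => ?_)).trans ?_
  · have a2 := ww_pos (n + 1) x
    have a3 := conv3_abs (C := C) (w := ww (n + 1) x * ww m y) ((hb x y).trans_eq (mul_assoc _ _ _))
      (by positivity)
    exact a3.trans_eq (by ring)
  · rw [integral_const_mul, mul_right_comm]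
    gcongr

theorem conv3_hb {F : E d × E d → ℝ} {C : ℝ} {m : ℕ}
    (hb : ∀ x y, |F (x, y)| ≤ C * ww (n + 1) x * ww m y) (R : ℝ) :
    ∃ C : ℝ, ∀ x y, ‖y‖ ≤ R → |F (x, y)| ≤ C * ww (n + 1) x := by
  refine ⟨|C|, fun x y _ => ?_⟩
  have a1 := ww_pos m y
  have a2 := ww_pos (n + 1) x
  have a3 := conv3_abs (C := C) (w := ww (n + 1) x * ww m y) ((hb x y).trans_eq (mul_assoc _ _ _))
    (by positivity)
  refine a3.trans (mul_le_mul_of_nonneg_left ?_ (abs_nonneg _))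
  exact mul_le_of_le_one_right a2.le (ww_le_one m y)

theorem conv3_diff (hA : 0 ≤ A) (h : Conv n A l μs μ) {F : E d × E d → ℝ} {C : ℝ} {m : ℕ}
    (hb : ∀ x y, |F (x, y)| ≤ C * ww (n + 1) x * ww m y) (k : ℕ) (y : E d) :
    |∫ x, F (x, y) ∂(μs k) - ∫ x, F (x, y) ∂μ| ≤ 2 * (|C| * (Cad n * A)) * ww m y := by
  have a1 := conv3_inner hA (h.1 k) hb y
  have a2 := conv3_inner hA h.2.1 hb y
  linarith [abs_sub (∫ x, F (x, y) ∂(μs k)) (∫ x, F (x, y) ∂μ)]

theorem Conv.double (hA : 0 ≤ A) (h : Conv n A l μs μ) {F : E d × E d → ℝ} (hF : Continuous F)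
    {C : ℝ} (hb : ∀ x y, |F (x, y)| ≤ C * ww (n + 1) x * ww (n + 1) y) :
    Tendsto (fun k => ∫ z, F z ∂((μs k).prod (μs k))) l (𝓝 (∫ z, F z ∂(μ.prod μ))) := by
  have hK : 0 ≤ Cad n * A := mul_nonneg (zero_le_one.trans (one_le_Cad n)) hA
  have hp : ∀ ν : Measure (E d), Up n A ν →
      ∫ z, F z ∂(ν.prod ν) = ∫ y, ∫ x, F (x, y) ∂ν ∂ν := by
    intro ν hν
    have := hν.sigmaFinite
    have i1 := (hν.integrable_ww hA).1
    exact integral_prod_symm _ (((i1.const_mul C).mul_prod i1).mono' hF.aestronglyMeasurable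
      (Eventually.of_forall fun z => hb z.1 z.2))
  have hc : ∀ ν : Measure (E d), Up n A ν → Continuous fun y => ∫ x, F (x, y) ∂ν := fun ν hν =>
    hν.continuous_param hA hF (conv3_hb hb)
  have h1 := h.2.2 _ (hc μ h.2.1) ⟨_, conv3_inner hA h.2.1 hb⟩
  have h2 := conv3_small (l := l) (μs := μs) (n + 1) (us := fun _ _ => 1) (K := Cad n * A)
    (fun k => by simpa using (h.1 k).integrable_ww hA) (fun ε hε => ?_) (conv3_diff hA h hb)
    fun R ε hε => h.unif hA hF (conv3_hb hb) R hε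
  · have h3 := h2.add h1
    rw [zero_add, ← hp μ h.2.1] at h3
    refine h3.congr fun k => ?_
    have hi : ∀ ν : Measure (E d), Up n A ν → Integrable (fun y => ∫ x, F (x, y) ∂ν) (μs k) :=
      fun ν hν => (h.1 k).integrable_of_le hA (hc ν hν).aestronglyMeasurable (conv3_inner hA hν hb)
    simp only [one_mul]
    rw [integral_sub (hi _ (h.1 k)) (hi _ h.2.1), sub_add_cancel, hp _ (h.1 k)]
  · obtain ⟨τ, hτ, hτ'⟩ := conv3_pick hK hε
    refine ⟨τ⁻¹, inv_pos.2 hτ, fun k => ?_⟩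
    simp only [abs_one, one_mul]
    refine ((h.1 k).tail_ww hA (inv_pos.2 hτ)).trans ?_
    rwa [div_inv_eq_mul, mul_comm]

end Vale.Agent.P120
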