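import Vale.Agent.P120.Conv2

/-!
P120 Conv5. Overview in notes/P120.md, definitions in Defs.lean.
Name every helper lemma of yours with the file name in front (for example conv5_aux1).

PLAN.
Let w = ww (n+3), D = the vector space (Submodule of E d → ℝ) of continuous φ with |φ| <= C ww (n+2). For φ in D,
φ^2 / w is continuous and <= C^2 ww (n+1) (ww_add), so ∫ φ^2/w dμ_k → ∫ φ^2/w dμ. By Cauchy-Schwarz
|∫ us k φ dμ_k| <= sqrt B sqrt (∫ φ^2/w dμ_k) (integrable), bounded, so T φ = ultralimit exists, is linear, and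
|T φ| <= sqrt B * norm (J φ) where J φ = φ / sqrt w in H = Lp ℝ 2 μ. Hence T factors through the range of J
(ker J <= ker T: LinearMap.range / Submodule.liftQ / quotKerEquivRange, or define it by choice), extend by
Real.exists_extension_norm_eq (or exists_extension_norm_eq), represent by γ in H (InnerProductSpace.toDual), norm γ <= sqrt B.
u = γ' / sqrt w for a measurable version γ'. A shortcut avoiding quotients: apply the Hahn-Banach theorem
exists_extension_of_le_sublinear on H × ... or use the closed subspace K = closure of range J and the graph; any route is fine.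
-/

open MeasureTheory Metric Set Filter Topology
open scoped ENNReal NNReal RealInnerProductSpace

namespace Vale.Agent.P120

variable {d : ℕ}

theorem conv5_rep {D H : Type*} [AddCommGroup D] [Module ℝ D] [NormedAddCommGroup H]
    [InnerProductSpace ℝ H] [CompleteSpace H] (J : D →ₗ[ℝ] H) (T : D →ₗ[ℝ] ℝ) {c : ℝ} (hc : 0 ≤ c)
    (h : ∀ φ, ‖T φ‖ ≤ c * ‖J φ‖) : ∃ γ : H, ‖γ‖ ≤ c ∧ ∀ φ, T φ = ⟪γ, J φ⟫ := by
  have e : ∀ φ, T.compLeftInverse J ⟨J φ, φ, rfl⟩ = T φ := fun φ =>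
    LinearMap.compLeftInverse_apply_of_bdd T J ⟨c, h⟩ φ _ rfl
  have hn : ‖T.compLeftInverse J‖ ≤ c := by
    refine ContinuousLinearMap.opNorm_le_bound _ hc ?_
    rintro ⟨_, φ, rfl⟩
    rw [e]; exact h φ
  obtain ⟨g, hg, hg'⟩ := exists_extension_norm_eq (LinearMap.range J) (T.compLeftInverse J)
  refine ⟨(InnerProductSpace.toDual ℝ H).symm g, ?_, fun φ => ?_⟩
  · rw [LinearIsometryEquiv.norm_map, hg']; exact hn
  · rw [InnerProductSpace.toDual_symm_apply, ← e]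
    exact (hg ⟨J φ, φ, rfl⟩).symm

theorem conv5_inner {ν : Measure (E d)} (f g : Lp ℝ 2 ν) {f' g' : E d → ℝ} (hf : f =ᵐ[ν] f')
    (hg : g =ᵐ[ν] g') : ⟪f, g⟫ = ∫ y, f' y * g' y ∂ν := by
  rw [L2.inner_def]
  refine integral_congr_ae ?_
  filter_upwards [hf, hg] with y h1 h2
  rw [h1, h2, real_inner_comm]
  rfl

theorem conv5_norm {ν : Measure (E d)} (f : Lp ℝ 2 ν) {f' : E d → ℝ} (hf : f =ᵐ[ν] f') :
    ‖f‖ = √(∫ y, f' y ^ 2 ∂ν) := by
  rw [norm_eq_sqrt_real_inner, conv5_inner f f hf hf]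
  simp only [sq]

theorem conv5_cs {ν : Measure (E d)} {f g : E d → ℝ} (hf : MemLp f 2 ν) (hg : MemLp g 2 ν) :
    |∫ y, f y * g y ∂ν| ≤ √(∫ y, f y ^ 2 ∂ν) * √(∫ y, g y ^ 2 ∂ν) := by
  rw [← conv5_inner _ _ hf.coeFn_toLp hg.coeFn_toLp, ← conv5_norm _ hf.coeFn_toLp,
    ← conv5_norm _ hg.coeFn_toLp]
  exact abs_real_inner_le_norm _ _

/-- continuous functions bounded by a multiple of the square root of the weight -/
def conv5_D (d n : ℕ) : Submodule ℝ (E d → ℝ) where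
  carrier := {ψ | Continuous ψ ∧ ∃ C : ℝ, ∀ y, |ψ y| ≤ C * √(ww (n + 1) y)}
  add_mem' := by
    rintro a b ⟨h1, C, h2⟩ ⟨h3, C', h4⟩
    refine ⟨h1.add h3, C + C', fun y => ?_⟩
    rw [add_mul]
    exact (abs_add_le _ _).trans (add_le_add (h2 y) (h4 y))
  zero_mem' := ⟨continuous_const, 0, fun y => by simp⟩
  smul_mem' := by
    rintro c a ⟨h1, C, h2⟩
    refine ⟨h1.const_smul c, |c| * C, fun y => ?_⟩
    rw [Pi.smul_apply, smul_eq_mul, abs_mul, mul_assoc]
    exact mul_le_mul_of_nonneg_left (h2 y) (abs_nonneg c)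

theorem conv5_sq {n : ℕ} {ψ : E d → ℝ} (h : ψ ∈ conv5_D d n) :
    ∃ C : ℝ, ∀ y, |ψ y ^ 2| ≤ C * ww (n + 1) y := by
  obtain ⟨-, C, h2⟩ := h
  refine ⟨C ^ 2, fun y => ?_⟩
  rw [abs_pow, ← Real.sq_sqrt (ww_pos (n + 1) y).le, ← mul_pow]
  exact pow_le_pow_left₀ (abs_nonneg _) (h2 y) 2

theorem conv5_mem {n : ℕ} {A : ℝ} (hA : 0 ≤ A) {ν : Measure (E d)} (hU : Up n A ν) {ψ : E d → ℝ}
    (h : ψ ∈ conv5_D d n) : MemLp ψ 2 ν := by
  obtain ⟨C, hC⟩ := conv5_sq h
  exact (memLp_two_iff_integrable_sq h.1.aestronglyMeasurable).2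
    (hU.integrable_of_le hA (h.1.pow 2).aestronglyMeasurable hC)

theorem exists_wconv {n : ℕ} {A B : ℝ} (hA : 0 ≤ A) (U : Ultrafilter ℕ) {μs : ℕ → Measure (E d)}
    {μ : Measure (E d)} (h : Conv n A (U : Filter ℕ) μs μ) {us : ℕ → E d → ℝ}
    (hu : ∀ k, WL2 n (μs k) (us k) B) :
    ∃ u : E d → ℝ, WL2 n μ u B ∧ WConv n (U : Filter ℕ) μs μ us u := by
  obtain ⟨hUk, hU, hconv⟩ := h
  set g : E d → ℝ := fun y => √(ww (n + 3) y) with hg
  have g0 : ∀ y, 0 < g y := fun y => Real.sqrt_pos.2 (ww_pos _ y)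
  have gc : Continuous g := (continuous_ww (n + 3)).sqrt
  have g2 : ∀ y, g y ^ 2 = ww (n + 3) y := fun y => Real.sq_sqrt (ww_pos _ y).le
  have hB : 0 ≤ B := le_trans (integral_nonneg fun y =>
    mul_nonneg (sq_nonneg _) (ww_pos _ y).le) (hu 0).2.2
  have v2 : ∀ k, (fun y => (us k y * g y) ^ 2) = fun y => us k y ^ 2 * ww (n + 3) y := fun k => by
    funext y; rw [mul_pow, g2]
  have hv : ∀ k, MemLp (fun y => us k y * g y) 2 (μs k) := fun k =>
    (memLp_two_iff_integrable_sq ((hu k).1.mul gc.measurable).aestronglyMeasurable).2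
      (by have := (hu k).2.1; rw [← v2] at this; exact this)
  set a : conv5_D d n → ℕ → ℝ := fun ψ k => ∫ y, us k y * g y * ψ.1 y ∂(μs k) with ha
  have hb : ∀ ψ k, |a ψ k| ≤ √B * √(∫ y, ψ.1 y ^ 2 ∂(μs k)) := fun ψ k => by
    refine (conv5_cs (hv k) (conv5_mem hA (hUk k) ψ.2)).trans ?_
    rw [v2]
    gcongr
    exact (hu k).2.2
  have hl : ∀ ψ : conv5_D d n, Tendsto (fun k => √B * √(∫ y, ψ.1 y ^ 2 ∂(μs k))) U
      (𝓝 (√B * √(∫ y, ψ.1 y ^ 2 ∂μ))) := fun ψ =>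
    (hconv _ (ψ.2.1.pow 2) (conv5_sq ψ.2)).sqrt.const_mul _
  have hex : ∀ ψ, ∃ t, Tendsto (a ψ) U (𝓝 t) := fun ψ => by
    set L := √B * √(∫ y, ψ.1 y ^ 2 ∂μ) + 1
    have h1 : ∀ᶠ k in (U : Filter ℕ), a ψ k ∈ Icc (-L) L := by
      filter_upwards [(hl ψ).eventually (gt_mem_nhds (lt_add_one _))] with k hk
      exact abs_le.1 ((hb ψ k).trans hk.le)
    obtain ⟨t, -, ht⟩ := isCompact_Icc.ultrafilter_le_nhds (U.map (a ψ)) (le_principal_iff.2 h1)
    exact ⟨t, ht⟩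
  choose t ht using hex
  have hi : ∀ (ψ : conv5_D d n) k, Integrable (fun y => us k y * g y * ψ.1 y) (μs k) :=
    fun ψ k => (hv k).integrable_mul (conv5_mem hA (hUk k) ψ.2)
  let T : conv5_D d n →ₗ[ℝ] ℝ :=
    { toFun := t
      map_add' := fun ψ ψ' => by
        refine tendsto_nhds_unique (ht _) (((ht ψ).add (ht ψ')).congr fun k => ?_)
        simp only [ha, Submodule.coe_add, Pi.add_apply, mul_add]
        exact (integral_add (hi ψ k) (hi ψ' k)).symm
      map_smul' := fun c ψ => by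
        refine tendsto_nhds_unique (ht _) (((ht ψ).const_mul c).congr fun k => ?_)
        simp only [ha, Submodule.coe_smul, Pi.smul_apply, smul_eq_mul]
        rw [← integral_const_mul]
        congr 1; funext y; ring }
  let J : conv5_D d n →ₗ[ℝ] Lp ℝ 2 μ :=
    { toFun := fun ψ => (conv5_mem hA hU ψ.2).toLp ψ.1
      map_add' := fun ψ ψ' => MemLp.toLp_add _ _
      map_smul' := fun c ψ => MemLp.toLp_const_smul _ _ }
  have hJ : ∀ ψ, J ψ =ᵐ[μ] ψ.1 := fun ψ => (conv5_mem hA hU ψ.2).coeFn_toLp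
  obtain ⟨γ, hγ, hγ'⟩ := conv5_rep J T (Real.sqrt_nonneg B) fun ψ => by
    rw [conv5_norm _ (hJ ψ)]
    exact le_of_tendsto_of_tendsto' (ht ψ).abs (hl ψ) (hb ψ)
  have γm : Measurable γ := (Lp.stronglyMeasurable γ).measurable
  have u2 : (fun y => (γ y / g y) ^ 2 * ww (n + 3) y) = fun y => γ y ^ 2 := by
    funext y
    rw [← g2, ← mul_pow, div_mul_cancel₀ _ (g0 y).ne']
  refine ⟨fun y => γ y / g y, ⟨γm.div gc.measurable, ?_, ?_⟩, ?_⟩
  · rw [u2]; exact (Lp.memLp γ).integrable_sq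
  · rw [u2]
    rw [conv5_norm γ EventuallyEq.rfl] at hγ
    exact (Real.sqrt_le_sqrt_iff hB).1 hγ
  · rintro φ hφ ⟨C, hC⟩
    have hm : (fun y => φ y / g y) ∈ conv5_D d n := by
      refine ⟨hφ.div gc fun y => (g0 y).ne', C, fun y => ?_⟩
      rw [abs_div, abs_of_pos (g0 y), div_le_iff₀ (g0 y), mul_assoc, hg,
        ← Real.sqrt_mul (ww_pos _ y).le, ← ww_add, show n + 1 + (n + 3) = n + 2 + (n + 2) by ring,
        ww_add, Real.sqrt_mul_self (ww_pos _ y).le]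
      exact hC y
    have h1 := ht ⟨_, hm⟩
    have h2 : t ⟨_, hm⟩ = ∫ y, γ y / g y * φ y ∂μ := by
      have := hγ' ⟨_, hm⟩
      rw [conv5_inner _ _ EventuallyEq.rfl (hJ _)] at this
      refine this.trans ?_
      congr 1; funext y; ring
    rw [h2] at h1
    refine h1.congr fun k => ?_
    simp only [ha]
    congr 1; funext y
    field_simp [(g0 y).ne']

end Vale.Agent.P120
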