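import Vale.Agent.P120.Conv3

/-!
P120 Conv6. Overview in notes/P120.md, definitions in Defs.lean.
Name every helper lemma of yours with the file name in front (for example conv6_aux1).

PLAN.
WL2.l1 and l1_tail: |u| ww (n+2) <= (c u^2 ww (n+3) + ww (n+1) / c) / 2 for every c > 0 (ww (n+2)^2 = ww (n+3) ww (n+1)), or
Cauchy-Schwarz (integral_mul_le_Lp_mul_Lq_of_nonneg); Up.integrable_ww, Up.tail_ww.
WConv.double: Φ_k y = ∫ F(.,y) dμ_k, Φ y = ∫ F(.,y) dμ are continuous (Up.continuous_param) and bounded by |C| Cad A ww (n+2) y.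
∫ us k Φ_k dμ_k - ∫ u Φ dμ = ∫ us k (Φ_k - Φ) dμ_k + (∫ us k Φ dμ_k - ∫ u Φ dμ). The second goes to 0 by WConv. For the first split at
|y| = R: inside Conv.unif and ∫_{ball R} |us k| <= (1+R)^(n+2) sqrt (B Cad A); outside l1_tail.
-/

open MeasureTheory Metric Set Filter Topology
open scoped ENNReal NNReal RealInnerProductSpace

namespace Vale.Agent.P120

variable {d : ℕ}

variable {n : ℕ} {A B : ℝ} {l : Filter ℕ} {μs : ℕ → Measure (E d)} {μ : Measure (E d)}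

theorem conv6_opt {I ε K : ℝ} (hε : 0 ≤ ε) (hK : 0 ≤ K)
    (hI : ∀ c : ℝ, 0 < c → I ≤ (2 * c)⁻¹ * ε ^ 2 + c / 2 * K ^ 2) : I ≤ ε * K := by
  refine le_of_forall_pos_le_add fun η hη => ?_
  obtain ⟨t, ht, ht'⟩ := conv3_pick (add_nonneg hε hK) hη
  refine (hI ((ε + t) / (K + t)) (by positivity)).trans ?_
  have a1 : (2 * ((ε + t) / (K + t)))⁻¹ * ε ^ 2 ≤ (K + t) * ε / 2 := by
    rw [show (2 * ((ε + t) / (K + t)))⁻¹ * ε ^ 2 = (K + t) * ε / 2 * (ε / (ε + t)) by field_simp]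
    refine mul_le_of_le_one_right (by positivity) ?_
    rw [div_le_one (by positivity)]
    linarith
  have a2 : (ε + t) / (K + t) / 2 * K ^ 2 ≤ (ε + t) * K / 2 := by
    rw [show (ε + t) / (K + t) / 2 * K ^ 2 = (ε + t) * K / 2 * (K / (K + t)) by field_simp]
    refine mul_le_of_le_one_right (by positivity) ?_
    rw [div_le_one (by positivity)]
    linarith
  nlinarith [mul_nonneg ht.le hε, mul_nonneg ht.le hK]

theorem conv6_cs {α : Type*} [MeasurableSpace α] {ν : Measure α} {f P Q : α → ℝ}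
    (hf : AEStronglyMeasurable f ν) (h0 : ∀ y, 0 ≤ f y) (hP : Integrable P ν)
    (hQ : Integrable Q ν) (hP0 : ∀ y, 0 ≤ P y) (hQ0 : ∀ y, 0 ≤ Q y)
    (h : ∀ y, f y ^ 2 ≤ P y * Q y) {B K : ℝ} (hB : ∫ y, P y ∂ν ≤ B) (hK : ∫ y, Q y ∂ν ≤ K) :
    Integrable f ν ∧ ∫ y, f y ∂ν ≤ √B * √K := by
  have hb : ∀ c : ℝ, 0 < c → ∀ y, f y ≤ (2 * c)⁻¹ * P y + c / 2 * Q y := by
    intro c hc y
    have a1 := hP0 y
    have a2 := hQ0 y
    refine (pow_le_pow_iff_left₀ (h0 y) (by positivity) two_ne_zero).1 ((h y).trans ?_)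
    have e : ((2 * c)⁻¹ * P y + c / 2 * Q y) ^ 2 - P y * Q y =
        ((2 * c)⁻¹ * P y - c / 2 * Q y) ^ 2 := by
      field_simp
      ring
    nlinarith [sq_nonneg ((2 * c)⁻¹ * P y - c / 2 * Q y)]
  have hi : Integrable f ν := ((hP.const_mul (2 * 1)⁻¹).add (hQ.const_mul (1 / 2))).mono' hf
    (Eventually.of_forall fun y => by
      rw [Real.norm_of_nonneg (h0 y)]
      exact hb 1 one_pos y)
  refine ⟨hi, conv6_opt (Real.sqrt_nonneg _) (Real.sqrt_nonneg _) fun c hc => ?_⟩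
  rw [Real.sq_sqrt ((integral_nonneg hP0).trans hB), Real.sq_sqrt ((integral_nonneg hQ0).trans hK)]
  refine (integral_mono hi ((hP.const_mul (2 * c)⁻¹).add (hQ.const_mul (c / 2)))
    (hb c hc)).trans ?_
  simp only [Pi.add_apply]
  rw [integral_add (hP.const_mul _) (hQ.const_mul _), integral_const_mul, integral_const_mul]
  gcongr

theorem conv6_sq (n : ℕ) (a : ℝ) (y : E d) :
    (|a| * ww (n + 2) y) ^ 2 ≤ a ^ 2 * ww (n + 3) y * ww (n + 1) y := by
  rw [mul_pow, sq_abs, mul_assoc, sq (ww _ _), ← ww_add, ← ww_add,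
    show n + 2 + (n + 2) = n + 3 + (n + 1) by omega]

theorem WL2.l1 (hA : 0 ≤ A) (hU : Up n A μ) {u : E d → ℝ} (hu : WL2 n μ u B) :
    Integrable (fun y => |u y| * ww (n + 2) y) μ ∧
      ∫ y, |u y| * ww (n + 2) y ∂μ ≤ √B * √(Cad n * A) :=
  conv6_cs (hu.1.abs.mul (continuous_ww _).measurable).aestronglyMeasurable
    (fun y => mul_nonneg (abs_nonneg _) (ww_pos _ y).le) hu.2.1 (hU.integrable_ww hA).1
    (fun y => mul_nonneg (sq_nonneg _) (ww_pos _ y).le) (fun y => (ww_pos _ y).le)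
    (fun y => conv6_sq n (u y) y) hu.2.2 (hU.integrable_ww hA).2

theorem WL2.l1_tail (hA : 0 ≤ A) (hU : Up n A μ) {u : E d → ℝ} (hu : WL2 n μ u B) {R : ℝ}
    (hR : 0 < R) :
    ∫ y in (ball (0 : E d) R)ᶜ, |u y| * ww (n + 2) y ∂μ ≤ √B * √(Cad n * A / R) :=
  (conv6_cs (hu.1.abs.mul (continuous_ww _).measurable).aestronglyMeasurable
    (fun y => mul_nonneg (abs_nonneg _) (ww_pos _ y).le) hu.2.1.integrableOn
    (hU.integrable_ww hA).1.integrableOn
    (fun y => mul_nonneg (sq_nonneg _) (ww_pos _ y).le) (fun y => (ww_pos _ y).le)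
    (fun y => conv6_sq n (u y) y) ((setIntegral_le_integral hu.2.1 (Eventually.of_forall
      fun y => mul_nonneg (sq_nonneg _) (ww_pos _ y).le)).trans hu.2.2) (hU.tail_ww hA hR)).2

theorem WL2.integrable_mul (hA : 0 ≤ A) (hU : Up n A μ) {u : E d → ℝ} (hu : WL2 n μ u B)
    {φ : E d → ℝ} (hφ : AEStronglyMeasurable φ μ) {C : ℝ} (hC : ∀ y, |φ y| ≤ C * ww (n + 2) y) :
    Integrable (fun y => u y * φ y) μ := by
  refine ((hu.l1 hA hU).1.const_mul C).mono' (hu.1.aestronglyMeasurable.mul hφ)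
    (Eventually.of_forall fun y => ?_)
  rw [Real.norm_eq_abs, abs_mul, mul_left_comm]
  exact mul_le_mul_of_nonneg_left (hC y) (abs_nonneg _)

theorem WConv.double (hA : 0 ≤ A) (h : Conv n A l μs μ) {us : ℕ → E d → ℝ} {u : E d → ℝ}
    (hus : ∀ k, WL2 n (μs k) (us k) B) (hw : WConv n l μs μ us u) {F : E d × E d → ℝ}
    (hF : Continuous F) {C : ℝ} (hb : ∀ x y, |F (x, y)| ≤ C * ww (n + 1) x * ww (n + 2) y) :
    Tendsto (fun k => ∫ y, us k y * ∫ x, F (x, y) ∂(μs k) ∂(μs k)) l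
      (𝓝 (∫ y, u y * ∫ x, F (x, y) ∂μ ∂μ)) := by
  have hK : 0 ≤ Cad n * A := mul_nonneg (zero_le_one.trans (one_le_Cad n)) hA
  have hc : ∀ ν : Measure (E d), Up n A ν → Continuous fun y => ∫ x, F (x, y) ∂ν := fun ν hν =>
    hν.continuous_param hA hF (conv3_hb hb)
  have h1 := hw _ (hc μ h.2.1) ⟨_, conv3_inner hA h.2.1 hb⟩
  have h2 := conv3_small (l := l) (μs := μs) (n + 2) (us := us)
    (fun k => (hus k).l1 hA (h.1 k)) (fun ε hε => ?_) (conv3_diff hA h hb)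
    fun R ε hε => h.unif hA hF (conv3_hb hb) R hε
  · have h3 := h2.add h1
    rw [zero_add] at h3
    refine h3.congr fun k => ?_
    have hi : ∀ ν : Measure (E d), Up n A ν →
        Integrable (fun y => us k y * ∫ x, F (x, y) ∂ν) (μs k) := fun ν hν =>
      (hus k).integrable_mul hA (h.1 k) (hc ν hν).aestronglyMeasurable (conv3_inner hA hν hb)
    simp only [mul_sub]
    rw [integral_sub (hi _ (h.1 k)) (hi _ h.2.1), sub_add_cancel]
  · obtain ⟨η, hη, hη'⟩ := conv3_pick (Real.sqrt_nonneg B) hε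
    obtain ⟨τ, hτ, hτ'⟩ := conv3_pick hK (pow_pos hη 2)
    refine ⟨τ⁻¹, inv_pos.2 hτ, fun k => ?_⟩
    refine ((hus k).l1_tail hA (h.1 k) (inv_pos.2 hτ)).trans (le_trans ?_ hη')
    rw [mul_comm]
    refine mul_le_mul_of_nonneg_right (Real.sqrt_le_iff.2 ⟨hη.le, ?_⟩) (Real.sqrt_nonneg _)
    rwa [div_inv_eq_mul, mul_comm]

end Vale.Agent.P120
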