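import Vale.Agent.P120.Mart4

/-!
P120 NStar. Overview in notes/P120.md, definitions in Defs.lean.
Name every helper lemma of yours with the file name in front (for example nstar_aux1).

PLAN.
Apply mart to every coordinate f c = fun y => f y c (MemLp; ∫ (f c)^2 <= ∫ |f|^2 <= C0). nl x i = ∑ c, N c x i + C0 sqrt A sc i.
For x in ball 0 1, Dfc n μ x (sc i) (nl x i): norm of ∫ ψ • f <= ∑ c |∫ f c ψ| (coordinates commute with the integral:
ContinuousLinearMap.integral_comp_comm (EuclideanSpace.proj c); Euclidean norm <= l1 norm), and Test.integral_abs_le.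
nn x i = sqrt (∑ m in range (i+1), (1/4)^m nl x (i-m)^2 + (1/4)^i). Then sc i <= nn x i and nl x (i-m) <= 2^m nn x i for m <= i.
HH: ρ nn <= sc i forces ρ <= 1 (Low.mono); 2^m nn <= 1 forces m <= i (le_of_two_pow_mul_sc), two_pow_mul_sc, Dfc is monotone in ν.
Sum: ∑' i ofReal (nn x i ^2) <= 2 ∑' j ofReal (nl x j ^2) + 2 (geometric, ENNReal.tsum_comm or a Cauchy product), and
nl^2 <= (d+1) (∑ c N c ^2 + C0^2 A sc i ^2); μ (ball 0 1) <= A.
-/

open MeasureTheory Metric Set Filter Topology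
open scoped ENNReal NNReal RealInnerProductSpace

namespace Vale.Agent.P120

variable {d : ℕ}

theorem nstar_conv (a b : ℕ → ℝ≥0∞) :
    ∑' i, ∑ p ∈ Finset.HasAntidiagonal.antidiagonal i, a p.1 * b p.2 = (∑' m, a m) * ∑' j, b j := by
  have h := (Finset.HasAntidiagonal.sigmaAntidiagonalEquivProd (A := ℕ)).tsum_eq
    fun p : ℕ × ℕ => a p.1 * b p.2
  rw [ENNReal.tsum_sigma', ENNReal.tsum_prod'] at h
  simp only [ENNReal.tsum_mul_left, ENNReal.tsum_mul_right] at h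
  rw [← h]
  exact tsum_congr fun i => (Finset.tsum_subtype (Finset.HasAntidiagonal.antidiagonal i)
    fun p : ℕ × ℕ => a p.1 * b p.2).symm

theorem nstar_geo : ∑' j, ENNReal.ofReal (sc j ^ 2) ≤ ENNReal.ofReal 2 := by
  rw [← tsum_geometric_two, ENNReal.ofReal_tsum_of_nonneg (fun _ => by positivity)
    summable_geometric_two]
  exact ENNReal.tsum_le_tsum fun j => ENNReal.ofReal_le_ofReal
    (pow_le_of_le_one (sc_pos j).le (sc_le_one j) two_ne_zero)

theorem nstar_dfc {n : ℕ} {A C0 : ℝ} (hA : 0 ≤ A) (hC0 : 0 ≤ C0) {μ : Measure (E d)}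
    (hU : Up n A μ) {f : E d → E d} (hf : MemLp f 2 μ) {x : E d} {s ν : ℝ} (hs : 0 < s)
    (hν : 0 ≤ ν) {N : Fin d → ℝ}
    (h1 : ∀ (ψ : E d → ℝ) (L : ℝ), Test ψ x s L → ∫ y, ψ y ∂μ = 0 →
      ‖Lam n μ x s 0 ψ - ∫ y, ψ y • f y ∂μ‖ ≤ C0 * (s / 1) * ∫ y, |ψ y| ∂μ)
    (h2 : ∀ c (ψ : E d → ℝ) (L : ℝ), Test ψ x s L → ∫ y, ψ y ∂μ = 0 →
      |∫ y, f y c * ψ y ∂μ| ≤ N c * √(s ^ n) * √(s * En n μ ψ))
    (h3 : ∑ c, N c ^ 2 + (C0 ^ 2 * A + 1) * s ^ 2 ≤ ν ^ 2) : Dfc n μ x s ν := by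
  intro ψ L hψ hz
  have a0 : 0 ≤ ∑ c, N c ^ 2 := Finset.sum_nonneg fun c _ => sq_nonneg _
  have a1 : ‖∫ y, ψ y • f y ∂μ‖ ≤ ν * (√(s ^ n) * √(s * En n μ ψ)) := by
    have hi : Integrable (fun y => ψ y • f y) μ :=
      memLp_one_iff_integrable.1 (hf.smul (hψ.memLp hU))
    refine (pow_le_pow_iff_left₀ (norm_nonneg _) (by positivity) two_ne_zero).1 ?_
    rw [EuclideanSpace.real_norm_sq_eq, mul_pow]
    refine le_trans ?_ (mul_le_mul_of_nonneg_right (show ∑ c, N c ^ 2 ≤ ν ^ 2 by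
      nlinarith [mul_nonneg (sq_nonneg C0) hA, sq_nonneg s]) (sq_nonneg _))
    rw [Finset.sum_mul]
    refine Finset.sum_le_sum fun c _ => ?_
    have b1 : (∫ y, ψ y • f y ∂μ) c = ∫ y, f y c * ψ y ∂μ :=
      ((EuclideanSpace.proj (𝕜 := ℝ) c).integral_comp_comm hi).symm.trans
        (by simp [mul_comm])
    rw [b1, ← mul_pow, ← sq_abs, ← mul_assoc]
    exact pow_le_pow_left₀ (abs_nonneg _) (h2 c ψ L hψ hz) 2
  have a2 : C0 * s * √A ≤ ν := by
    refine (pow_le_pow_iff_left₀ (by positivity) hν two_ne_zero).1 ?_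
    rw [mul_pow, mul_pow, Real.sq_sqrt hA]
    nlinarith [sq_nonneg s]
  have a3 := mul_le_mul_of_nonneg_left (hψ.integral_abs_le hA hU hs) (mul_nonneg hC0 hs.le)
  have a4 := mul_le_mul_of_nonneg_right a2
    (show 0 ≤ √(s ^ n) * √(∫ y, ψ y ^ 2 ∂μ) by positivity)
  have a5 := h1 ψ L hψ hz
  have a6 := norm_le_norm_sub_add (Lam n μ x s 0 ψ) (∫ y, ψ y • f y ∂μ)
  rw [Real.sqrt_mul hA] at a3
  rw [div_one] at a5
  linarith

theorem nstar (n d : ℕ) (hn : 1 ≤ n) (A C0 : ℝ) (hA : 1 ≤ A) (hC0 : 0 ≤ C0) :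
    ∃ C : ℝ, 0 < C ∧ ∀ μ : Measure (E d), Up n A μ → Low n A 1 μ → GoodF n μ 0 1 C0 →
      ∃ nn : E d → ℕ → ℝ, (∀ i, Measurable fun x => nn x i) ∧
        ∫⁻ x in ball (0 : E d) 1, tl nn x 0 ∂μ ≤ ENNReal.ofReal C ∧
        ∀ x ∈ μ.support, ‖x‖ < 1 → ∀ i, HH n A μ x (sc i) (nn x i) := by
  obtain ⟨C, hC, hM⟩ := mart n d hn A hA
  have A0 : 0 ≤ A := zero_le_one.trans hA
  have K0 : 0 < C0 ^ 2 * A + 1 := by positivity
  refine ⟨2 * (d * (C * C0) + (C0 ^ 2 * A + 1) * 2 * A), by positivity,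
    fun μ hU hL ⟨f, hf, hf1, hf2⟩ => ?_⟩
  have hc : ∀ c : Fin d, MemLp (fun y => f y c) 2 μ := fun c =>
    (EuclideanSpace.proj (𝕜 := ℝ) c).comp_memLp' hf
  choose N N1 N2 N3 N4 using fun c => hM μ hU hL _ (hc c)
  obtain ⟨q, hq⟩ : ∃ q : E d → ℕ → ℝ,
      ∀ x j, q x j = ∑ c, N c x j ^ 2 + (C0 ^ 2 * A + 1) * sc j ^ 2 := ⟨_, fun _ _ => rfl⟩
  have q0 : ∀ x j, 0 ≤ q x j := fun x j => by
    rw [hq]
    positivity
  have s0 : ∀ x i, 0 ≤ ∑ p ∈ Finset.HasAntidiagonal.antidiagonal i, sc p.1 ^ 2 * q x p.2 := fun x i =>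
    Finset.sum_nonneg fun p _ => mul_nonneg (sq_nonneg _) (q0 _ _)
  refine ⟨fun x i => √(∑ p ∈ Finset.HasAntidiagonal.antidiagonal i, sc p.1 ^ 2 * q x p.2), fun i => ?_, ?_,
    fun x hx hx1 i => ?_⟩
  · simp only [hq]
    fun_prop
  · have a1 : ∀ x, tl (fun x i => √(∑ p ∈ Finset.HasAntidiagonal.antidiagonal i, sc p.1 ^ 2 * q x p.2)) x 0 ≤
        ENNReal.ofReal 2 * (∑ c, tl (N c) x 0 + ENNReal.ofReal ((C0 ^ 2 * A + 1) * 2)) := fun x => by
      simp only [tl, zero_add, Real.sq_sqrt (s0 _ _)]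
      simp only [ENNReal.ofReal_sum_of_nonneg fun (p : ℕ × ℕ) _ =>
        mul_nonneg (sq_nonneg (sc p.1)) (q0 x p.2), ENNReal.ofReal_mul (sq_nonneg _)]
      rw [nstar_conv (fun m => ENNReal.ofReal (sc m ^ 2)) fun j => ENNReal.ofReal (q x j)]
      refine mul_le_mul' nstar_geo ?_
      have b1 : ∀ j, ENNReal.ofReal (q x j) = ∑ c, ENNReal.ofReal (N c x j ^ 2) +
          ENNReal.ofReal (C0 ^ 2 * A + 1) * ENNReal.ofReal (sc j ^ 2) := fun j => by
        rw [hq, ENNReal.ofReal_add (by positivity) (by positivity), ENNReal.ofReal_mul K0.le,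
          ENNReal.ofReal_sum_of_nonneg fun _ _ => sq_nonneg _]
      simp only [b1]
      rw [ENNReal.tsum_add, Summable.tsum_finsetSum fun _ _ => ENNReal.summable,
        ENNReal.tsum_mul_left, ENNReal.ofReal_mul K0.le]
      exact add_le_add le_rfl (mul_le_mul' le_rfl nstar_geo)
    have a2 : ∀ c, Measurable fun x => tl (N c) x 0 := fun c =>
      Measurable.tsum fun l => ((N1 c _).pow_const 2).ennreal_ofReal
    have a3 : ∀ c, ∫⁻ x in ball (0 : E d) 1, tl (N c) x 0 ∂μ ≤ ENNReal.ofReal (C * C0) := fun c => by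
      refine ((setLIntegral_le_lintegral _ _).trans (N3 c)).trans (ENNReal.ofReal_le_ofReal
        (mul_le_mul_of_nonneg_left (le_trans (integral_mono_of_nonneg
          (Eventually.of_forall fun y => sq_nonneg _) (hf.integrable_norm_pow two_ne_zero)
          (Eventually.of_forall fun y => ?_)) (by simpa using hf1)) hC.le))
      show f y c ^ 2 ≤ ‖f y‖ ^ 2
      rw [← sq_abs]
      exact pow_le_pow_left₀ (abs_nonneg _) (PiLp.norm_apply_le (f y) c) 2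
    refine (lintegral_mono a1).trans ?_
    rw [lintegral_const_mul' _ _ ENNReal.ofReal_ne_top,
      lintegral_add_left (Finset.measurable_sum _ fun c _ => a2 c),
      lintegral_finsetSum _ fun c _ => a2 c, setLIntegral_const,
      ENNReal.ofReal_mul zero_le_two, ENNReal.ofReal_add (by positivity) (by positivity),
      ENNReal.ofReal_mul (p := (C0 ^ 2 * A + 1) * 2) (by positivity),
      ENNReal.ofReal_mul (Nat.cast_nonneg d), ENNReal.ofReal_natCast]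
    refine mul_le_mul' le_rfl (add_le_add ((Finset.sum_le_card_nsmul _ _ _ fun c _ => a3 c).trans
      (by simp)) (mul_le_mul' le_rfl ?_))
    simpa using hU 0 1 one_pos
  · obtain ⟨ν, hν⟩ : ∃ ν, ν = √(∑ p ∈ Finset.HasAntidiagonal.antidiagonal i, sc p.1 ^ 2 * q x p.2) := ⟨_, rfl⟩
    show HH n A μ x (sc i) (√_)
    rw [← hν]
    have n0 : 0 ≤ ν := hν ▸ Real.sqrt_nonneg _
    have a1 : ∀ m ≤ i, q x (i - m) ≤ (2 ^ m * ν) ^ 2 := fun m hm => by
      have b1 : sc m ^ 2 * q x (i - m) ≤ ν ^ 2 := by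
        rw [hν, Real.sq_sqrt (s0 _ _)]
        exact Finset.single_le_sum (f := fun p : ℕ × ℕ => sc p.1 ^ 2 * q x p.2)
          (fun p _ => mul_nonneg (sq_nonneg _) (q0 _ _)) (a := (m, i - m))
          (Finset.HasAntidiagonal.mem_antidiagonal.2 (Nat.add_sub_cancel' hm))
      have b2 : 2 ^ m * sc m = 1 := by rw [two_pow_mul_sc le_rfl, Nat.sub_self, sc_zero]
      have b3 := mul_le_mul_of_nonneg_left b1 (sq_nonneg ((2 : ℝ) ^ m))
      rwa [← mul_assoc, ← mul_pow, b2, one_pow, one_mul, ← mul_pow] at b3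
    have a2 : sc i ≤ ν := by
      refine (pow_le_pow_iff_left₀ (sc_pos i).le n0 two_ne_zero).1 ?_
      have b1 := a1 0 i.zero_le
      rw [hq, Nat.sub_zero, pow_zero, one_mul] at b1
      have b2 : 0 ≤ ∑ c, N c x i ^ 2 := by positivity
      nlinarith [mul_nonneg (mul_nonneg (sq_nonneg C0) A0) (sq_nonneg (sc i))]
    refine ⟨hU, fun ρ hρ => hL.mono ?_, hx, n0, fun m hm => ?_⟩
    · exact le_of_mul_le_mul_right (by linarith) ((sc_pos i).trans_le a2)
    · have hmi : m ≤ i := le_of_two_pow_mul_sc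
        ((mul_le_mul_of_nonneg_left a2 (by positivity)).trans hm)
      rw [two_pow_mul_sc hmi]
      exact nstar_dfc A0 hC0 hU hf (sc_pos _) (by positivity)
        (hf2 x (mem_ball_zero_iff.2 hx1) _ (sc_pos _) (sc_le_one _)) (fun c => N4 c x _)
        (hq x _ ▸ a1 m hmi)

end Vale.Agent.P120
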