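import Vale.Agent.P120.Ind
import Vale.Agent.P120.NStar

/-!
P120 Core. Overview in notes/P120.md, definitions in Defs.lean.
Name every helper lemma of yours with the file name in front (for example core_aux1).

PLAN.
C from nstar, η from ind, N with C / (N η) <= 1/(2A), a = 1/(2A). F = {x in support ∩ ball 0 1 | tl nn x 0 < ofReal (N η)} is measurable (isClosed_support, measurable_tl).
ball 0 1 ⊆ F ∪ supportᶜ ∪ {x in ball 0 1 | ofReal (N η) <= tl}; Chebyshev (meas_ge_le_lintegral_div or mul_meas_ge_le_lintegral for μ.restrict (ball 0 1)); Low at (0,1). sc_zero, Piece.mono_set.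
-/

open MeasureTheory Metric Set Filter Topology
open scoped ENNReal NNReal RealInnerProductSpace

namespace Vale.Agent.P120

variable {d : ℕ}

theorem core (n d : ℕ) (hn : 1 ≤ n) (hnd : n ≤ d) (A C0 : ℝ) (hA : 1 ≤ A) (hC0 : 0 ≤ C0) :
    ∃ θ : ℝ, 0 < θ ∧ ∃ M : ℝ, ∀ μ : Measure (E d), Up n A μ → Low n A 1 μ →
      (0 : E d) ∈ μ.support → GoodF n μ 0 1 C0 → Piece n μ (ball 0 1) 1 θ M := by
  obtain ⟨C, hC, hns⟩ := nstar n d hn A C0 hA hC0
  obtain ⟨η, hη, hind⟩ := ind n d hn hnd A hA
  have A0 : 0 < A := zero_lt_one.trans_le hA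
  obtain ⟨N, hN⟩ := exists_nat_gt (2 * A * C / η)
  have hN' : 2 * A * C < N * η := (div_lt_iff₀ hη).1 hN
  have hNη : 0 < (N : ℝ) * η := lt_trans (by positivity) hN'
  obtain ⟨θ, hθ, M, -, hP⟩ := hind N (1 / (2 * A)) (by positivity)
  refine ⟨θ, hθ, M, fun μ hU hL h0 hG => ?_⟩
  obtain ⟨nn, hm, hI, hH⟩ := hns μ hU hL hG
  have s0 : sc 0 = 1 := pow_zero _
  have mt : Measurable fun x => tl nn x 0 := measurable_tl hm 0
  set F : Set (E d) := (μ.support ∩ ball 0 1) ∩ {x | tl nn x 0 < ENNReal.ofReal (N * η)} with hF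
  have mF : MeasurableSet F :=
    (μ.isClosed_support.measurableSet.inter measurableSet_ball).inter
      (measurableSet_lt mt measurable_const)
  set B : Set (E d) := {x | ENNReal.ofReal (N * η) ≤ tl nn x 0} with hB
  have mB : MeasurableSet B := measurableSet_le measurable_const mt
  have h1 : μ (B ∩ ball 0 1) ≤ ENNReal.ofReal (1 / (2 * A)) := by
    have c1 := mul_meas_ge_le_lintegral (μ := μ.restrict (ball (0 : E d) 1)) mt
      (ENNReal.ofReal (N * η))
    rw [Measure.restrict_apply mB] at c1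
    have c2 : ENNReal.ofReal (N * η) * μ (B ∩ ball 0 1) ≤
        ENNReal.ofReal (N * η) * ENNReal.ofReal (1 / (2 * A)) := by
      refine (c1.trans hI).trans ?_
      rw [← ENNReal.ofReal_mul hNη.le]
      refine ENNReal.ofReal_le_ofReal ?_
      rw [mul_one_div, le_div_iff₀ (by positivity)]
      linarith
    exact (ENNReal.mul_le_mul_iff_right (ENNReal.ofReal_pos.2 hNη).ne' ENNReal.ofReal_ne_top).1 c2
  have h2 : ENNReal.ofReal (A⁻¹ * 1 ^ n) ≤ μ (ball 0 1) := hL 0 h0 1 one_pos le_rfl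
  have h3 : μ (ball 0 1) ≤ μ F + μ (B ∩ ball 0 1) := by
    have : ball (0 : E d) 1 ⊆ (F ∪ (B ∩ ball 0 1)) ∪ μ.supportᶜ := by
      intro x hx
      by_cases hs : x ∈ μ.support
      · left
        rcases lt_or_ge (tl nn x 0) (ENNReal.ofReal (N * η)) with h | h
        · exact Or.inl ⟨⟨hs, hx⟩, h⟩
        · exact Or.inr ⟨h, hx⟩
      · exact Or.inr hs
    refine (measure_mono this).trans ((measure_union_le _ _).trans ?_)
    rw [μ.measure_compl_support, add_zero]
    exact measure_union_le _ _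
  have h4 : ENNReal.ofReal (1 / (2 * A) * sc 0 ^ n) ≤ μ F := by
    rw [s0, one_pow, mul_one]
    have c : ENNReal.ofReal (1 / (2 * A)) + ENNReal.ofReal (1 / (2 * A)) ≤
        μ F + ENNReal.ofReal (1 / (2 * A)) := by
      refine le_trans ?_ ((h2.trans h3).trans (add_le_add le_rfl h1))
      rw [← ENNReal.ofReal_add (by positivity) (by positivity)]
      refine ENNReal.ofReal_le_ofReal (le_of_eq ?_)
      field_simp
      norm_num
    exact (ENNReal.add_le_add_iff_right ENNReal.ofReal_ne_top).1 c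
  have h5 := hP μ hU hL nn hm 0 0 F mF (by rw [s0]; exact inter_subset_left)
    (fun y hy i => hH y hy.1.1 (by simpa using hy.1.2) i) (fun y hy => hy.2) h4
  rw [s0] at h5
  exact h5.mono_set (inter_subset_left.trans inter_subset_right)

end Vale.Agent.P120
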