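import Vale.Agent.P120.LemB3

/-!
P120 Decay. Overview in notes/P120.md, definitions in Defs.lean.
Name every helper lemma of yours with the file name in front (for example decay_aux1).

PLAN.
κ, ε0, CB from lemB, η0 = (ε0/CB)^2, lam = sc κ. a 0 = ε1, a (l+1) = max (a l) (CB ν l) / 2 (Nat.rec). For l < j, ν l ^2 <= η (Finset.single_le_sum), ν l >= 0 (from HH), so CB ν l <= ε0.
Induction: for l <= j, 0 < a l <= ε0 and Flat at scale lam^l s with a l (lemB with ε = max, Flat.mono, pow_succ). b l = a l for l <= j, b (j+1) = (lam⁻¹)^(n+2) a j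
(Flat.scale with c = lam⁻¹), e.g. b l = if l <= j then a l else lam⁻¹^(n+2) * a j. Sum: a (l+1)^2 <= a l^2/4 + CB^2 ν l^2/4 gives by induction
(3/4) ∑_{l<m} a l^2 + a m ^2 <= ε1^2 + CB^2/4 ∑_{l<m} ν l^2 for m <= j.
-/

open MeasureTheory Metric Set Filter Topology
open scoped ENNReal NNReal RealInnerProductSpace

namespace Vale.Agent.P120

variable {d : ℕ}

/-- the sequence of excess bounds -/
noncomputable def decay_seq (ε1 CB : ℝ) (ν : ℕ → ℝ) : ℕ → ℝ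
  | 0 => ε1
  | l + 1 => max (decay_seq ε1 CB ν l) (CB * ν l) / 2

theorem decay_seq_pos {ε1 : ℝ} (h : 0 < ε1) (CB : ℝ) (ν : ℕ → ℝ) (l : ℕ) :
    0 < decay_seq ε1 CB ν l := by
  induction l with
  | zero => exact h
  | succ l ih =>
    have : decay_seq ε1 CB ν l ≤ max (decay_seq ε1 CB ν l) (CB * ν l) := le_max_left _ _
    show 0 < max (decay_seq ε1 CB ν l) (CB * ν l) / 2
    linarith

theorem decay_seq_sq (ε1 CB : ℝ) (ν : ℕ → ℝ) (l : ℕ) :
    decay_seq ε1 CB ν (l + 1) ^ 2 ≤ decay_seq ε1 CB ν l ^ 2 / 4 + CB ^ 2 / 4 * ν l ^ 2 := by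
  show (max (decay_seq ε1 CB ν l) (CB * ν l) / 2) ^ 2 ≤ _
  rcases le_total (decay_seq ε1 CB ν l) (CB * ν l) with h | h
  · rw [max_eq_right h]
    nlinarith [sq_nonneg (decay_seq ε1 CB ν l)]
  · rw [max_eq_left h]
    nlinarith [sq_nonneg (CB * ν l)]

theorem decay_seq_sum (ε1 CB : ℝ) (ν : ℕ → ℝ) (m : ℕ) :
    3 / 4 * ∑ l ∈ Finset.range m, decay_seq ε1 CB ν l ^ 2 + decay_seq ε1 CB ν m ^ 2 ≤
      ε1 ^ 2 + CB ^ 2 / 4 * ∑ l ∈ Finset.range m, ν l ^ 2 := by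
  induction m with
  | zero => simp [decay_seq]
  | succ m ih =>
    rw [Finset.sum_range_succ, Finset.sum_range_succ]
    have := decay_seq_sq ε1 CB ν m
    nlinarith

theorem decay (n d : ℕ) (hn : 1 ≤ n) (hnd : n ≤ d) (A : ℝ) (hA : 1 ≤ A) :
    ∃ κ : ℕ, 2 ≤ κ ∧ ∃ ε0 : ℝ, 0 < ε0 ∧ ∃ η0 : ℝ, 0 < η0 ∧ ∃ C : ℝ, 0 < C ∧
      ∀ (μ : Measure (E d)) (x : E d) (s : ℝ) (ν : ℕ → ℝ) (j : ℕ) (ε1 η : ℝ), 0 < s → Up n A μ →
        (∀ l < j, HH n A μ x (sc κ ^ l * s) (ν l)) → 0 < ε1 → ε1 ≤ ε0 → η ≤ η0 →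
        ∑ l ∈ Finset.range j, ν l ^ 2 ≤ η → Flat n μ x s ε1 →
          ∃ b : ℕ → ℝ, (∀ l, 0 ≤ b l) ∧ (∀ l ≤ j + 1, Flat n μ x (sc κ ^ l * s) (b l)) ∧
            ∑ l ∈ Finset.range (j + 2), b l ^ 2 ≤ C * (ε1 ^ 2 + η) := by
  obtain ⟨κ, hκ, ε0, hε0, CB, hCB, hB⟩ := lemB n d hn hnd A hA
  have hl0 : 0 < sc κ := pow_pos (by norm_num) κ
  have hl1 : sc κ ≤ 1 := pow_le_one₀ (by norm_num) (by norm_num)
  refine ⟨κ, hκ, ε0, hε0, (ε0 / CB) ^ 2, by positivity,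
    (3 + ((sc κ)⁻¹ ^ (n + 2)) ^ 2) * (1 + CB ^ 2), by positivity, ?_⟩
  intro μ x s ν j ε1 η hs hU hH hε1 hε10 hη hsum hF
  have hν : ∀ l < j, CB * ν l ≤ ε0 := by
    intro l hl
    have h1 : ν l ^ 2 ≤ ∑ l ∈ Finset.range j, ν l ^ 2 :=
      Finset.single_le_sum (f := fun l => ν l ^ 2) (fun i _ => sq_nonneg _)
        (Finset.mem_range.2 hl)
    have h2 : ν l ≤ ε0 / CB :=
      (pow_le_pow_iff_left₀ (hH l hl).2.2.2.1 (by positivity) two_ne_zero).1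
        (h1.trans (hsum.trans hη))
    rw [le_div_iff₀ hCB] at h2
    linarith
  have hind : ∀ l ≤ j, decay_seq ε1 CB ν l ≤ ε0 ∧
      Flat n μ x (sc κ ^ l * s) (decay_seq ε1 CB ν l) := by
    intro l
    induction l with
    | zero =>
      intro _
      refine ⟨hε10, ?_⟩
      rw [pow_zero, one_mul]
      exact hF
    | succ l ih =>
      intro hl
      have hlj : l < j := hl
      obtain ⟨h1, h2⟩ := ih hlj.le
      have hp := decay_seq_pos hε1 CB ν l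
      have hm : max (decay_seq ε1 CB ν l) (CB * ν l) ≤ ε0 := max_le h1 (hν l hlj)
      have hm0 : 0 < max (decay_seq ε1 CB ν l) (CB * ν l) := lt_max_of_lt_left hp
      have h3 := hB μ x (sc κ ^ l * s) (ν l) (max (decay_seq ε1 CB ν l) (CB * ν l))
        (by positivity) (hH l hlj) hm0 hm (le_max_right _ _)
        (h2.mono hp.le (le_max_left _ _))
      refine ⟨?_, ?_⟩
      · show max (decay_seq ε1 CB ν l) (CB * ν l) / 2 ≤ ε0
        linarith
      · have e : sc κ ^ (l + 1) * s = sc κ * (sc κ ^ l * s) := by ring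
        rw [e]
        exact h3
  refine ⟨fun l => if l ≤ j then decay_seq ε1 CB ν l else
    (sc κ)⁻¹ ^ (n + 2) * decay_seq ε1 CB ν j, ?_, ?_, ?_⟩
  · intro l
    have h1 := decay_seq_pos hε1 CB ν l
    have h2 := decay_seq_pos hε1 CB ν j
    dsimp only
    split_ifs
    · exact h1.le
    · positivity
  · intro l hl
    dsimp only
    split_ifs with h
    · exact (hind l h).2
    · have e : l = j + 1 := by omega
      subst e
      refine Flat.scale (by linarith) hU (by positivity) ?_ ?_ (hind j le_rfl).2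
      · have e : sc κ ^ (j + 1) * s = sc κ * (sc κ ^ j * s) := by ring
        rw [e]
        exact mul_le_of_le_one_left (by positivity) hl1
      · apply le_of_eq
        field_simp
        ring
  · have e1 : ∑ l ∈ Finset.range j, (if l ≤ j then decay_seq ε1 CB ν l else
        (sc κ)⁻¹ ^ (n + 2) * decay_seq ε1 CB ν j) ^ 2 =
        ∑ l ∈ Finset.range j, decay_seq ε1 CB ν l ^ 2 := by
      refine Finset.sum_congr rfl fun l hl => ?_
      rw [if_pos (Finset.mem_range.1 hl).le]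
    dsimp only
    rw [Finset.sum_range_succ, Finset.sum_range_succ, e1, if_pos le_rfl,
      if_neg (by omega : ¬ (j + 1 ≤ j)), mul_pow]
    have h1 := decay_seq_sum ε1 CB ν j
    have h2 : 0 ≤ ∑ l ∈ Finset.range j, decay_seq ε1 CB ν l ^ 2 :=
      Finset.sum_nonneg fun i _ => sq_nonneg _
    have h3 : 0 ≤ ∑ l ∈ Finset.range j, ν l ^ 2 := Finset.sum_nonneg fun i _ => sq_nonneg _
    have h4 : 0 ≤ η := h3.trans hsum
    have h5 : CB ^ 2 / 4 * ∑ l ∈ Finset.range j, ν l ^ 2 ≤ CB ^ 2 / 4 * η :=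
      mul_le_mul_of_nonneg_left hsum (by positivity)
    have h6 : ε1 ^ 2 + CB ^ 2 / 4 * η ≤ (1 + CB ^ 2) * (ε1 ^ 2 + η) := by
      have : 0 ≤ CB ^ 2 * ε1 ^ 2 := by positivity
      have : 0 ≤ CB ^ 2 * η := by positivity
      nlinarith
    have h7 := sq_nonneg (decay_seq ε1 CB ν j)
    have hK : 0 ≤ ((sc κ)⁻¹ ^ (n + 2)) ^ 2 := sq_nonneg _
    have h8 : decay_seq ε1 CB ν j ^ 2 ≤ (1 + CB ^ 2) * (ε1 ^ 2 + η) := by linarith
    have h9 := mul_le_mul_of_nonneg_left h8 hK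
    have e2 : (3 + ((sc κ)⁻¹ ^ (n + 2)) ^ 2) * (1 + CB ^ 2) * (ε1 ^ 2 + η) =
        3 * ((1 + CB ^ 2) * (ε1 ^ 2 + η)) +
          ((sc κ)⁻¹ ^ (n + 2)) ^ 2 * ((1 + CB ^ 2) * (ε1 ^ 2 + η)) := by ring
    rw [e2]
    linarith

end Vale.Agent.P120
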