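import Vale.Agent.P120.Defs

/-!
P120: more internal definitions (Liouville theorem, flat measures, Caccioppoli, excess decay).
-/

open MeasureTheory Metric Set Filter Topology
open scoped ENNReal NNReal RealInnerProductSpace FourierTransform

namespace Vale.Agent.P120

variable {d : ℕ}

/-- weighted L1 class on R^n -/
def WL1 (n : ℕ) (h : E n → ℝ) : Prop :=
  AEStronglyMeasurable h volume ∧ Integrable (fun y => |h y| * ww (n + 2) y) volume

/-- h annihilates inverse Fourier transforms of smooth functions supported away from 0 -/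
def Kill (n : ℕ) (h : E n → ℝ) : Prop :=
  ∀ g : E n → ℂ, ContDiff ℝ ((⊤ : ℕ∞) : WithTop ℕ∞) g → HasCompactSupport g →
    (0 : E n) ∉ tsupport g → ∫ y, (h y : ℂ) * 𝓕⁻ g y = 0

/-- convolution of h with the L1 normalised dilate of Φ -/
noncomputable def HS (n : ℕ) (h : E n → ℝ) (Φ : E n → ℂ) (s : ℝ) (x : E n) : ℂ :=
  ∫ y, (h y : ℂ) * ((((s ^ n)⁻¹ : ℝ) : ℂ) * Φ (s⁻¹ • (x - y)))

/-- the second term of the divergence of KK n δ in R^n -/
noncomputable def qq (n : ℕ) (δ : ℝ) (z : E d) : ℝ := (n + 1) * δ ^ 2 * (rr δ z ^ (n + 3))⁻¹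

/-- renormalised regularised Riesz transform of μ -/
noncomputable def GG (n : ℕ) (μ : Measure (E d)) (δ : ℝ) (x : E d) : E d :=
  ∫ y, (KK n δ (x - y) - KK n 1 (0 - y)) ∂μ

/-- range of a linear isometry -/
noncomputable def rg {n : ℕ} (ι : E n →ₗᵢ[ℝ] E d) : Submodule ℝ (E d) :=
  LinearMap.range ι.toLinearMap

/-- π0 is the coordinate map of the orthogonal projection onto the range of ι -/
def Emb {n : ℕ} (ι : E n →ₗᵢ[ℝ] E d) (π0 : E d →L[ℝ] E n) : Prop :=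
  (∀ x, π0 (ι x) = x) ∧ (∀ y, ι (π0 y) = (rg ι).starProjection y) ∧ ∀ y, ‖π0 y‖ ≤ ‖y‖

/-- local energy of the height function -/
noncomputable def EE (n : ℕ) (μ : Measure (E d)) (R : ℝ) (p : E d) (V : Submodule ℝ (E d)) : ℝ :=
  ∑ i : Fin d, En n μ (fun y => bump 0 (2 * R) y * hh p V y i)

/-- error kernel of the Caccioppoli identity -/
noncomputable def WW (n : ℕ) (R : ℝ) (p : E d) (z : E d × E d) : ℝ :=
  kk n 0 (z.1 - z.2) * (bump 0 (2 * R) z.1 - bump 0 (2 * R) z.2) ^ 2 -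
    bump 0 (2 * R) z.1 ^ 2 * kk n 1 (p - z.2) - bump 0 (2 * R) z.2 ^ 2 * kk n 1 (p - z.1)

/-- kernel of the linearised equation -/
noncomputable def FF (n : ℕ) (δ : ℝ) (p : E d) (ψ : E d → ℝ) (z : E d × E d) : ℝ :=
  ψ z.2 * kk n δ (z.2 - z.1) - ψ z.1 * (kk n δ (z.1 - z.2) - kk n 1 (p - z.2))

/-- normalised coordinate of the height function -/
noncomputable def uu (ps : ℕ → E d) (V : Submodule ℝ (E d)) (εs : ℕ → ℝ) (i : Fin d) (k : ℕ)
    (y : E d) : ℝ := (εs k)⁻¹ * hh (ps k) V y i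

/-- a blow-up sequence for the excess decay lemma -/
structure Seq (n : ℕ) (A : ℝ) (l : Filter ℕ) (μs : ℕ → Measure (E d)) (μ : Measure (E d))
    (V : Submodule ℝ (E d)) (ps : ℕ → E d) (εs νs : ℕ → ℝ) : Prop where
  conv : Conv n A l μs μ
  hyp : ∀ k, HH n A (μs k) 0 1 (νs k)
  nu_le : ∀ k, νs k ≤ 1
  p_le : ∀ k, ‖ps k‖ ≤ 1
  p_lim : Tendsto ps l (𝓝 0)
  eps_pos : ∀ k, 0 < εs k
  eps_lim : Tendsto εs l (𝓝 0)
  ratio : Tendsto (fun k => νs k / εs k) l (𝓝 0)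
  ex_le : ∀ k, ex n (μs k) 0 1 (ps k) V ≤ εs k ^ 2

end Vale.Agent.P120
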