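import Vale.Agent.P120.Riesz1

/-!
P120 Riesz2. Overview in notes/P120.md, definitions in Defs.lean.
Name every helper lemma of yours with the file name in front (for example riesz2_aux1).

PLAN.
Apply exists_riesz_f with radius 4 r0, B = ball x0 (4 r0); ψ is a test function for (x0, 4 r0) by Test.mono.
Split the integral of lamI n x s 0 ψ (lamI_integrable) over B×B, B×Bᶜ, Bᶜ×B, Bᶜ×Bᶜ (the last integrand is 0).
On B×B the two renormalising terms integrate to (∫ ψ) • ∫_B KK s (x - y) = 0 (Measure.prod_restrict, integral_prod_smul type lemma).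
On B×Bᶜ the integrand is ψ z.1 • (KK 0 (z.1 - z.2) - KK s (x - z.2)); for dist z.1 x < s <= r0 and z.2 outside B (so
|z.2 - x| >= 3 r0) KK_sub_le with m = |z.2 - x|/2 bounds its norm by |ψ z.1| (n+2) 2s 2^(n+1) kk n 0 (z.2 - x); Up.far with
centre x and radius 3 r0 (Bᶜ is inside (ball x (3 r0))ᶜ). Bᶜ×B is the same by swap symmetry. A cleaner route: show pointwise
lamI = 1_(B×B) (ψ z.1 - ψ z.2) • K - (ψ z.1 • g z.2 + ψ z.2 • g z.1) + G z + G (swap z) with g = 1_B KK s (x - .) and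
G z = 1_(Bᶜ)(z.2) ψ z.1 • (KK 0 (z.1 - z.2) - KK s (x - z.2)).
-/

open MeasureTheory Metric Set Filter Topology
open scoped ENNReal NNReal RealInnerProductSpace

namespace Vale.Agent.P120

variable {d : ℕ}

open Classical in
/-- the far part of the integrand -/
noncomputable def riesz2_G (n : ℕ) (B : Set (E d)) (x : E d) (s : ℝ) (ψ : E d → ℝ)
    (z : E d × E d) : E d :=
  if z.2 ∈ B then 0 else ψ z.1 • (KK n 0 (z.1 - z.2) - KK n s (x - z.2))

theorem riesz2_split (n : ℕ) {B : Set (E d)} (x : E d) (s : ℝ) {ψ : E d → ℝ}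
    (h : ∀ y, y ∉ B → ψ y = 0) (z : E d × E d) :
    (B ×ˢ B).indicator (fun z : E d × E d => (ψ z.1 - ψ z.2) • KK n 0 (z.1 - z.2)) z =
      lamI n x s 0 ψ z + (ψ z.1 • B.indicator (fun y => KK n s (x - y)) z.2 +
        ψ z.2 • B.indicator (fun y => KK n s (x - y)) z.1) -
        (riesz2_G n B x s ψ z + riesz2_G n B x s ψ z.swap) := by
  have e : KK n 0 (z.2 - z.1) = -KK n 0 (z.1 - z.2) := by rw [← KK_neg, neg_sub]
  by_cases h1 : z.1 ∈ B <;> by_cases h2 : z.2 ∈ B
  · simp [riesz2_G, lamI, h1, h2]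
  · simp [riesz2_G, lamI, h1, h2, h _ h2, smul_sub]
  · simp [riesz2_G, lamI, h1, h2, h _ h1, smul_sub, e]
  · simp [riesz2_G, lamI, h1, h2, h _ h1, h _ h2]

theorem riesz2_bound (n : ℕ) {x0 x : E d} {r0 s L : ℝ} {ψ : E d → ℝ} (hx : x ∈ ball x0 r0)
    (hs : 0 < s) (hsr : s ≤ r0) (h : Test ψ x s L) (z : E d × E d) :
    ‖riesz2_G n (ball x0 (4 * r0)) x s ψ z‖ ≤ |ψ z.1| * ((n + 2) * (2 * s) * 2 ^ (n + 1) *
      (ball x (3 * r0))ᶜ.indicator (fun y => kk n 0 (y - x)) z.2) := by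
  unfold riesz2_G
  split_ifs with h2
  · rw [norm_zero]
    have := indicator_nonneg (s := (ball x (3 * r0))ᶜ) (fun y _ => kk_nonneg n 0 (y - x)) z.2
    positivity
  rw [norm_smul, Real.norm_eq_abs]
  rcases le_or_gt s (dist z.1 x) with h1 | h1
  · rw [h.2.2.2 _ h1, abs_zero, zero_mul, zero_mul]
  refine mul_le_mul_of_nonneg_left ?_ (abs_nonneg _)
  rw [mem_ball, not_lt] at h2
  rw [mem_ball] at hx
  have h3 : 3 * r0 ≤ dist z.2 x := by linarith [dist_triangle z.2 x x0]
  have h4 : dist z.2 x / 2 ≤ rr 0 (z.1 - z.2) := by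
    rw [rr_zero, ← dist_eq_norm, dist_comm z.1]
    linarith [dist_triangle z.2 z.1 x]
  have h5 : dist z.2 x / 2 ≤ rr s (x - z.2) := by
    refine le_trans ?_ (norm_le_rr _ _)
    rw [← dist_eq_norm, dist_comm x]
    linarith
  have h6 : 0 < dist z.2 x := by linarith
  refine (KK_sub_le n (half_pos h6) h4 h5).trans ?_
  rw [indicator_of_mem (show z.2 ∈ (ball x (3 * r0))ᶜ from fun k => (mem_ball.1 k).not_ge h3),
    kk_zero_eq, sub_sub_sub_cancel_right, ← dist_eq_norm, ← dist_eq_norm, zero_sub, abs_neg,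
    abs_of_pos hs, div_pow, inv_div, div_eq_mul_inv, ← mul_assoc]
  gcongr
  linarith

theorem riesz2_main {n : ℕ} {A : ℝ} {μ : Measure (E d)} (hn : 1 ≤ n) (hA : 0 ≤ A) (hU : Up n A μ)
    {x0 x : E d} {r0 s L : ℝ} {ψ : E d → ℝ} (hx : x ∈ ball x0 r0) (hs : 0 < s) (hsr : s ≤ r0)
    (h : Test ψ x s L) (h0 : ∫ y, ψ y ∂μ = 0) :
    ‖Lam n μ x s 0 ψ - (1 / 2 : ℝ) • ∫ z in ball x0 (4 * r0) ×ˢ ball x0 (4 * r0),
      (ψ z.1 - ψ z.2) • KK n 0 (z.1 - z.2) ∂(μ.prod μ)‖ ≤
      (∫ y, |ψ y| ∂μ) * ((n + 2) * (2 * s) * 2 ^ (n + 1) * (Cad n * A / (3 * r0))) := by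
  have := hU.sigmaFinite
  have := hU.locFin
  have hr : 0 < r0 := hs.trans_le hsr
  have hz : ∀ y, y ∉ ball x0 (4 * r0) → ψ y = 0 := fun y hy => h.2.2.2 y (by
    rw [mem_ball, not_lt] at hy
    rw [mem_ball] at hx
    linarith [dist_triangle y x x0])
  have hψ := h.integrable hU
  have hg : Integrable ((ball x0 (4 * r0)).indicator fun y => KK n s (x - y)) μ :=
    ((((continuous_KK n hs).comp (continuous_const.sub continuous_id)).continuousOn.integrableOn_compact
      (isCompact_closedBall x0 (4 * r0))).mono_set ball_subset_closedBall).integrable_indicator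
      measurableSet_ball
  have hP := hψ.smul_prod hg
  obtain ⟨f1, f2⟩ := hU.far hA x (r := 3 * r0) (by positivity)
  have hD := hψ.abs.mul_prod ((f1.integrable_indicator measurableSet_ball.compl).const_mul
    ((n + 2) * (2 * s) * 2 ^ (n + 1)))
  have hm : Measurable (riesz2_G n (ball x0 (4 * r0)) x s ψ) :=
    Measurable.ite (measurable_snd measurableSet_ball) measurable_const
      ((h.measurable.comp measurable_fst).smul
        (((measurable_KK n 0).comp (measurable_fst.sub measurable_snd)).sub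
          ((measurable_KK n s).comp (measurable_const.sub measurable_snd))))
  have hb := Eventually.of_forall (f := ae (μ.prod μ)) (riesz2_bound n hx hs hsr h)
  have hG : Integrable (riesz2_G n (ball x0 (4 * r0)) x s ψ) (μ.prod μ) :=
    hD.mono' hm.aestronglyMeasurable hb
  have hI := lamI_integrable hn hA hU h hs x hs le_rfl
  have hP' : Integrable (fun z : E d × E d =>
    ψ z.2 • (ball x0 (4 * r0)).indicator (fun y => KK n s (x - y)) z.1) (μ.prod μ) := hP.swap
  have hG' : Integrable (fun z : E d × E d => riesz2_G n (ball x0 (4 * r0)) x s ψ z.swap)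
    (μ.prod μ) := hG.swap
  have e1 : ∫ z : E d × E d, ψ z.1 • (ball x0 (4 * r0)).indicator (fun y => KK n s (x - y)) z.2
      ∂(μ.prod μ) = 0 := by rw [integral_prod_smul, h0, zero_smul]
  have e2 : ∫ z : E d × E d, ψ z.2 • (ball x0 (4 * r0)).indicator (fun y => KK n s (x - y)) z.1
      ∂(μ.prod μ) = 0 := (integral_prod_swap fun z : E d × E d =>
        ψ z.1 • (ball x0 (4 * r0)).indicator (fun y => KK n s (x - y)) z.2).trans e1
  rw [← integral_indicator (measurableSet_ball.prod measurableSet_ball)]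
  simp only [riesz2_split n x s hz]
  rw [integral_sub (hI.fun_add (hP.fun_add hP')) (hG.fun_add hG'),
    integral_add hI (hP.fun_add hP'),
    integral_add hP hP', integral_add hG hG', e1, e2, integral_prod_swap, Lam, add_zero, add_zero,
    ← smul_sub, sub_sub_cancel, ← two_smul ℝ, smul_smul, one_div_mul_cancel two_ne_zero, one_smul]
  refine (norm_integral_le_of_norm_le hD hb).trans ?_
  rw [integral_prod_mul (fun y => |ψ y|) fun y => (n + 2) * (2 * s) * 2 ^ (n + 1) *
    (ball x (3 * r0))ᶜ.indicator (fun y => kk n 0 (y - x)) y, integral_const_mul,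
    integral_indicator measurableSet_ball.compl]
  exact mul_le_mul_of_nonneg_left (mul_le_mul_of_nonneg_left f2 (by positivity))
    (integral_nonneg fun _ => abs_nonneg _)

theorem goodF_of_RB (n d : ℕ) (hn : 1 ≤ n) (A C : ℝ) (hA : 0 ≤ A) (hC : 0 ≤ C) :
    ∃ C' : ℝ, 0 < C' ∧ ∀ μ : Measure (E d), Up n A μ → RB n μ C → ∀ (x0 : E d) (r0 : ℝ), 0 < r0 →
      GoodF n μ x0 r0 C' := by
  have h1 : 0 ≤ Cad n := zero_le_one.trans (one_le_Cad n)
  have h2 : 0 ≤ C ^ 2 * A * 4 ^ n := by positivity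
  have h3 : 0 ≤ (n + 2) * 2 * 2 ^ (n + 1) * (Cad n * A / 3) := by positivity
  refine ⟨C ^ 2 * A * 4 ^ n + (n + 2) * 2 * 2 ^ (n + 1) * (Cad n * A / 3) + 1, by linarith,
    fun μ hU hR x0 r0 hr => ?_⟩
  obtain ⟨f, f1, f2, f3⟩ := exists_riesz_f hn hA hC hU hR x0 (r := 4 * r0) (by positivity)
  refine ⟨f, f1, f2.trans ?_, fun x hx s hs hsr ψ L h h0 => ?_⟩
  · rw [mul_pow, ← mul_assoc]
    exact mul_le_mul_of_nonneg_right (by linarith) (by positivity)
  · rw [f3 ψ L (h.mono (by linarith [mem_ball.1 hx]) le_rfl hs.le), mul_comm _ (∫ y, |ψ y| ∂μ)]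
    refine (riesz2_main hn hA hU hx hs hsr h h0).trans
      (mul_le_mul_of_nonneg_left ?_ (integral_nonneg fun _ => abs_nonneg _))
    refine le_trans (le_of_eq ?_) (mul_le_mul_of_nonneg_right
      (show (n + 2) * 2 * 2 ^ (n + 1) * (Cad n * A / 3) ≤ _ by linarith) (by positivity))
    field_simp

end Vale.Agent.P120
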