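import Vale.Agent.P120.Core
import Vale.Agent.P120.Riesz2
import Vale.Agent.P120.ADUp
import Vale.Agent.P120.Sim3

/-!
P120 Final. Overview in notes/P120.md, definitions in Defs.lean.
Name every helper lemma of yours with the file name in front (for example final_aux1).

PLAN.
Assembly.
-/

open MeasureTheory Metric Set Filter Topology
open scoped ENNReal NNReal RealInnerProductSpace

namespace Vale.Agent.P120

variable {d : ℕ}

theorem main {n : ℕ} (hn : 1 ≤ n) (hnd : n < d) (μ : Measure (E d)) (h1 : Stmt.ADreg n μ)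
    (h2 : Stmt.RieszBdd n μ) : Stmt.UnifRect n μ := by
  obtain ⟨A, hA, hAD⟩ := up_low_of_adreg h1
  obtain ⟨C, hC⟩ := h2
  have hRB : RB n μ (max C 0) := by
    intro f hf ε hε
    refine (hC f hf ε hε).2.trans ?_
    gcongr
    exact le_max_left _ _
  have hA0 : 0 ≤ A := by linarith
  obtain ⟨C', hC', hG⟩ := goodF_of_RB n d hn A (max C 0) hA0 (le_max_right _ _)
  obtain ⟨θ, hθ, M, hcore⟩ := core n d hn hnd.le A C' hA hC'.le
  obtain ⟨M', hM'⟩ := exists_lip_of_piece n d M
  refine ⟨θ, hθ, M', fun x hx r hr hrd => ?_⟩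
  obtain ⟨hU, hL⟩ := hAD r hr hrd
  refine hM' μ x r θ hr (hcore _ (hU.resc hr) ?_ ?_ ((hG μ hU hRB x r hr).resc hU hr))
  · have := hL.resc (x := x) (U := LinearIsometryEquiv.refl ℝ (E d)) hr
    rwa [div_self hr.ne'] at this
  · have := (mem_support_resc (n := n) (μ := μ) (x := x)
      (U := LinearIsometryEquiv.refl ℝ (E d)) hr x).2 hx
    rwa [sim_self] at this

end Vale.Agent.P120
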