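import Vale.Agent.P120.Defs

/-!
P120 Pack. Overview in notes/P120.md, definitions in Defs.lean.
Name every helper lemma of yours with the file name in front (for example pack_aux1).

PLAN.
card_le_of_sep: borelize F, take any Haar measure (Measure.addHaar); the open balls B(p, t/2) are pairwise disjoint
and lie in B(x, R + t/2); use Measure.addHaar_ball_of_pos (measure of a ball = r^finrank * measure of unit ball).
exists_net: among finsets S inside Y that are t-separated the cardinality is bounded (card_le_of_sep), take one of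
maximal cardinality (Nat.find or Finset/Set.Finite.exists_maximal); maximality gives the covering.
card_ge_of_cover: the ball B(x,R) is covered by the balls B(p,t); compare Haar measures.
card_le_of_supp: the balls B(p,t/2) are disjoint, have μ-mass >= A⁻¹ (t/2)^n, and lie in B(x,R+t/2).
-/

open MeasureTheory Metric Set Filter Topology
open scoped ENNReal NNReal RealInnerProductSpace

namespace Vale.Agent.P120

variable {d : ℕ}

theorem pack_disj {F : Type*} [PseudoMetricSpace F] (S : Finset F) {t : ℝ}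
    (hsep : ∀ p ∈ S, ∀ q ∈ S, p ≠ q → t ≤ dist p q) :
    Set.PairwiseDisjoint (↑S : Set F) (fun p => ball p (t / 2)) := by
  intro p hp q hq hpq
  exact ball_disjoint_ball (by linarith [hsep p hp q hq hpq])

theorem pack_sum_le {F : Type*} [PseudoMetricSpace F] [MeasurableSpace F] [OpensMeasurableSpace F]
    (μ : Measure F) (S : Finset F) (x : F) {R t : ℝ} (hS : ∀ p ∈ S, dist p x ≤ R)
    (hsep : ∀ p ∈ S, ∀ q ∈ S, p ≠ q → t ≤ dist p q) :
    ∑ p ∈ S, μ (ball p (t / 2)) ≤ μ (ball x (R + t / 2)) := by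
  rw [← measure_biUnion_finset (pack_disj S hsep) (fun p _ => measurableSet_ball)]
  apply measure_mono
  intro y hy
  simp only [mem_iUnion, mem_ball] at hy ⊢
  obtain ⟨p, hp, hy⟩ := hy
  linarith [dist_triangle y p x, hS p hp]

theorem card_le_of_sep {F : Type*} [NormedAddCommGroup F] [NormedSpace ℝ F] [FiniteDimensional ℝ F]
    (S : Finset F) (x : F) {R t : ℝ} (hR : 0 ≤ R) (ht : 0 < t) (hS : ∀ p ∈ S, dist p x ≤ R)
    (hsep : ∀ p ∈ S, ∀ q ∈ S, p ≠ q → t ≤ dist p q) :
    (S.card : ℝ) ≤ (2 * R / t + 1) ^ Module.finrank ℝ F := by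
  borelize F
  let μ : Measure F := Measure.addHaar
  have h := pack_sum_le μ S x hS hsep
  have ht2 : 0 < t / 2 := by positivity
  have hRt : 0 < R + t / 2 := by positivity
  simp only [Measure.addHaar_ball_of_pos μ _ ht2, Measure.addHaar_ball_of_pos μ _ hRt,
    Finset.sum_const, nsmul_eq_mul] at h
  have h0 : μ (ball (0 : F) 1) ≠ 0 := (measure_ball_pos μ 0 one_pos).ne'
  have h1 : μ (ball (0 : F) 1) ≠ ∞ := measure_ball_lt_top.ne
  rw [← mul_assoc, ENNReal.mul_le_mul_iff_left h0 h1, ← ENNReal.ofReal_natCast,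
    ← ENNReal.ofReal_mul (by positivity), ENNReal.ofReal_le_ofReal_iff (by positivity)] at h
  rw [show 2 * R / t + 1 = (R + t / 2) / (t / 2) by field_simp, div_pow,
    le_div_iff₀ (by positivity)]
  exact h

theorem exists_net {F : Type*} [NormedAddCommGroup F] [NormedSpace ℝ F] [FiniteDimensional ℝ F]
    (Y : Set F) (x : F) {R t : ℝ} (hR : 0 ≤ R) (ht : 0 < t) (hY : ∀ y ∈ Y, dist y x ≤ R) :
    ∃ S : Finset F, (↑S : Set F) ⊆ Y ∧ (∀ p ∈ S, ∀ q ∈ S, p ≠ q → t ≤ dist p q) ∧
      (∀ y ∈ Y, ∃ p ∈ S, dist y p < t) ∧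
      (S.card : ℝ) ≤ (2 * R / t + 1) ^ Module.finrank ℝ F := by
  classical
  let P : ℕ → Prop := fun k => ∃ S : Finset F, (↑S : Set F) ⊆ Y ∧
    (∀ p ∈ S, ∀ q ∈ S, p ≠ q → t ≤ dist p q) ∧ S.card = k
  have hb : ∀ S : Finset F, (↑S : Set F) ⊆ Y → (∀ p ∈ S, ∀ q ∈ S, p ≠ q → t ≤ dist p q) →
      (S.card : ℝ) ≤ (2 * R / t + 1) ^ Module.finrank ℝ F :=
    fun S h1 h2 => card_le_of_sep S x hR ht (fun p hp => hY p (h1 hp)) h2
  set N := ⌈(2 * R / t + 1) ^ Module.finrank ℝ F⌉₊ with hN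
  have hP0 : P 0 := ⟨∅, by simp, by simp, rfl⟩
  have hspec : P (Nat.findGreatest P N) := Nat.findGreatest_spec (Nat.zero_le N) hP0
  obtain ⟨S, h1, h2, h3⟩ := hspec
  refine ⟨S, h1, h2, ?_, hb S h1 h2⟩
  intro y hy
  by_contra hcon
  push Not at hcon
  have hyS : y ∉ S := fun hyS => by
    have := hcon y hyS
    rw [dist_self] at this
    linarith
  have g1 : (↑(insert y S) : Set F) ⊆ Y := by
    rw [Finset.coe_insert]
    exact insert_subset hy h1
  have g2 : ∀ p ∈ insert y S, ∀ q ∈ insert y S, p ≠ q → t ≤ dist p q := by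
    intro p hp q hq hpq
    rw [Finset.mem_insert] at hp hq
    rcases hp with rfl | hp
    · rcases hq with rfl | hq
      · exact absurd rfl hpq
      · exact hcon q hq
    · rcases hq with rfl | hq
      · rw [dist_comm]; exact hcon p hp
      · exact h2 p hp q hq hpq
  have g3 : P (S.card + 1) := ⟨insert y S, g1, g2, Finset.card_insert_of_notMem hyS⟩
  have g4 : S.card + 1 ≤ N := by
    have := hb _ g1 g2
    rw [Finset.card_insert_of_notMem hyS] at this
    have h5 : ((S.card + 1 : ℕ) : ℝ) ≤ N := le_trans this (Nat.le_ceil _)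
    exact_mod_cast h5
  have := Nat.le_findGreatest g4 g3
  omega

theorem card_ge_of_cover {F : Type*} [NormedAddCommGroup F] [NormedSpace ℝ F]
    [FiniteDimensional ℝ F] (S : Finset F) (x : F) {R t : ℝ} (hR : 0 < R) (ht : 0 < t)
    (h : ∀ y, dist y x < R → ∃ p ∈ S, dist y p < t) :
    (R / t) ^ Module.finrank ℝ F ≤ (S.card : ℝ) := by
  borelize F
  let μ : Measure F := Measure.addHaar
  have h2 : μ (ball x R) ≤ ∑ p ∈ S, μ (ball p t) := by
    refine le_trans (measure_mono ?_) (measure_biUnion_finset_le S _)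
    intro y hy
    simp only [mem_iUnion, mem_ball] at hy ⊢
    obtain ⟨p, hp, hy⟩ := h y hy
    exact ⟨p, hp, hy⟩
  simp only [Measure.addHaar_ball_of_pos μ _ ht, Measure.addHaar_ball_of_pos μ _ hR,
    Finset.sum_const, nsmul_eq_mul] at h2
  have h0 : μ (ball (0 : F) 1) ≠ 0 := (measure_ball_pos μ 0 one_pos).ne'
  have h1 : μ (ball (0 : F) 1) ≠ ∞ := measure_ball_lt_top.ne
  rw [← mul_assoc, ENNReal.mul_le_mul_iff_left h0 h1, ← ENNReal.ofReal_natCast,
    ← ENNReal.ofReal_mul (by positivity), ENNReal.ofReal_le_ofReal_iff (by positivity)] at h2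
  rw [div_pow, div_le_iff₀ (by positivity)]
  exact h2

theorem card_le_of_supp {n : ℕ} {A ρ : ℝ} (hA : 1 ≤ A) {μ : Measure (E d)} (hU : Up n A μ)
    (hL : Low n A ρ μ) (S : Finset (E d)) (x : E d) {R t : ℝ} (hR : 0 ≤ R) (ht : 0 < t)
    (htρ : t ≤ 2 * ρ) (hS : ∀ p ∈ S, p ∈ μ.support ∧ dist p x ≤ R)
    (hsep : ∀ p ∈ S, ∀ q ∈ S, p ≠ q → t ≤ dist p q) :
    (S.card : ℝ) ≤ A ^ 2 * ((2 * R + t) / t) ^ n := by
  have h := pack_sum_le μ S x (fun p hp => (hS p hp).2) hsep
  have ht2 : 0 < t / 2 := by positivity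
  have hRt : 0 < R + t / 2 := by positivity
  have hA0 : 0 < A := by linarith
  have h1 : ∑ _p ∈ S, ENNReal.ofReal (A⁻¹ * (t / 2) ^ n) ≤ ∑ p ∈ S, μ (ball p (t / 2)) :=
    Finset.sum_le_sum fun p hp => hL p (hS p hp).1 _ ht2 (by linarith)
  have h2 := le_trans h1 (le_trans h (hU x _ hRt))
  rw [Finset.sum_const, nsmul_eq_mul, ← ENNReal.ofReal_natCast,
    ← ENNReal.ofReal_mul (by positivity), ENNReal.ofReal_le_ofReal_iff (by positivity)] at h2
  rw [show (2 * R + t) / t = (R + t / 2) / (t / 2) by field_simp, div_pow, ← mul_div_assoc,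
    le_div_iff₀ (by positivity)]
  have h3 := mul_le_mul_of_nonneg_left h2 hA0.le
  calc (S.card : ℝ) * (t / 2) ^ n = A * (S.card * (A⁻¹ * (t / 2) ^ n)) := by field_simp
    _ ≤ _ := h3
    _ = _ := by ring

end Vale.Agent.P120
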