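import Vale.Agent.P120.Sim1
import Vale.Agent.P120.Mart2

/-!
P120 PieceB. Overview in notes/P120.md, definitions in Defs.lean.
Name every helper lemma of yours with the file name in front (for example pieceb_aux1).

PLAN.
Routine. tl_eq_sum_add: ENNReal summability, Summable.sum_add_tsum_nat_add' or sum_add_tsum_nat_add' with ENNReal.summable, add_assoc/add_comm on indices. measurable_tl: Measurable.ennreal_tsum (or Measurable.tsum).
Piece.change: π' = (s'/s) • π. exists_lip_of_piece: F'' = sim ⁻¹' F' lies in ball x r (norm_sim), μ F'' = ofReal (r^n) * resc F' (resc_apply). π'' y = (r/2) • π (sim y) has norm <= r/2 < r and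
dist y y' = r dist (sim y) (sim y') <= 2 M dist (π'' y) (π'' y'). So π'' is injective on F''; g0 = Function.invFunOn π'' F'' is LipschitzOnWith (2M).toNNReal on π'' '' F''
(LipschitzOnWith.of_dist_le_mul); extend by LipschitzOnWith.extend_finite_dimension; F'' ⊆ ball x r ∩ g '' ball 0 r.
-/

open MeasureTheory Metric Set Filter Topology
open scoped ENNReal NNReal RealInnerProductSpace

namespace Vale.Agent.P120

variable {d : ℕ}

theorem tl_eq_sum_add (nn : E d → ℕ → ℝ) (x : E d) (i m : ℕ) :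
    tl nn x i = ∑ l ∈ Finset.range m, ENNReal.ofReal (nn x (i + l) ^ 2) + tl nn x (i + m) := by
  simp only [tl, add_assoc, add_comm m]
  exact (Summable.sum_add_tsum_nat_add' (f := fun l => ENNReal.ofReal (nn x (i + l) ^ 2))
    ENNReal.summable).symm

theorem tl_anti (nn : E d → ℕ → ℝ) (x : E d) {i j : ℕ} (h : i ≤ j) : tl nn x j ≤ tl nn x i := by
  obtain ⟨m, rfl⟩ := Nat.exists_eq_add_of_le h
  rw [tl_eq_sum_add nn x i m]
  exact le_add_self

theorem measurable_tl {nn : E d → ℕ → ℝ} (h : ∀ i, Measurable fun x => nn x i) (i : ℕ) :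
    Measurable fun x => tl nn x i :=
  Measurable.tsum fun _ => ((h _).pow_const 2).ennreal_ofReal

variable {n : ℕ} {μ : Measure (E d)} {F : Set (E d)} {s θ M : ℝ}

theorem Piece.mono_set (h : Piece n μ F s θ M) {F₂ : Set (E d)} (hF : F ⊆ F₂) :
    Piece n μ F₂ s θ M := by
  obtain ⟨F', h1, h2⟩ := h
  exact ⟨F', h1.trans hF, h2⟩

theorem Piece.mono (h : Piece n μ F s θ M) (hs : 0 ≤ s) {θ' M' : ℝ} (hθ : θ' ≤ θ)
    (hM : M ≤ M') : Piece n μ F s θ' M' := by
  obtain ⟨F', h1, h2, h3, π, h4, h5⟩ := h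
  exact ⟨F', h1, h2, (ENNReal.ofReal_le_ofReal (by gcongr)).trans h3, π, h4,
    fun x hx y hy => (h5 x hx y hy).trans (by gcongr)⟩

theorem Piece.change (h : Piece n μ F s θ M) (hs : 0 < s) {s' : ℝ} (hs' : 0 < s') :
    Piece n μ F s' (θ * (s / s') ^ n) (M * (s / s')) := by
  obtain ⟨F', h1, h2, h3, π, h4, h5⟩ := h
  have hc := div_pos hs' hs
  refine ⟨F', h1, h2, ?_, fun x => (s' / s) • π x, fun x hx => ?_, fun x hx y hy => ?_⟩
  · rwa [mul_assoc, ← mul_pow, div_mul_cancel₀ _ hs'.ne']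
  · rw [norm_smul_of_nonneg hc.le]
    exact (mul_le_mul_of_nonneg_left (h4 x hx) hc.le).trans_eq (div_mul_cancel₀ _ hs.ne')
  · rw [dist_smul₀, Real.norm_of_nonneg hc.le]
    refine (h5 x hx y hy).trans_eq ?_
    field_simp

theorem exists_lip_of_piece (n d : ℕ) (M : ℝ) :
    ∃ M' : ℝ≥0, ∀ (μ : Measure (E d)) (x : E d) (r θ : ℝ), 0 < r →
      Piece n (resc n μ x r (LinearIsometryEquiv.refl ℝ (E d))) (ball 0 1) 1 θ M →
        ∃ g : E n → E d, LipschitzOnWith M' g (ball 0 r) ∧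
          ENNReal.ofReal (θ * r ^ n) ≤ μ (ball x r ∩ g '' ball 0 r) := by
  refine ⟨lipschitzExtensionConstant (E d) * (2 * M).toNNReal, fun μ x r θ hr h => ?_⟩
  obtain ⟨F', h1, -, h3, π, h4, h5⟩ := h
  set T := sim x r (LinearIsometryEquiv.refl ℝ (E d)) with hT
  set π' : E d → E n := fun y => (r / 2) • π (T y) with hπ
  have h6 : ∀ y ∈ T ⁻¹' F', ∀ z ∈ T ⁻¹' F', dist y z ≤ 2 * M * dist (π' y) (π' z) := by
    intro y hy z hz
    have h7 := h5 _ hy _ hz
    rw [hT, dist_sim hr, div_le_iff₀ hr] at h7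
    rw [hπ, dist_smul₀, Real.norm_of_nonneg (half_pos hr).le]
    exact h7.trans_eq (by ring)
  have h7 : InjOn π' (T ⁻¹' F') := fun y hy z hz e =>
    dist_le_zero.1 (by simpa [e] using h6 y hy z hz)
  have : Nonempty (E d) := ⟨0⟩
  obtain ⟨g, hg, he⟩ := (LipschitzOnWith.of_dist_le' (K := 2 * M)
    (f := Function.invFunOn π' (T ⁻¹' F')) (s := π' '' (T ⁻¹' F')) (by
      rintro _ ⟨y, hy, rfl⟩ _ ⟨z, hz, rfl⟩
      rw [h7.leftInvOn_invFunOn hy, h7.leftInvOn_invFunOn hz]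
      exact h6 y hy z hz)).extend_finite_dimension
  refine ⟨g, hg.lipschitzOnWith, le_trans ?_ (measure_mono (s := T ⁻¹' F') fun y hy => ⟨?_, π' y,
    ?_, by rw [← he ⟨y, hy, rfl⟩, h7.leftInvOn_invFunOn hy]⟩)⟩
  · rw [resc_apply hr, one_pow, mul_one] at h3
    rw [ENNReal.ofReal_mul' (by positivity), mul_comm]
    exact (ENNReal.mul_le_iff_le_inv (by simp [hr]) ENNReal.ofReal_ne_top).2 h3
  · have h8 := mem_ball_zero_iff.1 (h1 hy)
    rwa [hT, norm_sim hr, div_lt_one hr] at h8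
  · rw [mem_ball_zero_iff, hπ, norm_smul_of_nonneg (half_pos hr).le]
    nlinarith [h4 _ hy]

end Vale.Agent.P120
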