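import Vale.Agent.P120.Mart4
import Vale.Agent.P120.Pack
import Vale.Agent.P120.PieceB

/-!
P120 Find1. Overview in notes/P120.md, definitions in Defs.lean.
Name every helper lemma of yours with the file name in front (for example find1_aux1).

PLAN.
low_density_le: net of the bad set with separation t/2 (exists_net), card <= A^2 (5 s/t)^n (card_le_of_supp), the bad set is covered by the sets F ∩ ball p (t/2).
cheb_sum_le: for each l, ofReal (δ^2) * μ {x in F | δ < N x (i0+l)} <= lintegral over F of ofReal (N^2) (mul_meas_ge_le_lintegral for μ.restrict F, or indicator comparison); sum over l < m,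
lintegral_finset_sum, tl_eq_sum_add.
exists_good: a' = a / (4 A^2 5^n). N3 from mart with g = indicator of F (∫ g^2 = μ.real F <= A s^n, s = sc i0; tl_anti). cheb_sum_le for nn (K = B A s^n) and for N3 (K = C A s^n); choose m >= 1 with
(B A / δ^2 + C A / δ'^2) / m <= a/4 and l < m where the two bad measures add up to at most a s^n / 4 (Finset.exists_le_of_sum_le or contradiction). If no good x existed, F would be covered by the three
bad sets, of total measure <= a s^n / 2 < a s^n.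
-/

open MeasureTheory Metric Set Filter Topology
open scoped ENNReal NNReal RealInnerProductSpace

namespace Vale.Agent.P120

variable {d : ℕ}

theorem low_density_le {n : ℕ} {A : ℝ} (hA : 1 ≤ A) {μ : Measure (E d)} (hU : Up n A μ)
    (hL : Low n A 1 μ) {F : Set (E d)} {x0 : E d} {s t a : ℝ} (hF : F ⊆ μ.support ∩ ball x0 s)
    (ht : 0 < t) (hts : t ≤ s) (ht1 : t ≤ 1) (ha : 0 < a) :
    μ {x ∈ F | μ (F ∩ ball x (t / 2)) < ENNReal.ofReal (a * t ^ n)} ≤
      ENNReal.ofReal (A ^ 2 * 5 ^ n * a * s ^ n) := by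
  have hs : 0 < s := ht.trans_le hts
  obtain ⟨S, h1, h2, h3, -⟩ := exists_net
    {x ∈ F | μ (F ∩ ball x (t / 2)) < ENNReal.ofReal (a * t ^ n)} x0 hs.le (half_pos ht)
    fun y hy => (mem_ball.1 (hF hy.1).2).le
  have h4 := card_le_of_supp hA hU hL S x0 hs.le (half_pos ht) (by linarith)
    (fun p hp => ⟨(hF (h1 hp).1).1, (mem_ball.1 (hF (h1 hp).1).2).le⟩) h2
  calc _ ≤ μ (⋃ p ∈ S, F ∩ ball p (t / 2)) := measure_mono fun y hy => by
        obtain ⟨p, hp, h⟩ := h3 y hy
        exact mem_biUnion hp ⟨hy.1, h⟩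
    _ ≤ ∑ p ∈ S, μ (F ∩ ball p (t / 2)) := measure_biUnion_finset_le _ _
    _ ≤ ∑ p ∈ S, ENNReal.ofReal (a * t ^ n) := Finset.sum_le_sum fun p hp => (h1 hp).2.le
    _ = ENNReal.ofReal (S.card * (a * t ^ n)) := by
        rw [Finset.sum_const, nsmul_eq_mul, ENNReal.ofReal_mul (Nat.cast_nonneg _),
          ENNReal.ofReal_natCast]
    _ ≤ _ := by
        refine ENNReal.ofReal_le_ofReal ?_
        calc _ ≤ A ^ 2 * (5 * s / t) ^ n * (a * t ^ n) := by
              gcongr
              refine h4.trans (mul_le_mul_of_nonneg_left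
                (pow_le_pow_left₀ (by positivity) ?_ n) (by positivity))
              rw [div_le_div_iff₀ (half_pos ht) ht]
              nlinarith
          _ = _ := by
              rw [div_pow, mul_pow]
              field_simp

theorem cheb_sum_le {μ : Measure (E d)} {N : E d → ℕ → ℝ} (hN : ∀ i, Measurable fun x => N x i)
    {F : Set (E d)} (hF : MeasurableSet F) (i0 m : ℕ) {δ K : ℝ} (hδ : 0 < δ)
    (hK : ∫⁻ x in F, tl N x i0 ∂μ ≤ ENNReal.ofReal K) :
    ∑ l ∈ Finset.range m, μ {x ∈ F | δ < N x (i0 + l)} ≤ ENNReal.ofReal (K / δ ^ 2) := by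
  have h : ∀ l, Measurable fun x => ENNReal.ofReal (N x (i0 + l) ^ 2) := fun l =>
    ((hN _).pow_const 2).ennreal_ofReal
  have h0 : 0 < δ ^ 2 := by positivity
  rw [ENNReal.ofReal_div_of_pos h0, ENNReal.le_div_iff_mul_le (by simp [hδ.ne']) (by simp),
    Finset.sum_mul]
  calc _ ≤ ∑ l ∈ Finset.range m, ∫⁻ x in F, ENNReal.ofReal (N x (i0 + l) ^ 2) ∂μ := by
        refine Finset.sum_le_sum fun l _ => ?_
        refine le_trans ?_ (mul_meas_ge_le_lintegral (h l) (ENNReal.ofReal (δ ^ 2)))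
        rw [mul_comm, Measure.restrict_apply' hF]
        refine mul_le_mul_right (measure_mono fun x hx => ?_) _
        exact ⟨ENNReal.ofReal_le_ofReal (pow_le_pow_left₀ hδ.le hx.2.le 2), hx.1⟩
    _ ≤ _ := by
        rw [← lintegral_finsetSum _ fun l _ => h l]
        exact (lintegral_mono fun x => le_self_add.trans_eq (tl_eq_sum_add N x i0 m).symm).trans hK

theorem exists_good (n d : ℕ) (hn : 1 ≤ n) (A : ℝ) (hA : 1 ≤ A) (B a : ℝ) (hB : 0 < B)
    (ha : 0 < a) :
    ∃ a' : ℝ, 0 < a' ∧ ∀ δ δ' : ℝ, 0 < δ → 0 < δ' → ∃ m : ℕ, ∀ μ : Measure (E d), Up n A μ →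
      Low n A 1 μ → ∀ nn : E d → ℕ → ℝ, (∀ i, Measurable fun x => nn x i) →
      ∀ (x0 : E d) (i0 : ℕ) (F : Set (E d)), MeasurableSet F →
        F ⊆ μ.support ∩ ball x0 (sc i0) → (∀ y ∈ F, tl nn y i0 ≤ ENNReal.ofReal B) →
        ENNReal.ofReal (a * sc i0 ^ n) ≤ μ F →
        ∃ l < m, ∃ x ∈ F,
          ENNReal.ofReal (a' * sc (i0 + l) ^ n) ≤ μ (F ∩ ball x (sc (i0 + l) / 2)) ∧
          nn x (i0 + l) ≤ δ ∧
          ∀ (ψ : E d → ℝ) (L : ℝ), Test ψ x (sc (i0 + l)) L → ∫ y, ψ y ∂μ = 0 →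
            |∫ y, F.indicator (fun _ => (1 : ℝ)) y * ψ y ∂μ| ≤
              δ' * √(sc (i0 + l) ^ n) * √(sc (i0 + l) * En n μ ψ) := by
  obtain ⟨C, hC0, hC⟩ := mart n d hn A hA
  refine ⟨a / (4 * A ^ 2 * 5 ^ n), by positivity, fun δ δ' hδ hδ' => ?_⟩
  obtain ⟨m, hm⟩ := exists_nat_gt ((B * A / δ ^ 2 + C * A / δ' ^ 2) / (a / 4))
  have hm0 : 0 < m := Nat.cast_pos.1 (lt_of_le_of_lt (by positivity) hm)
  rw [div_lt_iff₀ (by positivity)] at hm
  refine ⟨m, fun μ hU hL nn hnn x0 i0 F hF hs hb hμ => ?_⟩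
  have s0 := sc_pos i0
  have hA0 : 0 ≤ A := by linarith
  have hF1 : μ F ≤ ENNReal.ofReal (A * sc i0 ^ n) :=
    (measure_mono fun y hy => (hs hy).2).trans (hU x0 _ s0)
  obtain ⟨N, hN, -, hN1, hN2⟩ := hC μ hU hL (F.indicator fun _ => 1)
    (memLp_indicator_const 2 hF 1 (Or.inr (hF1.trans_lt ENNReal.ofReal_lt_top).ne))
  have c1 := cheb_sum_le hnn hF i0 m hδ (K := B * (A * sc i0 ^ n)) (by
    rw [ENNReal.ofReal_mul hB.le]
    exact (setLIntegral_mono' hF hb).trans
      ((setLIntegral_const _ _).trans_le (mul_le_mul_right hF1 _)))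
  have c2 := cheb_sum_le (μ := μ) hN hF i0 m hδ' (K := C * (A * sc i0 ^ n)) (by
    refine ((setLIntegral_le_lintegral _ _).trans (lintegral_mono fun x =>
      tl_anti N x (Nat.zero_le _))).trans (hN1.trans (ENNReal.ofReal_le_ofReal ?_))
    have : (fun y => F.indicator (fun _ => (1 : ℝ)) y ^ 2) = F.indicator 1 := by
      funext y
      by_cases hy : y ∈ F <;> simp [hy]
    rw [this, integral_indicator_one hF]
    exact mul_le_mul_of_nonneg_left (ENNReal.toReal_le_of_le_ofReal (by positivity) hF1) hC0.le)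
  obtain ⟨l, hl, h⟩ := ENNReal.exists_le_of_sum_le (s := Finset.range m)
    (f := fun l => μ {x ∈ F | δ < nn x (i0 + l)} + μ {x ∈ F | δ' < N x (i0 + l)})
    (g := fun _ => ENNReal.ofReal (a / 4 * sc i0 ^ n)) (Finset.nonempty_range_iff.2 hm0.ne') (by
      rw [Finset.sum_add_distrib, Finset.sum_const, Finset.card_range, nsmul_eq_mul,
        ← ENNReal.ofReal_natCast, ← ENNReal.ofReal_mul (Nat.cast_nonneg _)]
      refine (add_le_add c1 c2).trans ?_
      rw [← ENNReal.ofReal_add (by positivity) (by positivity)]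
      refine ENNReal.ofReal_le_ofReal ?_
      calc _ = (B * A / δ ^ 2 + C * A / δ' ^ 2) * sc i0 ^ n := by ring
        _ ≤ m * (a / 4) * sc i0 ^ n := by gcongr
        _ = _ := by ring)
  refine ⟨l, Finset.mem_range.1 hl, ?_⟩
  have c3 := low_density_le hA hU hL hs (sc_pos (i0 + l)) (sc_anti (Nat.le_add_right _ _))
    (sc_le_one _) (a := a / (4 * A ^ 2 * 5 ^ n)) (by positivity)
  rw [show A ^ 2 * 5 ^ n * (a / (4 * A ^ 2 * 5 ^ n)) = a / 4 by field_simp] at c3
  obtain ⟨x, hx, h1, h2, h3⟩ : ∃ x ∈ F, ENNReal.ofReal (a / (4 * A ^ 2 * 5 ^ n) * sc (i0 + l) ^ n) ≤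
      μ (F ∩ ball x (sc (i0 + l) / 2)) ∧ nn x (i0 + l) ≤ δ ∧ N x (i0 + l) ≤ δ' := by
    by_contra! hc
    refine (hμ.trans ((measure_mono fun x hx => ?_).trans ((measure_union_le _ _).trans
      (add_le_add c3 ((measure_union_le _ _).trans h))))).not_gt ?_
    · by_contra h'
      simp only [mem_union, mem_ofPred_eq, hx, true_and, not_or, not_lt] at h'
      exact (hc x hx h'.1 h'.2.1).not_ge h'.2.2
    · rw [← ENNReal.ofReal_add (by positivity) (by positivity),
        ENNReal.ofReal_lt_ofReal_iff (by positivity)]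
      linarith [mul_pos ha (pow_pos s0 n)]
  refine ⟨x, hx, h1, h2, fun ψ L hψ h0 => (hN2 x _ ψ L hψ h0).trans ?_⟩
  gcongr

end Vale.Agent.P120
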