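import Vale.Agent.P120.Exc
import Vale.Agent.P120.Pack

/-!
P120 Tube. Overview in notes/P120.md, definitions in Defs.lean.
Name every helper lemma of yours with the file name in front (for example tube_aux1).

PLAN.
tube_le: work in the space W (finite-dimensional, finrank m <= n-1). Y = {W.orthogonalProjectionOnto (y - z) | y in the set},
all within s of W.orthogonalProjectionOnto (x - z). exists_net with t = c s gives at most (2/c+1)^m <= (3/c)^m points w,
and the set is covered by the balls ball (z + w) (2 c s) (pj_mem, y = pj y + hh y); measure_biUnion_finset_le, and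
(3/c)^m (2cs)^n <= 3^n 2^n c s^n because c <= 1 and m + 1 <= n.
not_support_subset_low: ball 0 1 ∩ support lies in the tube with z = 0 for every c; A⁻¹ <= C c is false for small c
(measure of the complement of the support is 0).
exists_hole: otherwise take r = min r0 1 and, in W, a net S of the ball of radius r with separation t (exists_net);
card_ge_of_cover gives (r/t)^m <= card, card_le_of_supp gives card <= A^2 ((2r+t)/t)^n <= A^2 (3r/t)^n for t <= r;
with m >= n+1 this fails for t small (t = r / K with K > A^2 3^n).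
-/

open MeasureTheory Metric Set Filter Topology
open scoped ENNReal NNReal RealInnerProductSpace

namespace Vale.Agent.P120

variable {d : ℕ}

theorem tube_le (n d : ℕ) (A : ℝ) (hA : 1 ≤ A) :
    ∃ C : ℝ, 0 < C ∧ ∀ μ : Measure (E d), Up n A μ → ∀ W : Submodule ℝ (E d),
      Module.finrank ℝ W + 1 ≤ n → ∀ (z x : E d) (s c : ℝ), 0 < s → 0 < c → c ≤ 1 →
        μ (ball x s ∩ {y | ‖hh z W y‖ ≤ c * s}) ≤ ENNReal.ofReal (C * c * s ^ n) := by
  have hA0 : 0 < A := one_pos.trans_le hA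
  refine ⟨A * 3 ^ n * 2 ^ n, by positivity, fun μ hU W hW z x s c hs hc hc1 => ?_⟩
  obtain ⟨S, -, -, h3, h4⟩ := exists_net (closedBall (W.orthogonalProjectionOnto (x - z)) s)
    (W.orthogonalProjectionOnto (x - z)) hs.le (mul_pos hc hs) fun y hy => hy
  have hcov : ball x s ∩ {y | ‖hh z W y‖ ≤ c * s} ⊆ ⋃ w ∈ S, ball (z + (w : E d)) (2 * c * s) := by
    rintro y ⟨hy, hy'⟩
    have a1 : W.orthogonalProjectionOnto (y - z) ∈ closedBall (W.orthogonalProjectionOnto (x - z)) s := by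
      rw [mem_closedBall, dist_eq_norm, ← map_sub, sub_sub_sub_cancel_right]
      rw [mem_ball, dist_eq_norm] at hy
      exact (Submodule.norm_orthogonalProjectionOnto_apply_le _ _).trans hy.le
    obtain ⟨w, hw, hw'⟩ := h3 _ a1
    refine mem_biUnion hw ?_
    have a2 : y - (z + w) = hh z W y + (W.starProjection (y - z) - w) := by
      unfold hh
      rw [Submodule.starProjection_orthogonal_val]
      abel
    have a3 : ‖W.starProjection (y - z) - w‖ < c * s := by
      rw [dist_eq_norm] at hw'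
      exact hw'
    rw [mem_ball, dist_eq_norm, a2]
    have a4 : ‖hh z W y‖ ≤ c * s := hy'
    linarith [norm_add_le (hh z W y) (W.starProjection (y - z) - w)]
  refine (measure_mono hcov).trans ((measure_biUnion_finset_le _ _).trans ?_)
  refine (Finset.sum_le_card_nsmul _ _ (ENNReal.ofReal (A * (2 * c * s) ^ n))
    fun w _ => hU _ _ (by positivity)).trans ?_
  rw [nsmul_eq_mul, ← ENNReal.ofReal_natCast, ← ENNReal.ofReal_mul (Nat.cast_nonneg _)]
  refine ENNReal.ofReal_le_ofReal ?_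
  obtain ⟨k, rfl⟩ := Nat.exists_eq_add_of_le hW
  generalize Module.finrank ℝ W = m at h4
  have b1 : 2 * s / (c * s) + 1 ≤ 3 / c := by
    rw [mul_div_mul_right _ _ hs.ne', div_add_one hc.ne']
    gcongr
    linarith
  have b2 : (S.card : ℝ) ≤ (3 / c) ^ m := h4.trans (by gcongr)
  have b3 : (3 : ℝ) ^ m * c ^ k ≤ 3 ^ (m + 1 + k) :=
    (mul_le_of_le_one_right (by positivity) (pow_le_one₀ hc.le hc1)).trans
      (pow_le_pow_right₀ (by norm_num) (by omega))
  calc (S.card : ℝ) * (A * (2 * c * s) ^ (m + 1 + k))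
      ≤ (3 / c) ^ m * (A * (2 * c * s) ^ (m + 1 + k)) := by gcongr
    _ = A * (3 ^ m * c ^ k) * 2 ^ (m + 1 + k) * c * s ^ (m + 1 + k) := by
      rw [div_pow, mul_pow, mul_pow, pow_add c, pow_add c]
      field_simp
    _ ≤ _ := by gcongr

theorem not_support_subset_low {n : ℕ} {A : ℝ} (hA : 1 ≤ A) {μ : Measure (E d)} (hU : Up n A μ)
    (hL : Low n A 1 μ) (h0 : (0 : E d) ∈ μ.support) (W : Submodule ℝ (E d))
    (hW : Module.finrank ℝ W + 1 ≤ n) (h : μ.support ⊆ (W : Set (E d))) : False := by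
  have hA0 : 0 < A := one_pos.trans_le hA
  obtain ⟨C, hC, hT⟩ := tube_le n d A hA
  obtain ⟨c, hc, hc1, hc2⟩ : ∃ c : ℝ, 0 < c ∧ c ≤ 1 ∧ c ≤ A⁻¹ / (2 * C) :=
    ⟨min 1 (A⁻¹ / (2 * C)), by positivity, min_le_left _ _, min_le_right _ _⟩
  have h1 := hT μ hU W hW 0 0 1 c one_pos hc hc1
  have h2 := hL 0 h0 1 one_pos le_rfl
  have h3 : μ (ball 0 1) ≤ μ (ball 0 1 ∩ {y | ‖hh 0 W y‖ ≤ c * 1}) := by
    refine measure_mono_ae ?_
    filter_upwards [Measure.support_mem_ae (μ := μ)] with y hy hb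
    refine ⟨hb, ?_⟩
    have a1 := (hh_eq_zero_iff 0 W y).2 (by simpa using h hy)
    simp [a1, hc.le]
  have h4 := (ENNReal.ofReal_le_ofReal_iff (by positivity)).1 (h2.trans (h3.trans h1))
  rw [le_div_iff₀ (by positivity)] at hc2
  simp only [one_pow, mul_one] at h4
  nlinarith [mul_pos hC hc]

theorem exists_hole {n : ℕ} {A : ℝ} (hA : 1 ≤ A) {μ : Measure (E d)} (hU : Up n A μ)
    (hL : Low n A 1 μ) (W : Submodule ℝ (E d)) (hW : n < Module.finrank ℝ W) {r0 : ℝ}
    (hr : 0 < r0) : ∃ z ∈ W, ‖z‖ < r0 ∧ z ∉ μ.support := by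
  by_contra hn
  push Not at hn
  obtain ⟨r, hr0, hr1, hr2⟩ : ∃ r : ℝ, 0 < r ∧ r ≤ 1 ∧ r ≤ r0 :=
    ⟨min 1 r0, by positivity, min_le_left _ _, min_le_right _ _⟩
  obtain ⟨K, hK⟩ : ∃ K : ℝ, K = A ^ 2 * 3 ^ n + 1 := ⟨_, rfl⟩
  have hK0 : 0 ≤ A ^ 2 * 3 ^ n := by positivity
  have hK1 : 1 ≤ K := by linarith
  have hKp : 0 < K := by linarith
  have ht : 0 < r / K := by positivity
  have htr : r / K ≤ r := div_le_self hr0.le hK1
  obtain ⟨S, h1, h2, h3, -⟩ := exists_net (ball (0 : W) r) 0 hr0.le ht fun y hy => (mem_ball.1 hy).le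
  have h4 := card_ge_of_cover S 0 hr0 ht h3
  have h5 := card_le_of_supp hA hU hL (S.map (Function.Embedding.subtype _)) 0 hr0.le ht
    (by linarith) ?_ ?_
  · rw [Finset.card_map] at h5
    have e1 : r / (r / K) = K := by field_simp
    have e2 : (2 * r + r / K) / (r / K) = 2 * K + 1 := by field_simp
    rw [e1] at h4
    rw [e2] at h5
    have a1 : K ^ (n + 1) ≤ K ^ Module.finrank ℝ W := pow_le_pow_right₀ hK1 hW
    have a2 : (2 * K + 1) ^ n ≤ (3 * K) ^ n := by
      gcongr
      linarith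
    have a3 : K ^ n * K ≤ A ^ 2 * (3 ^ n * K ^ n) := by
      rw [← pow_succ, ← mul_pow]
      exact a1.trans (h4.trans (h5.trans (by gcongr)))
    have a4 : 0 < K ^ n := by positivity
    nlinarith
  · intro p hp
    obtain ⟨w, hw, rfl⟩ := Finset.mem_map.1 hp
    have a1 : ‖(w : E d)‖ < r := mem_ball_zero_iff.1 (h1 hw)
    exact ⟨hn _ w.2 (a1.trans_le hr2), by simpa using a1.le⟩
  · intro p hp q hq hne
    obtain ⟨w, hw, rfl⟩ := Finset.mem_map.1 hp
    obtain ⟨w', hw', rfl⟩ := Finset.mem_map.1 hq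
    exact h2 w hw w' hw' fun e => hne (e ▸ rfl)

end Vale.Agent.P120
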