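import Vale.Agent.P120.Blow
import Vale.Agent.P120.Tube

/-!
P120 LemA. Overview in notes/P120.md, definitions in Defs.lean.
Name every helper lemma of yours with the file name in front (for example lema_aux1).

PLAN.
a0: induction on m. If finrank W <= n, extend W to V with finrank n (Submodule.exists_le_finrank_eq / exists_finrank_eq type lemma, finrank (E d) = d;
or induction adding vectors), and ex = 0 at (0, 1/2) by ex_eq_zero_of_support. Otherwise exists_hole with r0 = 1/8, blow, induction hypothesis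
for ν, W' with ε / 2^(n+4); |x''| <= dist x'' y0 + dist y0 z + |z| < 1/2.
lemA_unit: by contradiction (push_neg, choose) with δ = c = 1/(k+1); exists_conv along hyperfilter ℕ, Conv.rr, a0 with W = ⊤ and m = d and
ε / 2^(n+4), Conv.flat_transfer with r = 1/2 - |x'|, and eventually 1/(k+1) <= s.
lemA: HH.resc with U = refl, lemA_unit, sim_inv, mem_support_resc, norm_sim, flat_resc_iff with r = s' s.
-/

open MeasureTheory Metric Set Filter Topology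
open scoped ENNReal NNReal RealInnerProductSpace

namespace Vale.Agent.P120

variable {d : ℕ}

theorem lema_ext (W : Submodule ℝ (E d)) {n : ℕ} (hW : Module.finrank ℝ W ≤ n) (hnd : n ≤ d) :
    ∃ V : Submodule ℝ (E d), W ≤ V ∧ Module.finrank ℝ V = n := by
  induction n, hW using Nat.le_induction with
  | base => exact ⟨W, le_rfl, rfl⟩
  | succ n _ ih =>
    obtain ⟨V, h1, h2⟩ := ih (by omega)
    have h3 : V ≠ ⊤ := by
      rintro rfl
      rw [finrank_top, finrank_euclideanSpace_fin] at h2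
      omega
    obtain ⟨v, -, hv⟩ := SetLike.exists_of_lt (lt_top_iff_ne_top.2 h3)
    exact ⟨_, h1.trans le_sup_left, by rw [Submodule.finrank_sup_span_singleton hv, h2]⟩

theorem lema_div (n : ℕ) (ε : ℝ) : 2 ^ (n + 4) * (ε / 2 ^ (n + 4)) = ε :=
  mul_div_cancel₀ _ (by positivity)

theorem a0 {n : ℕ} {A : ℝ} (hn : 1 ≤ n) (hnd : n ≤ d) (hA : 1 ≤ A) (m : ℕ) :
    ∀ (μ : Measure (E d)) (W : Submodule ℝ (E d)), Module.finrank ℝ W ≤ n + m → RR n A μ →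
      (0 : E d) ∈ μ.support → μ.support ⊆ (W : Set (E d)) → ∀ ε : ℝ, 0 < ε →
        ∃ x ∈ μ.support, ‖x‖ < 1 / 2 ∧ ∃ s : ℝ, 0 < s ∧ s ≤ 1 / 2 ∧ Flat n μ x s ε := by
  have base : ∀ (μ : Measure (E d)) (W : Submodule ℝ (E d)), Module.finrank ℝ W ≤ n →
      (0 : E d) ∈ μ.support → μ.support ⊆ (W : Set (E d)) → ∀ ε : ℝ,
        ∃ x ∈ μ.support, ‖x‖ < 1 / 2 ∧ ∃ s : ℝ, 0 < s ∧ s ≤ 1 / 2 ∧ Flat n μ x s ε := by
    intro μ W hW h0 hs ε
    obtain ⟨V, h1, h2⟩ := lema_ext W hW hnd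
    refine ⟨0, h0, by simp, 1 / 2, by norm_num, le_rfl, 0, V, h2, ?_⟩
    rw [ex_eq_zero_of_support V (hs.trans h1)]
    positivity
  induction m with
  | zero => exact fun μ W hW _ h0 hs ε _ => base μ W hW h0 hs ε
  | succ m ih =>
    intro μ W hW h h0 hs ε hε
    rcases le_or_gt (Module.finrank ℝ W) n with h1 | h1
    · exact base μ W h1 h0 hs ε
    obtain ⟨z, hz, hz1, hz2⟩ := exists_hole hA h.1 (h.2.1 1) W h1 (r0 := 1 / 8) (by norm_num)
    obtain ⟨y0, -, hy, W', hW', ν, hν, hν0, hνs, ht⟩ := blow hn hA h h0 W hs hz hz2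
    obtain ⟨x', hx', h2, s, h3, h4, h5⟩ := ih ν W' (by omega) hν hν0 hνs (ε / 2 ^ (n + 4))
      (by positivity)
    obtain ⟨x, hx, h6, s', h7, h8, h9⟩ := ht x' hx' h2 s _ h3 h4 (by positivity) h5
    rw [lema_div] at h9
    refine ⟨x, hx, ?_, s', h7, h8, h9⟩
    have := dist_triangle4 x y0 z 0
    rw [dist_zero_right, dist_zero_right] at this
    linarith

theorem lemA_unit (n d : ℕ) (hn : 1 ≤ n) (hnd : n ≤ d) (A : ℝ) (hA : 1 ≤ A) (ε : ℝ) (hε : 0 < ε) :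
    ∃ δ : ℝ, 0 < δ ∧ ∃ c : ℝ, 0 < c ∧ ∀ μ : Measure (E d), HH n A μ 0 1 δ →
      ∃ x ∈ μ.support, ‖x‖ < 1 / 2 ∧ ∃ s : ℝ, c ≤ s ∧ s ≤ 1 / 2 ∧ Flat n μ x s ε := by
  by_contra hc
  push Not at hc
  have hp : ∀ k : ℕ, (0 : ℝ) < 1 / ((k : ℝ) + 1) := fun k => by positivity
  choose μs hH hF using fun k : ℕ => hc _ (hp k) _ (hp k)
  have hA0 : 0 ≤ A := by linarith
  obtain ⟨μ, hμ⟩ := exists_conv hA0 (hyperfilter ℕ) μs fun k => (hH k).1
  have ht : Tendsto (fun k : ℕ => 1 / ((k : ℝ) + 1)) (hyperfilter ℕ) (𝓝 0) :=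
    tendsto_one_div_add_atTop_nhds_zero_nat.mono_left Nat.hyperfilter_le_atTop
  obtain ⟨hR, h0⟩ := hμ.rr hn hA hH ht
  obtain ⟨x, hx, h1, s, h2, h3, h4⟩ := a0 hn hnd hA d μ ⊤ (by
    rw [finrank_top, finrank_euclideanSpace_fin]
    omega) hR h0 (Set.subset_univ _) (ε / 2 ^ (n + 4)) (by positivity)
  obtain ⟨k, ⟨y, hy, h5, h6⟩, h7⟩ := ((hμ.flat_transfer hA0 hx (sub_pos.2 h1) h2 (by positivity)
    h4).and (ht.eventually (eventually_le_nhds h2))).exists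
  rw [lema_div] at h6
  refine hF k y hy ?_ s h7 h3 h6
  have := dist_triangle y x 0
  rw [dist_zero_right, dist_zero_right] at this
  linarith

theorem lemA (n d : ℕ) (hn : 1 ≤ n) (hnd : n ≤ d) (A : ℝ) (hA : 1 ≤ A) (ε : ℝ) (hε : 0 < ε) :
    ∃ δ : ℝ, 0 < δ ∧ ∃ c : ℝ, 0 < c ∧ ∀ (μ : Measure (E d)) (x : E d) (s : ℝ), 0 < s →
      HH n A μ x s δ → ∃ x' ∈ μ.support, dist x' x < s / 2 ∧ ∃ s' : ℝ, c * s ≤ s' ∧ s' ≤ s / 2 ∧
        Flat n μ x' s' ε := by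
  obtain ⟨δ, hδ, c, hc, h⟩ := lemA_unit n d hn hnd A hA ε hε
  refine ⟨δ, hδ, c, hc, fun μ x s hs hH => ?_⟩
  obtain ⟨y, hy, h1, r, h2, h3, h4⟩ := h _ (hH.resc (U := LinearIsometryEquiv.refl ℝ (E d)) hs)
  rw [← sim_inv (x := x) (U := LinearIsometryEquiv.refl ℝ (E d)) hs y] at hy h1 h4
  rw [norm_sim hs, div_lt_iff₀ hs] at h1
  rw [← mul_div_cancel_right₀ r hs.ne', flat_resc_iff hs _ (mul_pos (hc.trans_le h2) hs)] at h4
  refine ⟨_, (mem_support_resc hs _).1 hy, by linarith, r * s, by gcongr, ?_, h4⟩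
  nlinarith

end Vale.Agent.P120
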