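import Vale.Agent.P120.EnB

/-!
P120 Mass. Overview in notes/P120.md, definitions in Defs.lean.
Name every helper lemma of yours with the file name in front (for example mass_aux1).

PLAN.
φ1 = bump x' t', φ2 = bump x t, m1 = ∫ φ1 in [A⁻¹ (t'/2)^n, A t'^n], m2 = ∫ φ2 in [a t^n, A t^n] (φ2 >= indicator of F ∩ ball x (t/2)). ψ = m1⁻¹ φ1 - m2⁻¹ φ2 is a mean zero test at (x,t)
(Test.mono, const_mul, sub_mul). En ψ <= 2 m1^(-2) En φ1 + 2 m2^(-2) En φ2 <= K t^(-(n+1)) with K = K(n,A,c,a) (En_sub_mul_le, En_const_mul, Test.en_le with L = 2/t', 2/t), so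
sqrt (t^n) sqrt (t En ψ) <= sqrt K. With g = indicator of F: ∫ g φ2 / m2 >= a / A. Choose δ = a / (2 A (sqrt K + 1)); then ∫ g φ1 >= m1 a/(2A), and ∫ g φ1 <= μ.real (F ∩ ball x' t').
a1 = a / (2 A^2 2^n).
-/

open MeasureTheory Metric Set Filter Topology
open scoped ENNReal NNReal RealInnerProductSpace

namespace Vale.Agent.P120

variable {d : ℕ}

theorem mass_int {μ : Measure (E d)} {F : Set (E d)} (hF : MeasurableSet F) {φ : E d → ℝ}
    (hφ : Integrable φ μ) : Integrable (fun y => F.indicator (fun _ => (1 : ℝ)) y * φ y) μ := by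
  refine (hφ.indicator hF).congr (Eventually.of_forall fun y => ?_)
  by_cases hy : y ∈ F
  · simp only [indicator_of_mem hy, one_mul]
  · simp only [indicator_of_notMem hy, zero_mul]

theorem mass_ind {n : ℕ} {A : ℝ} {μ : Measure (E d)} (hU : Up n A μ) {F : Set (E d)}
    (hF : MeasurableSet F) (x : E d) (r : ℝ) :
    Integrable ((F ∩ ball x r).indicator fun _ => (1 : ℝ)) μ ∧
      ∫ y, (F ∩ ball x r).indicator (fun _ => (1 : ℝ)) y ∂μ = μ.real (F ∩ ball x r) := by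
  have hm : MeasurableSet (F ∩ ball x r) := hF.inter measurableSet_ball
  refine ⟨?_, ?_⟩
  · rw [integrable_indicator_iff hm]
    exact integrableOn_const
      ((measure_mono inter_subset_right).trans_lt (hU.ball_lt_top x r)).ne
  · rw [integral_indicator hm]
    simp

theorem mass_lower {n : ℕ} {A : ℝ} {μ : Measure (E d)} (hU : Up n A μ) {F : Set (E d)}
    (hF : MeasurableSet F) (x : E d) {t : ℝ} (ht : 0 < t) :
    μ.real (F ∩ ball x (t / 2)) ≤ ∫ y, F.indicator (fun _ => (1 : ℝ)) y * bump x t y ∂μ := by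
  obtain ⟨h1, h2⟩ := mass_ind hU hF x (t / 2)
  rw [← h2]
  refine integral_mono h1 (mass_int hF ((bump_test x ht).integrable hU)) fun y => ?_
  by_cases hy : y ∈ F ∩ ball x (t / 2)
  · simp only [indicator_of_mem hy, indicator_of_mem hy.1, one_mul]
    exact (bump_eq_one ht (mem_ball.1 hy.2).le).ge
  · simp only [indicator_of_notMem hy]
    exact mul_nonneg (indicator_nonneg (fun _ _ => zero_le_one) y) (bump_nonneg x t y)

theorem mass_upper {n : ℕ} {A : ℝ} {μ : Measure (E d)} (hU : Up n A μ) {F : Set (E d)}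
    (hF : MeasurableSet F) (x : E d) {t : ℝ} (ht : 0 < t) :
    ∫ y, F.indicator (fun _ => (1 : ℝ)) y * bump x t y ∂μ ≤ μ.real (F ∩ ball x t) := by
  obtain ⟨h1, h2⟩ := mass_ind hU hF x t
  rw [← h2]
  refine integral_mono (mass_int hF ((bump_test x ht).integrable hU)) h1 fun y => ?_
  by_cases hy : y ∈ F
  · by_cases hb : y ∈ ball x t
    · have hy' : y ∈ F ∩ ball x t := ⟨hy, hb⟩
      simp only [indicator_of_mem hy', indicator_of_mem hy, one_mul]
      exact bump_le_one x t y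
    · have h0 : bump x t y = 0 := bump_eq_zero ht (not_lt.1 (mt mem_ball.2 hb))
      simp only [h0, mul_zero]
      exact indicator_nonneg (fun _ _ => zero_le_one) y
  · simp only [indicator_of_notMem hy, zero_mul]
    exact indicator_nonneg (fun _ _ => zero_le_one) y

theorem mass_le_all {n : ℕ} {A : ℝ} {μ : Measure (E d)} (hU : Up n A μ) {F : Set (E d)}
    (hF : MeasurableSet F) (x : E d) {t : ℝ} (ht : 0 < t) :
    ∫ y, F.indicator (fun _ => (1 : ℝ)) y * bump x t y ∂μ ≤ ∫ y, bump x t y ∂μ := by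
  refine integral_mono (mass_int hF ((bump_test x ht).integrable hU))
    ((bump_test x ht).integrable hU) fun y => ?_
  by_cases hy : y ∈ F
  · simp only [indicator_of_mem hy, one_mul, le_refl]
  · simp only [indicator_of_notMem hy, zero_mul]
    exact bump_nonneg x t y

theorem mass_en {n : ℕ} {A : ℝ} {μ : Measure (E d)} (hn : 1 ≤ n) (hA : 0 ≤ A) (hU : Up n A μ)
    {ψ : E d → ℝ} {x : E d} {t L0 : ℝ} (ht : 0 < t) (h : Test ψ x t (L0 / t)) :
    √(t ^ n) * √(t * En n μ ψ) ≤ √(10 * Cad n * A ^ 2 * L0 ^ 2) * t ^ n := by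
  have h1 := h.en_le hn hA hU ht
  have h2 : t * En n μ ψ ≤ 10 * Cad n * A ^ 2 * L0 ^ 2 * t ^ n := by
    refine (mul_le_mul_of_nonneg_left h1 ht.le).trans (le_of_eq ?_)
    field_simp
    ring
  have hC := one_le_Cad n
  have h3 : √(t * En n μ ψ) ≤ √(10 * Cad n * A ^ 2 * L0 ^ 2) * √(t ^ n) := by
    rw [← Real.sqrt_mul (by positivity)]
    exact Real.sqrt_le_sqrt h2
  calc √(t ^ n) * √(t * En n μ ψ)
      ≤ √(t ^ n) * (√(10 * Cad n * A ^ 2 * L0 ^ 2) * √(t ^ n)) :=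
        mul_le_mul_of_nonneg_left h3 (Real.sqrt_nonneg _)
    _ = √(10 * Cad n * A ^ 2 * L0 ^ 2) * (√(t ^ n) * √(t ^ n)) := by ring
    _ = _ := by rw [Real.mul_self_sqrt (by positivity)]

theorem mass_transfer (n d : ℕ) (hn : 1 ≤ n) (A : ℝ) (hA : 1 ≤ A) (c a : ℝ) (hc : 0 < c)
    (ha : 0 < a) :
    ∃ δ : ℝ, 0 < δ ∧ ∃ a1 : ℝ, 0 < a1 ∧ ∀ μ : Measure (E d), Up n A μ → Low n A 1 μ →
      ∀ F : Set (E d), MeasurableSet F → ∀ (x x' : E d) (t t' : ℝ), x' ∈ μ.support → 0 < t →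
        t ≤ 1 → c * t ≤ t' → t' ≤ t / 2 → dist x' x < t / 2 →
        ENNReal.ofReal (a * t ^ n) ≤ μ (F ∩ ball x (t / 2)) →
        (∀ (ψ : E d → ℝ) (L : ℝ), Test ψ x t L → ∫ y, ψ y ∂μ = 0 →
          |∫ y, F.indicator (fun _ => (1 : ℝ)) y * ψ y ∂μ| ≤ δ * √(t ^ n) * √(t * En n μ ψ)) →
        ENNReal.ofReal (a1 * t' ^ n) ≤ μ (F ∩ ball x' t') := by
  have hA0 : 0 < A := by linarith
  obtain ⟨K, hK⟩ : ∃ K : ℝ, K = √(10 * Cad n * A ^ 2 * (2 / c + 2 * A / a) ^ 2) := ⟨_, rfl⟩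
  have hK0 : 0 ≤ K := hK ▸ Real.sqrt_nonneg _
  refine ⟨a / (2 * A ^ 2 * 2 ^ n) * c ^ n / (K + 1), by positivity, a / (2 * A ^ 2 * 2 ^ n),
    by positivity, ?_⟩
  intro μ hU hL F hF x x' t t' hx' ht ht1 hct ht' hxx hmass hψ
  have ht'0 : 0 < t' := lt_of_lt_of_le (by positivity) hct
  have hfin : ∀ (z : E d) (r : ℝ), μ (F ∩ ball z r) ≠ ∞ := fun z r =>
    ((measure_mono inter_subset_right).trans_lt (hU.ball_lt_top z r)).ne
  obtain ⟨m1, hm1⟩ : ∃ m1 : ℝ, m1 = ∫ y, bump x' t' y ∂μ := ⟨_, rfl⟩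
  obtain ⟨m2, hm2⟩ : ∃ m2 : ℝ, m2 = ∫ y, bump x t y ∂μ := ⟨_, rfl⟩
  have g2 : a * t ^ n ≤ ∫ y, F.indicator (fun _ => (1 : ℝ)) y * bump x t y ∂μ :=
    ((ENNReal.ofReal_le_iff_le_toReal (hfin _ _)).1 hmass).trans (mass_lower hU hF x ht)
  have m2l : a * t ^ n ≤ m2 := hm2 ▸ g2.trans (mass_le_all hU hF x ht)
  have m2u : m2 ≤ A * t ^ n := hm2 ▸ integral_bump_le hA0.le hU x ht
  have m1l : A⁻¹ * (t' / 2) ^ n ≤ m1 := hm1 ▸ le_integral_bump hU hL hx' ht'0 (by linarith)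
  have m1u : m1 ≤ A * t' ^ n := hm1 ▸ integral_bump_le hA0.le hU x' ht'0
  have m2p : 0 < m2 := lt_of_lt_of_le (by positivity) m2l
  have m1p : 0 < m1 := lt_of_lt_of_le (by positivity) m1l
  have hq : m1 / m2 ≤ A / a := by
    rw [div_le_div_iff₀ m2p ha]
    have h1 : t' ^ n ≤ t ^ n := pow_le_pow_left₀ ht'0.le (by linarith) n
    calc m1 * a ≤ A * t' ^ n * a := by gcongr
      _ ≤ A * t ^ n * a := by gcongr
      _ = A * (a * t ^ n) := by ring
      _ ≤ A * m2 := by gcongr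
  have T1 : Test (bump x' t') x t (2 / (c * t)) :=
    (bump_test x' ht'0).mono (by linarith) (div_le_div_of_nonneg_left zero_le_two
      (by positivity) hct) ht'0.le
  have T2 : Test (fun y => bump x' t' y - m1 / m2 * bump x t y) x t
      ((2 / c + 2 * A / a) / t) := by
    refine (T1.sub_mul (bump_test x ht) (m1 / m2)).mono (by simp) ?_ ht.le
    rw [abs_of_pos (div_pos m1p m2p)]
    calc 2 / (c * t) + m1 / m2 * (2 / t) ≤ 2 / (c * t) + A / a * (2 / t) := by gcongr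
      _ = _ := by field_simp
  have i1 := (bump_test x' ht'0).integrable hU
  have i2 := (bump_test x ht).integrable hU
  have hz : ∫ y, (bump x' t' y - m1 / m2 * bump x t y) ∂μ = 0 := by
    rw [integral_sub i1 (i2.const_mul _), integral_const_mul, ← hm1, ← hm2]
    field_simp
    ring
  have h1 := hψ _ _ T2 hz
  have h2 := mass_en hn hA0.le hU ht T2
  rw [← hK] at h2
  have e1 : ∫ y, F.indicator (fun _ => (1 : ℝ)) y * (bump x' t' y - m1 / m2 * bump x t y) ∂μ =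
      ∫ y, F.indicator (fun _ => (1 : ℝ)) y * bump x' t' y ∂μ -
        m1 / m2 * ∫ y, F.indicator (fun _ => (1 : ℝ)) y * bump x t y ∂μ := by
    rw [← integral_const_mul, ← integral_sub (mass_int hF i1) ((mass_int hF i2).const_mul _)]
    congr 1
    funext y
    ring
  rw [e1, mul_assoc] at h1
  have h3 : a / (2 * A ^ 2 * 2 ^ n) * c ^ n / (K + 1) * (K * t ^ n) ≤
      a / (2 * A ^ 2 * 2 ^ n) * t' ^ n := by
    have h4 : (c * t) ^ n ≤ t' ^ n := pow_le_pow_left₀ (by positivity) hct n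
    have h5 : K / (K + 1) ≤ 1 := div_le_one_of_le₀ (by linarith) (by positivity)
    calc a / (2 * A ^ 2 * 2 ^ n) * c ^ n / (K + 1) * (K * t ^ n)
        = a / (2 * A ^ 2 * 2 ^ n) * (K / (K + 1) * (c * t) ^ n) := by
          rw [mul_pow]
          ring
      _ ≤ a / (2 * A ^ 2 * 2 ^ n) * (1 * t' ^ n) := by gcongr
      _ = _ := by ring
  have h6 : 2 * (a / (2 * A ^ 2 * 2 ^ n) * t' ^ n) ≤
      m1 / m2 * ∫ y, F.indicator (fun _ => (1 : ℝ)) y * bump x t y ∂μ := by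
    calc 2 * (a / (2 * A ^ 2 * 2 ^ n) * t' ^ n)
        = A⁻¹ * (t' / 2) ^ n / (A * t ^ n) * (a * t ^ n) := by
          rw [div_pow]
          field_simp
      _ ≤ m1 / m2 * (a * t ^ n) := by gcongr
      _ ≤ _ := by gcongr
  have h7 := mul_le_mul_of_nonneg_left h2
    (by positivity : 0 ≤ a / (2 * A ^ 2 * 2 ^ n) * c ^ n / (K + 1))
  have h8 := mass_upper hU hF x' ht'0
  rw [ENNReal.ofReal_le_iff_le_toReal (hfin _ _)]
  have h9 := (abs_le.1 h1).1
  change _ ≤ μ.real (F ∩ ball x' t')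
  linarith

end Vale.Agent.P120
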