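import Vale.Agent.P120.Find1
import Vale.Agent.P120.Mass
import Vale.Agent.P120.LemA

/-!
P120 Find2. Overview in notes/P120.md, definitions in Defs.lean.
Name every helper lemma of yours with the file name in front (for example find2_aux1).

PLAN.
a' from exists_good; δ, c from lemA with ε / (2^(n+3) 2^(n+2)); δ', a1 from mass_transfer with c/2 and a'; m from exists_good; L0 with sc L0 <= c/2 (tendsto_sc), L = m + L0.
At the good point x, t = sc (i0+l): HH.mono, lemA give x', s'. exists_sc_near gives i1 with s'/2 < sc i1 <= s'; then sc i1 <= t gives i0 + l <= i1 and sc i1 >= (c/2) t >= sc (i0+l+L0) gives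
i1 <= i0 + l + L0 (le_of_sc_le, sc_add). Flat.scale with c = 2, Flat.center with c = 1. x1 = x'.
-/

open MeasureTheory Metric Set Filter Topology
open scoped ENNReal NNReal RealInnerProductSpace

namespace Vale.Agent.P120

variable {d : ℕ}

theorem find_flat (n d : ℕ) (hn : 1 ≤ n) (hnd : n ≤ d) (A : ℝ) (hA : 1 ≤ A) (ε B a : ℝ)
    (hε : 0 < ε) (hB : 0 < B) (ha : 0 < a) :
    ∃ L : ℕ, ∃ a1 : ℝ, 0 < a1 ∧ ∀ μ : Measure (E d), Up n A μ → Low n A 1 μ →
      ∀ nn : E d → ℕ → ℝ, (∀ i, Measurable fun x => nn x i) →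
      ∀ (x0 : E d) (i0 : ℕ) (F : Set (E d)), MeasurableSet F →
        F ⊆ μ.support ∩ ball x0 (sc i0) → (∀ y ∈ F, ∀ i, HH n A μ y (sc i) (nn y i)) →
        (∀ y ∈ F, tl nn y i0 ≤ ENNReal.ofReal B) → ENNReal.ofReal (a * sc i0 ^ n) ≤ μ F →
        ∃ i1 : ℕ, i0 ≤ i1 ∧ i1 ≤ i0 + L ∧ ∃ x1 : E d,
          ENNReal.ofReal (a1 * sc i1 ^ n) ≤ μ (F ∩ ball x1 (sc i1)) ∧
          ∀ y ∈ ball x1 (sc i1), Flat n μ y (sc i1) ε := by
  have hA0 : 0 ≤ A := zero_le_one.trans hA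
  obtain ⟨a', ha', h1⟩ := exists_good n d hn A hA B a hB ha
  obtain ⟨δ, hδ, c, hc, h2⟩ := lemA n d hn hnd A hA (ε / ((1 + 1) ^ (n + 3) * 2 ^ (n + 2)))
    (by positivity)
  obtain ⟨δ', hδ', a1, ha1, h3⟩ := mass_transfer n d hn A hA (c / 2) a' (half_pos hc) ha'
  obtain ⟨m, hm⟩ := h1 δ δ' hδ hδ'
  obtain ⟨L0, hL0⟩ := (tendsto_sc.eventually_le_const (half_pos hc)).exists
  refine ⟨m + L0, a1, ha1, fun μ hU hL nn hnn x0 i0 F hF hFs hH htl hμ => ?_⟩
  obtain ⟨l, hl, x, hx, k1, k2, k3⟩ := hm μ hU hL nn hnn x0 i0 F hF hFs htl hμ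
  have ht := sc_pos (i0 + l)
  have ht1 := sc_le_one (i0 + l)
  obtain ⟨x', hx', hd, s', b1, b2, b3⟩ := h2 μ x _ ht ((hH x hx _).mono k2)
  have hs' : 0 < s' := (mul_pos hc ht).trans_le b1
  obtain ⟨i1, c1, c2⟩ := exists_sc_near hs' (by linarith)
  have c3 : c / 2 * sc (i0 + l) ≤ sc i1 := by linarith
  refine ⟨i1, (Nat.le_add_right i0 l).trans (le_of_sc_le (by linarith)), ?_, x',
    h3 μ hU hL F hF x x' _ _ hx' ht ht1 c3 (c2.trans b2) hd k1 k3, fun y hy => ?_⟩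
  · have c4 : sc (i0 + l + L0) ≤ sc i1 := by
      rw [sc_add, mul_comm]
      exact (mul_le_mul_of_nonneg_right hL0 ht.le).trans c3
    have := le_of_sc_le c4
    omega
  · have c4 := (b3.scale hA0 hU (sc_pos i1) c2 (c := 2) (by linarith)).center hA0 hU (sc_pos i1)
      (x' := y) (c := 1) (by rw [one_mul, dist_comm]; exact (mem_ball.1 hy).le)
    rwa [← mul_assoc, mul_div_cancel₀ _ (by positivity)] at c4


end Vale.Agent.P120
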