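import Vale.Agent.P120.Defs2
import Vale.Agent.P120.ADInt

/-!
P120 Flat2. Overview in notes/P120.md, definitions in Defs.lean.
Name every helper lemma of yours with the file name in front (for example flat2_aux1).

PLAN.
Let ω = volume (ball 0 1) in E n, 0 < ω < ∞. For all x and r > 0: A⁻¹ r^n <= μ (closedBall x r) <= A (2r)^n and volume (closedBall x r) = r^n ω
(Measure.addHaar_closedBall). Besicovitch.ae_tendsto_rnDeriv volume μ: μ-a.e. the derivative of volume with respect to μ is >= ω / (A 2^n) > 0, hence μ ≪ volume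
(if volume N = 0 with N measurable, Measure.setLIntegral_rnDeriv_le gives lintegral over N of rnDeriv = 0, so μ N = 0). Besicovitch.ae_tendsto_rnDeriv μ volume gives
c <= rnDeriv μ volume <= C a.e.; f = max c (min C (toReal rnDeriv)); Measure.withDensity_rnDeriv_eq and withDensity_congr_ae.
-/

open MeasureTheory Metric Set Filter Topology
open scoped ENNReal NNReal RealInnerProductSpace

namespace Vale.Agent.P120

variable {d : ℕ}

theorem exists_density {n : ℕ} {A : ℝ} (hA : 1 ≤ A) {μ : Measure (E n)} (hU : Up n A μ)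
    (hL : ∀ ρ : ℝ, Low n A ρ μ) (hs : μ.support = univ) :
    ∃ (f : E n → ℝ) (c C : ℝ), Measurable f ∧ 0 < c ∧ (∀ x, c ≤ f x ∧ f x ≤ C) ∧
      μ = volume.withDensity (fun x => ENNReal.ofReal (f x)) := by
  have := hU.locFin
  have A0 : 0 < A := by linarith
  obtain ⟨w, w0, hw⟩ : ∃ w : ℝ, 0 < w ∧ ∀ (x : E n) (r : ℝ), 0 < r →
      volume (closedBall x r) = ENNReal.ofReal (r ^ n * w) := by
    refine ⟨(volume (ball (0 : E n) 1)).toReal, ENNReal.toReal_pos
      (measure_ball_pos _ _ one_pos).ne' measure_ball_lt_top.ne, fun x r hr => ?_⟩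
    rw [Measure.addHaar_closedBall _ _ hr.le, finrank_euclideanSpace_fin,
      ENNReal.ofReal_mul (by positivity), ENNReal.ofReal_toReal measure_ball_lt_top.ne]
  have h1 : ∀ (x : E n) (r : ℝ), 0 < r →
      ENNReal.ofReal (A⁻¹ / w) * volume (closedBall x r) ≤ μ (closedBall x r) := fun x r hr => by
    rw [hw x r hr, ← ENNReal.ofReal_mul (by positivity),
      show A⁻¹ / w * (r ^ n * w) = A⁻¹ * r ^ n by field_simp]
    exact (hL r x (hs ▸ mem_univ x) r hr le_rfl).trans (measure_mono ball_subset_closedBall)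
  have h2 : ∀ (x : E n) (r : ℝ), 0 < r →
      μ (closedBall x r) ≤ ENNReal.ofReal (A * 2 ^ n / w) * volume (closedBall x r) :=
    fun x r hr => by
    rw [hw x r hr, ← ENNReal.ofReal_mul (by positivity),
      show A * 2 ^ n / w * (r ^ n * w) = A * (2 * r) ^ n by rw [mul_pow]; field_simp]
    exact (measure_mono (closedBall_subset_ball (by linarith))).trans (hU x _ (by linarith))
  have h3 : μ ≪ volume := fun N hN => nonpos_iff_eq_zero.1 (by
    have := (Besicovitch.vitaliFamily μ).measure_le_of_frequently_le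
      (Real.toNNReal (A * 2 ^ n / w) • volume) Measure.AbsolutelyContinuous.rfl N fun x _ =>
      (Besicovitch.tendsto_filterAt μ x).frequently
        (Eventually.frequently (eventually_mem_nhdsWithin.mono fun r hr => h2 x r hr))
    rwa [Measure.smul_apply, hN, smul_zero] at this)
  have h4 : A⁻¹ / w ≤ A * 2 ^ n / w := by
    have : (1 : ℝ) ≤ 2 ^ n := one_le_pow₀ one_le_two
    have : A⁻¹ ≤ 1 := inv_le_one_of_one_le₀ hA
    gcongr
    nlinarith
  refine ⟨fun x => max (A⁻¹ / w) (min (A * 2 ^ n / w) (μ.rnDeriv volume x).toReal), A⁻¹ / w,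
    A * 2 ^ n / w, by fun_prop, by positivity,
    fun x => ⟨le_max_left _ _, max_le h4 (min_le_left _ _)⟩, ?_⟩
  refine (Measure.withDensity_rnDeriv_eq μ volume h3).symm.trans (withDensity_congr_ae ?_)
  filter_upwards [Besicovitch.ae_tendsto_rnDeriv μ volume] with x hx
  have h5 : ENNReal.ofReal (A⁻¹ / w) ≤ μ.rnDeriv volume x :=
    ge_of_tendsto hx (eventually_mem_nhdsWithin.mono fun r hr => (ENNReal.le_div_iff_mul_le
      (Or.inl (measure_closedBall_pos _ _ hr).ne') (Or.inl measure_closedBall_lt_top.ne)).2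
        (h1 x r hr))
  have h6 : μ.rnDeriv volume x ≤ ENNReal.ofReal (A * 2 ^ n / w) :=
    le_of_tendsto hx (eventually_mem_nhdsWithin.mono fun r hr =>
      ENNReal.div_le_of_le_mul (h2 x r hr))
  have h7 := ne_top_of_le_ne_top ENNReal.ofReal_ne_top h6
  rw [min_eq_right (ENNReal.toReal_le_of_le_ofReal (by positivity) h6),
    max_eq_right ((ENNReal.ofReal_le_iff_le_toReal h7).1 h5), ENNReal.ofReal_toReal h7]

end Vale.Agent.P120
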