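import Vale.Agent.P120.Lam2

/-!
P120 Rfl1. Overview in notes/P120.md, definitions in Defs.lean.
Name every helper lemma of yours with the file name in front (for example rfl1_aux1).

PLAN.
φ0 = bump 0 1, I0 = ∫ φ0 > 0 (le_integral_bump). c a t = I0⁻¹ • Lam n μ a t 0 φ0. For a test ψ, ψ - (∫ψ / I0) φ0 is a mean zero test function
centred at 0 with a large radius (Test.mono, Test.sub_mul), so Rfl, Lam_eq_of_mean_zero and Lam_sub_mul give the first claim.
Bound: apply the first claim to bump a t (bump_test, L = 2/t), Lam_norm_le gives C 2 t^n, and ∫ bump a t >= A⁻¹ (t/2)^n.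
Difference: Lam_change for φ0.
-/

open MeasureTheory Metric Set Filter Topology
open scoped ENNReal NNReal RealInnerProductSpace

namespace Vale.Agent.P120

variable {d : ℕ}

theorem RR.exists_c (n d : ℕ) (hn : 1 ≤ n) (A : ℝ) (hA : 1 ≤ A) :
    ∃ C : ℝ, 0 < C ∧ ∀ μ : Measure (E d), RR n A μ → (0 : E d) ∈ μ.support →
      ∃ c : E d → ℝ → E d,
        (∀ (a : E d) (t : ℝ) (ψ : E d → ℝ) (x : E d) (s L : ℝ), 0 < t → 0 < s → Test ψ x s L →
          Lam n μ a t 0 ψ = (∫ y, ψ y ∂μ) • c a t) ∧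
        (∀ a ∈ μ.support, ∀ t : ℝ, 0 < t → ‖c a t‖ ≤ C) ∧
        ∀ (a a' : E d) (t t' : ℝ), 0 < t → 0 < t' →
          c a t - c a' t' = ∫ y, (KK n t' (a' - y) - KK n t (a - y)) ∂μ := by
  have hA0 : 0 < A := by linarith
  obtain ⟨C, hC, hL⟩ := Lam_norm_le n d hn A hA0.le
  refine ⟨C * 2 * A * 2 ^ n, by positivity, fun μ ⟨hU, hlow, hR⟩ h0 => ?_⟩
  have hφ := bump_test (0 : E d) one_pos
  have hI : 0 < ∫ y, bump (0 : E d) 1 y ∂μ :=
    lt_of_lt_of_le (by positivity) (le_integral_bump hU (hlow 1) h0 one_pos (by norm_num))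
  have key : ∀ (a : E d) (t : ℝ) (ψ : E d → ℝ) (x : E d) (s L : ℝ), 0 < t → 0 < s →
      Test ψ x s L → Lam n μ a t 0 ψ = (∫ y, ψ y ∂μ) •
        (∫ y, bump (0 : E d) 1 y ∂μ)⁻¹ • Lam n μ a t 0 (bump 0 1) := by
    intro a t ψ x s L ht hs h
    have hd : 0 ≤ dist x 0 := dist_nonneg
    have h1 := (h.mono (x' := 0) (s' := dist x 0 + s + 1) (by linarith) le_rfl hs.le).sub_mul
      (hφ.mono (by rw [dist_self]; linarith) le_rfl zero_le_one)
      ((∫ y, ψ y ∂μ) * (∫ y, bump (0 : E d) 1 y ∂μ)⁻¹)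
    have h2 : ∫ y, (ψ y - (∫ y, ψ y ∂μ) * (∫ y, bump (0 : E d) 1 y ∂μ)⁻¹ * bump 0 1 y) ∂μ = 0 := by
      rw [integral_sub (h.integrable hU) ((hφ.integrable hU).const_mul _), integral_const_mul,
        inv_mul_cancel_right₀ hI.ne', sub_self]
    have h3 := hR _ _ _ (by positivity) h1 h2
    rw [Lam_eq_of_mean_zero hn hA0.le hU h1 (by positivity) h2 0 a one_pos ht le_rfl,
      Lam_sub_mul hn hA0.le hU h hs hφ one_pos _ a ht le_rfl, sub_eq_zero] at h3
    rw [h3, smul_smul]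
  refine ⟨fun a t => (∫ y, bump (0 : E d) 1 y ∂μ)⁻¹ • Lam n μ a t 0 (bump 0 1), key,
    fun a ha t ht => ?_, fun a a' t t' ht ht' => ?_⟩
  · have h1 := hL μ hU _ a t _ ht (bump_test a ht)
    have h2 := le_integral_bump hU (hlow t) ha ht (by linarith)
    have h3 : 0 < A⁻¹ * (t / 2) ^ n := by positivity
    rw [key a t _ a t _ ht ht (bump_test a ht), norm_smul,
      Real.norm_of_nonneg (h3.le.trans h2)] at h1
    refine le_of_mul_le_mul_left (((mul_le_mul_of_nonneg_right h2 (norm_nonneg _)).trans h1).trans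
      (le_of_eq ?_)) h3
    rw [div_pow, pow_succ]
    field_simp
  · rw [← smul_sub, Lam_change hn hA0.le hU hφ one_pos a a' ht ht' le_rfl, smul_smul,
      inv_mul_cancel₀ hI.ne', one_smul]

end Vale.Agent.P120
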