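import Vale.Agent.P120.Defs2
import Vale.Agent.P120.Rfl1
import Vale.Agent.P120.Conv3

/-!
P120 Flat3. Overview in notes/P120.md, definitions in Defs.lean.
Name every helper lemma of yours with the file name in front (for example flat3_aux1).

PLAN.
c from RR.exists_c, c0 = c 0 1; GG n μ δ x - c0 = - c x δ (third clause with a = 0, t = 1, a' = x, t' = δ), so it is bounded by C (support = univ).
Continuity: continuousAt_of_dominated with KK_diff_le_ww. For a test ψ: ∫ ψ • (GG δ - c0) dμ = Lam 0 1 δ ψ - Lam 0 1 0 ψ (Lam_reg, first clause), of norm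
<= K δ (Lam_sing_le). For integrable φ: φ / f is μ-integrable and ∫ φ • G dvol = ∫ (φ/f) • G dμ (integral_withDensity_eq_integral_toReal_smul or the NNReal version);
approximate φ/f in L1(μ) by a smooth compactly supported ψ (MemLp.exist_eLpNorm_sub_le with p = 1, μ locally finite; exists_test_of_contDiff).
-/

open MeasureTheory Metric Set Filter Topology
open scoped ENNReal NNReal RealInnerProductSpace

namespace Vale.Agent.P120

variable {d : ℕ}

theorem flat3_cont {n : ℕ} {A : ℝ} {μ : Measure (E d)} (hA : 0 ≤ A) (hU : Up n A μ) {δ : ℝ}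
    (hδ : 0 < δ) : Continuous (GG n μ δ) := by
  refine continuous_iff_continuousAt.2 fun x => ?_
  obtain ⟨C, -, hC⟩ := KK_diff_le_ww (d := d) n hδ one_pos (‖x‖ + 1)
  have h1 := continuous_KK (d := d) n hδ
  have h2 : ∀ᶠ a in 𝓝 x, ‖a‖ < ‖x‖ + 1 :=
    (continuous_norm.tendsto x).eventually_lt_const (lt_add_one _)
  refine continuousAt_of_dominated (bound := fun y => C * ww (n + 1) y)
    (Eventually.of_forall fun a => (KK_diff_integrable hA hU 0 a one_pos hδ).aestronglyMeasurable)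
    (h2.mono fun a ha => Eventually.of_forall fun y => hC a 0 y ha.le ?_)
    ((hU.integrable_ww hA).1.const_mul C) (Eventually.of_forall fun y => ?_)
  · rw [norm_zero]; positivity
  · exact ((h1.comp (continuous_id.sub continuous_const)).sub continuous_const).continuousAt

theorem flat3_int {μ : Measure (E d)} {g : E d → ℝ} (hg : Integrable g μ) {G : E d → E d}
    (hG : Continuous G) {B : ℝ} (hB : ∀ x, ‖G x‖ ≤ B) : Integrable (fun x => g x • G x) μ := by
  refine (hg.norm.mul_const B).mono' (hg.aestronglyMeasurable.smul hG.aestronglyMeasurable)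
    (Eventually.of_forall fun x => ?_)
  rw [norm_smul]
  exact mul_le_mul_of_nonneg_left (hB x) (norm_nonneg _)

theorem flat3_dense {n : ℕ} {A : ℝ} {μ : Measure (E d)} (hU : Up n A μ) {G : ℝ → E d → E d} {B : ℝ}
    (hB : 0 < B) (hc : ∀ δ, 0 < δ → Continuous (G δ)) (hb : ∀ δ, 0 < δ → ∀ x, ‖G δ x‖ ≤ B)
    (ht : ∀ (ψ : E d → ℝ) (R L : ℝ), 0 < R → Test ψ 0 R L →
      Tendsto (fun δ : ℝ => ∫ x, ψ x • G δ x ∂μ) (𝓝[>] 0) (𝓝 0))
    {g : E d → ℝ} (hg : Integrable g μ) :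
    Tendsto (fun δ : ℝ => ∫ x, g x • G δ x ∂μ) (𝓝[>] 0) (𝓝 0) := by
  have := hU.locFin
  refine Metric.tendsto_nhds.2 fun ε hε => ?_
  have hη : 0 < ε / 2 / B := by positivity
  obtain ⟨ψ, h1, h2, h3⟩ := MemLp.exist_eLpNorm_sub_le (p := 1) ENNReal.one_ne_top le_rfl
    (memLp_one_iff_integrable.2 hg) hη
  obtain ⟨R, L, hR, hψ⟩ := exists_test_of_contDiff (h2.of_le (by exact_mod_cast le_top)) h1
  have hi : Integrable (g - ψ) μ := hg.sub (hψ.integrable hU)
  have h4 : ∫ x, ‖g x - ψ x‖ ∂μ ≤ ε / 2 / B := by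
    rw [eLpNorm_one_eq_lintegral_enorm, ← ofReal_integral_norm_eq_lintegral_enorm hi] at h3
    exact (ENNReal.ofReal_le_ofReal_iff hη.le).1 h3
  filter_upwards [Metric.tendsto_nhds.1 (ht ψ R L (one_pos.trans_le hR) hψ) _ (half_pos hε),
    eventually_mem_nhdsWithin] with δ h5 hδ
  have hδ0 : 0 < δ := hδ
  rw [dist_zero_right] at h5 ⊢
  have i1 := flat3_int hi (hc δ hδ0) (hb δ hδ0)
  have i2 := flat3_int (hψ.integrable hU) (hc δ hδ0) (hb δ hδ0)
  have e : ∫ x, g x • G δ x ∂μ = ∫ x, (g - ψ) x • G δ x ∂μ + ∫ x, ψ x • G δ x ∂μ := by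
    rw [← integral_add i1 i2]
    simp only [Pi.sub_apply, ← add_smul, sub_add_cancel]
  have h6 : ‖∫ x, (g - ψ) x • G δ x ∂μ‖ ≤ ε / 2 := by
    refine (norm_integral_le_of_norm_le (hi.norm.mul_const B)
      (Eventually.of_forall fun x => ?_)).trans ?_
    · rw [norm_smul]
      exact mul_le_mul_of_nonneg_left (hb δ hδ0 x) (norm_nonneg _)
    · rw [integral_mul_const]
      exact (le_div_iff₀ hB).1 h4
  rw [e]
  linarith [norm_add_le (∫ x, (g - ψ) x • G δ x ∂μ) (∫ x, ψ x • G δ x ∂μ)]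

theorem weak_star {n : ℕ} {A : ℝ} (hn : 1 ≤ n) (hA : 1 ≤ A) {μ : Measure (E n)} (h : RR n A μ)
    (hs : μ.support = univ) {f : E n → ℝ} {c C : ℝ} (hf : Measurable f) (hc : 0 < c)
    (hfc : ∀ x, c ≤ f x ∧ f x ≤ C)
    (hμ : μ = volume.withDensity (fun x => ENNReal.ofReal (f x))) :
    ∃ (c0 : E n) (B : ℝ),
      (∀ δ : ℝ, 0 < δ → Continuous (GG n μ δ) ∧ ∀ x, ‖GG n μ δ x - c0‖ ≤ B) ∧
      ∀ φ : E n → ℝ, Integrable φ volume →
        Tendsto (fun δ : ℝ => ∫ x, φ x • (GG n μ δ x - c0)) (𝓝[>] 0) (𝓝 0) := by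
  have hA0 : 0 ≤ A := zero_le_one.trans hA
  have hU := h.1
  obtain ⟨B, hB, hc'⟩ := RR.exists_c n n hn A hA
  obtain ⟨cc, h1, h2, h3⟩ := hc' μ h (hs ▸ mem_univ _)
  have hb : ∀ δ : ℝ, 0 < δ → ∀ x, ‖GG n μ δ x - cc 0 1‖ ≤ B := fun δ hδ x => by
    have e : GG n μ δ x = cc 0 1 - cc x δ := (h3 0 x 1 δ one_pos hδ).symm
    rw [e, sub_sub_cancel_left, norm_neg]
    exact h2 x (hs ▸ mem_univ _) δ hδ
  have hcont : ∀ δ : ℝ, 0 < δ → Continuous fun x => GG n μ δ x - cc 0 1 := fun δ hδ =>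
    (flat3_cont hA0 hU hδ).sub continuous_const
  refine ⟨cc 0 1, B, fun δ hδ => ⟨flat3_cont hA0 hU hδ, hb δ hδ⟩, fun φ hφ => ?_⟩
  have hm : Measurable fun x => ENNReal.ofReal (f x) := hf.ennreal_ofReal
  have hl : ∀ᵐ x : E n, ENNReal.ofReal (f x) < ∞ := Eventually.of_forall fun x => ENNReal.ofReal_lt_top
  have hp : ∀ x, 0 < f x := fun x => hc.trans_le (hfc x).1
  have e1 : ∀ x, (ENNReal.ofReal (f x)).toReal * (φ x / f x) = φ x := fun x => by
    rw [ENNReal.toReal_ofReal (hp x).le, mul_div_cancel₀ _ (hp x).ne']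
  have hg : Integrable (fun x => φ x / f x) μ := by
    rw [hμ, integrable_withDensity_iff_integrable_smul' hm hl]
    simpa only [smul_eq_mul, e1] using hφ
  have e2 : ∀ G : E n → E n, ∫ x, φ x • G x = ∫ x, (φ x / f x) • G x ∂μ := fun G => by
    rw [hμ, integral_withDensity_eq_integral_toReal_smul hm hl]
    simp only [smul_smul, e1]
  simp only [e2]
  refine flat3_dense hU (G := fun δ x => GG n μ δ x - cc 0 1) hB hcont hb
    (fun ψ R L hR hψ => ?_) hg
  have t1 : Tendsto (fun δ : ℝ => Cad n * A ^ 2 * L * R ^ n * δ) (𝓝[>] 0) (𝓝 0) := by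
    have := ((continuous_const_mul (Cad n * A ^ 2 * L * R ^ n)).tendsto (0 : ℝ)).mono_left
      (nhdsWithin_le_nhds (s := Ioi 0))
    rwa [mul_zero] at this
  refine squeeze_zero_norm' (eventually_mem_nhdsWithin.mono fun δ hδ => ?_) t1
  have hδ0 : 0 < δ := hδ
  have i0 : Integrable (fun x => ψ x • cc 0 1) μ := (hψ.integrable hU).smul_const _
  have i1 : Integrable (fun x => ψ x • (GG n μ δ x - cc 0 1)) μ :=
    flat3_int (hψ.integrable hU) (hcont δ hδ0) (hb δ hδ0)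
  have e3 : ∫ x, ψ x • (GG n μ δ x - cc 0 1) ∂μ = Lam n μ 0 1 δ ψ - Lam n μ 0 1 0 ψ := by
    rw [h1 0 1 ψ 0 R L one_pos hR hψ, (Lam_reg hA0 hU hψ 0 one_pos hδ0).2.2, ← integral_smul_const,
      eq_sub_iff_add_eq, ← integral_add i1 i0]
    refine integral_congr_ae (Eventually.of_forall fun x => ?_)
    simp only [← smul_add, sub_add_cancel, GG]
  rw [e3, norm_sub_rev]
  exact Lam_sing_le hn hA0 hU hψ hR 0 one_pos hδ0

end Vale.Agent.P120
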