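import Vale.Agent.P120.Liou0

/-!
P120 Flat4a. Overview in notes/P120.md, definitions in Defs.lean.
Name every helper lemma of yours with the file name in front (for example flat4a_aux1).

PLAN.
qq n δ z <= (n+1) kk n δ z because δ^2 <= rr^2, which gives integrability. integral_kk_eq_qq: I δ = ∫ kk n δ satisfies I δ = I 1 / δ (kk_smul,
Measure.integral_comp_smul, finrank (E n) = n). The δ-derivative of kk n δ z is - qq n δ z / δ; differentiate under the integral
(hasDerivAt_integral_of_dominated_loc_of_deriv_le on ball δ (δ/2), bound (n+1) (2/δ) kk n (δ/2) z, kk_anti) and compare with the derivative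
- I 1 / δ^2 of I 1 / δ (HasDerivAt.unique, eventually equal near δ).
integral_qq_sq_le: qq |z|^2 <= (n+1) δ^2 kk n δ z and I δ = I 1 / δ.
-/

open MeasureTheory Metric Set Filter Topology
open scoped ENNReal NNReal RealInnerProductSpace

namespace Vale.Agent.P120

variable {d : ℕ}

theorem flat4a_pos {δ : ℝ} (hδ : 0 < δ) (z : E d) : 0 < rr δ z :=
  hδ.trans_le ((le_abs_self δ).trans (abs_le_rr δ z))

theorem flat4a_eq (n : ℕ) {δ : ℝ} (hδ : 0 < δ) (z : E d) :
    qq n δ z * (‖z‖ ^ 2 + δ ^ 2) = (n + 1) * δ ^ 2 * kk n δ z := by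
  have := (flat4a_pos hδ z).ne'
  rw [← rr_sq, qq, kk]
  field_simp
  ring

theorem qq_nonneg (n : ℕ) (δ : ℝ) (z : E d) : 0 ≤ qq n δ z := by
  have := rr_nonneg δ z
  unfold qq
  positivity
theorem qq_neg (n : ℕ) (δ : ℝ) (z : E d) : qq n δ (-z) = qq n δ z := by
  rw [qq, qq, rr_neg]
theorem continuous_qq (n : ℕ) {δ : ℝ} (hδ : 0 < δ) : Continuous (qq n δ : E d → ℝ) := by
  exact continuous_const.mul (((continuous_rr δ).pow _).inv₀ fun z =>
    pow_ne_zero _ (flat4a_pos hδ z).ne')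
theorem qq_le (n : ℕ) {δ : ℝ} (hδ : 0 < δ) (z : E d) : qq n δ z ≤ (n + 1) * kk n δ z := by
  refine le_of_mul_le_mul_right ?_ (pow_pos hδ 2)
  nlinarith [flat4a_eq n hδ z, mul_nonneg (qq_nonneg n δ z) (sq_nonneg ‖z‖)]

theorem integrable_qq (n : ℕ) {δ : ℝ} (hδ : 0 < δ) (y : E n) :
    Integrable (fun x : E n => qq n δ (y - x)) volume := by
  refine ((integrable_kk_vol n hδ y).const_mul (n + 1)).mono'
    ((continuous_qq n hδ).comp (by fun_prop)).aestronglyMeasurable (ae_of_all _ fun x => ?_)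
  rw [Real.norm_of_nonneg (qq_nonneg _ _ _)]
  exact qq_le n hδ _

theorem flat4a_int (n : ℕ) {δ : ℝ} (hδ : 0 < δ) : Integrable (kk n δ : E n → ℝ) volume := by
  simpa only [zero_sub, kk_neg] using integrable_kk_vol n hδ 0

theorem flat4a_scale (n : ℕ) {δ : ℝ} (hδ : 0 < δ) :
    ∫ z : E n, kk n δ z = (∫ z : E n, kk n 1 z) * δ⁻¹ := by
  have h := Measure.integral_comp_smul (volume : Measure (E n)) (kk n δ) δ
  have e : ∀ z : E n, kk n δ (δ • z) = (δ ^ (n + 1))⁻¹ * kk n 1 z := fun z => by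
    rw [← kk_smul n hδ, mul_one]
  simp only [e, integral_const_mul, finrank_euclideanSpace_fin, smul_eq_mul] at h
  rw [abs_of_pos (by positivity)] at h
  refine mul_left_cancel₀ (inv_ne_zero (pow_ne_zero n hδ.ne')) ?_
  rw [← h, pow_succ, mul_inv]
  ring

theorem flat4a_deriv (n : ℕ) {t : ℝ} (ht : 0 < t) (z : E d) :
    HasDerivAt (fun t => kk n t z) (-(t⁻¹ * qq n t z)) t := by
  have h0 := (flat4a_pos ht z).ne'
  have h1 : HasDerivAt (fun t => rr t z) (t / rr t z) t :=
    (((hasDerivAt_pow 2 t).const_add (‖z‖ ^ 2)).sqrt (by positivity)).congr_deriv (by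
      rw [rr]
      norm_num
      field_simp)
  refine ((h1.fun_pow (n + 1)).fun_inv (pow_ne_zero _ h0)).congr_deriv ?_
  rw [qq, Nat.add_sub_cancel]
  push_cast
  field_simp
  ring

theorem integral_kk_eq_qq (n : ℕ) {δ : ℝ} (hδ : 0 < δ) :
    ∫ z : E n, kk n δ z = ∫ z : E n, qq n δ z := by
  have h1 := (hasDerivAt_integral_of_dominated_loc_of_deriv_le (μ := (volume : Measure (E n)))
    (F := fun t z => kk n t z) (F' := fun t z => -(t⁻¹ * qq n t z))
    (bound := fun z => (δ / 2)⁻¹ * ((n + 1) * kk n (δ / 2) z))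
    (Ioi_mem_nhds (half_lt_self hδ))
    (Eventually.of_forall fun t => (measurable_kk n t).aestronglyMeasurable) (flat4a_int n hδ)
    (continuous_const.mul (continuous_qq n hδ)).neg.aestronglyMeasurable
    (ae_of_all _ fun z t ht => by
      have h2 := half_pos hδ
      have h3 := h2.trans ht
      have h4 := qq_nonneg n t z
      rw [norm_neg, Real.norm_of_nonneg (by positivity)]
      exact mul_le_mul (inv_anti₀ h2 (le_of_lt ht)) ((qq_le n h3 z).trans
        (mul_le_mul_of_nonneg_left (kk_anti n h2 (le_of_lt ht) z) (by positivity))) h4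
        (by positivity))
    (((flat4a_int n (half_pos hδ)).const_mul _).const_mul _)
    (ae_of_all _ fun z t ht => flat4a_deriv n ((half_pos hδ).trans ht) z)).2
  have h2 := ((hasDerivAt_inv hδ.ne').const_mul (∫ z : E n, kk n 1 z)).congr_of_eventuallyEq
    (mem_of_superset (Ioi_mem_nhds hδ) fun t ht => flat4a_scale n ht)
  have h3 := h1.unique h2
  rw [integral_neg, integral_const_mul] at h3
  rw [flat4a_scale n hδ]
  field_simp at h3 ⊢
  linear_combination h3

theorem integral_qq_sq_le (n : ℕ) :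
    ∃ C : ℝ, 0 < C ∧ ∀ δ : ℝ, 0 < δ →
      Integrable (fun z : E n => qq n δ z * ‖z‖ ^ 2) volume ∧
        ∫ z : E n, qq n δ z * ‖z‖ ^ 2 ≤ C * δ := by
  have h0 : 0 ≤ ∫ z : E n, kk n 1 z := integral_nonneg fun z => kk_nonneg n 1 z
  refine ⟨(n + 1) * (∫ z : E n, kk n 1 z) + 1, by positivity, fun δ hδ => ?_⟩
  have h1 : ∀ z : E n, qq n δ z * ‖z‖ ^ 2 ≤ (n + 1) * δ ^ 2 * kk n δ z := fun z => by
    nlinarith [flat4a_eq n hδ z, mul_nonneg (qq_nonneg n δ z) (sq_nonneg δ)]
  have h2 := (flat4a_int n hδ).const_mul ((n + 1) * δ ^ 2)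
  have h3 : Integrable (fun z : E n => qq n δ z * ‖z‖ ^ 2) volume :=
    h2.mono' ((continuous_qq n hδ).mul (by fun_prop)).aestronglyMeasurable (ae_of_all _ fun z => by
      rw [Real.norm_of_nonneg (mul_nonneg (qq_nonneg _ _ _) (sq_nonneg _))]
      exact h1 z)
  refine ⟨h3, (integral_mono h3 h2 h1).trans ?_⟩
  rw [integral_const_mul, flat4a_scale n hδ, add_mul _ 1 δ, one_mul]
  refine le_trans (le_of_eq ?_) (le_add_of_nonneg_right hδ.le)
  field_simp

end Vale.Agent.P120
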