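import Vale.Agent.P120.Flat4a

/-!
P120 Flat4b. Overview in notes/P120.md, definitions in Defs.lean.
Name every helper lemma of yours with the file name in front (for example flat4b_aux1).

PLAN.
integral_fderiv_const: integral_fderiv_eq_zero type lemma, or integral_mul_fderiv_eq_neg_fderiv_mul_of_integrable with f = 1 (note f * g integrable by compact support).
integral_fderiv_KK: write KK n δ (x - y) = ∑ j, (kk n δ (x-y) * (x - y) j) • e j (EuclideanSpace.basisFun / OrthonormalBasis.sum_repr), so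
fderiv ψ x (KK) = ∑ j, K j x * fderiv ψ x (e j); integrate by parts in direction e j (integral_mul_fderiv_eq_neg_fderiv_mul_of_integrable; all products are continuous with compact
support). The derivative of K j at x in direction e j is kk - (n+1) ((x-y) j)^2 rr^(-(n+3)) (HasFDerivAt of rr: HasFDerivAt.sqrt of norm_sq + const,
HasStrictFDerivAt.norm_sq / HasFDerivAt.norm_sq); summing over j gives n kk - (n+1) (rr^2 - δ^2) rr^(-(n+3)) = - kk + qq (EuclideanSpace.norm_sq_eq or real_norm_sq_eq, rr_sq).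
-/

open MeasureTheory Metric Set Filter Topology
open scoped ENNReal NNReal RealInnerProductSpace

namespace Vale.Agent.P120

variable {d : ℕ}

theorem flat4b_int {n : ℕ} {ψ : E n → ℝ} (hψ : ContDiff ℝ 1 ψ) (hc : HasCompactSupport ψ)
    {v : E n → E n} (hv : Continuous v) : Integrable fun x => fderiv ℝ ψ x (v x) :=
  ((hψ.continuous_fderiv one_ne_zero).clm_apply hv).integrable_of_hasCompactSupport
    ((hc.fderiv ℝ).mono fun x hx h => hx (by simp [h]))

theorem flat4b_smooth (n : ℕ) {δ : ℝ} (hδ : 0 < δ) (y : E d) :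
    ContDiff ℝ 1 fun x => kk n δ (x - y) :=
  (((((contDiff_id.sub contDiff_const).norm_sq ℝ).add contDiff_const).sqrt
    fun _ => by positivity).pow _).inv fun _ => by positivity

theorem flat4b_der (n : ℕ) {δ : ℝ} (hδ : 0 < δ) (x y v : E d) :
    fderiv ℝ (fun x => kk n δ (x - y)) x v =
      -((n + 1) * ⟪x - y, v⟫ * (rr δ (x - y) ^ (n + 3))⁻¹) := by
  have h0 : 0 < ‖x - y‖ ^ 2 + δ ^ 2 := by positivity
  have h1 := (((hasFDerivAt_id (𝕜 := ℝ) x).sub_const y).norm_sq).add_const (δ ^ 2)
  have h2 := ((Real.hasDerivAt_sqrt h0.ne').pow (n + 1)).inv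
    (pow_ne_zero _ (Real.sqrt_pos.2 h0).ne')
  refine (congrArg (fun M : E d →L[ℝ] ℝ => M v) (h2.comp_hasFDerivAt x h1).fderiv).trans ?_
  have h3 : 0 < √(‖x - y‖ ^ 2 + δ ^ 2) := Real.sqrt_pos.2 h0
  simp [rr, inner_sub_left]
  field_simp
  ring

theorem integral_fderiv_const {n : ℕ} {ψ : E n → ℝ} (hψ : ContDiff ℝ 1 ψ)
    (hc : HasCompactSupport ψ) (v : E n) : ∫ x, fderiv ℝ ψ x v = 0 := by
  simpa using integral_mul_fderiv_eq_neg_fderiv_mul_of_integrable (μ := volume)
    (f := fun _ => (1 : ℝ)) (g := ψ) (v := v) (by simp)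
    (by simpa using flat4b_int hψ hc continuous_const)
    (by simpa using hψ.continuous.integrable_of_hasCompactSupport hc)
    (fun _ _ => differentiableAt_const _) fun x _ => hψ.differentiable one_ne_zero x

theorem integral_fderiv_KK {n : ℕ} {ψ : E n → ℝ} (hψ : ContDiff ℝ 1 ψ) (hc : HasCompactSupport ψ)
    {δ : ℝ} (hδ : 0 < δ) (y : E n) :
    ∫ x, fderiv ℝ ψ x (KK n δ (x - y)) = ∫ x, ψ x * (kk n δ (x - y) - qq n δ (x - y)) := by
  have k1 := flat4b_smooth n hδ y
  have p1 : ∀ j, ContDiff ℝ 1 fun x : E n => (x - y) j := fun j => by fun_prop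
  have g1 : ∀ j, ContDiff ℝ 1 fun x : E n => ψ x * (kk n δ (x - y) * (x - y) j) := fun j =>
    hψ.mul (k1.mul (p1 j))
  have g2 : ∀ j, HasCompactSupport fun x : E n => ψ x * (kk n δ (x - y) * (x - y) j) := fun j =>
    hc.mul_right
  have h1 : ∀ x, fderiv ℝ ψ x (KK n δ (x - y)) - ψ x * (kk n δ (x - y) - qq n δ (x - y)) =
      ∑ j, fderiv ℝ (fun x : E n => ψ x * (kk n δ (x - y) * (x - y) j)) x
        (EuclideanSpace.single j 1) := fun x => by
    have a1 : ∀ j, fderiv ℝ (fun x : E n => ψ x * (kk n δ (x - y) * (x - y) j)) x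
        (EuclideanSpace.single j 1) = ψ x * kk n δ (x - y) -
          ψ x * ((n + 1) * (rr δ (x - y) ^ (n + 3))⁻¹) * (x - y) j ^ 2 +
          fderiv ℝ ψ x (KK n δ (x - y) j • EuclideanSpace.single j 1) := fun j => by
      have b1 : HasFDerivAt (fun x : E n => (x - y) j) (EuclideanSpace.proj j : E n →L[ℝ] ℝ) x :=
        (EuclideanSpace.proj j : E n →L[ℝ] ℝ).hasFDerivAt.sub_const (y j)
      have b2 := (hψ.differentiable one_ne_zero x).hasFDerivAt.mul
        ((k1.differentiable one_ne_zero x).hasFDerivAt.mul b1)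
      refine (congrArg (fun M : E n →L[ℝ] ℝ => M (EuclideanSpace.single j 1)) b2.fderiv).trans ?_
      simp [flat4b_der n hδ, KK, EuclideanSpace.inner_single_right]
      ring
    have a2 : ∑ j, KK n δ (x - y) j • EuclideanSpace.single j (1 : ℝ) = KK n δ (x - y) := by
      simpa using (EuclideanSpace.basisFun (Fin n) ℝ).sum_repr (KK n δ (x - y))
    have a3 : ∑ j, (x - y) j ^ 2 = rr δ (x - y) ^ 2 - δ ^ 2 := by
      rw [rr_sq, EuclideanSpace.real_norm_sq_eq, add_sub_cancel_right]
    have a4 : 0 < rr δ (x - y) := (abs_pos.2 hδ.ne').trans_le (abs_le_rr _ _)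
    simp only [a1, Finset.sum_add_distrib, Finset.sum_sub_distrib, ← Finset.mul_sum, ← map_sum, a2,
      a3, Finset.sum_const, Finset.card_univ, Fintype.card_fin, nsmul_eq_mul]
    rw [kk, qq]
    field_simp
    ring
  have hy : Continuous fun x : E n => x - y := by fun_prop
  have i1 : Integrable fun x => ψ x * (kk n δ (x - y) - qq n δ (x - y)) :=
    (hψ.continuous.mul (k1.continuous.sub ((continuous_qq n hδ).comp
      hy))).integrable_of_hasCompactSupport hc.mul_right
  rw [← sub_eq_zero, ← integral_sub (flat4b_int hψ hc ((continuous_KK n hδ).comp' hy)) i1]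
  simp only [h1]
  rw [integral_finsetSum _ fun j _ => flat4b_int (g1 j) (g2 j) continuous_const]
  exact Finset.sum_eq_zero fun j _ => integral_fderiv_const (g1 j) (g2 j) _

end Vale.Agent.P120
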