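import Vale.Agent.P120.Flat4a

/-!
P120 Flat4c. Overview in notes/P120.md, definitions in Defs.lean.
Name every helper lemma of yours with the file name in front (for example flat4c_aux1).

PLAN.
Q y = ∫ x, qq δ (y - x) (ψ y - ψ x) = half of ∫ z, qq δ z (2 ψ y - ψ (y+z) - ψ (y-z)) (substitute, integral_neg_eq_self, qq_neg).
Claim: ∫ y, |2 ψ y - ψ (y+z) - ψ (y-z)| <= C0 |z|^2: for |z| <= 1 second_diff_le (global bound M for the second derivative) and the integrand vanishes outside
ball 0 (R+1); for |z| >= 1 it is <= 4 ∫ |ψ|. The function (y,z) ↦ qq δ z (2ψ y - ψ (y+z) - ψ (y-z)) is integrable on the product (integrable_prod_iff');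
Integrable.integral_prod_left, norm_integral_le_integral_norm, integral_integral_swap, integral_qq_sq_le.
-/

open MeasureTheory Metric Set Filter Topology
open scoped ENNReal NNReal RealInnerProductSpace

namespace Vale.Agent.P120

variable {d : ℕ}

theorem flat4c_int {n : ℕ} {ψ : E n → ℝ} (hi : Integrable ψ volume) (z : E n) :
    Integrable (fun y : E n => 2 * ψ y - ψ (y + z) - ψ (y - z)) volume :=
  ((hi.const_mul 2).sub (hi.comp_add_right z)).sub (hi.comp_sub_right z)

theorem flat4c_big {n : ℕ} {ψ : E n → ℝ} (hi : Integrable ψ volume) (z : E n) :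
    ∫ y : E n, |2 * ψ y - ψ (y + z) - ψ (y - z)| ≤ 4 * ∫ y, |ψ y| := by
  have h1 : Integrable (fun y : E n => |ψ y|) volume := hi.abs
  have h2 : Integrable (fun y : E n => |ψ (y + z)|) volume := (hi.comp_add_right z).abs
  have h3 : Integrable (fun y : E n => |ψ (y - z)|) volume := (hi.comp_sub_right z).abs
  have h4 : Integrable (fun y : E n => 2 * |ψ y|) volume := h1.const_mul 2
  have h5 : Integrable (fun y : E n => 2 * |ψ y| + |ψ (y + z)|) volume := h4.add h2
  have e2 : ∫ y : E n, |ψ (y + z)| = ∫ y, |ψ y| :=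
    integral_add_right_eq_self (fun y => |ψ y|) z
  have e3 : ∫ y : E n, |ψ (y - z)| = ∫ y, |ψ y| :=
    integral_sub_right_eq_self (fun y => |ψ y|) z
  calc ∫ y : E n, |2 * ψ y - ψ (y + z) - ψ (y - z)|
      ≤ ∫ y : E n, (2 * |ψ y| + |ψ (y + z)| + |ψ (y - z)|) := by
        refine integral_mono (flat4c_int hi z).abs (h5.add h3) fun y => ?_
        have a1 := abs_sub (2 * ψ y - ψ (y + z)) (ψ (y - z))
        have a2 := abs_sub (2 * ψ y) (ψ (y + z))
        have a3 : |2 * ψ y| = 2 * |ψ y| := by rw [abs_mul]; norm_num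
        simp only
        linarith
    _ = 4 * ∫ y, |ψ y| := by
        rw [integral_add h5 h3, integral_add h4 h2, integral_const_mul, e2, e3]; ring

theorem flat4c_small {n : ℕ} {ψ : E n → ℝ} (hψ : ContDiff ℝ 2 ψ) (hc : HasCompactSupport ψ) :
    ∃ C : ℝ, ∀ z : E n, ‖z‖ ≤ 1 →
      ∫ y : E n, |2 * ψ y - ψ (y + z) - ψ (y - z)| ≤ C * ‖z‖ ^ 2 := by
  have hi : Integrable ψ volume := hψ.continuous.integrable_of_hasCompactSupport hc
  obtain ⟨M, hM⟩ : ∃ M, ∀ w, ‖iteratedFDeriv ℝ 2 ψ w‖ ≤ M :=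
    (hψ.continuous_iteratedFDeriv le_rfl).bounded_above_of_compact_support
      (hc.iteratedFDeriv 2)
  obtain ⟨R, hR⟩ : ∃ R, tsupport ψ ⊆ closedBall 0 R := hc.isCompact.isBounded.subset_closedBall 0
  have hz0 : ∀ w : E n, R < ‖w‖ → ψ w = 0 := by
    intro w hw
    by_contra h
    have := hR (subset_tsupport _ h)
    rw [mem_closedBall_zero_iff] at this
    linarith
  refine ⟨M * (volume (closedBall (0 : E n) (R + 1))).toReal, fun z hz => ?_⟩
  have hI : Integrable ((closedBall (0 : E n) (R + 1)).indicator fun _ => M * ‖z‖ ^ 2) volume :=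
    (integrableOn_const (measure_closedBall_lt_top).ne).integrable_indicator
      measurableSet_closedBall
  calc ∫ y : E n, |2 * ψ y - ψ (y + z) - ψ (y - z)|
      ≤ ∫ y : E n, (closedBall (0 : E n) (R + 1)).indicator (fun _ => M * ‖z‖ ^ 2) y := by
        refine integral_mono (flat4c_int hi z).abs hI fun y => ?_
        by_cases hy : y ∈ closedBall (0 : E n) (R + 1)
        · rw [indicator_of_mem hy]
          have h := second_diff_le hψ (y - z) z z (M := M) fun w _ => hM w
          have e1 : y - z + z = y := by abel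
          rw [e1, Real.norm_eq_abs] at h
          have e2 : 2 * ψ y - ψ (y + z) - ψ (y - z) = -(ψ (y + z) - ψ y - ψ y + ψ (y - z)) := by
            ring
          simp only
          rw [e2, abs_neg]
          calc _ ≤ M * ‖z‖ * ‖z‖ := h
            _ = M * ‖z‖ ^ 2 := by ring
        · rw [indicator_of_notMem hy]
          rw [mem_closedBall_zero_iff, not_le] at hy
          have a1 : ‖y‖ ≤ ‖y + z‖ + ‖z‖ := by
            calc ‖y‖ = ‖y + z - z‖ := by rw [add_sub_cancel_right]
              _ ≤ _ := norm_sub_le _ _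
          have a2 : ‖y‖ ≤ ‖y - z‖ + ‖z‖ := by
            calc ‖y‖ = ‖y - z + z‖ := by rw [sub_add_cancel]
              _ ≤ _ := norm_add_le _ _
          simp only
          rw [hz0 y (by linarith), hz0 (y + z) (by linarith), hz0 (y - z) (by linarith)]
          simp
    _ = M * (volume (closedBall (0 : E n) (R + 1))).toReal * ‖z‖ ^ 2 := by
        rw [integral_indicator measurableSet_closedBall, setIntegral_const, smul_eq_mul,
          Measure.real]
        ring

theorem flat4c_all {n : ℕ} {ψ : E n → ℝ} (hψ : ContDiff ℝ 2 ψ) (hc : HasCompactSupport ψ) :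
    ∃ C : ℝ, 0 ≤ C ∧ ∀ z : E n,
      ∫ y : E n, |2 * ψ y - ψ (y + z) - ψ (y - z)| ≤ C * ‖z‖ ^ 2 := by
  have hi : Integrable ψ volume := hψ.continuous.integrable_of_hasCompactSupport hc
  obtain ⟨C, hC⟩ := flat4c_small hψ hc
  have h0 : 0 ≤ ∫ y, |ψ y| := integral_nonneg fun y => abs_nonneg _
  refine ⟨max C (4 * ∫ y, |ψ y|), le_max_of_le_right (by linarith), fun z => ?_⟩
  rcases le_total ‖z‖ 1 with hz | hz
  · exact (hC z hz).trans (mul_le_mul_of_nonneg_right (le_max_left _ _) (sq_nonneg _))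
  · refine (flat4c_big hi z).trans ?_
    have h1 : (1 : ℝ) ≤ ‖z‖ ^ 2 := one_le_pow₀ hz
    calc 4 * ∫ y, |ψ y| ≤ (4 * ∫ y, |ψ y|) * ‖z‖ ^ 2 := le_mul_of_one_le_right (by linarith) h1
      _ ≤ _ := mul_le_mul_of_nonneg_right (le_max_right _ _) (sq_nonneg _)

theorem flat4c_eq {n : ℕ} {ψ : E n → ℝ} (hψ : Continuous ψ) (hc : HasCompactSupport ψ)
    {δ : ℝ} (hδ : 0 < δ) (y : E n) :
    ∫ x, qq n δ (y - x) * (ψ y - ψ x) =
      (1 / 2) * ∫ z, qq n δ z * (2 * ψ y - ψ (y + z) - ψ (y - z)) := by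
  obtain ⟨B, hB⟩ := hψ.bounded_above_of_compact_support hc
  have hq : Integrable (fun z : E n => qq n δ z) volume := by
    have := integrable_qq n hδ (0 : E n)
    simpa only [zero_sub, qq_neg] using this
  have hb : ∀ u v : E n, ‖ψ u - ψ v‖ ≤ B + B := fun u v =>
    (norm_sub_le _ _).trans (add_le_add (hB u) (hB v))
  have i1 : Integrable (fun z : E n => qq n δ z * (ψ y - ψ (y - z))) volume :=
    hq.mul_bdd (c := B + B)
      (continuous_const.sub (hψ.comp (continuous_const.sub continuous_id))).aestronglyMeasurable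
      (Eventually.of_forall fun z => hb _ _)
  have i2 : Integrable (fun z : E n => qq n δ z * (ψ y - ψ (y + z))) volume :=
    hq.mul_bdd (c := B + B)
      (continuous_const.sub (hψ.comp (continuous_const.add continuous_id))).aestronglyMeasurable
      (Eventually.of_forall fun z => hb _ _)
  have e1 : ∫ x, qq n δ (y - x) * (ψ y - ψ x) = ∫ z, qq n δ z * (ψ y - ψ (y - z)) := by
    rw [← integral_sub_left_eq_self (fun z : E n => qq n δ z * (ψ y - ψ (y - z))) volume y]
    simp only [sub_sub_cancel]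
  have e2 : ∫ z, qq n δ z * (ψ y - ψ (y - z)) = ∫ z, qq n δ z * (ψ y - ψ (y + z)) := by
    rw [← integral_neg_eq_self (fun z : E n => qq n δ z * (ψ y - ψ (y - z))) volume]
    simp only [qq_neg, sub_neg_eq_add]
  have e3 : ∫ z, qq n δ z * (2 * ψ y - ψ (y + z) - ψ (y - z)) =
      (∫ z, qq n δ z * (ψ y - ψ (y - z))) + ∫ z, qq n δ z * (ψ y - ψ (y + z)) := by
    rw [← integral_add i1 i2]
    congr 1
    ext z
    ring
  rw [e3, ← e2, e1]
  ring

theorem Q_bound {n : ℕ} {ψ : E n → ℝ} (hψ : ContDiff ℝ 2 ψ) (hc : HasCompactSupport ψ) :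
    ∃ C : ℝ, ∀ δ : ℝ, 0 < δ →
      Integrable (fun y : E n => ∫ x, qq n δ (y - x) * (ψ y - ψ x)) volume ∧
        ∫ y : E n, |∫ x, qq n δ (y - x) * (ψ y - ψ x)| ≤ C * δ := by
  have hi : Integrable ψ volume := hψ.continuous.integrable_of_hasCompactSupport hc
  have hψc := hψ.continuous
  obtain ⟨C0, hC0, hC⟩ := flat4c_all hψ hc
  obtain ⟨C1, hC1, hq⟩ := integral_qq_sq_le n
  refine ⟨(1 / 2) * (C0 * C1), fun δ hδ => ?_⟩
  obtain ⟨hq1, hq2⟩ := hq δ hδ
  have hqc : Continuous (qq n δ : E n → ℝ) := continuous_qq n hδ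
  obtain ⟨F, hF⟩ : ∃ F : E n × E n → ℝ,
      F = fun p => qq n δ p.2 * (2 * ψ p.1 - ψ (p.1 + p.2) - ψ (p.1 - p.2)) := ⟨_, rfl⟩
  have hFc : Continuous F := by rw [hF]; fun_prop
  have hFm : AEStronglyMeasurable F ((volume : Measure (E n)).prod volume) :=
    hFc.aestronglyMeasurable
  have hn : ∀ z : E n, ∫ y, ‖F (y, z)‖ ≤ C0 * (qq n δ z * ‖z‖ ^ 2) := by
    intro z
    have e : ∀ y, ‖F (y, z)‖ = qq n δ z * |2 * ψ y - ψ (y + z) - ψ (y - z)| := by
      intro y
      rw [hF, Real.norm_eq_abs]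
      simp only
      rw [abs_mul, abs_of_nonneg (qq_nonneg n δ z)]
    simp only [e]
    rw [integral_const_mul]
    calc _ ≤ qq n δ z * (C0 * ‖z‖ ^ 2) := mul_le_mul_of_nonneg_left (hC z) (qq_nonneg n δ z)
      _ = _ := by ring
  have hI2 : Integrable (fun z : E n => ∫ y, ‖F (y, z)‖) volume := by
    refine Integrable.mono' (hq1.const_mul C0) hFm.norm.prod_swap.integral_prod_right'
      (Eventually.of_forall fun z => ?_)
    rw [Real.norm_eq_abs, abs_of_nonneg (integral_nonneg fun y => norm_nonneg _)]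
    exact hn z
  have hFi : Integrable F ((volume : Measure (E n)).prod volume) := by
    rw [integrable_prod_iff' hFm]
    refine ⟨Eventually.of_forall fun z => ?_, hI2⟩
    rw [hF]
    exact (flat4c_int hi z).const_mul (qq n δ z)
  have hE : ∀ y : E n, ∫ x, qq n δ (y - x) * (ψ y - ψ x) = (1 / 2) * ∫ z, F (y, z) := by
    intro y
    rw [flat4c_eq hψc hc hδ y, hF]
  simp only [hE]
  have hL : Integrable (fun y : E n => ∫ z, F (y, z)) volume := hFi.integral_prod_left
  have hL' : Integrable (fun y : E n => ∫ z, ‖F (y, z)‖) volume := hFi.norm.integral_prod_left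
  refine ⟨hL.const_mul _, ?_⟩
  calc ∫ y : E n, |(1 / 2) * ∫ z, F (y, z)|
      ≤ ∫ y : E n, (1 / 2) * ∫ z, ‖F (y, z)‖ := by
        refine integral_mono (hL.const_mul _).abs (hL'.const_mul _) fun y => ?_
        simp only
        rw [abs_mul, abs_of_nonneg (by norm_num : (0 : ℝ) ≤ 1 / 2)]
        exact mul_le_mul_of_nonneg_left (norm_integral_le_integral_norm fun z => F (y, z))
          (by norm_num)
    _ = (1 / 2) * ∫ z : E n, ∫ y, ‖F (y, z)‖ := by
        rw [integral_const_mul]
        congr 1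
        exact integral_integral_swap (f := fun y z => ‖F (y, z)‖) hFi.norm
    _ ≤ (1 / 2) * ∫ z : E n, C0 * (qq n δ z * ‖z‖ ^ 2) :=
        mul_le_mul_of_nonneg_left (integral_mono hI2 (hq1.const_mul C0) hn) (by norm_num)
    _ ≤ (1 / 2) * (C0 * C1) * δ := by
        rw [integral_const_mul]
        have := mul_le_mul_of_nonneg_left hq2 hC0
        linarith

end Vale.Agent.P120
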