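import Vale.Agent.P120.Flat3
import Vale.Agent.P120.Flat4b
import Vale.Agent.P120.Flat4c

/-!
P120 Flat4d. Overview in notes/P120.md, definitions in Defs.lean.
Name every helper lemma of yours with the file name in front (for example flat4d_aux1).

PLAN.
Fix ψ. T δ = ∫ x, fderiv ψ x (GG δ x - c0) = ∑ j, (∫ x, (fderiv ψ x (e j)) • (GG δ x - c0)) j → 0 by weak_star with φ = fderiv ψ . (e j).
On the other hand ∫ fderiv ψ x c0 = 0 (integral_fderiv_const), fderiv ψ x commutes with the μ-integral (ContinuousLinearMap.integral_comp_comm, KK_diff_integrable),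
Fubini over volume × μ (dominated by C 1_(supp ψ)(x) ww (n+1) y, KK_diff_le_ww) gives T δ = ∫ y, J y dμ with
J y = ∫ x, ψ x (kk δ (x-y) - qq δ (x-y)) (integral_fderiv_KK, integral_fderiv_const) = - LL δ ψ y + Q y (integral_kk_eq_qq, translation invariance, kk_sub_comm).
J is μ-integrable, so f J is volume integrable; f Q is integrable with |∫ f Q| <= C' δ (Q_bound); hence ∫ f LL δ ψ = ∫ f Q - T δ → 0.
-/

open MeasureTheory Metric Set Filter Topology
open scoped ENNReal NNReal RealInnerProductSpace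

namespace Vale.Agent.P120

variable {d : ℕ}

section

variable {n : ℕ} {ψ : E n → ℝ} (hψ : ContDiff ℝ 1 ψ) (hc : HasCompactSupport ψ)
include hψ hc

theorem flat4d_int {G : E n → E n} (hG : Continuous G) :
    Integrable fun x => fderiv ℝ ψ x (G x) := by
  refine ((hψ.continuous_fderiv one_ne_zero).clm_apply hG).integrable_of_hasCompactSupport ?_
  refine (hc.fderiv ℝ).mono fun x hx h0 => hx ?_
  simp [h0]

theorem flat4d_lim {G : ℝ → E n → E n} (hG : ∀ δ, 0 < δ → Continuous (G δ))
    (h : ∀ φ : E n → ℝ, Integrable φ volume →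
      Tendsto (fun δ : ℝ => ∫ x, φ x • G δ x) (𝓝[>] 0) (𝓝 0)) :
    Tendsto (fun δ : ℝ => ∫ x, fderiv ℝ ψ x (G δ x)) (𝓝[>] 0) (𝓝 0) := by
  have h1 := tendsto_finsetSum Finset.univ fun (j : Fin n) _ =>
    ((EuclideanSpace.proj j : E n →L[ℝ] ℝ).continuous.tendsto 0).comp
      (h (fun x => fderiv ℝ ψ x (EuclideanSpace.single j 1)) (flat4d_int hψ hc continuous_const))
  simp only [map_zero, Finset.sum_const_zero] at h1
  refine h1.congr' ?_
  filter_upwards [self_mem_nhdsWithin] with δ hδ
  have hi : ∀ j : Fin n,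
      Integrable fun x => fderiv ℝ ψ x (EuclideanSpace.single j 1) • G δ x := fun j => by
    refine (((hψ.continuous_fderiv one_ne_zero).clm_apply continuous_const).smul
      (hG δ hδ)).integrable_of_hasCompactSupport ?_
    refine (hc.fderiv ℝ).mono fun x hx h0 => hx ?_
    simp [h0]
  simp only [Function.comp]
  rw [Finset.sum_congr rfl fun j _ =>
    (ContinuousLinearMap.integral_comp_comm (EuclideanSpace.proj j) (hi j)).symm,
    ← integral_finsetSum _ fun j _ => (EuclideanSpace.proj j : E n →L[ℝ] ℝ).integrable_comp (hi j)]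
  refine integral_congr_ae (Eventually.of_forall fun x => ?_)
  have e := (EuclideanSpace.basisFun (Fin n) ℝ).sum_repr (G δ x)
  dsimp only
  conv_rhs => rw [← e, map_sum]
  refine Finset.sum_congr rfl fun j _ => ?_
  simp [mul_comm]

theorem flat4d_prod {A : ℝ} (hA : 0 ≤ A) {μ : Measure (E n)} (hU : Up n A μ) {δ : ℝ}
    (hδ : 0 < δ) : Integrable (Function.uncurry fun x y : E n =>
      fderiv ℝ ψ x (KK n δ (x - y) - KK n 1 (0 - y))) (volume.prod μ) := by
  have := hU.locFin
  obtain ⟨R, hR⟩ := (hc.fderiv ℝ).isCompact.isBounded.subset_closedBall 0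
  obtain ⟨C, -, hC⟩ := KK_diff_le_ww (d := n) n hδ one_pos (max R 0)
  have hD := hψ.continuous_fderiv one_ne_zero
  have h1 : Integrable fun x => ‖fderiv ℝ ψ x‖ :=
    (hD.integrable_of_hasCompactSupport (hc.fderiv ℝ)).norm
  refine (h1.mul_prod ((hU.integrable_ww hA).1.const_mul C)).mono' ?_
    (Eventually.of_forall fun z => ?_)
  · exact ((hD.comp continuous_fst).clm_apply
      (((continuous_KK n hδ).comp (continuous_fst.sub continuous_snd)).sub
        ((continuous_KK n one_pos).comp (continuous_const.sub continuous_snd)))).aestronglyMeasurable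
  · by_cases h0 : fderiv ℝ ψ z.1 = 0
    · simp [Function.uncurry, h0]
    · refine (ContinuousLinearMap.le_opNorm _ _).trans
        (mul_le_mul_of_nonneg_left (hC _ _ _ ?_ (by simp)) (norm_nonneg _))
      exact (mem_closedBall_zero_iff.1 (hR (subset_tsupport _ h0))).trans (le_max_left _ _)

theorem flat4d_J {δ : ℝ} (hδ : 0 < δ) (y : E n) :
    ∫ x, fderiv ℝ ψ x (KK n δ (x - y) - KK n 1 (0 - y)) =
      (∫ x, qq n δ (y - x) * (ψ y - ψ x)) - LL n volume δ ψ y := by
  have i1 := integrable_kk_vol n hδ y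
  have i2 := integrable_qq n hδ y
  have i3 : Integrable fun x => kk n δ (y - x) * ψ x :=
    (((continuous_kk n hδ).comp (continuous_const.sub continuous_id)).mul
      hψ.continuous).integrable_of_hasCompactSupport hc.mul_left
  have i4 : Integrable fun x => qq n δ (y - x) * ψ x :=
    (((continuous_qq n hδ).comp (continuous_const.sub continuous_id)).mul
      hψ.continuous).integrable_of_hasCompactSupport hc.mul_left
  have e : ∀ x, ψ x * (kk n δ (x - y) - qq n δ (x - y)) =
      kk n δ (y - x) * ψ x - qq n δ (y - x) * ψ x := by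
    intro x
    rw [kk_sub_comm, ← qq_neg, neg_sub]
    ring
  simp only [map_sub, LL, mul_sub]
  rw [integral_sub (flat4d_int hψ hc (G := fun x => KK n δ (x - y)) ((continuous_KK n hδ).comp
      (continuous_id.sub continuous_const))) (flat4d_int hψ hc continuous_const),
    integral_fderiv_const hψ hc, sub_zero, integral_sub (i2.mul_const _) i4,
    integral_sub (i1.mul_const _) i3, integral_mul_const, integral_mul_const,
    integral_sub_left_eq_self (kk n δ), integral_sub_left_eq_self (qq n δ), integral_kk_eq_qq n hδ]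
  have e2 := integral_fderiv_KK hψ hc hδ y
  simp only [e] at e2
  rw [integral_sub i3 i4] at e2
  refine e2.trans ?_
  ring

end

theorem harm_density {n : ℕ} {A : ℝ} (hn : 1 ≤ n) (hA : 1 ≤ A) {μ : Measure (E n)} (h : RR n A μ)
    (hs : μ.support = univ) {f : E n → ℝ} {c C : ℝ} (hf : Measurable f) (hc : 0 < c)
    (hfc : ∀ x, c ≤ f x ∧ f x ≤ C)
    (hμ : μ = volume.withDensity (fun x => ENNReal.ofReal (f x))) : Harm n f := by
  intro ψ hψ2 hcs _
  have hψ : ContDiff ℝ 1 ψ := hψ2.of_le one_le_two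
  have hA0 : 0 ≤ A := zero_le_one.trans hA
  have := h.1.locFin
  obtain ⟨c0, B, h1, h2⟩ := weak_star hn hA h hs hf hc hfc hμ
  obtain ⟨C', hQ⟩ := Q_bound hψ2 hcs
  have f0 : ∀ x, 0 ≤ f x := fun x => hc.le.trans (hfc x).1
  have fb : ∀ x, ‖f x‖ ≤ C := fun x => by
    rw [Real.norm_of_nonneg (f0 x)]
    exact (hfc x).2
  have t1 := flat4d_lim hψ hcs (G := fun δ x => GG n μ δ x - c0) (fun δ hδ =>
    (h1 δ hδ).1.sub continuous_const) h2
  have t2 : Tendsto (fun δ : ℝ => ∫ y, f y * ∫ x, qq n δ (y - x) * (ψ y - ψ x)) (𝓝[>] 0)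
      (𝓝 0) := by
    have h3 : Tendsto (fun δ : ℝ => C * (C' * δ)) (𝓝[>] 0) (𝓝 0) := by
      have h4 : Continuous fun δ : ℝ => C * (C' * δ) := by fun_prop
      simpa using (h4.tendsto 0).mono_left nhdsWithin_le_nhds
    refine squeeze_zero_norm' ?_ h3
    filter_upwards [self_mem_nhdsWithin] with δ hδ
    refine le_trans (norm_integral_le_of_norm_le ((hQ δ hδ).1.abs.const_mul C)
      (Eventually.of_forall fun y => ?_)) ?_
    · rw [norm_mul]
      exact mul_le_mul_of_nonneg_right (fb y) (norm_nonneg _)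
    · rw [integral_const_mul]
      exact mul_le_mul_of_nonneg_left (hQ δ hδ).2 ((norm_nonneg _).trans (fb 0))
  have t3 := t2.sub t1
  rw [sub_zero] at t3
  refine t3.congr' ?_
  filter_upwards [self_mem_nhdsWithin] with δ hδ
  have hF := flat4d_prod hψ hcs hA0 h.1 hδ
  have hJ := hF.integral_prod_right
  have e1 : ∫ x, fderiv ℝ ψ x (GG n μ δ x - c0) =
      ∫ y, (∫ x, fderiv ℝ ψ x (KK n δ (x - y) - KK n 1 (0 - y))) ∂μ := by
    rw [← integral_integral_swap hF]
    simp only [map_sub _ (GG n μ δ _)]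
    rw [integral_sub (flat4d_int hψ hcs (h1 δ hδ).1) (flat4d_int hψ hcs continuous_const),
      integral_fderiv_const hψ hcs, sub_zero]
    refine integral_congr_ae (Eventually.of_forall fun x => ?_)
    exact ((fderiv ℝ ψ x).integral_comp_comm (KK_diff_integrable hA0 h.1 0 x one_pos hδ)).symm
  have hm : Measurable fun x => ENNReal.ofReal (f x) := hf.ennreal_ofReal
  have hlt : ∀ᵐ x : E n, ENNReal.ofReal (f x) < ∞ :=
    Eventually.of_forall fun _ => ENNReal.ofReal_lt_top
  simp only [Function.uncurry, flat4d_J hψ hcs hδ] at hJ e1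
  rw [hμ, integrable_withDensity_iff_integrable_smul' hm hlt] at hJ
  rw [e1, hμ, integral_withDensity_eq_integral_toReal_smul hm hlt]
  simp only [ENNReal.toReal_ofReal (f0 _), smul_eq_mul] at hJ ⊢
  rw [← integral_sub ((hQ δ hδ).1.bdd_mul hf.aestronglyMeasurable (Eventually.of_forall fb)) hJ]
  refine integral_congr_ae (Eventually.of_forall fun y => ?_)
  ring

end Vale.Agent.P120
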