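import Vale.Agent.P120.Liou5a

/-!
P120 Liou5b. Overview in notes/P120.md, definitions in Defs.lean.
Name every helper lemma of yours with the file name in front (for example liou5b_aux1).

PLAN.
Continuity: continuousAt_of_dominated, bound C |h y| ww (n+2) y for x in a unit ball (Peetre).
Second differences: combine the four integrals (HS_integrable). For s >= 1 apply second_diff_le to Φ at the point s⁻¹ • (x - y) with increments s⁻¹ • a,
s⁻¹ • b: with ρ = |x| + |a| + |b|, the bound is s^(-n) s^(-2) |a| |b| B (1+ρ)^(n+2) (1 + |y|/s)^(-(n+2)) = K (s + |y|)^(-(n+2)), which is at most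
K ww (n+2) y and tends to 0 as s → ∞. Dominated convergence (tendsto_integral_filter_of_dominated_convergence along atTop), or squeeze with
∫ |h y| (s + |y|)^(-(n+2)) → 0.
-/

open MeasureTheory Metric Set Filter Topology
open scoped ENNReal NNReal RealInnerProductSpace
open scoped FourierTransform SchwartzMap

namespace Vale.Agent.P120

variable {d : ℕ}

theorem liou5b_peetre (N : ℕ) {w y : E d} {ρ : ℝ} (h : ‖w + y‖ ≤ ρ) :
    ww N w ≤ (1 + ρ) ^ N * ww N y := by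
  have h1 := ww_peetre N (-(w + y)) (-y)
  rw [show -y - -(w + y) = w by abel, norm_neg] at h1
  have h2 : ww N (-y) = ww N y := by simp only [ww, norm_neg]
  rw [h2] at h1
  refine h1.trans (mul_le_mul_of_nonneg_right ?_ (ww_pos N y).le)
  exact pow_le_pow_left₀ (by positivity) (by linarith) N

theorem liou5b_nonneg {N : ℕ} {B : ℝ} {z : ℂ} {x : E d} (h : ‖z‖ ≤ B * ww N x) : 0 ≤ B :=
  nonneg_of_mul_nonneg_left ((norm_nonneg z).trans h) (ww_pos N x)

theorem liou5b_bound {n : ℕ} (Φ : 𝓢(E n, ℂ)) (x a b : E n) : ∃ K : ℝ, 0 ≤ K ∧ ∀ s : ℝ, 1 ≤ s →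
    ∀ y, (s ^ n)⁻¹ * ‖Φ (s⁻¹ • (x + a + b - y)) - Φ (s⁻¹ • (x + a - y)) - Φ (s⁻¹ • (x + b - y)) +
      Φ (s⁻¹ • (x - y))‖ ≤ K * ((s + ‖y‖) ^ (n + 2))⁻¹ := by
  obtain ⟨B, hB⟩ := schwartz_le_ww (n + 2) Φ
  have hB0 := liou5b_nonneg (hB 0).1
  refine ⟨B * (1 + (‖a‖ + ‖b‖ + ‖x‖)) ^ (n + 2) * ‖a‖ * ‖b‖, by positivity, fun s hs y => ?_⟩
  have hs0 : 0 < s := by linarith
  have hn : ∀ v : E n, ‖s⁻¹ • v‖ = s⁻¹ * ‖v‖ := fun v => by
    rw [norm_smul, Real.norm_of_nonneg (inv_pos.2 hs0).le]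
  have hn' : ∀ v : E n, ‖s⁻¹ • v‖ ≤ ‖v‖ := fun v => by
    rw [hn]
    exact mul_le_of_le_one_left (norm_nonneg v) (inv_le_one_of_one_le₀ hs)
  have h1 := second_diff_le (u := Φ) (Φ.smooth 2) (s⁻¹ • (x - y)) (s⁻¹ • a) (s⁻¹ • b)
    (M := B * ((1 + (‖a‖ + ‖b‖ + ‖x‖)) ^ (n + 2) * ww (n + 2) (s⁻¹ • y))) fun w hw => by
      refine (hB w).2.trans (mul_le_mul_of_nonneg_left (liou5b_peetre _ ?_) hB0)
      rw [show w + s⁻¹ • y = (w - s⁻¹ • (x - y)) + s⁻¹ • x by rw [smul_sub]; abel]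
      linarith [norm_add_le (w - s⁻¹ • (x - y)) (s⁻¹ • x), hn' a, hn' b, hn' x]
  have e1 : s⁻¹ • (x - y) + s⁻¹ • a + s⁻¹ • b = s⁻¹ • (x + a + b - y) := by module
  have e2 : s⁻¹ • (x - y) + s⁻¹ • a = s⁻¹ • (x + a - y) := by module
  have e3 : s⁻¹ • (x - y) + s⁻¹ • b = s⁻¹ • (x + b - y) := by module
  rw [e1, e2, e3] at h1
  refine (mul_le_mul_of_nonneg_left h1 (by positivity)).trans (le_of_eq ?_)
  have e4 : (s + ‖y‖) ^ (n + 2) = s ^ (n + 2) * (1 + s⁻¹ * ‖y‖) ^ (n + 2) := by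
    rw [← mul_pow]
    congr 1
    field_simp
  rw [ww, hn, hn, hn, e4]
  field_simp
  ring

theorem HS_continuous {n : ℕ} {h : E n → ℝ} (h1 : WL1 n h) (Φ : 𝓢(E n, ℂ)) :
    Continuous (HS n h Φ 1) := by
  obtain ⟨B, hB⟩ := schwartz_le_ww (n + 2) Φ
  have hB0 := liou5b_nonneg (hB 0).1
  refine continuous_iff_continuousAt.2 fun x0 => ?_
  refine continuousAt_of_dominated
    (bound := fun y => B * (1 + (‖x0‖ + 1)) ^ (n + 2) * (|h y| * ww (n + 2) y))
    (Eventually.of_forall fun x => (HS_integrable h1 Φ one_pos x).aestronglyMeasurable) ?_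
    (h1.2.const_mul _) (Eventually.of_forall fun y => ?_)
  · filter_upwards [ball_mem_nhds x0 one_pos] with x hx
    refine Eventually.of_forall fun y => ?_
    have a1 : ‖x - y + y‖ ≤ ‖x0‖ + 1 := by
      rw [sub_add_cancel]
      linarith [norm_le_norm_add_norm_sub' x x0, mem_ball_iff_norm.1 hx]
    have a2 := mul_le_mul_of_nonneg_left ((hB (x - y)).1.trans
      (mul_le_mul_of_nonneg_left (liou5b_peetre _ a1) hB0)) (abs_nonneg (h y))
    simp only [one_pow, inv_one, Complex.ofReal_one, one_mul, one_smul, norm_mul,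
      Complex.norm_real, Real.norm_eq_abs]
    linarith
  · have := Φ.continuous
    fun_prop

theorem HS_second_diff {n : ℕ} {h : E n → ℝ} (h1 : WL1 n h) (Φ : 𝓢(E n, ℂ)) (x a b : E n) :
    Tendsto (fun s : ℝ => HS n h Φ s (x + a + b) - HS n h Φ s (x + a) - HS n h Φ s (x + b) +
      HS n h Φ s x) atTop (𝓝 0) := by
  obtain ⟨K, hK, hb⟩ := liou5b_bound Φ x a b
  let F : ℝ → E n → ℂ := fun s y =>
    (h y : ℂ) * ((((s ^ n)⁻¹ : ℝ) : ℂ) * Φ (s⁻¹ • (x + a + b - y))) -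
      (h y : ℂ) * ((((s ^ n)⁻¹ : ℝ) : ℂ) * Φ (s⁻¹ • (x + a - y))) -
      (h y : ℂ) * ((((s ^ n)⁻¹ : ℝ) : ℂ) * Φ (s⁻¹ • (x + b - y))) +
      (h y : ℂ) * ((((s ^ n)⁻¹ : ℝ) : ℂ) * Φ (s⁻¹ • (x - y)))
  have hF : ∀ s : ℝ, 1 ≤ s → ∀ y, ‖F s y‖ ≤ |h y| * (K * ((s + ‖y‖) ^ (n + 2))⁻¹) := by
    intro s hs y
    have e : F s y = (h y : ℂ) * ((((s ^ n)⁻¹ : ℝ) : ℂ) * (Φ (s⁻¹ • (x + a + b - y)) -
        Φ (s⁻¹ • (x + a - y)) - Φ (s⁻¹ • (x + b - y)) + Φ (s⁻¹ • (x - y)))) := by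
      simp only [F]
      ring
    rw [e, norm_mul, norm_mul, Complex.norm_real, Complex.norm_real, Real.norm_eq_abs,
      Real.norm_of_nonneg (by positivity)]
    exact mul_le_mul_of_nonneg_left (hb s hs y) (abs_nonneg _)
  have hi := fun (s : ℝ) (hs : 1 ≤ s) => HS_integrable h1 Φ (zero_lt_one.trans_le hs)
  have h2 := tendsto_integral_filter_of_dominated_convergence (μ := volume) (l := atTop) (F := F)
    (f := fun _ => 0) (fun y => K * (|h y| * ww (n + 2) y))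
    (by
      filter_upwards [eventually_ge_atTop 1] with s hs
      exact ((((hi s hs _).sub (hi s hs _)).sub (hi s hs _)).add (hi s hs _)).aestronglyMeasurable)
    (by
      filter_upwards [eventually_ge_atTop 1] with s hs
      refine Eventually.of_forall fun y => (hF s hs y).trans ?_
      rw [mul_left_comm, ww]
      gcongr)
    (h1.2.const_mul K)
    (Eventually.of_forall fun y => by
      have a1 : Tendsto (fun s : ℝ => ((s + ‖y‖) ^ (n + 2))⁻¹) atTop (𝓝 0) :=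
        ((tendsto_pow_atTop (by omega)).comp
          (tendsto_atTop_add_const_right _ _ tendsto_id)).inv_tendsto_atTop
      have a2 := (a1.const_mul K).const_mul |h y|
      rw [mul_zero, mul_zero] at a2
      refine squeeze_zero_norm' ?_ a2
      filter_upwards [eventually_ge_atTop 1] with s hs using hF s hs y)
  rw [integral_zero] at h2
  refine h2.congr' ?_
  filter_upwards [eventually_ge_atTop 1] with s hs
  exact (integral_add (((hi s hs _).sub (hi s hs _)).sub (hi s hs _)) (hi s hs _)).trans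
    (congrArg (· + _) ((integral_sub ((hi s hs _).sub (hi s hs _)) (hi s hs _)).trans
      (congrArg (· - _) (integral_sub (hi s hs _) (hi s hs _)))))

end Vale.Agent.P120
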