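import Vale.Agent.P120.Liou5a

/-!
P120 Liou5c. Overview in notes/P120.md, definitions in Defs.lean.
Name every helper lemma of yours with the file name in front (for example liou5c_aux1).

PLAN.
Fubini (integral_integral_swap; the integrand is dominated by C |φ x| |h y| ww (n+2) y since x stays in a compact set): the integral equals
∫ y, h y * I s y with I s y = ∫ x, φ x s^(-n) Φ (s⁻¹ • (x - y)) = ∫ w, φ (y + s • w) Φ w (translation, Measure.integral_comp_smul).
I s y → φ y ∫ Φ = φ y by dominated convergence, and for s <= 1, |φ (y + s w)| <= C ww (n+2) (y + s w) <= C (1+|w|)^(n+2) ww (n+2) y (Peetre), so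
norm (I s y) <= C' ww (n+2) y (schwartz_le_ww with N = 2n+3, integrable_ww_vol). Dominated convergence in y.
-/

open MeasureTheory Metric Set Filter Topology
open scoped ENNReal NNReal RealInnerProductSpace
open scoped FourierTransform SchwartzMap

namespace Vale.Agent.P120

variable {d : ℕ}

theorem liou5c_cv {n : ℕ} (f : E n → ℂ) {s : ℝ} (hs : 0 < s) (y : E n) :
    ∫ x, (((s ^ n)⁻¹ : ℝ) : ℂ) * f (s⁻¹ • (x - y)) = ∫ w, f w := by
  rw [integral_const_mul, integral_sub_right_eq_self (fun x => f (s⁻¹ • x)) y,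
    Measure.integral_comp_inv_smul_of_nonneg _ _ hs.le, finrank_euclideanSpace_fin,
    Complex.real_smul, ← mul_assoc, ← Complex.ofReal_mul, inv_mul_cancel₀ (pow_ne_zero n hs.ne'),
    Complex.ofReal_one, one_mul]

theorem liou5c_one (m : ℕ) (w : E d) : (1 + ‖w‖) ^ m * ww m w = 1 :=
  mul_inv_cancel₀ (by positivity)

theorem liou5c_swap {n : ℕ} {h : E n → ℝ} (h1 : WL1 n h) (Φ : 𝓢(E n, ℂ))
    {φ : E n → ℝ} (hφ : Continuous φ) (hc : HasCompactSupport φ) {s : ℝ} (hs : 0 < s)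
    (hs1 : s ≤ 1) : ∫ x, (φ x : ℂ) * HS n h Φ s x =
      ∫ y, ∫ w, (h y : ℂ) * ((φ (y + s • w) : ℂ) * Φ w) := by
  obtain ⟨B, hB⟩ := schwartz_le_ww (n + 2) Φ
  have hB0 : 0 ≤ B := nonneg_of_mul_nonneg_left ((norm_nonneg _).trans (hB 0).1) (ww_pos _ _)
  have i1 : Integrable (fun x => |φ x| * ((1 + ‖x‖) ^ (n + 2) * ((s ^ n)⁻¹ * B))) volume :=
    Continuous.integrable_of_hasCompactSupport (by fun_prop) hc.abs.mul_right
  have i2 : Integrable (Function.uncurry fun x y : E n => (φ x : ℂ) *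
      ((h y : ℂ) * ((((s ^ n)⁻¹ : ℝ) : ℂ) * Φ (s⁻¹ • (x - y))))) (volume.prod volume) := by
    refine (i1.mul_prod h1.2).mono' ?_ (Eventually.of_forall fun z => ?_)
    · have c1 : Continuous fun z : E n × E n => (φ z.1 : ℂ) := by fun_prop
      have c2 : Continuous fun z : E n × E n =>
        (((s ^ n)⁻¹ : ℝ) : ℂ) * Φ (s⁻¹ • (z.1 - z.2)) := by fun_prop
      exact c1.aestronglyMeasurable.mul
        ((Complex.continuous_ofReal.comp_aestronglyMeasurable h1.1.comp_snd).mul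
          c2.aestronglyMeasurable)
    · have k1 : ww (n + 2) (s⁻¹ • (z.1 - z.2)) ≤ ww (n + 2) (z.2 - z.1) := by
        refine inv_anti₀ (by positivity) (pow_le_pow_left₀ (by positivity) ?_ _)
        rw [norm_smul, norm_sub_rev, Real.norm_of_nonneg (inv_pos.2 hs).le]
        exact add_le_add le_rfl (le_mul_of_one_le_left (norm_nonneg _) ((one_le_inv₀ hs).2 hs1))
      have k2 := (hB (s⁻¹ • (z.1 - z.2))).1.trans
        (mul_le_mul_of_nonneg_left (k1.trans (ww_peetre (n + 2) z.1 z.2)) hB0)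
      change ‖(φ z.1 : ℂ) * ((h z.2 : ℂ) * ((((s ^ n)⁻¹ : ℝ) : ℂ) * Φ (s⁻¹ • (z.1 - z.2))))‖ ≤ _
      rw [norm_mul, norm_mul, norm_mul, Complex.norm_real, Complex.norm_real, Complex.norm_real,
        Real.norm_eq_abs, Real.norm_eq_abs, Real.norm_of_nonneg (by positivity)]
      refine le_trans (by gcongr) (le_of_eq (?_ : |φ z.1| * (|h z.2| * ((s ^ n)⁻¹ *
        (B * ((1 + ‖z.1‖) ^ (n + 2) * ww (n + 2) z.2)))) = _))
      ring
  simp only [HS, ← integral_const_mul]
  rw [integral_integral_swap i2]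
  refine integral_congr_ae (Eventually.of_forall fun y => ?_)
  refine Eq.trans ?_ (liou5c_cv (fun w => (h y : ℂ) * ((φ (y + s • w) : ℂ) * Φ w)) hs y)
  refine integral_congr_ae (Eventually.of_forall fun x => ?_)
  simp only [smul_inv_smul₀ hs.ne', add_sub_cancel]
  ring

theorem HS_approx {n : ℕ} {h : E n → ℝ} (h1 : WL1 n h) (Φ : 𝓢(E n, ℂ)) (hΦ : ∫ x, Φ x = 1)
    {φ : E n → ℝ} (hφ : Continuous φ) (hc : HasCompactSupport φ) :
    Tendsto (fun s : ℝ => ∫ x, (φ x : ℂ) * HS n h Φ s x) (𝓝[>] 0)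
      (𝓝 ((∫ x, φ x * h x : ℝ) : ℂ)) := by
  obtain ⟨B, hB⟩ := schwartz_le_ww (n + 2 + (n + 1)) Φ
  obtain ⟨C, hC⟩ := Continuous.bounded_above_of_compact_support
    (f := fun z => φ z * (1 + ‖z‖) ^ (n + 2)) (by fun_prop) hc.mul_right
  have hC0 : 0 ≤ C := (norm_nonneg _).trans (hC 0)
  have hC' : ∀ z, |φ z| ≤ C * ww (n + 2) z := fun z => by
    have k := mul_le_mul_of_nonneg_right (hC z) (ww_pos (n + 2) z).le
    rwa [norm_mul, Real.norm_eq_abs, Real.norm_of_nonneg (by positivity), mul_assoc, liou5c_one,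
      mul_one] at k
  have i1 := h1.2.mul_prod ((integrable_ww_vol n).const_mul (C * B))
  have hm : ∀ s : ℝ, AEStronglyMeasurable
      (fun z : E n × E n => (h z.1 : ℂ) * ((φ (z.1 + s • z.2) : ℂ) * Φ z.2))
      (volume.prod volume) := fun s =>
    (Complex.continuous_ofReal.comp_aestronglyMeasurable h1.1.comp_fst).mul
      (Continuous.aestronglyMeasurable (by fun_prop))
  have hb : ∀ s ∈ Ioc (0 : ℝ) 1, ∀ᵐ z : E n × E n ∂(volume.prod volume),
      ‖(h z.1 : ℂ) * ((φ (z.1 + s • z.2) : ℂ) * Φ z.2)‖ ≤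
        |h z.1| * ww (n + 2) z.1 * (C * B * ww (n + 1) z.2) := fun s hs =>
    Eventually.of_forall fun z => by
      have k1 := ww_peetre (n + 2) (-(s • z.2)) z.1
      have k2 : ‖-(s • z.2)‖ ≤ ‖z.2‖ := by
        rw [norm_neg, norm_smul, Real.norm_of_nonneg hs.1.le]
        exact mul_le_of_le_one_left (norm_nonneg _) hs.2
      have k0 := ww_pos (n + 2) z.1
      have k3 : |φ (z.1 + s • z.2)| ≤ C * ((1 + ‖z.2‖) ^ (n + 2) * ww (n + 2) z.1) := by
        rw [sub_neg_eq_add] at k1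
        exact (hC' _).trans (mul_le_mul_of_nonneg_left (k1.trans (by gcongr)) hC0)
      have k4 := (hB z.2).1
      rw [norm_mul, norm_mul, Complex.norm_real, Complex.norm_real, Real.norm_eq_abs,
        Real.norm_eq_abs]
      refine le_trans (by gcongr) (le_of_eq (?_ : |h z.1| * (C * ((1 + ‖z.2‖) ^ (n + 2) *
        ww (n + 2) z.1) * (B * ww (n + 2 + (n + 1)) z.2)) = _))
      rw [ww_add (n + 2) (n + 1) z.2]
      linear_combination (|h z.1| * ww (n + 2) z.1 * (C * B * ww (n + 1) z.2)) *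
        liou5c_one (n + 2) z.2
  have key := tendsto_integral_filter_of_dominated_convergence (l := 𝓝[>] (0 : ℝ))
    (f := fun z : E n × E n => (h z.1 : ℂ) * (φ z.1 : ℂ) * Φ z.2) _
    (Eventually.of_forall hm) (mem_of_superset (Ioc_mem_nhdsGT one_pos) hb) i1
    (Eventually.of_forall fun z => by
      have c1 : Continuous fun s : ℝ => (h z.1 : ℂ) * ((φ (z.1 + s • z.2) : ℂ) * Φ z.2) := by
        fun_prop
      refine (c1.tendsto' 0 _ ?_).mono_left nhdsWithin_le_nhds
      rw [zero_smul, add_zero, mul_assoc])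
  rw [integral_prod_mul (fun y => (h y : ℂ) * (φ y : ℂ)) fun w => Φ w, hΦ, mul_one] at key
  have e : ((∫ x, φ x * h x : ℝ) : ℂ) = ∫ y, (h y : ℂ) * (φ y : ℂ) := by
    rw [← integral_complex_ofReal]
    simp only [Complex.ofReal_mul, mul_comm]
  rw [e]
  refine key.congr' (mem_of_superset (Ioc_mem_nhdsGT one_pos) fun s hs => ?_)
  exact (integral_prod _ (i1.mono' (hm s) (hb s hs))).trans
    (liou5c_swap h1 Φ hφ hc hs.1 hs.2).symm

end Vale.Agent.P120
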