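import Vale.Agent.P120.Liou4
import Vale.Agent.P120.Liou5b
import Vale.Agent.P120.Liou5c

/-!
P120 Liou5d. Overview in notes/P120.md, definitions in Defs.lean.
Name every helper lemma of yours with the file name in front (for example liou5d_aux1).

PLAN.
H = HS n h Φ 1. By exists_HS_const and HS_second_diff the second differences of H vanish (tendsto_nhds_unique, eventually s > 0), so
T x = re (H x) - re (H 0) is additive and continuous: AddMonoidHom.toRealLinearMap, then InnerProductSpace.toDual gives v.
By HS_approx, ∫ φ H = ∫ φ h for continuous φ of compact support; take real parts. h is locally integrable (ww is bounded below on compact sets);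
ae_eq_of_integral_contDiff_smul_eq.
-/

open MeasureTheory Metric Set Filter Topology
open scoped ENNReal NNReal RealInnerProductSpace
open scoped FourierTransform SchwartzMap

namespace Vale.Agent.P120

variable {d : ℕ}

theorem liou5d_loc {n : ℕ} {h : E n → ℝ} (h1 : WL1 n h) : LocallyIntegrable h volume := by
  refine locallyIntegrable_iff.2 fun K hK => ?_
  have h2 := (h1.2.integrableOn (s := K)).mul_continuousOn
    (g' := fun y => (1 + ‖y‖) ^ (n + 2)) (by fun_prop) hK
  refine Integrable.mono' h2 h1.1.restrict (Eventually.of_forall fun y => le_of_eq ?_)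
  rw [ww, inv_mul_cancel_right₀ (by positivity), Real.norm_eq_abs]

theorem liou5d_aff {n : ℕ} {T : E n → ℝ} (hT : Continuous T)
    (h : ∀ a b, T (a + b) - T a - T b + T 0 = 0) : ∃ v : E n, ∀ y, T y = T 0 + ⟪v, y⟫ := by
  let L : E n →L[ℝ] ℝ := (AddMonoidHom.mk' (fun y => T y - T 0) fun a b => by
    linarith [h a b]).toRealLinearMap (hT.sub continuous_const)
  refine ⟨(InnerProductSpace.toDual ℝ (E n)).symm L, fun y => ?_⟩
  rw [InnerProductSpace.toDual_symm_apply]
  exact (add_sub_cancel _ _).symm

theorem liouville {n : ℕ} (hn : 1 ≤ n) {h : E n → ℝ} (h1 : WL1 n h) (hH : Harm n h) :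
    ∃ (b : ℝ) (v : E n), h =ᵐ[volume] fun y => b + ⟪v, y⟫ := by
  obtain ⟨Φ, hΦ, hc⟩ := exists_HS_const n
  have h2 := hc h h1 (hH.kill hn h1)
  have h3 := HS_continuous h1 Φ
  have h4 := Complex.continuous_re.comp h3
  obtain ⟨v, hv⟩ := liou5d_aff h4 fun a b => by
    have h5 := tendsto_nhds_unique tendsto_const_nhds ((HS_second_diff h1 Φ 0 a b).congr' (by
      filter_upwards [eventually_gt_atTop 0] with s hs
      rw [h2 s hs, h2 s hs, h2 s hs, h2 s hs]))
    simpa using congrArg Complex.re h5
  refine ⟨_, v, EventuallyEq.trans ?_ (Eventually.of_forall hv)⟩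
  refine ae_eq_of_integral_contDiff_smul_eq (liou5d_loc h1) h4.locallyIntegrable
    fun g hg hg' => ?_
  have h5 := tendsto_nhds_unique tendsto_const_nhds
    ((HS_approx h1 Φ hΦ hg.continuous hg').congr' (by
      filter_upwards [self_mem_nhdsWithin] with s hs
      simp only [h2 s hs]
      rfl))
  have h6 : Integrable fun x => (g x : ℂ) * HS n h Φ 1 x :=
    ((Complex.continuous_ofReal.comp hg.continuous).mul h3).integrable_of_hasCompactSupport
      (hg'.comp_left Complex.ofReal_zero).mul_right
  have h7 := integral_re h6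
  rw [h5] at h7
  simpa using h7.symm

end Vale.Agent.P120
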