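import Vale.Agent.P120.Defs2
import Vale.Agent.P120.Lam1
import Vale.Agent.P120.Exc

/-!
P120 Pull. Overview in notes/P120.md, definitions in Defs.lean.
Name every helper lemma of yours with the file name in front (for example pull_aux1).

PLAN.
exists_emb: take ι from orthonormal vectors (Orthonormal.comp of EuclideanSpace.basisFun with Fin.castLE; LinearMap.isometryOfOrthonormal or
x ↦ toLp (fun j => if h : j < n then x ⟨j,h⟩ else 0)); π0 = adjoint of ι.toContinuousLinearMap, or ι.equivRange.symm ∘ orthogonalProjection.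
ι is a closed embedding (Isometry.isClosedEmbedding), hence a MeasurableEmbedding: integral_map holds for all functions (MeasurableEmbedding.integral_map),
products by Measure.map_prod_map and MeasurableEmbedding.prodMap. Lam_map: KK_iso, map_sub, LinearIsometry.integral_comp_comm.
ext_iota: ψ' y = bump 0 (2R) y * ψ (π0 y), Test.mul. RR.pull: σ = μ.comap ι, MeasurableEmbedding.map_comap gives μ.restrict (range ι) = μ
(restrict_eq_self_of_ae_mem, support_mem_ae); ι ⁻¹' ball (ι x) r = ball x r; x in support σ iff ι x in support μ.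
-/

open MeasureTheory Metric Set Filter Topology
open scoped ENNReal NNReal RealInnerProductSpace

namespace Vale.Agent.P120

variable {d : ℕ}

variable {n : ℕ} {ι : E n →ₗᵢ[ℝ] E d} {π0 : E d →L[ℝ] E n}

theorem pull_emb (ι : E n →ₗᵢ[ℝ] E d) : ∃ π0 : E d →L[ℝ] E n, Emb ι π0 := by
  let π0 : E d →L[ℝ] E n := ContinuousLinearMap.adjoint ι.toContinuousLinearMap
  have h1 : ∀ y x, ⟪π0 y, x⟫ = ⟪y, ι x⟫ := fun y x =>
    ContinuousLinearMap.adjoint_inner_left ι.toContinuousLinearMap x y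
  have h2 : ∀ y, ι (π0 y) = (rg ι).starProjection y := fun y => by
    refine (Submodule.eq_starProjection_of_mem_of_inner_eq_zero (K := rg ι)
      (LinearMap.mem_range.2 ⟨π0 y, rfl⟩) ?_).symm
    rintro _ ⟨x, rfl⟩
    change ⟪y - ι (π0 y), ι x⟫ = 0
    rw [inner_sub_left, ι.inner_map_map, h1, sub_self]
  refine ⟨π0, fun x => ?_, h2, fun y => ?_⟩
  · refine ext_inner_right ℝ fun z => ?_
    rw [h1, ι.inner_map_map]
  · rw [← ι.norm_map, h2]
    exact Submodule.norm_starProjection_apply_le _ _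

theorem pull_ball (ι : E n →ₗᵢ[ℝ] E d) (x : E n) (r : ℝ) : ι ⁻¹' ball (ι x) r = ball x r := by
  ext y
  simp only [mem_preimage, mem_ball, ι.dist_map]

theorem pull_supp {X : Type*} [PseudoMetricSpace X] [MeasurableSpace X] {μ : Measure X} {x : X} :
    x ∈ μ.support ↔ ∀ r : ℝ, 0 < r → 0 < μ (ball x r) := by
  rw [Measure.mem_support_iff_forall]
  refine ⟨fun h r hr => h _ (ball_mem_nhds x hr), fun h U hU => ?_⟩
  obtain ⟨r, hr, hs⟩ := Metric.mem_nhds_iff.1 hU
  exact (h r hr).trans_le (measure_mono hs)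

theorem exists_emb (hnd : n ≤ d) :
    ∃ (ι : E n →ₗᵢ[ℝ] E d) (π0 : E d →L[ℝ] E n), Emb ι π0 := by
  let b := EuclideanSpace.basisFun (Fin n) ℝ
  let v : Fin n → E d := fun i => EuclideanSpace.basisFun (Fin d) ℝ (Fin.castLE hnd i)
  have hv : Orthonormal ℝ v :=
    (EuclideanSpace.basisFun (Fin d) ℝ).orthonormal.comp _ (Fin.castLE_injective hnd)
  let f : E n →ₗ[ℝ] E d := b.toBasis.constr ℝ v
  have hb : Orthonormal ℝ b.toBasis := by
    rw [OrthonormalBasis.coe_toBasis]
    exact b.orthonormal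
  have hf : Orthonormal ℝ (f ∘ b.toBasis) := by
    have : f ∘ b.toBasis = v := funext fun i => b.toBasis.constr_basis ℝ v i
    rw [this]
    exact hv
  exact ⟨f.isometryOfOrthonormal hb hf, pull_emb _⟩

theorem finrank_rg (ι : E n →ₗᵢ[ℝ] E d) : Module.finrank ℝ (rg ι) = n := by
  rw [rg, LinearMap.finrank_range_of_inj ι.injective, finrank_euclideanSpace_fin]

theorem ww_iota (m : ℕ) (ι : E n →ₗᵢ[ℝ] E d) (x : E n) : ww m (ι x) = ww m x := by
  rw [ww, ww, ι.norm_map]

theorem measurableEmbedding_iota (ι : E n →ₗᵢ[ℝ] E d) : MeasurableEmbedding ι :=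
  ι.isometry.isClosedEmbedding.measurableEmbedding

theorem Test.ext_iota (hE : Emb ι π0) {ψ : E n → ℝ} {R L : ℝ} (hR : 0 < R) (h : Test ψ 0 R L) :
    ∃ (ψ' : E d → ℝ) (L' : ℝ), Test ψ' 0 (2 * R) L' ∧ ∀ x, ψ' (ι x) = ψ x := by
  have R2 : 0 < 2 * R := by linarith
  refine ⟨fun y => bump 0 (2 * R) y * ψ (π0 y), _, (bump_test 0 R2).mul R2.le
    (abs_bump_le_one _ _) h.1 (mul_nonneg h.1 hR.le) (fun y z => (h.2.1 _ _).trans ?_)
    (fun y _ => h.2.2.1 _), fun x => ?_⟩
  · refine mul_le_mul_of_nonneg_left ?_ h.1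
    rw [dist_eq_norm, dist_eq_norm, ← map_sub]
    exact hE.2.2 _
  · simp only [hE.1]
    rcases le_total R (dist x 0) with a | a
    · rw [h.2.2.2 x a, mul_zero]
    · rw [bump_eq_one R2, one_mul]
      rw [dist_zero_right] at a ⊢
      rw [ι.norm_map]
      linarith

theorem Lam_map (m : ℕ) (σ : Measure (E n)) [SFinite σ] (ι : E n →ₗᵢ[ℝ] E d) (a : E n) (t δ : ℝ)
    (ψ : E d → ℝ) :
    Lam m (σ.map ι) (ι a) t δ ψ = ι (Lam m σ a t δ (fun x => ψ (ι x))) := by
  have hm := measurableEmbedding_iota ι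
  unfold Lam
  rw [Measure.map_prod_map _ _ hm.measurable hm.measurable, (hm.prodMap hm).integral_map, map_smul,
    ← ι.integral_comp_comm]
  congr 2
  funext z
  simp only [lamI, Prod.map_fst, Prod.map_snd, ← ι.map_sub, KK_iso, ← ι.map_smul]

theorem LL_map (m : ℕ) (σ : Measure (E n)) (ι : E n →ₗᵢ[ℝ] E d) (δ : ℝ) (ψ : E d → ℝ) (y : E n) :
    LL m (σ.map ι) δ ψ (ι y) = LL m σ δ (fun x => ψ (ι x)) y := by
  unfold LL
  rw [(measurableEmbedding_iota ι).integral_map]
  simp only [← ι.map_sub, kk_iso]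

theorem RR.pull {A : ℝ} {μ : Measure (E d)} (hE : Emb ι π0) (h : RR n A μ)
    (h0 : (0 : E d) ∈ μ.support) (hs : μ.support ⊆ (rg ι : Set (E d))) :
    ∃ σ : Measure (E n), μ = σ.map ι ∧ RR n A σ ∧ (0 : E n) ∈ σ.support := by
  have hm := measurableEmbedding_iota ι
  have e : μ = (μ.comap ι).map ι := by
    rw [hm.map_comap, Measure.restrict_eq_self_of_ae_mem]
    filter_upwards [Measure.support_mem_ae (μ := μ)] with y hy using hs hy
  obtain ⟨σ, hσ⟩ : ∃ σ : Measure (E n), μ = σ.map ι := ⟨_, e⟩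
  have hb : ∀ x r, σ (ball x r) = μ (ball (ι x) r) := fun x r => by
    rw [hσ, hm.map_apply, pull_ball]
  have hsup : ∀ x, x ∈ σ.support ↔ ι x ∈ μ.support := fun x => by
    simp only [pull_supp, hb]
  have hU : Up n A σ := fun x r hr => (hb x r).trans_le (h.1 _ r hr)
  refine ⟨σ, hσ, ⟨hU, fun ρ x hx r hr hρ => ?_, fun ψ R L hR hψ hi => ?_⟩, ?_⟩
  · rw [hb]
    exact h.2.1 ρ _ ((hsup x).1 hx) r hr hρ
  · have := hU.sigmaFinite
    obtain ⟨ψ', L', h1, h2⟩ := hψ.ext_iota hE hR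
    have h3 : (fun x => ψ' (ι x)) = ψ := funext h2
    have h4 := h.2.2 ψ' (2 * R) L' (by linarith) h1 (by rw [hσ, hm.integral_map, h3, hi])
    have h5 := Lam_map n σ ι 0 1 0 ψ'
    rw [← hσ, map_zero, h4, h3] at h5
    exact ι.injective (h5.symm.trans (map_zero ι).symm)
  · rw [hsup, map_zero]
    exact h0

end Vale.Agent.P120
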