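import Vale.Agent.P120.Flat2
import Vale.Agent.P120.Flat4d
import Vale.Agent.P120.Liou5d
import Vale.Agent.P120.Pull
import Vale.Agent.P120.Blow
import Vale.Agent.P120.Tube

/-!
P120 Flat5. Overview in notes/P120.md, definitions in Defs.lean.
Name every helper lemma of yours with the file name in front (for example flat5_aux1).

PLAN.
support_eq_univ: if z is not in the support, blow with W = ⊤ (finrank = n) and not_support_subset_low give False.
flat_class_self: exists_density, harm_density, liouville (WL1: |f| ww (n+2) <= C ww (n+1)). The continuous function b + ⟪v,y⟫ lies in [c,C] a.e., hence everywhere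
(closed set of full measure is everything: Measure.dense_of_ae / IsClosed.ae_eq_univ_iff_eq), which forces v = 0 (take y = t • v, t large), θ = b >= c;
withDensity_congr_ae, withDensity_const. flat_class: RR.pull, Measure.map_smul.
-/

open MeasureTheory Metric Set Filter Topology
open scoped ENNReal NNReal RealInnerProductSpace

namespace Vale.Agent.P120

variable {d : ℕ}

theorem RR.support_eq_univ {n : ℕ} {A : ℝ} (hn : 1 ≤ n) (hA : 1 ≤ A) {μ : Measure (E n)}
    (h : RR n A μ) (h0 : (0 : E n) ∈ μ.support) : μ.support = univ := by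
  refine eq_univ_of_forall fun z => not_not.1 fun hz => ?_
  obtain ⟨-, -, -, W, hW, ν, h1, h2, h3, -⟩ :=
    blow hn hA h h0 ⊤ (fun _ _ => Submodule.mem_top) Submodule.mem_top hz
  rw [finrank_top, finrank_euclideanSpace_fin] at hW
  exact not_support_subset_low hA h1.1 (h1.2.1 1) h2 W hW.le h3

theorem flat_class_self {n : ℕ} {A : ℝ} (hn : 1 ≤ n) (hA : 1 ≤ A) {μ : Measure (E n)}
    (h : RR n A μ) (h0 : (0 : E n) ∈ μ.support) :
    ∃ θ : ℝ, 0 < θ ∧ μ = ENNReal.ofReal θ • (volume : Measure (E n)) := by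
  have hs := h.support_eq_univ hn hA h0
  obtain ⟨f, c, C, hf, hc, hfc, hμ⟩ := exists_density hA h.1 h.2.1 hs
  obtain ⟨B, hB, hU⟩ := up_volume n
  obtain ⟨b, v, e⟩ := liouville hn (h := f) ⟨hf.aestronglyMeasurable, Up.integrable_of_le
    (by linarith) hU (C := C) ((continuous_abs.measurable.comp hf).mul
      (continuous_ww _).measurable).aestronglyMeasurable fun y => by
        rw [Real.norm_of_nonneg (mul_nonneg (abs_nonneg _) (ww_pos _ _).le),
          abs_of_pos (hc.trans_le (hfc y).1)]
        exact mul_le_mul (hfc y).2 (ww_anti (by omega) y) (ww_pos _ _).le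
          ((hc.trans_le (hfc y).1).le.trans (hfc y).2)⟩ (harm_density hn hA h hs hf hc hfc hμ)
  have h1 : ∀ y : E n, c ≤ b + ⟪v, y⟫ := by
    have h2 : IsClosed {y : E n | c ≤ b + ⟪v, y⟫} := isClosed_le continuous_const (by fun_prop)
    have h3 : Dense {y : E n | c ≤ b + ⟪v, y⟫} :=
      Measure.dense_of_ae (μ := volume) (e.mono fun y hy => (hfc y).1.trans hy.le)
    exact fun y => h2.closure_subset (h3 y)
  have h2 : v = 0 := by
    by_contra hv
    have h3 := h1 ((-b / ‖v‖ ^ 2) • v)
    rw [real_inner_smul_right, real_inner_self_eq_norm_sq,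
      div_mul_cancel₀ _ (pow_ne_zero 2 (norm_ne_zero_iff.2 hv))] at h3
    linarith
  refine ⟨b, by simpa using hc.trans_le (h1 0), ?_⟩
  rw [hμ, ← withDensity_const]
  refine withDensity_congr_ae (e.mono fun y hy => ?_)
  simp only [hy, h2, inner_zero_left, add_zero]

theorem flat_class {n : ℕ} {A : ℝ} (hn : 1 ≤ n) (hA : 1 ≤ A) {μ : Measure (E d)}
    {ι : E n →ₗᵢ[ℝ] E d} {π0 : E d →L[ℝ] E n} (hE : Emb ι π0) (h : RR n A μ)
    (h0 : (0 : E d) ∈ μ.support) (hs : μ.support ⊆ (rg ι : Set (E d))) :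
    ∃ θ : ℝ, 0 < θ ∧ μ = ENNReal.ofReal θ • (volume : Measure (E n)).map ι := by
  obtain ⟨σ, h1, h2, h3⟩ := h.pull hE h0 hs
  obtain ⟨θ, h4, h5⟩ := flat_class_self hn hA h2 h3
  exact ⟨θ, h4, by rw [h1, h5, Measure.map_smul]⟩

end Vale.Agent.P120
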