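import Vale.Agent.P120.ADInt

/-!
P120 Glue1. Overview in notes/P120.md, definitions in Defs.lean.
Name every helper lemma of yours with the file name in front (for example glue1_aux1).

PLAN.
Vitali.exists_disjoint_subfamily_covering_enlargement_closedBall with t = G, x = id, r x = dd x / 20, τ = 5 gives u ⊆ G. u is countable (disjoint balls with nonempty interior,
Set.PairwiseDisjoint.countable_of_nonempty_interior). Separation: if dist b b' < (dd b + dd b')/20 the closed balls meet (exists_dist_le_le / Metric.closedBall_disjoint_closedBall converse: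
disjoint_closedBall_closedBall_iff). Disjointify: with an injection e : u → ℕ (Countable.exists_injective_nat) put H b = (G ∩ closedBall b (dd b / 4)) minus the union of closedBall b' (dd b'/4) over b' in u
with e b' < e b; a point of G belongs to H b for the b of least index covering it (or use exists_subordinate_pairwise_disjoint type lemmas). Sum: A⁻¹ (dd b/20)^n <= μ (ball b (dd b/20)), these balls are disjoint
and lie in ball x1 (2t) (measure_iUnion / measure_biUnion).
-/

open MeasureTheory Metric Set Filter Topology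
open scoped ENNReal NNReal RealInnerProductSpace

namespace Vale.Agent.P120

variable {d : ℕ}

theorem exists_groups {n : ℕ} {A : ℝ} (hA : 1 ≤ A) {μ : Measure (E d)} (hU : Up n A μ)
    (hL : Low n A 1 μ) {G : Set (E d)} (hG : MeasurableSet G) {x1 : E d} {t : ℝ} (ht : 0 < t)
    (ht1 : t ≤ 1) (hGs : G ⊆ μ.support ∩ ball x1 t) {dd : E d → ℝ}
    (hd : ∀ x ∈ G, 0 < dd x ∧ dd x ≤ t) :
    ∃ u ⊆ G, u.Countable ∧ (∀ b ∈ u, ∀ b' ∈ u, b ≠ b' → dd b + dd b' ≤ 20 * dist b b') ∧
      ∃ H : E d → Set (E d), (∀ b ∈ u, MeasurableSet (H b) ∧ H b ⊆ G ∩ closedBall b (dd b / 4)) ∧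
        u.PairwiseDisjoint H ∧ G ⊆ ⋃ b ∈ u, H b ∧
        ∑' b : u, ENNReal.ofReal (dd b ^ n) ≤ ENNReal.ofReal (A ^ 2 * 40 ^ n * t ^ n) := by
  have hA0 : 0 < A := one_pos.trans_le hA
  obtain ⟨u, hu, hdis, hcov⟩ := Vitali.exists_disjoint_subfamily_covering_enlargement_closedBall G
    id (fun x => dd x / 20) t (fun x hx => by linarith [(hd x hx).1, (hd x hx).2]) 5 (by norm_num)
  have hp : ∀ b ∈ u, 0 < dd b / 20 := fun b hb => by linarith [(hd b (hu hb)).1]
  have hc : u.Countable := hdis.countable_of_nonempty_interior fun b hb =>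
    ⟨b, interior_mono ball_subset_closedBall (by
      rw [isOpen_ball.interior_eq]
      exact mem_ball_self (hp b hb))⟩
  obtain ⟨e, he⟩ := Set.countable_iff_exists_injOn.1 hc
  refine ⟨u, hu, hc, fun b hb b' hb' hne => ?_, fun b => (G ∩ closedBall b (dd b / 4)) \
    ⋃ b' ∈ {b' ∈ u | e b' < e b}, closedBall b' (dd b' / 4), fun b _ => ⟨?_, sdiff_subset⟩, ?_, ?_,
    ?_⟩
  · have h := (disjoint_closedBall_closedBall_iff (hp b hb).le (hp b' hb').le).1 (hdis hb hb' hne)
    simp only [id] at h
    linarith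
  · exact (hG.inter measurableSet_closedBall).diff
      (MeasurableSet.biUnion (hc.mono fun _ h => h.1) fun _ _ => measurableSet_closedBall)
  · intro b hb b' hb' hne
    refine Set.disjoint_left.2 fun y hy hy' => ?_
    rcases lt_or_gt_of_ne (fun h => hne (he hb hb' h)) with h | h
    · exact hy'.2 (mem_biUnion (show b ∈ {b'' ∈ u | e b'' < e b'} from ⟨hb, h⟩) hy.1.2)
    · exact hy.2 (mem_biUnion (show b' ∈ {b'' ∈ u | e b'' < e b} from ⟨hb', h⟩) hy'.1.2)
  · intro y hy
    have hne : {b ∈ u | y ∈ closedBall b (dd b / 4)}.Nonempty := by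
      obtain ⟨b, hb, h⟩ := hcov y hy
      refine ⟨b, hb, ?_⟩
      have h1 := h (mem_closedBall_self (by linarith [(hd y hy).1]))
      rwa [show 5 * (dd b / 20) = dd b / 4 by ring] at h1
    obtain ⟨b, hb, hm⟩ := (InvImage.wf e Nat.lt_wfRel.wf).has_min _ hne
    refine mem_biUnion hb.1 ⟨⟨hy, hb.2⟩, fun h => ?_⟩
    obtain ⟨b', hb', h'⟩ := mem_iUnion₂.1 h
    exact hm b' ⟨hb'.1, h'⟩ hb'.2
  · have h1 : ∀ b : u, ENNReal.ofReal (dd b ^ n) ≤
        ENNReal.ofReal (A * 20 ^ n) * μ (ball b (dd b / 20)) := fun b => by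
      have a1 := hd b (hu b.2)
      refine le_trans ?_ (mul_le_mul_right
        (hL b (hGs (hu b.2)).1 _ (hp b b.2) (by linarith [a1.1, a1.2])) _)
      rw [← ENNReal.ofReal_mul (by positivity), div_pow]
      refine ENNReal.ofReal_le_ofReal (le_of_eq ?_)
      field_simp
    refine (ENNReal.tsum_le_tsum h1).trans ?_
    rw [ENNReal.tsum_mul_left, ← measure_biUnion (f := fun b => ball b (dd b / 20)) hc
      (hdis.mono fun b => ball_subset_closedBall) fun _ _ => measurableSet_ball]
    have h2 : ⋃ b ∈ u, ball b (dd b / 20) ⊆ ball x1 (2 * t) := iUnion₂_subset fun b hb y hy => by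
      have a1 := hd b (hu hb)
      have a2 := (hGs (hu hb)).2
      rw [mem_ball] at hy a2 ⊢
      linarith [dist_triangle y b x1, a1.1, a1.2]
    refine (mul_le_mul_right ((measure_mono h2).trans (hU x1 _ (by positivity))) _).trans ?_
    rw [← ENNReal.ofReal_mul (by positivity), mul_pow,
      show (40 : ℝ) ^ n = 20 ^ n * 2 ^ n by rw [← mul_pow]; norm_num]
    exact ENNReal.ofReal_le_ofReal (le_of_eq (by ring))


end Vale.Agent.P120
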