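import Vale.Agent.P120.Defs

/-!
P120: definitions for the Reifenberg type map (files Par1 to Par5).
-/

open MeasureTheory Metric Set Filter Topology
open scoped ENNReal NNReal RealInnerProductSpace

namespace Vale.Agent.P120

variable {d : ℕ}

/-- a Lipschitz family of weights at scale t attached to a finite subset S of Y -/
def PU (Y : Set (E d)) (t L : ℝ) (S : Finset (E d)) (φ : E d → E d → ℝ) : Prop :=
  (↑S : Set (E d)) ⊆ Y ∧ (∀ p y, 0 ≤ φ p y) ∧ (∀ y, ∑ p ∈ S, φ p y ≤ 1) ∧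
    (∀ p y, φ p y ≠ 0 → dist y p < 2 * t) ∧
    (∀ x ∈ Y, ∀ y, dist y x ≤ t / 2 → ∑ p ∈ S, φ p y = 1) ∧
    ∀ y y', ∑ p ∈ S, |φ p y - φ p y'| ≤ L * dist y y' / t

/-- the averaged projection onto the planes pp p + VV p, p in S -/
noncomputable def sig (S : Finset (E d)) (φ : E d → E d → ℝ) (pp : E d → E d)
    (VV : E d → Submodule ℝ (E d)) (y : E d) : E d :=
  y - ∑ p ∈ S, φ p y • hh (pp p) (VV p) y

/-- cmp σ j m = σ j ∘ σ (j+1) ∘ ... ∘ σ (j+m-1) -/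
def cmp (σ : ℕ → E d → E d) : ℕ → ℕ → E d → E d
  | _, 0, x => x
  | j, m + 1, x => σ j (cmp σ (j + 1) m x)

/-- pointwise flatness of X with respect to the chosen planes -/
def ParFlat (lam κ t : ℝ) (X : Set (E d)) (D : E d → ℝ) (pp : ℕ → E d → E d)
    (VV : ℕ → E d → Submodule ℝ (E d)) : Prop :=
  ∀ j : ℕ, ∀ p ∈ X, D p < lam ^ j * t → ∀ z ∈ X, dist z p ≤ 4 * (lam ^ j * t) →
    ‖hh (pp j p) (VV j p) z‖ ≤ κ * (lam ^ j * t)

/-- neighbouring planes are close, with square summable errors -/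
def ParClose (lam η t : ℝ) (X : Set (E d)) (D : E d → ℝ) (pp : ℕ → E d → E d)
    (VV : ℕ → E d → Submodule ℝ (E d)) : Prop :=
  ∀ x ∈ X, ∀ J : ℕ, D x < lam ^ J * t → ∃ b : ℕ → ℝ, (∀ j, 0 ≤ b j) ∧
    ∑ j ∈ Finset.range (J + 1), b j ^ 2 ≤ η ∧
    (∀ j ≤ J, ∀ p ∈ X, ∀ q ∈ X, D p < lam ^ j * t → D q < lam ^ j * t →
      dist p x ≤ 3 * (lam ^ j * t) → dist q x ≤ 3 * (lam ^ j * t) →
        Near (pp j p) (VV j p) (pp j q) (VV j q) x (lam ^ j * t) (b j)) ∧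
    ∀ j < J, ∀ p ∈ X, ∀ q ∈ X, D p < lam ^ j * t → D q < lam ^ (j + 1) * t →
      dist p x ≤ 3 * (lam ^ j * t) → dist q x ≤ 3 * (lam ^ (j + 1) * t) →
        Near (pp j p) (VV j p) (pp (j + 1) q) (VV (j + 1) q) x (lam ^ j * t) (b j)

/-- the conclusion: a map to R^n with Lipschitz inverse above the scale D -/
def ParMap (n : ℕ) (t : ℝ) (X : Set (E d)) (D : E d → ℝ) : Prop :=
  ∃ π : E d → E n, (∀ x ∈ X, ‖π x‖ ≤ 2 * t) ∧
    ∀ x ∈ X, ∀ y ∈ X, D x + D y ≤ 40 * dist x y → dist x y ≤ 4 * dist (π x) (π y)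

end Vale.Agent.P120
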