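import Vale.Agent.P120.Glue1
import Vale.Agent.P120.ParD
import Vale.Agent.P120.PieceB

/-!
P120 Glue2. Overview in notes/P120.md, definitions in Defs.lean.
Name every helper lemma of yours with the file name in front (for example glue2_aux1).

PLAN.
a2 = a1 / (4 A^2 40^n), θ' = min (a1/2) (θ a1 / (4A)) / 3^n, M' = 80 M + 48. dd is continuous. Z = F1 ∩ {dd = 0}, G = F1 ∩ {0 < dd}, μ F1 <= μ Z + μ G.
If μ Z >= a1 t^n / 2 take F' = Z and the map π* of ParMap. Otherwise μ G >= a1 t^n/2; exists_groups. Heavy b: ofReal (a2 dd b^n) <= μ (H b). The light groups have total measure <= a2 A^2 40^n t^n = a1 t^n/4, so the heavy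
groups have total measure >= a1 t^n / 4. For heavy b choose F' b ⊆ H b and π b; μ (H b) <= A (dd b)^n (closedBall b (dd/4) ⊆ ball b dd), so μ (F' b) >= ofReal (θ/A) * μ (H b). F' = the union over heavy b
(countable, disjoint, measure_biUnion). For y in F' let β y be its index (choice; unique by disjointness), π y = π* (β y) + (1/80) • π (β y) y. Same group: dist <= 80 M dist. Different groups b, b':
dist y y' <= 6 dist b b', dist (π* b) (π* b') >= dist b b'/4, the perturbation is <= (dd b + dd b')/80 <= dist b b'/4 ... so use the factor 1/160 instead (perturbation <= dist b b'/8) and M' = 160 M + 48.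
Norm <= 2t + t <= 3t.
-/

open MeasureTheory Metric Set Filter Topology
open scoped ENNReal NNReal RealInnerProductSpace

namespace Vale.Agent.P120

variable {d : ℕ}

theorem glue2_cancel {a : ℝ} (ha : 0 ≤ a) {x : ℝ≥0∞}
    (h : ENNReal.ofReal (2 * a) ≤ ENNReal.ofReal a + x) : ENNReal.ofReal a ≤ x := by
  rwa [two_mul, ENNReal.ofReal_add ha ha, ENNReal.add_le_add_iff_left ENNReal.ofReal_ne_top] at h

theorem glue2_sel {n : ℕ} {A a2 θ M r : ℝ} {μ : Measure (E d)} (hA : 0 ≤ A) (hU : Up n A μ)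
    (hθ : 0 < θ) (hr : 0 < r) {H : Set (E d)} {b : E d} (hH : H ⊆ closedBall b (r / 4))
    (h : ENNReal.ofReal (a2 * r ^ n) ≤ μ H → Piece n μ H r θ M) :
    ∃ (F : Set (E d)) (π : E d → E n), F ⊆ H ∧ MeasurableSet F ∧
      μ H ≤ ENNReal.ofReal (a2 * r ^ n) + ENNReal.ofReal (A / θ) * μ F ∧ (∀ x ∈ F, ‖π x‖ ≤ r) ∧
      ∀ x ∈ F, ∀ y ∈ F, dist x y ≤ M * dist (π x) (π y) := by
  rcases le_total (ENNReal.ofReal (a2 * r ^ n)) (μ H) with a | a
  · obtain ⟨F, h1, h2, h3, π, h4, h5⟩ := h a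
    refine ⟨F, π, h1, h2, le_add_left (((measure_mono (hH.trans (closedBall_subset_ball
      (by linarith)))).trans (hU b r hr)).trans (le_trans ?_ (mul_le_mul_right h3 _))), h4, h5⟩
    rw [← ENNReal.ofReal_mul (by positivity), ← mul_assoc, div_mul_cancel₀ _ hθ.ne']
  · exact ⟨∅, 0, empty_subset _, .empty, le_add_right a, by simp, by simp⟩

theorem glue2_far {n : ℕ} {b b' y y' : E d} {r r' : ℝ} {p p' v v' : E n} (h1 : dist y b ≤ r / 4)
    (h2 : dist y' b' ≤ r' / 4) (h3 : r + r' ≤ 20 * dist b b') (h4 : dist b b' ≤ 4 * dist p p')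
    (h5 : ‖v‖ ≤ r) (h6 : ‖v'‖ ≤ r') :
    dist y y' ≤ 48 * dist (p + (1 / 160 : ℝ) • v) (p' + (1 / 160 : ℝ) • v') := by
  have a := dist_triangle4 y b b' y'
  have c := dist_triangle4 p (p + (1 / 160 : ℝ) • v) (p' + (1 / 160 : ℝ) • v') p'
  rw [dist_self_add_right, dist_comm (p' + _) p', dist_self_add_right, norm_smul, norm_smul,
    Real.norm_of_nonneg (by norm_num)] at c
  rw [dist_comm b' y'] at a
  linarith

theorem glue (n d : ℕ) (A : ℝ) (hA : 1 ≤ A) (a1 : ℝ) (ha1 : 0 < a1) :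
    ∃ a2 : ℝ, 0 < a2 ∧ ∀ θ M : ℝ, 0 < θ → 0 ≤ M → ∃ θ' : ℝ, 0 < θ' ∧ ∃ M' : ℝ, 0 ≤ M' ∧
      ∀ μ : Measure (E d), Up n A μ → Low n A 1 μ →
      ∀ (F1 : Set (E d)) (x1 : E d) (t : ℝ) (dd : E d → ℝ), MeasurableSet F1 → 0 < t → t ≤ 1 →
        F1 ⊆ μ.support ∩ ball x1 t → ENNReal.ofReal (a1 * t ^ n) ≤ μ F1 →
        (∀ x y, |dd x - dd y| ≤ dist x y) → (∀ x, 0 ≤ dd x) → (∀ x ∈ F1, dd x ≤ t) →
        ParMap n t F1 dd →
        (∀ x ∈ F1, 0 < dd x → ∀ G : Set (E d), MeasurableSet G →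
          G ⊆ F1 ∩ closedBall x (dd x / 4) → ENNReal.ofReal (a2 * dd x ^ n) ≤ μ G →
            Piece n μ G (dd x) θ M) →
        Piece n μ F1 (3 * t) θ' M' := by
  have hA0 : 0 < A := by linarith
  refine ⟨a1 / (4 * (A ^ 2 * 40 ^ n)), by positivity, fun θ M hθ hM =>
    ⟨min (a1 / 2) (θ / A * (a1 / 4)) / 3 ^ n, by positivity, 160 * M + 48, by positivity, ?_⟩⟩
  intro μ hU hL F1 x1 t dd hF ht ht1 hFs hm hd hd0 hdt ⟨π, hπ, hπ'⟩ hP
  have hc : Continuous dd := LipschitzWith.continuous (K := 1)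
    (LipschitzWith.of_dist_le_mul fun x y => by simpa [Real.dist_eq] using hd x y)
  have e0 : min (a1 / 2) (θ / A * (a1 / 4)) / 3 ^ n * (3 * t) ^ n =
      min (a1 / 2) (θ / A * (a1 / 4)) * t ^ n := by
    rw [mul_pow, ← mul_assoc, div_mul_cancel₀ _ (by positivity)]
  unfold Piece
  rw [e0]
  rcases le_total (ENNReal.ofReal (a1 / 2 * t ^ n)) (μ (F1 ∩ {x | dd x = 0})) with a | a
  · refine ⟨_, inter_subset_left, hF.inter (isClosed_eq hc continuous_const).measurableSet,
      (ENNReal.ofReal_le_ofReal (mul_le_mul_of_nonneg_right (min_le_left _ _)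
        (by positivity))).trans a, π, fun x hx => (hπ x hx.1).trans (by linarith),
      fun x hx y hy => (hπ' x hx.1 y hy.1 ?_).trans
        (mul_le_mul_of_nonneg_right (by linarith) dist_nonneg)⟩
    rw [hx.2, hy.2, add_zero]
    positivity
  have hG : ENNReal.ofReal (2 * (a1 / 4 * t ^ n)) ≤ μ (F1 ∩ {x | 0 < dd x}) := by
    rw [show 2 * (a1 / 4 * t ^ n) = a1 / 2 * t ^ n by ring]
    refine glue2_cancel (by positivity) (le_trans ?_ (add_le_add_left a _))
    rw [show 2 * (a1 / 2 * t ^ n) = a1 * t ^ n by ring]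
    exact hm.trans ((measure_mono fun x hx => (hd0 x).eq_or_lt.imp (fun h => ⟨hx, h.symm⟩)
      fun h => ⟨hx, h⟩).trans (measure_union_le _ _))
  obtain ⟨u, hu, huc, hsep, H, hH, hdis, hcov, hsum⟩ := exists_groups hA hU hL
    (hF.inter (isOpen_lt continuous_const hc).measurableSet) ht ht1 (inter_subset_left.trans hFs)
    (dd := dd) fun x hx => ⟨hx.2, hdt x hx.1⟩
  choose! F P f1 f2 f3 f4 f5 using fun b (hb : b ∈ u) =>
    glue2_sel hA0.le hU hθ (hu hb).2 ((hH b hb).2.trans inter_subset_right)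
      (hP b (hu hb).1 (hu hb).2 (H b) (hH b hb).1
        ((hH b hb).2.trans (inter_subset_inter_left _ inter_subset_left)))
  choose! β b1 b2 using fun y (hy : y ∈ ⋃ b ∈ u, F b) => mem_iUnion₂.1 hy
  refine ⟨⋃ b ∈ u, F b, iUnion₂_subset fun b hb x hx => ((hH b hb).2 (f1 b hb hx)).1.1,
    .biUnion huc f2, (ENNReal.ofReal_le_ofReal (mul_le_mul_of_nonneg_right (min_le_right _ _)
      (by positivity))).trans ?_, fun y => π (β y) + (1 / 160 : ℝ) • P (β y) y,
    fun y hy => (norm_add_le _ _).trans ?_, fun y hy z hz => ?_⟩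
  · have h1 : ENNReal.ofReal (a1 / 4 * t ^ n) ≤ ENNReal.ofReal (A / θ) * μ (⋃ b ∈ u, F b) := by
      refine glue2_cancel (by positivity) (hG.trans ((measure_mono hcov).trans
        ((measure_biUnion_le μ huc H).trans ((ENNReal.tsum_le_tsum fun b : u => f3 b b.2).trans ?_))))
      rw [ENNReal.tsum_add, ENNReal.tsum_mul_left, ← measure_biUnion huc
        (hdis.mono_on f1) f2]
      refine add_le_add_left ?_ _
      simp only [ENNReal.ofReal_mul (by positivity : 0 ≤ a1 / (4 * (A ^ 2 * 40 ^ n)))]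
      rw [ENNReal.tsum_mul_left]
      refine (mul_le_mul_right hsum _).trans_eq ?_
      rw [← ENNReal.ofReal_mul (by positivity)]
      congr 1
      field_simp
    rw [mul_assoc, ENNReal.ofReal_mul (by positivity)]
    refine (mul_le_mul_right h1 _).trans_eq ?_
    rw [← mul_assoc, ← ENNReal.ofReal_mul (by positivity),
      show θ / A * (A / θ) = 1 by field_simp, ENNReal.ofReal_one, one_mul]
  · have c1 := hπ _ (hu (b1 y hy)).1
    have c2 := (f4 _ (b1 y hy) y (b2 y hy)).trans (hdt _ (hu (b1 y hy)).1)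
    rw [norm_smul, Real.norm_of_nonneg (by norm_num)]
    linarith
  · by_cases e : β y = β z
    · have c := f5 _ (b1 z hz) y (e ▸ b2 y hy) z (b2 z hz)
      simp only [e, dist_add_left, dist_smul₀, Real.norm_of_nonneg (by norm_num : (0 : ℝ) ≤ 1 / 160)]
      linarith [dist_nonneg (x := P (β z) y) (y := P (β z) z)]
    · have c := hsep _ (b1 y hy) _ (b1 z hz) e
      exact (glue2_far ((hH _ (b1 y hy)).2 (f1 _ (b1 y hy) (b2 y hy))).2
        ((hH _ (b1 z hz)).2 (f1 _ (b1 z hz) (b2 z hz))).2 c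
        (hπ' _ (hu (b1 y hy)).1 _ (hu (b1 z hz)).1
          (by linarith [dist_nonneg (x := β y) (y := β z)]))
        (f4 _ (b1 y hy) y (b2 y hy)) (f4 _ (b1 z hz) z (b2 z hz))).trans
          (mul_le_mul_of_nonneg_right (by linarith) dist_nonneg)

end Vale.Agent.P120
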