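import Vale.Agent.P120.Par4c
import Vale.Agent.P120.Close
import Vale.Agent.P120.Pull

/-!
P120 Par5. Overview in notes/P120.md, definitions in Defs.lean.
Name every helper lemma of yours with the file name in front (for example par5_aux1).

PLAN.
κ, η1 from param, C from near_of_ex, ε* from ex_point with κ. t_j = lam^j t <= t (Low.mono). For every (j,p) choose an n-plane (pp j p, VV j p) with
ex p t_j (pp, VV) <= ex p t_j (p', V') + (1/4)^j η for every n-plane (p',V') (the set of values is nonempty by exists_emb/finrank_rg and bounded below by 0: Real.lt_sInf_add_pos or exists_lt_of_csInf_lt).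
ParFlat: the hypothesis for p with J = j gives b j^2 <= η, so ex <= 2η <= ε*^2, ex_point. ParClose: for x, J, b let β j = sqrt (4^(n+3) (4^(n+3) b j^2 + (1/4)^j η)) > 0. For p with dist p x <= 3 t_j, ex_center twice gives
ex x t_j (pp j p, VV j p) <= β j^2. Same level: near_of_ex. Consecutive levels: at scale t_(j+1), ex_scale gives ex <= (lam⁻¹)^(n+2) β j^2 for (j,p) and β (j+1)^2 for (j+1,q); near_of_ex with
ε = lam⁻¹^(n+2) (β j + β (j+1)), then Near.scale. Take b' j = 5 C lam⁻¹^(n+2) (β j + if j < J then β (j+1) else 0) and Near.mono; ∑ b'^2 <= K η <= η1.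
-/

open MeasureTheory Metric Set Filter Topology
open scoped ENNReal NNReal RealInnerProductSpace

namespace Vale.Agent.P120

variable {d : ℕ}

theorem par5_choose {n : ℕ} (hnd : n ≤ d) (f : E d → Submodule ℝ (E d) → ℝ)
    (hf : ∀ p V, 0 ≤ f p V) {δ : ℝ} (hδ : 0 < δ) :
    ∃ (p : E d) (V : Submodule ℝ (E d)), Module.finrank ℝ V = n ∧
      ∀ (p' : E d) (V' : Submodule ℝ (E d)), Module.finrank ℝ V' = n → f p V ≤ f p' V' + δ := by
  obtain ⟨ι, π0, -⟩ := exists_emb (n := n) (d := d) hnd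
  set S : Set ℝ := {r | ∃ (p : E d) (V : Submodule ℝ (E d)), Module.finrank ℝ V = n ∧ r = f p V}
    with hS
  have hne : S.Nonempty := ⟨f 0 (rg ι), 0, rg ι, finrank_rg ι, rfl⟩
  have hbd : BddBelow S := ⟨0, by
    rintro r ⟨p, V, -, rfl⟩
    exact hf p V⟩
  obtain ⟨r, ⟨p, V, hV, rfl⟩, hr⟩ := Real.lt_sInf_add_pos hne hδ
  refine ⟨p, V, hV, fun p' V' hV' => ?_⟩
  have := csInf_le hbd (show f p' V' ∈ S from ⟨p', V', hV', rfl⟩)
  linarith

theorem par5_half (J : ℕ) : ∑ j ∈ Finset.range J, (1 / 2 : ℝ) ^ j ≤ 2 := by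
  have h : ∑ j ∈ Finset.range J, (1 / 2 : ℝ) ^ j = 2 - 2 * (1 / 2 : ℝ) ^ J := by
    induction J with
    | zero => simp
    | succ J ih => rw [Finset.sum_range_succ, ih, pow_succ]; ring
  rw [h]
  have : 0 ≤ (1 / 2 : ℝ) ^ J := by positivity
  linarith

theorem par5_sum1 (J : ℕ) (b : ℕ → ℝ) (M s : ℝ)
    (hb : ∑ j ∈ Finset.range (J + 1), b j ^ 2 ≤ s ^ 2) :
    ∑ j ∈ Finset.range (J + 1), (M * (b j + (1 / 2 : ℝ) ^ j * s)) ^ 2 ≤ 6 * M ^ 2 * s ^ 2 := by
  have h1 : ∀ j ∈ Finset.range (J + 1), (M * (b j + (1 / 2 : ℝ) ^ j * s)) ^ 2 ≤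
      2 * M ^ 2 * b j ^ 2 + 2 * M ^ 2 * s ^ 2 * (1 / 2 : ℝ) ^ j := by
    intro j _
    have a1 : 0 ≤ (1 / 2 : ℝ) ^ j := by positivity
    have a2 : (1 / 2 : ℝ) ^ j ≤ 1 := pow_le_one₀ (by norm_num) (by norm_num)
    generalize (1 / 2 : ℝ) ^ j = u at a1 a2
    have a3 : (b j + u * s) ^ 2 ≤ 2 * b j ^ 2 + 2 * s ^ 2 * u := by
      have a4 : u ^ 2 ≤ u := by nlinarith
      have a5 : u ^ 2 * s ^ 2 ≤ u * s ^ 2 := mul_le_mul_of_nonneg_right a4 (sq_nonneg s)
      nlinarith [sq_nonneg (b j - u * s)]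
    have a6 := mul_le_mul_of_nonneg_left a3 (sq_nonneg M)
    nlinarith
  refine (Finset.sum_le_sum h1).trans ?_
  rw [Finset.sum_add_distrib, ← Finset.mul_sum, ← Finset.mul_sum]
  have a1 := mul_le_mul_of_nonneg_left hb (show 0 ≤ 2 * M ^ 2 by positivity)
  have a2 := mul_le_mul_of_nonneg_left (par5_half (J + 1))
    (show 0 ≤ 2 * M ^ 2 * s ^ 2 by positivity)
  nlinarith

theorem par5_sum2 (J : ℕ) (β : ℕ → ℝ) (K B : ℝ)
    (hb : ∑ j ∈ Finset.range (J + 1), β j ^ 2 ≤ B) :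
    ∑ j ∈ Finset.range (J + 1), (K * (β j + if j < J then β (j + 1) else 0)) ^ 2 ≤
      4 * K ^ 2 * B := by
  have h1 : ∀ j ∈ Finset.range (J + 1), (K * (β j + if j < J then β (j + 1) else 0)) ^ 2 ≤
      2 * K ^ 2 * β j ^ 2 + 2 * K ^ 2 * (if j < J then β (j + 1) else 0) ^ 2 := by
    intro j _
    generalize (if j < J then β (j + 1) else 0) = u
    have a3 : (β j + u) ^ 2 ≤ 2 * β j ^ 2 + 2 * u ^ 2 := by nlinarith [sq_nonneg (β j - u)]
    have a6 := mul_le_mul_of_nonneg_left a3 (sq_nonneg K)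
    nlinarith
  refine (Finset.sum_le_sum h1).trans ?_
  rw [Finset.sum_add_distrib, ← Finset.mul_sum, ← Finset.mul_sum]
  have h2 : ∑ j ∈ Finset.range (J + 1), (if j < J then β (j + 1) else 0) ^ 2 ≤ B := by
    rw [Finset.sum_range_succ]
    rw [Finset.sum_range_succ'] at hb
    have e : ∑ j ∈ Finset.range J, (if j < J then β (j + 1) else 0) ^ 2 =
        ∑ j ∈ Finset.range J, β (j + 1) ^ 2 :=
      Finset.sum_congr rfl fun j hj => by rw [if_pos (Finset.mem_range.1 hj)]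
    rw [e, if_neg (lt_irrefl J)]
    nlinarith [sq_nonneg (β 0)]
  have a1 := mul_le_mul_of_nonneg_left hb (show 0 ≤ 2 * K ^ 2 by positivity)
  have a2 := mul_le_mul_of_nonneg_left h2 (show 0 ≤ 2 * K ^ 2 by positivity)
  nlinarith

theorem par5_center {n : ℕ} {A : ℝ} (hA : 0 ≤ A) {μ : Measure (E d)} (hU : Up n A μ)
    {x x' : E d} {s : ℝ} (hs : 0 < s) (h : dist x x' ≤ 3 * s) (p : E d)
    (V : Submodule ℝ (E d)) : ex n μ x' s p V ≤ 4 ^ (n + 3) * ex n μ x s p V := by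
  refine (ex_center hA hU x x' hs p V).trans
    (mul_le_mul_of_nonneg_right ?_ (ex_nonneg n μ x hs p V))
  refine pow_le_pow_left₀ (by positivity) ?_ _
  have : dist x x' / s ≤ 3 := (div_le_iff₀ hs).2 h
  linarith

theorem par5_key {n : ℕ} {A : ℝ} (hA : 0 ≤ A) {μ : Measure (E d)} (hU : Up n A μ)
    {x p : E d} {s b δ : ℝ} (hs : 0 < s) (hb : 0 ≤ b) (hδ : 0 ≤ δ) (h : dist p x ≤ 3 * s)
    (hF : Flat n μ x s b) {q : E d} {W : Submodule ℝ (E d)}
    (hq : ∀ (p' : E d) (V' : Submodule ℝ (E d)), Module.finrank ℝ V' = n →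
      ex n μ p s q W ≤ ex n μ p s p' V' + δ ^ 2) :
    ex n μ x s q W ≤ (4 ^ (n + 3) * (b + δ)) ^ 2 := by
  obtain ⟨p', V', hV', hex⟩ := hF
  have h1 := par5_center hA hU hs (show dist x p ≤ 3 * s by rwa [dist_comm]) p' V'
  have h2 := par5_center hA hU hs h q W
  have h3 := hq p' V' hV'
  have hM : (1 : ℝ) ≤ 4 ^ (n + 3) := one_le_pow₀ (by norm_num)
  generalize (4 : ℝ) ^ (n + 3) = M at h1 h2 hM
  have hM0 : 0 ≤ M := by linarith
  have a1 : ex n μ p s q W ≤ M * b ^ 2 + M * δ ^ 2 := by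
    have := mul_le_mul_of_nonneg_left hex hM0
    have := mul_le_mul_of_nonneg_right hM (sq_nonneg δ)
    linarith
  have a2 := mul_le_mul_of_nonneg_left a1 hM0
  have a3 : 0 ≤ M ^ 2 * (b * δ) := by positivity
  nlinarith

theorem param_meas (n d : ℕ) (hn : 1 ≤ n) (hnd : n ≤ d) (A : ℝ) (hA : 1 ≤ A) (lam : ℝ)
    (hlam : 0 < lam) (hlam' : lam ≤ 1 / 4) :
    ∃ η : ℝ, 0 < η ∧ ∀ μ : Measure (E d), Up n A μ →
      ∀ (X : Set (E d)) (x0 : E d) (t : ℝ) (D : E d → ℝ), 0 < t → Low n A t μ →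
      X ⊆ μ.support → (∀ x ∈ X, dist x x0 ≤ t) → (∀ x ∈ X, 0 ≤ D x ∧ D x < t) →
      (∀ x ∈ X, ∀ J : ℕ, D x < lam ^ J * t → ∃ b : ℕ → ℝ, (∀ j, 0 ≤ b j) ∧
        (∀ j ≤ J, Flat n μ x (lam ^ j * t) (b j)) ∧ ∑ j ∈ Finset.range (J + 1), b j ^ 2 ≤ η) →
      ParMap n t X D := by
  have hA0 : (0 : ℝ) ≤ A := by linarith
  obtain ⟨κ, hκ, η1, hη1, hpar⟩ := param n d lam hlam hlam'
  obtain ⟨C, hC, hnear⟩ := near_of_ex n d hn A hA
  obtain ⟨ε, hε, hpt⟩ := ex_point n d A hA κ hκ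
  obtain ⟨M, hM⟩ : ∃ M : ℝ, M = 4 ^ (n + 3) := ⟨_, rfl⟩
  obtain ⟨Λ, hΛ⟩ : ∃ Λ : ℝ, Λ = lam⁻¹ ^ (n + 2) := ⟨_, rfl⟩
  have hM1 : 1 ≤ M := hM ▸ one_le_pow₀ (by norm_num)
  have hlam1 : lam ≤ 1 := by linarith
  have hΛ1 : 1 ≤ Λ := hΛ ▸ one_le_pow₀ ((one_le_inv₀ hlam).2 hlam1)
  have hM0 : 0 < M := by linarith
  have hΛ0 : 0 < Λ := by linarith
  obtain ⟨K, hK⟩ : ∃ K : ℝ, K = 5 * (C * Λ) := ⟨_, rfl⟩
  have hK0 : 0 < K := by rw [hK]; positivity
  obtain ⟨s, hs, hs1, hs2⟩ : ∃ s : ℝ, 0 < s ∧ 2 * s ^ 2 ≤ ε ^ 2 ∧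
      4 * K ^ 2 * (6 * M ^ 2 * s ^ 2) ≤ η1 := by
    have hq : 0 < min (ε ^ 2 / 2) (η1 / (24 * K ^ 2 * M ^ 2)) := by positivity
    refine ⟨√(min (ε ^ 2 / 2) (η1 / (24 * K ^ 2 * M ^ 2))), Real.sqrt_pos.2 hq, ?_, ?_⟩
    · rw [Real.sq_sqrt hq.le]
      have := min_le_left (ε ^ 2 / 2) (η1 / (24 * K ^ 2 * M ^ 2))
      linarith
    · rw [Real.sq_sqrt hq.le]
      have h1 := min_le_right (ε ^ 2 / 2) (η1 / (24 * K ^ 2 * M ^ 2))
      rw [le_div_iff₀ (by positivity)] at h1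
      linarith
  refine ⟨s ^ 2, by positivity, fun μ hU X x0 t D ht hL hX hx0 hD hfl => ?_⟩
  have htj : ∀ j : ℕ, 0 < lam ^ j * t := fun j => by positivity
  have hLj : ∀ j : ℕ, Low n A (lam ^ j * t) μ := fun j => hL.mono (by
    have : lam ^ j ≤ 1 := pow_le_one₀ hlam.le hlam1
    nlinarith)
  have hδ : ∀ j : ℕ, 0 < (1 / 2 : ℝ) ^ j * s := fun j => by positivity
  have hch : ∀ (j : ℕ) (p : E d), ∃ (q : E d) (W : Submodule ℝ (E d)),
      Module.finrank ℝ W = n ∧ ∀ (p' : E d) (V' : Submodule ℝ (E d)),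
        Module.finrank ℝ V' = n → ex n μ p (lam ^ j * t) q W ≤
          ex n μ p (lam ^ j * t) p' V' + ((1 / 2 : ℝ) ^ j * s) ^ 2 := fun j p =>
    par5_choose hnd (fun q W => ex n μ p (lam ^ j * t) q W)
      (fun q W => ex_nonneg n μ p (htj j) q W) (pow_pos (hδ j) 2)
  choose pp VV hVV hmin using hch
  refine hpar X x0 t D pp VV ht hx0 hD hVV ?_ ?_
  · intro j p hp hDp z hz hzp
    obtain ⟨b, -, hF, hsum⟩ := hfl p hp j hDp
    obtain ⟨p', V', hV', hex⟩ := hF j le_rfl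
    have h1 : b j ^ 2 ≤ s ^ 2 := by
      refine le_trans ?_ hsum
      exact Finset.single_le_sum (f := fun j => b j ^ 2) (fun i _ => sq_nonneg _)
        (Finset.mem_range.2 (Nat.lt_succ_self j))
    have h2 : ((1 / 2 : ℝ) ^ j * s) ^ 2 ≤ s ^ 2 := by
      refine pow_le_pow_left₀ (hδ j).le ?_ 2
      have : (1 / 2 : ℝ) ^ j ≤ 1 := pow_le_one₀ (by norm_num) (by norm_num)
      nlinarith
    have h3 := hmin j p p' V' hV'
    refine hpt μ hU p _ (htj j) (hLj j) _ _ (by linarith) z (hX hz) ?_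
    have := htj j
    linarith
  · intro x hx J hDx
    obtain ⟨b, hb0, hF, hsum⟩ := hfl x hx J hDx
    obtain ⟨β, hβ⟩ : ∃ β : ℕ → ℝ, β = fun j => M * (b j + (1 / 2 : ℝ) ^ j * s) := ⟨_, rfl⟩
    have hβ0 : ∀ j, 0 < β j := fun j => by
      rw [hβ]
      have := hb0 j
      have := hδ j
      positivity
    have hkey : ∀ j ≤ J, ∀ p : E d, dist p x ≤ 3 * (lam ^ j * t) →
        ex n μ x (lam ^ j * t) (pp j p) (VV j p) ≤ β j ^ 2 := fun j hj p hp => by
      rw [hβ, hM]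
      exact par5_key hA0 hU (htj j) (hb0 j) (hδ j).le hp (hF j hj) (hmin j p)
    have hite : ∀ j, 0 ≤ (if j < J then β (j + 1) else 0) := fun j => by
      split_ifs
      · exact (hβ0 _).le
      · exact le_rfl
    refine ⟨fun j => K * (β j + if j < J then β (j + 1) else 0), fun j => ?_, ?_, ?_, ?_⟩
    · have := hβ0 j
      have := hite j
      positivity
    · refine (par5_sum2 J β K (6 * M ^ 2 * s ^ 2) ?_).trans hs2
      rw [hβ]
      exact par5_sum1 J b M s hsum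
    · intro j hj p _ q _ _ _ hpx hqx
      refine Near.mono (htj j).le (hnear μ hU x (hX hx) _ (htj j) (hLj j) _ _ _ _ (β j)
        (hVV j p) (hVV j q) (hβ0 j) (hkey j hj p hpx) (hkey j hj q hqx)) ?_
      have a1 := hβ0 j
      have a2 := hite j
      have a3 : C ≤ K := by rw [hK]; nlinarith
      have a4 := mul_le_mul_of_nonneg_right a3 a1.le
      have a5 := mul_nonneg hK0.le a2
      show C * β j ≤ K * (β j + if j < J then β (j + 1) else 0)
      linarith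
    · intro j hj p _ q _ _ _ hpx hqx
      have hle : lam ^ (j + 1) * t ≤ lam ^ j * t := by
        have := htj j
        rw [pow_succ]
        nlinarith
      have a1 := hβ0 j
      have a2 := hβ0 (j + 1)
      have e1 : ex n μ x (lam ^ (j + 1) * t) (pp j p) (VV j p) ≤ (Λ * (β j + β (j + 1))) ^ 2 := by
        have c1 := ex_scale hA0 hU x (htj (j + 1)) hle (pp j p) (VV j p)
        have c2 : lam ^ j * t / (lam ^ (j + 1) * t) = lam⁻¹ := by
          rw [pow_succ]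
          field_simp
        rw [c2, ← hΛ] at c1
        have c3 := mul_le_mul_of_nonneg_left (hkey j hj.le p hpx) hΛ0.le
        have c4 : β j ^ 2 ≤ (β j + β (j + 1)) ^ 2 := pow_le_pow_left₀ a1.le (by linarith) 2
        have c5 : Λ ≤ Λ ^ 2 := by nlinarith
        have c6 := mul_le_mul c5 c4 (sq_nonneg _) (sq_nonneg _)
        rw [mul_pow]
        linarith
      have e2 : ex n μ x (lam ^ (j + 1) * t) (pp (j + 1) q) (VV (j + 1) q) ≤
          (Λ * (β j + β (j + 1))) ^ 2 := by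
        refine (hkey (j + 1) hj q hqx).trans (pow_le_pow_left₀ a2.le ?_ 2)
        nlinarith
      have e3 := hnear μ hU x (hX hx) _ (htj (j + 1)) (hLj (j + 1)) _ _ _ _ _
        (hVV j p) (hVV (j + 1) q) (by positivity) e1 e2
      refine Near.mono (htj j).le (Near.scale (htj (j + 1)).le hle e3) (le_of_eq ?_)
      show _ = K * (β j + if j < J then β (j + 1) else 0)
      rw [if_pos hj, hK]
      ring

end Vale.Agent.P120
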