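import Vale.Agent.P120.Decay
import Vale.Agent.P120.Par5
import Vale.Agent.P120.PieceB

/-!
P120 Stop. Overview in notes/P120.md, definitions in Defs.lean.
Name every helper lemma of yours with the file name in front (for example stop_aux1).

PLAN.
κ, ε0, η0, C from decay, lam = sc κ <= 1/4, η2 from param_meas; choose η <= η0, ε1 <= ε0 with 4^(n+3) C (ε1^2 + η) <= η2. t = sc i1, t_j = lam^j t = sc (i1 + κ j).
S y j = ∑ l in range (κ j), nn y (i1 + l)^2. ρ y = t_τ with τ = Nat.find if there is j with η <= S y j (then τ >= 1), else ρ y = 0. If F1 is empty take dd = 0. Otherwise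
dd x = ⨅ y : F1, (dist x y + ρ y) (ciInf_le, le_ciInf); it is 1-Lipschitz, 0 <= dd x <= ρ x <= lam t < t on F1.
param_meas hypothesis: if dd x < t_J pick y in F1 with dist x y + ρ y < t_J (exists_lt_of_ciInf_lt). Then S y J < η (if τ exists, t_τ < t_J forces J < τ, Nat.find_min). Apply decay to y with j = J,
ν l = nn y (i1 + κ l): ∑_{l<J} ν l^2 <= S y J (Finset.sum_le_sum_of_injOn / sum over the image of l ↦ κ l). Flat.center with c = 1 (dist y x < t_J <= t_l), b' = 2^(n+3) b.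
Tail: if sc i <= dd y <= ρ y then τ exists, i1 + κ τ <= i (le_of_sc_le), and tl_eq_sum_add, tl_anti, ENNReal.ofReal_sum_of_nonneg.
-/

open MeasureTheory Metric Set Filter Topology
open scoped ENNReal NNReal RealInnerProductSpace

namespace Vale.Agent.P120

variable {d : ℕ}

theorem stop_sc (κ i j : ℕ) : sc κ ^ j * sc i = sc (i + κ * j) := by
  unfold sc
  rw [pow_add, pow_mul, mul_comm]

theorem stop_rho {η : ℝ} (hη : 0 < η) (κ i1 : ℕ) (a : ℕ → ℝ) :
    ∃ ρ : ℝ, 0 ≤ ρ ∧ ρ ≤ sc (i1 + κ) ∧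
      (∀ J, ρ < sc (i1 + κ * J) → ∑ l ∈ Finset.range (κ * J), a l < η) ∧
      ∀ i, sc i ≤ ρ → ∃ τ, i1 + κ * τ ≤ i ∧ η ≤ ∑ l ∈ Finset.range (κ * τ), a l := by
  classical
  by_cases h : ∃ j, η ≤ ∑ l ∈ Finset.range (κ * j), a l
  · have h1 := Nat.find_spec h
    refine ⟨sc (i1 + κ * Nat.find h), (sc_pos _).le, sc_anti ?_, fun J hJ => ?_,
      fun i hi => ⟨_, le_of_sc_le hi, h1⟩⟩
    · have h2 : Nat.find h ≠ 0 := by
        intro h0
        rw [h0] at h1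
        simp only [mul_zero, Finset.range_zero, Finset.sum_empty] at h1
        linarith
      exact Nat.add_le_add_left (Nat.le_mul_of_pos_right κ (Nat.pos_of_ne_zero h2)) i1
    · refine not_le.1 (Nat.find_min h ?_)
      by_contra hc
      exact absurd (sc_anti (Nat.add_le_add_left (Nat.mul_le_mul_left κ (not_lt.1 hc)) i1))
        (not_le.2 hJ)
  · refine ⟨0, le_rfl, (sc_pos _).le, fun J _ => not_le.1 fun hc => h ⟨J, hc⟩, fun i hi => ?_⟩
    exact absurd (sc_pos i) (not_lt.2 hi)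

theorem stop_dd (F : Set (E d)) {ρ : E d → ℝ} (hρ : ∀ y, 0 ≤ ρ y) :
    ∃ dd : E d → ℝ, (∀ x y, |dd x - dd y| ≤ dist x y) ∧ (∀ x, 0 ≤ dd x) ∧
      (∀ x ∈ F, dd x ≤ ρ x) ∧ ∀ x ∈ F, ∀ r, dd x < r → ∃ y ∈ F, dist x y + ρ y < r := by
  rcases F.eq_empty_or_nonempty with rfl | hF
  · exact ⟨fun _ => 0, fun x y => by simp, fun _ => le_rfl, fun x hx => hx.elim,
      fun x hx => hx.elim⟩
  have := hF.to_subtype
  have h0 : ∀ (x : E d) (y : F), 0 ≤ dist x y + ρ y := fun x y => add_nonneg dist_nonneg (hρ y)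
  have hb : ∀ x : E d, BddBelow (range fun y : F => dist x y + ρ y) := fun x =>
    ⟨0, by rintro _ ⟨y, rfl⟩; exact h0 x y⟩
  have h1 : ∀ x y : E d, (⨅ z : F, (dist x z + ρ z)) - dist x y ≤ ⨅ z : F, (dist y z + ρ z) := by
    intro x y
    refine le_ciInf fun z => ?_
    have h2 := ciInf_le (hb x) z
    have h3 := dist_triangle x y z
    linarith
  refine ⟨fun x => ⨅ z : F, (dist x z + ρ z), fun x y => ?_, fun x => le_ciInf (h0 x),
    fun x hx => ?_, fun x _ r hr => ?_⟩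
  · have h2 := h1 x y
    have h3 := h1 y x
    rw [dist_comm y x] at h3
    exact abs_sub_le_iff.2 ⟨by linarith, by linarith⟩
  · have h2 := ciInf_le (hb x) ⟨x, hx⟩
    simpa only [dist_self, zero_add] using h2
  · obtain ⟨y, hy⟩ := exists_lt_of_ciInf_lt hr
    exact ⟨y, y.2, hy⟩

theorem stop_sum {κ : ℕ} (hκ : 0 < κ) (J : ℕ) {a : ℕ → ℝ} (ha : ∀ l, 0 ≤ a l) :
    ∑ l ∈ Finset.range J, a (κ * l) ≤ ∑ l ∈ Finset.range (κ * J), a l := by
  rw [← Finset.sum_image (s := Finset.range J) (g := fun l => κ * l) (f := a)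
    fun x _ y _ h => Nat.eq_of_mul_eq_mul_left hκ h]
  refine Finset.sum_le_sum_of_subset_of_nonneg (fun x hx => ?_) fun i _ _ => ha i
  obtain ⟨l, hl, rfl⟩ := Finset.mem_image.1 hx
  exact Finset.mem_range.2 (Nat.mul_lt_mul_of_pos_left (Finset.mem_range.1 hl) hκ)

theorem stop (n d : ℕ) (hn : 1 ≤ n) (hnd : n ≤ d) (A : ℝ) (hA : 1 ≤ A) :
    ∃ η : ℝ, 0 < η ∧ ∃ ε1 : ℝ, 0 < ε1 ∧ ∀ μ : Measure (E d), Up n A μ → Low n A 1 μ →
      ∀ (nn : E d → ℕ → ℝ) (x1 : E d) (i1 : ℕ) (F1 : Set (E d)),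
        F1 ⊆ μ.support ∩ ball x1 (sc i1) → (∀ y ∈ F1, ∀ i, HH n A μ y (sc i) (nn y i)) →
        (∀ y ∈ F1, Flat n μ y (sc i1) ε1) →
        ∃ dd : E d → ℝ, (∀ x y, |dd x - dd y| ≤ dist x y) ∧ (∀ x, 0 ≤ dd x) ∧
          (∀ x ∈ F1, dd x ≤ sc i1) ∧ ParMap n (sc i1) F1 dd ∧
          ∀ y ∈ F1, ∀ i, sc i ≤ dd y → ENNReal.ofReal η + tl nn y i ≤ tl nn y i1 := by
  obtain ⟨κ, hκ, ε0, hε0, η0, hη0, C, hC, hdec⟩ := decay n d hn hnd A hA
  have hlam : sc κ ≤ 1 / 4 := (sc_anti hκ).trans (by norm_num [sc])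
  obtain ⟨η2, hη2, hpar⟩ := param_meas n d hn hnd A hA (sc κ) (sc_pos κ) hlam
  have hK : 0 < ((1 + 1 : ℝ) ^ (n + 3)) ^ 2 * C := by positivity
  set K := ((1 + 1 : ℝ) ^ (n + 3)) ^ 2 * C with hKd
  have hq : 0 < η2 / (2 * K) := by positivity
  refine ⟨min η0 (η2 / (2 * K)), lt_min hη0 hq, min ε0 (min 1 (η2 / (2 * K))),
    lt_min hε0 (lt_min one_pos hq), ?_⟩
  intro μ hU hL nn x1 i1 F1 hF hH hFl
  set η := min η0 (η2 / (2 * K)) with hηd
  set ε1 := min ε0 (min 1 (η2 / (2 * K))) with hεd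
  have hη : 0 < η := lt_min hη0 hq
  have hε : 0 < ε1 := lt_min hε0 (lt_min one_pos hq)
  have hsmall : K * (ε1 ^ 2 + η) ≤ η2 := by
    have h1 : ε1 ≤ 1 := (min_le_right _ _).trans (min_le_left _ _)
    have h2 : ε1 ≤ η2 / (2 * K) := (min_le_right _ _).trans (min_le_right _ _)
    have h3 : η ≤ η2 / (2 * K) := min_le_right _ _
    have h4 : ε1 ^ 2 ≤ ε1 := by nlinarith
    have h5 : K * (2 * (η2 / (2 * K))) = η2 := by field_simp
    rw [← h5]
    exact mul_le_mul_of_nonneg_left (by linarith) hK.le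
  choose ρ hρ0 hρ1 hρ2 hρ3 using fun y => stop_rho hη κ i1 (fun l => nn y (i1 + l) ^ 2)
  obtain ⟨dd, hd1, hd0, hd2, hd3⟩ := stop_dd F1 hρ0
  have ht := sc_pos i1
  have hlt : ∀ x ∈ F1, dd x < sc i1 := fun x hx => by
    have h1 := (hd2 x hx).trans (hρ1 x)
    rw [sc_add] at h1
    nlinarith
  refine ⟨dd, hd1, hd0, fun x hx => (hlt x hx).le, ?_, fun y hy i hi => ?_⟩
  · refine hpar μ hU F1 x1 (sc i1) dd ht (hL.mono (sc_le_one _)) (fun x hx => (hF hx).1)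
      (fun x hx => (mem_ball.1 (hF hx).2).le) (fun x hx => ⟨hd0 x, hlt x hx⟩) fun x hx J hJ => ?_
    obtain ⟨y, hy, hxy⟩ := hd3 x hx _ hJ
    rw [stop_sc] at hxy
    have h1 := hρ2 y J (by linarith [dist_nonneg (x := x) (y := y)])
    have h2 := stop_sum (by omega : 0 < κ) J (a := fun l => nn y (i1 + l) ^ 2)
      fun l => sq_nonneg _
    obtain ⟨b, hb0, hb1, hb2⟩ := hdec μ y (sc i1) (fun l => nn y (i1 + κ * l)) J ε1 η ht hU
      (fun l _ => by rw [stop_sc]; exact hH y hy _) hε (min_le_left _ _) (min_le_left _ _)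
      (h2.trans h1.le) (hFl y hy)
    refine ⟨fun l => (1 + 1) ^ (n + 3) * b l, fun l => mul_nonneg (by positivity) (hb0 l),
      fun l hl => ?_, ?_⟩
    · refine Flat.center (by linarith) hU (mul_pos (pow_pos (sc_pos κ) l) ht)
        (hb1 l (by omega)) ?_
      rw [one_mul, stop_sc, dist_comm]
      have h3 := sc_anti (Nat.add_le_add_left (Nat.mul_le_mul_left κ hl) i1)
      linarith [hρ0 y]
    · simp only [mul_pow]
      rw [← Finset.mul_sum]
      rw [Finset.sum_range_succ] at hb2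
      refine le_trans ?_ hsmall
      rw [hKd, mul_assoc]
      exact mul_le_mul_of_nonneg_left (by linarith [sq_nonneg (b (J + 1))]) (by positivity)
  · obtain ⟨τ, h1, h2⟩ := hρ3 y i (hi.trans (hd2 y hy))
    rw [tl_eq_sum_add nn y i1 (κ * τ), ← ENNReal.ofReal_sum_of_nonneg fun l _ => sq_nonneg _]
    exact add_le_add (ENNReal.ofReal_le_ofReal h2) (tl_anti nn y h1)

end Vale.Agent.P120
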