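import Vale.Agent.P120.Find2
import Vale.Agent.P120.Stop
import Vale.Agent.P120.Glue2

/-!
P120 Ind. Overview in notes/P120.md, definitions in Defs.lean.
Name every helper lemma of yours with the file name in front (for example ind_aux1).

PLAN.
η, ε1 from stop. Induction on N. N = 0: F is empty, but its measure is positive. Step: L, a1 from find_flat (ε = ε1, B = (N+1) η), a2 from glue, θ, M from the induction hypothesis for a2,
θ', M' from glue applied to θ / 4^n and M. F1 = F ∩ ball x1 (sc i1). Group hypothesis: for x in F1 with 0 < dd x take i with dd x/4 < sc i <= dd x/2 (exists_sc_near for dd x / 2); for y in G,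
dd y >= 3 dd x/4 >= sc i, so ofReal η + tl y i <= tl y i1 <= tl y i0 < ofReal ((N+1) η), hence tl y i < ofReal (N η); G ⊆ ball x (sc i); induction hypothesis, Piece.change to scale dd x, Piece.mono.
Finally Piece.change from 3 sc i1 to sc i0 (ratio between 3 sc L and 3), Piece.mono, Piece.mono_set.
-/

open MeasureTheory Metric Set Filter Topology
open scoped ENNReal NNReal RealInnerProductSpace

namespace Vale.Agent.P120

variable {d : ℕ}

theorem ind (n d : ℕ) (hn : 1 ≤ n) (hnd : n ≤ d) (A : ℝ) (hA : 1 ≤ A) :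
    ∃ η : ℝ, 0 < η ∧ ∀ (N : ℕ) (a : ℝ), 0 < a → ∃ θ : ℝ, 0 < θ ∧ ∃ M : ℝ, 0 ≤ M ∧
      ∀ μ : Measure (E d), Up n A μ → Low n A 1 μ →
      ∀ nn : E d → ℕ → ℝ, (∀ i, Measurable fun x => nn x i) →
      ∀ (x0 : E d) (i0 : ℕ) (F : Set (E d)), MeasurableSet F →
        F ⊆ μ.support ∩ ball x0 (sc i0) → (∀ y ∈ F, ∀ i, HH n A μ y (sc i) (nn y i)) →
        (∀ y ∈ F, tl nn y i0 < ENNReal.ofReal (N * η)) → ENNReal.ofReal (a * sc i0 ^ n) ≤ μ F →
        Piece n μ F (sc i0) θ M := by
  obtain ⟨η, hη, ε1, hε1, hst⟩ := stop n d hn hnd A hA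
  refine ⟨η, hη, fun N => ?_⟩
  induction N with
  | zero =>
    refine fun a ha => ⟨1, one_pos, 0, le_rfl, fun μ _ _ nn _ x0 i0 F _ _ _ htl hμ => ?_⟩
    have h1 : F = ∅ := eq_empty_of_forall_notMem fun y hy => by simpa using htl y hy
    have h2 := sc_pos i0
    rw [h1, measure_empty, nonpos_iff_eq_zero, ENNReal.ofReal_eq_zero] at hμ
    exact absurd hμ (not_le.2 (by positivity))
  | succ N ih =>
    intro a ha
    obtain ⟨L, a1, ha1, h1⟩ := find_flat n d hn hnd A hA ε1 (((N + 1 : ℕ) : ℝ) * η) a hε1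
      (by positivity) ha
    obtain ⟨a2, ha2, h2⟩ := glue n d A hA a1 ha1
    obtain ⟨θ, hθ, M, hM, h3⟩ := ih a2 ha2
    obtain ⟨θ', hθ', M', hM', h4⟩ := h2 (θ * (1 / 4) ^ n) M (by positivity) hM
    have hLp := sc_pos L
    refine ⟨θ' * sc L ^ n, by positivity, M' * 3, by positivity,
      fun μ hU hL nn hnn x0 i0 F hF hFs hH htl hμ => ?_⟩
    obtain ⟨i1, b1, b2, x1, b3, b4⟩ := h1 μ hU hL nn hnn x0 i0 F hF hFs hH
      (fun y hy => (htl y hy).le) hμ
    have hF1 : F ∩ ball x1 (sc i1) ⊆ μ.support ∩ ball x1 (sc i1) := fun y hy =>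
      ⟨(hFs hy.1).1, hy.2⟩
    obtain ⟨dd, d1, d2, d3, d4, d5⟩ := hst μ hU hL nn x1 i1 _ hF1 (fun y hy => hH y hy.1)
      fun y hy => b4 y hy.2
    have p0 := sc_pos i0
    have p1 := sc_pos i1
    have h5 := h4 μ hU hL _ x1 _ dd (hF.inter measurableSet_ball) p1 (sc_le_one i1) hF1 b3 d1 d2 d3
      d4 fun x hx hdx G hG hGs hμG => ?_
    · refine ((h5.change (by positivity) p0).mono p0.le ?_ ?_).mono_set inter_subset_left
      · have a1 : sc L ≤ 3 * sc i1 / sc i0 := by
          have a2 := sc_anti b2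
          rw [sc_add] at a2
          rw [le_div_iff₀ p0]
          linarith
        gcongr
      · have a1 : 3 * sc i1 / sc i0 ≤ 3 := by
          rw [div_le_iff₀ p0]
          linarith [sc_anti b1]
        gcongr
    · obtain ⟨i, c1, c2⟩ := exists_sc_near (half_pos hdx) (by linarith [d3 x hx, sc_le_one i1])
      have pi := sc_pos i
      have h6 := h3 μ hU hL nn hnn x i G hG (fun y hy => ⟨(hF1 (hGs hy).1).1, ?_⟩)
        (fun y hy => hH y (hGs hy).1.1) (fun y hy => ?_) (le_trans ?_ hμG)
      · refine (h6.change pi hdx).mono hdx.le ?_ ?_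
        · have a1 : 1 / 4 ≤ sc i / dd x := by
            rw [le_div_iff₀ hdx]
            linarith
          gcongr
        · exact mul_le_of_le_one_right hM ((div_le_one hdx).2 (by linarith))
      · have a1 := mem_closedBall.1 (hGs hy).2
        rw [mem_ball]
        linarith
      · have a1 := mem_closedBall.1 (hGs hy).2
        have a2 := (abs_le.1 (d1 y x)).1
        have a3 := ((d5 y (hGs hy).1 i (by linarith)).trans (tl_anti nn y b1)).trans_lt
          (htl y (hGs hy).1.1)
        rwa [Nat.cast_succ, add_mul, one_mul, add_comm _ η,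
          ENNReal.ofReal_add hη.le (by positivity),
          ENNReal.add_lt_add_iff_left ENNReal.ofReal_ne_top] at a3
      · refine ENNReal.ofReal_le_ofReal ?_
        gcongr
        linarith


end Vale.Agent.P120
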