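import Vale.Agent.P120.Defs

/-!
P120 Ker. Overview in notes/P120.md, definitions in Defs.lean.
Name every helper lemma of yours with the file name in front (for example ker_aux1).

PLAN.
Elementary kernel facts. rr_sub_le: rr t z is the Euclidean norm of the pair (|z|, t); square both sides or
use abs_sqrt inequalities (Minkowski in the plane). kk_sub_le: for a, b >= m > 0,
|a^(-(n+1)) - b^(-(n+1))| <= (n+1) |a - b| m^(-(n+2)) (use abs_pow_sub_pow_le or induction on n).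
KK_sub_le: by symmetry assume rr t w <= rr δ z; KK δ z - KK t w = kk δ z • (z - w) + (kk δ z - kk t w) • w,
apply kk_sub_le with m' = rr t w >= |w|, then m <= m'.
kk_zero_sub_le: kk_sub-type bound with m = |z| and rr δ z - |z| <= δ^2 / |z|.
rr_ge: |y| <= |a - y| + R, so 1 + |y| <= (1 + |R|) / t * t + |a - y|; take c = min 1 (t / (1 + |R|)) / 2.
-/

open MeasureTheory Metric Set Filter Topology
open scoped ENNReal NNReal RealInnerProductSpace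

namespace Vale.Agent.P120

variable {d : ℕ}

theorem rr_nonneg (t : ℝ) (z : E d) : 0 ≤ rr t z := Real.sqrt_nonneg _
theorem norm_le_rr (t : ℝ) (z : E d) : ‖z‖ ≤ rr t z :=
  Real.le_sqrt_of_sq_le (by nlinarith [sq_nonneg t])
theorem abs_le_rr (t : ℝ) (z : E d) : |t| ≤ rr t z :=
  Real.le_sqrt_of_sq_le (by rw [sq_abs]; nlinarith [sq_nonneg ‖z‖])
theorem rr_sq (t : ℝ) (z : E d) : rr t z ^ 2 = ‖z‖ ^ 2 + t ^ 2 :=
  Real.sq_sqrt (by positivity)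
theorem rr_zero (z : E d) : rr 0 z = ‖z‖ := by
  unfold rr
  simp
theorem rr_neg (t : ℝ) (z : E d) : rr t (-z) = rr t z := by
  unfold rr
  rw [norm_neg]

theorem ker_mink (a b c e : ℝ) :
    √(a ^ 2 + b ^ 2) ≤ √(c ^ 2 + e ^ 2) + (|a - c| + |b - e|) := by
  have hs : 0 ≤ √(c ^ 2 + e ^ 2) := Real.sqrt_nonneg _
  have hc : |c| ≤ √(c ^ 2 + e ^ 2) :=
    Real.le_sqrt_of_sq_le (by rw [sq_abs]; nlinarith [sq_nonneg e])
  have he : |e| ≤ √(c ^ 2 + e ^ 2) :=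
    Real.le_sqrt_of_sq_le (by rw [sq_abs]; nlinarith [sq_nonneg c])
  have hq : √(c ^ 2 + e ^ 2) ^ 2 = c ^ 2 + e ^ 2 := Real.sq_sqrt (by positivity)
  have h1 : 0 ≤ |a - c| := abs_nonneg _
  have h2 : 0 ≤ |b - e| := abs_nonneg _
  apply Real.sqrt_le_iff.mpr
  refine ⟨by positivity, ?_⟩
  have e1 : c * (a - c) ≤ √(c ^ 2 + e ^ 2) * |a - c| := by
    calc c * (a - c) ≤ |c * (a - c)| := le_abs_self _
      _ = |c| * |a - c| := abs_mul _ _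
      _ ≤ _ := mul_le_mul_of_nonneg_right hc h1
  have e2 : e * (b - e) ≤ √(c ^ 2 + e ^ 2) * |b - e| := by
    calc e * (b - e) ≤ |e * (b - e)| := le_abs_self _
      _ = |e| * |b - e| := abs_mul _ _
      _ ≤ _ := mul_le_mul_of_nonneg_right he h2
  have s1 : |a - c| ^ 2 = (a - c) ^ 2 := sq_abs _
  have s2 : |b - e| ^ 2 = (b - e) ^ 2 := sq_abs _
  nlinarith [mul_nonneg h1 h2]

theorem rr_sub_le (δ t : ℝ) (z w : E d) : |rr δ z - rr t w| ≤ ‖z - w‖ + |δ - t| := by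
  have h1 := ker_mink ‖z‖ δ ‖w‖ t
  have h2 := ker_mink ‖w‖ t ‖z‖ δ
  have h3 : |‖z‖ - ‖w‖| ≤ ‖z - w‖ := abs_norm_sub_norm_le z w
  rw [abs_sub_comm ‖w‖, abs_sub_comm t] at h2
  unfold rr
  rw [abs_le]
  constructor <;> linarith

theorem rr_smul {c : ℝ} (hc : 0 < c) (t : ℝ) (z : E d) : rr (c * t) (c • z) = c * rr t z := by
  unfold rr
  rw [norm_smul, Real.norm_eq_abs, abs_of_pos hc,
    show (c * ‖z‖) ^ 2 + (c * t) ^ 2 = c ^ 2 * (‖z‖ ^ 2 + t ^ 2) by ring,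
    Real.sqrt_mul (by positivity), Real.sqrt_sq hc.le]

theorem half_add_le_rr {t : ℝ} (ht : 0 ≤ t) (z : E d) : (t + ‖z‖) / 2 ≤ rr t z := by
  have h1 := norm_le_rr t z
  have h2 := abs_le_rr t z
  rw [abs_of_nonneg ht] at h2
  linarith

theorem rr_ge {t : ℝ} (ht : 0 < t) (R : ℝ) :
    ∃ c : ℝ, 0 < c ∧ ∀ a y : E d, ‖a‖ ≤ R → c * (1 + ‖y‖) ≤ rr t (a - y) := by
  have hR : 0 < 1 + |R| := by positivity
  refine ⟨min 1 (t / (1 + |R|)) / 2, by positivity, fun a y ha => ?_⟩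
  have h1 := half_add_le_rr ht.le (a - y)
  have h2 : ‖y‖ ≤ ‖a - y‖ + |R| := by
    have : ‖y‖ ≤ ‖a‖ + ‖a - y‖ := by
      calc ‖y‖ = ‖a - (a - y)‖ := by congr 1; abel
        _ ≤ _ := norm_sub_le _ _
    linarith [le_abs_self R]
  set m := min 1 (t / (1 + |R|)) with hm
  have hm1 : m ≤ 1 := min_le_left _ _
  have hm2 : m * (1 + |R|) ≤ t := by
    have : m ≤ t / (1 + |R|) := min_le_right _ _
    rwa [le_div_iff₀ hR] at this
  have hm0 : 0 ≤ m := by positivity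
  have h3 : m * (1 + ‖y‖) ≤ m * ((1 + |R|) + ‖a - y‖) :=
    mul_le_mul_of_nonneg_left (by linarith) hm0
  have h4 : m * ‖a - y‖ ≤ ‖a - y‖ := by nlinarith [norm_nonneg (a - y)]
  nlinarith

theorem continuous_rr (t : ℝ) : Continuous (rr t : E d → ℝ) := by
  unfold rr
  fun_prop

theorem kk_nonneg (n : ℕ) (t : ℝ) (z : E d) : 0 ≤ kk n t z :=
  inv_nonneg.mpr (pow_nonneg (rr_nonneg t z) _)
theorem kk_neg (n : ℕ) (t : ℝ) (z : E d) : kk n t (-z) = kk n t z := by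
  unfold kk
  rw [rr_neg]
theorem kk_sub_comm (n : ℕ) (t : ℝ) (x y : E d) : kk n t (x - y) = kk n t (y - x) := by
  rw [← kk_neg, neg_sub]
theorem KK_neg (n : ℕ) (t : ℝ) (z : E d) : KK n t (-z) = -KK n t z := by
  unfold KK
  rw [kk_neg, smul_neg]
theorem kk_zero_eq (n : ℕ) (z : E d) : kk n 0 z = (‖z‖ ^ (n + 1))⁻¹ := by
  unfold kk
  rw [rr_zero]
theorem kk_smul (n : ℕ) {c : ℝ} (hc : 0 < c) (t : ℝ) (z : E d) :
    kk n (c * t) (c • z) = (c ^ (n + 1))⁻¹ * kk n t z := by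
  unfold kk
  rw [rr_smul hc, mul_pow, mul_inv]
theorem kk_le_of_le (n : ℕ) {t m : ℝ} {z : E d} (hm : 0 < m) (h : m ≤ rr t z) :
    kk n t z ≤ (m ^ (n + 1))⁻¹ :=
  inv_anti₀ (pow_pos hm _) (pow_le_pow_left₀ hm.le h _)
theorem norm_KK_le (n : ℕ) {t m : ℝ} {z : E d} (hm : 0 < m) (h : m ≤ rr t z) :
    ‖KK n t z‖ ≤ (m ^ n)⁻¹ := by
  have hr : 0 < rr t z := lt_of_lt_of_le hm h
  unfold KK
  rw [norm_smul, Real.norm_eq_abs, abs_of_nonneg (kk_nonneg n t z)]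
  calc kk n t z * ‖z‖ ≤ kk n t z * rr t z :=
        mul_le_mul_of_nonneg_left (norm_le_rr t z) (kk_nonneg n t z)
    _ = (rr t z ^ n)⁻¹ := by
        unfold kk
        field_simp
        ring
    _ ≤ _ := inv_anti₀ (pow_pos hm _) (pow_le_pow_left₀ hm.le h _)

theorem ker_pow_sub (k : ℕ) {a b m : ℝ} (hm : 0 < m) (ha : m ≤ a) (hb : m ≤ b) :
    |(a ^ k)⁻¹ - (b ^ k)⁻¹| ≤ k * |a - b| * (m ^ (k + 1))⁻¹ := by
  have ha0 : 0 < a := lt_of_lt_of_le hm ha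
  have hb0 : 0 < b := lt_of_lt_of_le hm hb
  induction k with
  | zero => simp
  | succ k ih =>
    have e : (a ^ (k + 1))⁻¹ - (b ^ (k + 1))⁻¹ =
        a⁻¹ * ((a ^ k)⁻¹ - (b ^ k)⁻¹) + (b ^ k)⁻¹ * (a⁻¹ * b⁻¹ * (b - a)) := by
      field_simp
      ring
    have hai : a⁻¹ ≤ m⁻¹ := inv_anti₀ hm ha
    have hbi : b⁻¹ ≤ m⁻¹ := inv_anti₀ hm hb
    have hbk : (b ^ k)⁻¹ ≤ (m ^ k)⁻¹ := inv_anti₀ (pow_pos hm _) (pow_le_pow_left₀ hm.le hb _)
    have h1 : |a⁻¹ * ((a ^ k)⁻¹ - (b ^ k)⁻¹)| ≤ m⁻¹ * (k * |a - b| * (m ^ (k + 1))⁻¹) := by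
      rw [abs_mul, abs_of_pos (inv_pos.mpr ha0)]
      exact mul_le_mul hai ih (abs_nonneg _) (by positivity)
    have h2 : |(b ^ k)⁻¹ * (a⁻¹ * b⁻¹ * (b - a))| ≤ (m ^ k)⁻¹ * (m⁻¹ * m⁻¹ * |a - b|) := by
      rw [abs_mul, abs_mul, abs_mul, abs_of_pos (inv_pos.mpr ha0), abs_of_pos (inv_pos.mpr hb0),
        abs_of_pos (inv_pos.mpr (pow_pos hb0 k)), abs_sub_comm b a]
      gcongr
    rw [e]
    calc _ ≤ _ := abs_add_le _ _
      _ ≤ m⁻¹ * (k * |a - b| * (m ^ (k + 1))⁻¹) + (m ^ k)⁻¹ * (m⁻¹ * m⁻¹ * |a - b|) :=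
          add_le_add h1 h2
      _ = _ := by
          push_cast
          field_simp
          ring

theorem kk_sub_le (n : ℕ) {δ t m : ℝ} {z w : E d} (hm : 0 < m) (h1 : m ≤ rr δ z)
    (h2 : m ≤ rr t w) :
    |kk n δ z - kk n t w| ≤ (n + 1) * (‖z - w‖ + |δ - t|) * (m ^ (n + 2))⁻¹ := by
  have h := ker_pow_sub (n + 1) hm h1 h2
  have h3 := rr_sub_le δ t z w
  unfold kk
  calc _ ≤ _ := h
    _ ≤ _ := by
      push_cast
      gcongr

theorem ker_KK_aux (n : ℕ) {δ t m : ℝ} {z w : E d} (hm : 0 < m) (h2 : m ≤ rr t w)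
    (h : rr t w ≤ rr δ z) :
    ‖KK n δ z - KK n t w‖ ≤ (n + 2) * (‖z - w‖ + |δ - t|) * (m ^ (n + 1))⁻¹ := by
  have hr : 0 < rr t w := lt_of_lt_of_le hm h2
  have e : KK n δ z - KK n t w = kk n δ z • (z - w) + (kk n δ z - kk n t w) • w := by
    unfold KK
    rw [smul_sub, sub_smul]
    abel
  have a1 : kk n δ z ≤ (rr t w ^ (n + 1))⁻¹ := kk_le_of_le n hr h
  have a2 := kk_sub_le n hr h (le_refl (rr t w))
  have a3 : (rr t w ^ (n + 1))⁻¹ ≤ (m ^ (n + 1))⁻¹ :=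
    inv_anti₀ (pow_pos hm _) (pow_le_pow_left₀ hm.le h2 _)
  have hD : 0 ≤ |δ - t| := abs_nonneg _
  have hz : 0 ≤ ‖z - w‖ := norm_nonneg _
  rw [e]
  calc _ ≤ ‖kk n δ z • (z - w)‖ + ‖(kk n δ z - kk n t w) • w‖ := norm_add_le _ _
    _ = kk n δ z * ‖z - w‖ + |kk n δ z - kk n t w| * ‖w‖ := by
        rw [norm_smul, norm_smul, Real.norm_eq_abs, Real.norm_eq_abs,
          abs_of_nonneg (kk_nonneg n δ z)]
    _ ≤ (rr t w ^ (n + 1))⁻¹ * (‖z - w‖ + |δ - t|) +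
          (n + 1) * (‖z - w‖ + |δ - t|) * (rr t w ^ (n + 2))⁻¹ * rr t w := by
        apply add_le_add
        · exact mul_le_mul a1 (by linarith) hz (by positivity)
        · exact mul_le_mul a2 (norm_le_rr t w) (norm_nonneg _) (by positivity)
    _ = (n + 2) * (‖z - w‖ + |δ - t|) * (rr t w ^ (n + 1))⁻¹ := by
        field_simp
        ring
    _ ≤ _ := by gcongr

theorem KK_sub_le (n : ℕ) {δ t m : ℝ} {z w : E d} (hm : 0 < m) (h1 : m ≤ rr δ z)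
    (h2 : m ≤ rr t w) :
    ‖KK n δ z - KK n t w‖ ≤ (n + 2) * (‖z - w‖ + |δ - t|) * (m ^ (n + 1))⁻¹ := by
  rcases le_total (rr t w) (rr δ z) with h | h
  · exact ker_KK_aux n hm h2 h
  · rw [norm_sub_rev, norm_sub_rev z w, abs_sub_comm δ t]
    exact ker_KK_aux n hm h1 h

theorem kk_anti (n : ℕ) {r R : ℝ} (hr : 0 < r) (h : r ≤ R) (z : E d) :
    kk n R z ≤ kk n r z := by
  have h0 : 0 < rr r z := lt_of_lt_of_le (abs_pos.mpr hr.ne') (abs_le_rr r z)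
  apply kk_le_of_le n h0
  unfold rr
  apply Real.sqrt_le_sqrt
  nlinarith

theorem kk_le_kk_zero (n : ℕ) (δ : ℝ) {z : E d} (hz : z ≠ 0) : kk n δ z ≤ kk n 0 z := by
  rw [kk_zero_eq]
  exact kk_le_of_le n (norm_pos_iff.mpr hz) (norm_le_rr δ z)

theorem kk_zero_sub_le (n : ℕ) (δ : ℝ) {z : E d} (hz : z ≠ 0) :
    kk n 0 z - kk n δ z ≤ (n + 1) * δ ^ 2 * (‖z‖ ^ (n + 3))⁻¹ := by
  have h0 : 0 < ‖z‖ := norm_pos_iff.mpr hz
  have h1 := norm_le_rr δ z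
  have h := ker_pow_sub (n + 1) h0 (le_refl ‖z‖) h1
  have h2 : |‖z‖ - rr δ z| ≤ δ ^ 2 * ‖z‖⁻¹ := by
    rw [abs_sub_comm, abs_of_nonneg (by linarith), ← div_eq_mul_inv, le_div_iff₀ h0]
    have := rr_sq δ z
    nlinarith
  rw [kk_zero_eq]
  unfold kk
  calc _ ≤ _ := le_abs_self _
    _ ≤ _ := h
    _ ≤ ((n + 1 : ℕ) : ℝ) * (δ ^ 2 * ‖z‖⁻¹) * (‖z‖ ^ (n + 1 + 1))⁻¹ := by gcongr
    _ = _ := by
      push_cast
      field_simp
      ring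

theorem continuous_kk (n : ℕ) {t : ℝ} (ht : 0 < t) : Continuous (kk n t : E d → ℝ) := by
  unfold kk
  refine ((continuous_rr t).pow _).inv₀ fun z => ?_
  exact (pow_pos (lt_of_lt_of_le (abs_pos.mpr ht.ne') (abs_le_rr t z)) _).ne'
theorem continuous_KK (n : ℕ) {t : ℝ} (ht : 0 < t) : Continuous (KK n t : E d → E d) := by
  unfold KK
  exact (continuous_kk n ht).smul continuous_id
theorem measurable_kk (n : ℕ) (t : ℝ) : Measurable (kk n t : E d → ℝ) := by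
  unfold kk
  exact ((continuous_rr t).pow _).measurable.inv
theorem measurable_KK (n : ℕ) (t : ℝ) : Measurable (KK n t : E d → E d) := by
  unfold KK
  exact (measurable_kk n t).smul measurable_id
theorem kk_iso {m : ℕ} (n : ℕ) (t : ℝ) (ι : E m →ₗᵢ[ℝ] E d) (z : E m) :
    kk n t (ι z) = kk n t z := by
  unfold kk rr
  rw [ι.norm_map]
theorem KK_iso {m : ℕ} (n : ℕ) (t : ℝ) (ι : E m →ₗᵢ[ℝ] E d) (z : E m) :
    KK n t (ι z) = ι (KK n t z) := by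
  unfold KK
  rw [kk_iso, map_smul]

theorem kk_le_ww (n : ℕ) {t : ℝ} (ht : 0 < t) (R : ℝ) :
    ∃ C : ℝ, 0 < C ∧ ∀ a y : E d, ‖a‖ ≤ R → kk n t (a - y) ≤ C * ww (n + 1) y := by
  obtain ⟨c, hc, h⟩ := rr_ge (d := d) ht R
  refine ⟨(c ^ (n + 1))⁻¹, by positivity, fun a y ha => ?_⟩
  have := kk_le_of_le n (by positivity) (h a y ha)
  unfold ww
  rwa [mul_pow, mul_inv] at this

theorem ker_two {δ t : ℝ} (hδ : 0 < δ) (ht : 0 < t) (R : ℝ) :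
    ∃ c : ℝ, 0 < c ∧ ∀ a b y : E d, ‖a‖ ≤ R → ‖b‖ ≤ R →
      c * (1 + ‖y‖) ≤ rr δ (a - y) ∧ c * (1 + ‖y‖) ≤ rr t (b - y) ∧
        ‖(a - y) - (b - y)‖ + |δ - t| ≤ 2 * |R| + |δ - t| + 1 := by
  obtain ⟨c, hc, h⟩ := rr_ge (d := d) hδ R
  obtain ⟨c', hc', h'⟩ := rr_ge (d := d) ht R
  refine ⟨min c c', lt_min hc hc', fun a b y ha hb => ⟨?_, ?_, ?_⟩⟩
  · exact le_trans (mul_le_mul_of_nonneg_right (min_le_left _ _) (by positivity)) (h a y ha)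
  · exact le_trans (mul_le_mul_of_nonneg_right (min_le_right _ _) (by positivity)) (h' b y hb)
  · have : ‖(a - y) - (b - y)‖ ≤ ‖a‖ + ‖b‖ := by
      rw [show (a - y) - (b - y) = a - b by abel]
      exact norm_sub_le _ _
    linarith [le_abs_self R]

theorem kk_diff_le_ww (n : ℕ) {δ t : ℝ} (hδ : 0 < δ) (ht : 0 < t) (R : ℝ) :
    ∃ C : ℝ, 0 < C ∧ ∀ a b y : E d, ‖a‖ ≤ R → ‖b‖ ≤ R →
      |kk n δ (a - y) - kk n t (b - y)| ≤ C * ww (n + 2) y := by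
  obtain ⟨c, hc, h⟩ := ker_two (d := d) hδ ht R
  refine ⟨(n + 1) * (2 * |R| + |δ - t| + 1) * (c ^ (n + 2))⁻¹, by positivity,
    fun a b y ha hb => ?_⟩
  obtain ⟨h1, h2, h3⟩ := h a b y ha hb
  have := kk_sub_le n (by positivity) h1 h2
  unfold ww
  calc _ ≤ _ := this
    _ ≤ (n + 1) * (2 * |R| + |δ - t| + 1) * ((c * (1 + ‖y‖)) ^ (n + 2))⁻¹ := by gcongr
    _ = _ := by rw [mul_pow, mul_inv]; ring

theorem KK_diff_le_ww (n : ℕ) {δ t : ℝ} (hδ : 0 < δ) (ht : 0 < t) (R : ℝ) :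
    ∃ C : ℝ, 0 < C ∧ ∀ a b y : E d, ‖a‖ ≤ R → ‖b‖ ≤ R →
      ‖KK n δ (a - y) - KK n t (b - y)‖ ≤ C * ww (n + 1) y := by
  obtain ⟨c, hc, h⟩ := ker_two (d := d) hδ ht R
  refine ⟨(n + 2) * (2 * |R| + |δ - t| + 1) * (c ^ (n + 1))⁻¹, by positivity,
    fun a b y ha hb => ?_⟩
  obtain ⟨h1, h2, h3⟩ := h a b y ha hb
  have := KK_sub_le n (by positivity) h1 h2
  unfold ww
  calc _ ≤ _ := this
    _ ≤ (n + 2) * (2 * |R| + |δ - t| + 1) * ((c * (1 + ‖y‖)) ^ (n + 1))⁻¹ := by gcongr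
    _ = _ := by rw [mul_pow, mul_inv]; ring

theorem ww_pos (m : ℕ) (y : E d) : 0 < ww m y := by
  unfold ww
  positivity
theorem ww_le_one (m : ℕ) (y : E d) : ww m y ≤ 1 := by
  unfold ww
  exact inv_le_one_of_one_le₀ (one_le_pow₀ (by linarith [norm_nonneg y]))
theorem ww_add (a b : ℕ) (y : E d) : ww (a + b) y = ww a y * ww b y := by
  unfold ww
  rw [pow_add, mul_inv]
theorem ww_anti {a b : ℕ} (h : a ≤ b) (y : E d) : ww b y ≤ ww a y := by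
  unfold ww
  exact inv_anti₀ (by positivity) (pow_le_pow_right₀ (by linarith [norm_nonneg y]) h)
theorem continuous_ww (m : ℕ) : Continuous (ww m : E d → ℝ) := by
  unfold ww
  refine ((continuous_const.add continuous_norm).pow _).inv₀ fun y => ?_
  exact (pow_pos (by positivity : (0 : ℝ) < 1 + ‖y‖) _).ne'
theorem one_le_mul_ww (m : ℕ) {R : ℝ} {y : E d} (h : ‖y‖ ≤ R) : 1 ≤ (1 + R) ^ m * ww m y := by
  unfold ww
  rw [← div_eq_mul_inv, le_div_iff₀ (by positivity), one_mul]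
  exact pow_le_pow_left₀ (by positivity) (by linarith) _
theorem ww_peetre (m : ℕ) (x y : E d) : ww m (y - x) ≤ (1 + ‖x‖) ^ m * ww m y := by
  unfold ww
  rw [← div_eq_mul_inv, le_div_iff₀ (by positivity), inv_mul_eq_div,
    div_le_iff₀ (by positivity), ← mul_pow]
  apply pow_le_pow_left₀ (by positivity)
  have : ‖y‖ ≤ ‖x‖ + ‖y - x‖ := by
    calc ‖y‖ = ‖x + (y - x)‖ := by congr 1; abel
      _ ≤ _ := norm_add_le _ _
  nlinarith [norm_nonneg x, norm_nonneg (y - x), mul_nonneg (norm_nonneg x) (norm_nonneg (y - x))]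

end Vale.Agent.P120
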