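import Vale.Agent.P120.EnB
import Vale.Agent.P120.Pack

/-!
P120 Strong. Overview in notes/P120.md, definitions in Defs.lean.
Name every helper lemma of yours with the file name in front (for example strong_aux1).

PLAN.
For 0 < δ <= 1 let ρ z = (δ^n)⁻¹ max 0 (1 - |z|/δ): continuous, even, compact support, Lipschitz with constant δ^(-n-1), ρ z <= δ kk n 0 z for z ≠ 0, and for x in the support
of μ_k, a x = ∫ ρ (x - y) dμ_k y >= c0 = A⁻¹ 2^(-n) / 2 (ball of radius δ/2, Low). Expand on the product measure (all terms integrable):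
∫∫ ρ (v x - v y)^2 = 2 ∫ v^2 a - 2 ∫ v y Ψ y, Ψ_k y = ∫ ρ (x - y) v x dμ_k x. So 2 c0 ∫ v^2 <= δ En + 2 ∫ |v| sup |Ψ_k| over ball 0 R.
∫ |v_k| <= sqrt (A R^n) sqrt B (Test.integral_abs_le). Ψ_k y → 0 for each y (hw) and Ψ_k is Lipschitz with a constant independent of k, so it tends to 0 uniformly on ball 0 R
(finite net, exists_net, Filter.eventually_all_finset). Conclude: eventually ∫ v^2 <= δ B / c0 + small.
-/

open MeasureTheory Metric Set Filter Topology
open scoped ENNReal NNReal RealInnerProductSpace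

namespace Vale.Agent.P120

variable {d : ℕ}

theorem strong_small (K : ℝ) {ε : ℝ} (hε : 0 < ε) : ∃ δ : ℝ, 0 < δ ∧ δ ≤ 1 ∧ δ * K ≤ ε := by
  have h0 : 0 < |K| + 1 := by positivity
  refine ⟨min 1 (ε / (|K| + 1)), by positivity, min_le_left _ _, ?_⟩
  calc _ ≤ min 1 (ε / (|K| + 1)) * (|K| + 1) :=
        mul_le_mul_of_nonneg_left (by linarith [le_abs_self K]) (by positivity)
    _ ≤ ε / (|K| + 1) * (|K| + 1) := mul_le_mul_of_nonneg_right (min_le_right _ _) h0.le
    _ = ε := div_mul_cancel₀ _ h0.ne'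

theorem strong_pt (n : ℕ) {δ : ℝ} (hδ : 0 < δ) (v : E d → ℝ) (x y : E d) :
    v x ^ 2 * bump x δ y ≤
      δ ^ (n + 1) * (kk n 0 (x - y) * (v x - v y) ^ 2) + 2 * v x * (v y * bump x δ y) := by
  have h0 := bump_nonneg x δ y
  have h1 : bump x δ y * (v x - v y) ^ 2 ≤ δ ^ (n + 1) * (kk n 0 (x - y) * (v x - v y) ^ 2) := by
    rcases eq_or_ne x y with rfl | hxy
    · simp
    rw [← mul_assoc]
    refine mul_le_mul_of_nonneg_right ?_ (sq_nonneg _)
    rcases le_or_gt δ (dist y x) with h | h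
    · rw [bump_eq_zero hδ h]
      exact mul_nonneg (by positivity) (kk_nonneg _ _ _)
    · have h2 : 0 < ‖x - y‖ := norm_pos_iff.2 (sub_ne_zero.2 hxy)
      rw [dist_comm, dist_eq_norm] at h
      rw [kk_zero_eq, ← div_eq_mul_inv]
      exact (bump_le_one x δ y).trans
        ((one_le_div (by positivity)).2 (pow_le_pow_left₀ h2.le h.le _))
  nlinarith [mul_nonneg h0 (sq_nonneg (v y))]

theorem strong_int {n : ℕ} {A R L δ : ℝ} {μ : Measure (E d)} (hU : Up n A μ) {v : E d → ℝ}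
    (h : Test v 0 R L) (hδ : 0 < δ) (x : E d) : Integrable (fun y => v y * bump x δ y) μ :=
  (h.integrable hU).mul_bdd (bump_test x hδ).measurable.aestronglyMeasurable
    (Eventually.of_forall fun y => abs_bump_le_one x δ y)

theorem strong_key {n : ℕ} {A R L δ η : ℝ} (hn : 1 ≤ n) (hA : 0 ≤ A) {μ : Measure (E d)}
    (hU : Up n A μ) (hL : Low n A 1 μ) {v : E d → ℝ} (hR : 0 < R) (h : Test v 0 R L) (hδ : 0 < δ)
    (hδ1 : δ ≤ 1) (hη : ∀ x, dist x 0 ≤ R → |∫ y, v y * bump x δ y ∂μ| ≤ η) :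
    A⁻¹ * (δ / 2) ^ n * ∫ y, v y ^ 2 ∂μ ≤ δ ^ (n + 1) * En n μ v + 2 * η * ∫ y, |v y| ∂μ := by
  have := hU.sigmaFinite
  have hi := h.en_integrable hn hA hU hR
  have i1 := hi.integral_prod_left.const_mul (δ ^ (n + 1))
  have i2 := (h.integrable hU).abs.const_mul (2 * η)
  rw [En, integral_prod _ hi, ← integral_const_mul, ← integral_const_mul, ← integral_const_mul,
    ← integral_add i1 i2]
  refine integral_mono_ae ((h.integrable_sq hU).const_mul _) (i1.add i2) ?_
  filter_upwards [Measure.support_mem_ae (μ := μ), hi.prod_right_ae] with x hx hx'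
  have h1 := mul_le_mul_of_nonneg_left (le_integral_bump hU hL hx hδ (by linarith))
    (sq_nonneg (v x))
  have h2 := integral_mono (((bump_test x hδ).integrable hU).const_mul (v x ^ 2))
    ((hx'.const_mul (δ ^ (n + 1))).add ((strong_int hU h hδ x).const_mul (2 * v x)))
    (strong_pt n hδ v x)
  rw [integral_add' (hx'.const_mul _) ((strong_int hU h hδ x).const_mul _), integral_const_mul,
    integral_const_mul, integral_const_mul] at h2
  have h3 : v x * ∫ y, v y * bump x δ y ∂μ ≤ |v x| * η := by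
    rcases le_total (dist x 0) R with hx1 | hx1
    · exact (le_abs_self _).trans
        ((abs_mul _ _).trans_le (mul_le_mul_of_nonneg_left (hη x hx1) (abs_nonneg _)))
    · simp [h.2.2.2 x hx1]
  linarith

theorem strong_lip {n : ℕ} {A R L δ : ℝ} {μ : Measure (E d)} (hU : Up n A μ) {v : E d → ℝ}
    (h : Test v 0 R L) (hδ : 0 < δ) (x p : E d) :
    |∫ y, v y * bump x δ y ∂μ - ∫ y, v y * bump p δ y ∂μ| ≤
      2 / δ * dist x p * ∫ y, |v y| ∂μ := by
  rw [← integral_sub (strong_int hU h hδ x) (strong_int hU h hδ p), ← integral_const_mul,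
    ← Real.norm_eq_abs]
  refine norm_integral_le_of_norm_le ((h.integrable hU).abs.const_mul _)
    (Eventually.of_forall fun y => ?_)
  have h1 := (bump_test y hδ).2.1 x p
  simp only [bump, dist_comm _ y] at h1
  rw [Real.norm_eq_abs, ← mul_sub, abs_mul, mul_comm]
  exact mul_le_mul_of_nonneg_right h1 (abs_nonneg _)

theorem strong_conv {n : ℕ} {A R B : ℝ} (hn : 1 ≤ n) (hA : 1 ≤ A) {l : Filter ℕ}
    {μs : ℕ → Measure (E d)} (hU : ∀ k, Up n A (μs k)) (hL : ∀ k, Low n A 1 (μs k))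
    {vs : ℕ → E d → ℝ} (hR : 0 < R) (hT : ∀ k, ∃ L, Test (vs k) 0 R L)
    (hB : ∀ᶠ k in l, ∫ y, vs k y ^ 2 ∂(μs k) ≤ B ∧ En n (μs k) (vs k) ≤ B)
    (hw : ∀ Φ : E d → ℝ, Continuous Φ → HasCompactSupport Φ →
      Tendsto (fun k => ∫ y, vs k y * Φ y ∂(μs k)) l (𝓝 0)) :
    Tendsto (fun k => ∫ y, vs k y ^ 2 ∂(μs k)) l (𝓝 0) := by
  refine tendsto_order.2 ⟨fun a ha => Eventually.of_forall fun k =>
    ha.trans_le (integral_nonneg fun _ => sq_nonneg _), fun ε hε => ?_⟩
  have hA0 : 0 < A := by linarith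
  obtain ⟨δ, hδ, hδ1, hδ2⟩ := strong_small (A * 2 ^ n * B) (show 0 < ε / 3 by positivity)
  have hc : 0 < A⁻¹ * (δ / 2) ^ n := by positivity
  set M := √(A * R ^ n) * √B
  obtain ⟨η, hη, -, hη2⟩ := strong_small (4 * M) (mul_pos hc (show 0 < ε / 3 by positivity))
  obtain ⟨t, ht, -, ht2⟩ := strong_small (2 / δ * M) hη
  obtain ⟨S, -, -, hS, -⟩ := exists_net (closedBall (0 : E d) R) 0 hR.le ht fun y hy => hy
  have h1 : ∀ᶠ k in l, ∀ p ∈ S, |∫ y, vs k y * bump p δ y ∂(μs k)| < η :=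
    (eventually_all_finset S).2 fun p _ => by
      have := (hw _ (bump_test p hδ).continuous (bump_test p hδ).hasCompactSupport).abs
      rw [abs_zero] at this
      exact this.eventually (gt_mem_nhds hη)
  filter_upwards [hB, h1] with k h2 h3
  obtain ⟨L, hv⟩ := hT k
  have h4 : ∫ y, |vs k y| ∂(μs k) ≤ M := (hv.integral_abs_le hA0.le (hU k) hR).trans
    (mul_le_mul_of_nonneg_left (Real.sqrt_le_sqrt h2.1) (Real.sqrt_nonneg _))
  have h5 := strong_key (η := 2 * η) hn hA0.le (hU k) (hL k) hR hv hδ hδ1 fun x hx => by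
    obtain ⟨p, hp, hxp⟩ := hS x hx
    have h6 := strong_lip (hU k) hv hδ x p
    have h7 : 2 / δ * dist x p * ∫ y, |vs k y| ∂(μs k) ≤ 2 / δ * t * M :=
      mul_le_mul (by gcongr) h4 (integral_nonneg fun _ => abs_nonneg _) (by positivity)
    have h8 := abs_sub_abs_le_abs_sub (∫ y, vs k y * bump x δ y ∂(μs k))
      (∫ y, vs k y * bump p δ y ∂(μs k))
    linarith [h3 p hp]
  have h6 := mul_le_mul_of_nonneg_left h4 (show 0 ≤ 2 * (2 * η) by positivity)
  have h7 := mul_le_mul_of_nonneg_left h2.2 (show 0 ≤ δ ^ (n + 1) by positivity)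
  have h8 := mul_le_mul_of_nonneg_left hδ2 hc.le
  have e : A⁻¹ * (δ / 2) ^ n * (δ * (A * 2 ^ n * B)) = δ ^ (n + 1) * B := by
    rw [div_pow]
    field_simp
    ring
  refine lt_of_mul_lt_mul_left ?_ hc.le
  linarith [mul_pos hc hε]

end Vale.Agent.P120
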