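import Vale.Agent.P120.LimEq3
import Vale.Agent.P120.Strong
import Vale.Agent.P120.Conv5

/-!
P120 LemB1. Overview in notes/P120.md, definitions in Defs.lean.
Name every helper lemma of yours with the file name in front (for example lemb1_aux1).

PLAN.
For each i get u i (exists_wconv with Seq.wl2) and b i, v i (Seq.affine); ℓ i y = b i + ⟪v i, π0 y⟫. b = WithLp.toLp 2 b, M x = toLp 2 (fun i => ⟪v i, x⟫)
(a linear map on a finite-dimensional space, LinearMap.toContinuousLinearMap). η = bump 0 2 (= bump 0 (2 * 1)). For each i apply strong_conv with R = 2 to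
vs k = η uu i k - 1 * (η ℓ i): tests by height_test, Test.const_mul, Test.mul, Test.sub_mul; energy by En_sub_mul_le, En_const_mul, Seq.ee (R = 1; a single term of EE is <= EE),
Test.en_le; L2 bound by Seq.wl2 and one_le_mul_ww; weak limit: ∫ uu (η Φ) → ∫ u (η Φ) dμ = ∫ ℓ η Φ dμ and Conv for ℓ η Φ. On ball 0 1, η = 1, and the squared norm is the sum of squares of
coordinates (EuclideanSpace.real_norm_sq_eq). Second claim: Conv for |b + M (π0 y)|^2 ww (n+3) y, whose μ-integral is ∑ i ∫ (u i)^2 ww (n+3) <= d.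
-/

open MeasureTheory Metric Set Filter Topology
open scoped ENNReal NNReal RealInnerProductSpace

namespace Vale.Agent.P120

variable {d : ℕ}

theorem lemb1_le_ww (m : ℕ) {φ : E d → ℝ} (hφ : Continuous φ) (hc : HasCompactSupport φ) :
    ∃ C : ℝ, ∀ y, |φ y| ≤ C * ww m y := by
  have h1 : Continuous fun y : E d => φ y * (1 + ‖y‖) ^ m := by fun_prop
  have h2 : HasCompactSupport fun y : E d => φ y * (1 + ‖y‖) ^ m := hc.mul_right
  obtain ⟨C, hC⟩ := h1.bounded_above_of_compact_support h2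
  refine ⟨C, fun y => ?_⟩
  have h3 := hC y
  have h4 : 0 < (1 + ‖y‖) ^ m := by positivity
  rw [Real.norm_eq_abs, abs_mul, abs_of_pos h4] at h3
  unfold ww
  rw [← div_eq_mul_inv, le_div_iff₀ h4]
  exact h3

theorem lemb1_aff {n : ℕ} {π0 : E d →L[ℝ] E n} (hπ : ∀ y, ‖π0 y‖ ≤ ‖y‖) (b : ℝ) (v : E n) :
    ∃ L : ℝ, Test (fun y => bump 0 2 y * (b + ⟪v, π0 y⟫)) 0 2 L := by
  have h0 : ∀ y : E d, |⟪v, π0 y⟫| ≤ ‖v‖ * ‖y‖ := fun y =>
    (abs_real_inner_le_norm _ _).trans (mul_le_mul_of_nonneg_left (hπ y) (norm_nonneg _))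
  refine ⟨_, (bump_test (0 : E d) two_pos).mul (M := ‖v‖) (B := |b| + ‖v‖ * 2) zero_le_two
    (abs_bump_le_one _ _) (norm_nonneg _) (by positivity) (fun y z => ?_) fun y hy => ?_⟩
  · have e : b + ⟪v, π0 y⟫ - (b + ⟪v, π0 z⟫) = ⟪v, π0 (y - z)⟫ := by
      rw [map_sub, inner_sub_right]; ring
    rw [e, dist_eq_norm]
    exact h0 _
  · rw [dist_zero_right] at hy
    refine (abs_add_le _ _).trans ?_
    have := mul_le_mul_of_nonneg_left hy.le (norm_nonneg v)
    linarith [h0 y]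

theorem lemb1_sq {n : ℕ} {μ : Measure (E d)} {u : E d → ℝ} (hu : WL2 n μ u 1) :
    ∫ y, (bump 0 2 y * u y) ^ 2 ∂μ ≤ (1 + 2) ^ (n + 3) := by
  have h1 : ∫ y, (bump 0 2 y * u y) ^ 2 ∂μ ≤
      ∫ y, (1 + 2) ^ (n + 3) * (u y ^ 2 * ww (n + 3) y) ∂μ := by
    refine integral_mono_of_nonneg (Eventually.of_forall fun y => sq_nonneg _)
      (hu.2.1.const_mul _) (Eventually.of_forall fun y => ?_)
    have hw := (ww_pos (n + 3) y).le
    rcases le_total 2 ‖y‖ with h | h
    · have : bump (0 : E d) 2 y = 0 := bump_eq_zero two_pos (by rwa [dist_zero_right])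
      simp only [this, zero_mul]
      rw [zero_pow two_ne_zero]
      positivity
    · have h2 := one_le_mul_ww (n + 3) h
      have h3 : bump (0 : E d) 2 y ^ 2 ≤ 1 :=
        pow_le_one₀ (bump_nonneg _ _ _) (bump_le_one _ _ _)
      have h4 := mul_le_mul_of_nonneg_left (h3.trans h2) (sq_nonneg (u y))
      simp only [mul_pow]
      linarith
  rw [integral_const_mul] at h1
  exact h1.trans (mul_le_of_le_one_right (by positivity) hu.2.2)

theorem lemb1_test {n : ℕ} {π0 : E d →L[ℝ] E n} (hπ : ∀ y, ‖π0 y‖ ≤ ‖y‖) (ps : ℕ → E d)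
    (V : Submodule ℝ (E d)) (εs : ℕ → ℝ) (i : Fin d) (b : ℝ) (v : E n) (k : ℕ) :
    ∃ L : ℝ, Test (fun y => (εs k)⁻¹ * (bump 0 2 y * hh (ps k) V y i) -
      1 * (bump 0 2 y * (b + ⟪v, π0 y⟫))) 0 2 L := by
  obtain ⟨L1, h1⟩ := height_test (ps k) V i two_pos
  obtain ⟨L2, h2⟩ := lemb1_aff hπ b v
  exact ⟨_, (h1.const_mul _).sub_mul h2 1⟩

theorem lemb1_one {n : ℕ} {A : ℝ} {l : Filter ℕ} {μs : ℕ → Measure (E d)}
    {μ : Measure (E d)} {ps : ℕ → E d} {εs νs : ℕ → ℝ} {V : Submodule ℝ (E d)}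
    {π0 : E d →L[ℝ] E n} (hn : 1 ≤ n) (hA : 1 ≤ A) (hπ : ∀ y, ‖π0 y‖ ≤ ‖y‖)
    (h : Seq n A l μs μ V ps εs νs) (i : Fin d) {u : E d → ℝ}
    (hw : WConv n l μs μ (uu ps V εs i) u) {b : ℝ} {v : E n}
    (hu : u =ᵐ[μ] fun y => b + ⟪v, π0 y⟫) :
    Tendsto (fun k => ∫ y, ((εs k)⁻¹ * (bump 0 2 y * hh (ps k) V y i) -
      1 * (bump 0 2 y * (b + ⟪v, π0 y⟫))) ^ 2 ∂(μs k)) l (𝓝 0) := by
  have hA0 : 0 ≤ A := by linarith
  have hU := h.conv.1
  obtain ⟨L2, h2⟩ := lemb1_aff hπ b v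
  obtain ⟨C, hC⟩ := h.ee hn hA (le_refl (1 : ℝ))
  refine strong_conv (R := 2) (B := max (2 * (1 + 2) ^ (n + 3) + 2 * ((L2 * 2) ^ 2 * (A * 2 ^ n)))
    (2 * C + 2 * 1 ^ 2 * (10 * Cad n * A ^ 2 * L2 ^ 2 * 2 ^ (n + 1)))) hn hA hU
    (fun k => (h.hyp k).2.1 1 (by rw [one_mul]; exact h.nu_le k)) two_pos
    (lemb1_test hπ ps V εs i b v) ?_ ?_
  · filter_upwards [hC] with k hk
    obtain ⟨L1, h1⟩ := height_test (ps k) V i two_pos
    have h3 := h1.const_mul (εs k)⁻¹
    constructor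
    · refine le_trans ?_ (le_max_left _ _)
      have h4 := lemb1_sq (h.wl2 hA i k)
      have h5 := h2.integral_sq_le hA0 (hU k) two_pos
      have e : ∀ y, bump 0 2 y * uu ps V εs i k y = (εs k)⁻¹ * (bump 0 2 y * hh (ps k) V y i) :=
        fun y => by unfold uu; ring
      simp only [e] at h4
      have i1 := (h3.integrable_sq (hU k)).const_mul 2
      have i2 := (h2.integrable_sq (hU k)).const_mul 2
      have h6 := integral_mono_of_nonneg (μ := μs k)
        (f := fun y => ((εs k)⁻¹ * (bump 0 2 y * hh (ps k) V y i) -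
          1 * (bump 0 2 y * (b + ⟪v, π0 y⟫))) ^ 2)
        (Eventually.of_forall fun y => sq_nonneg _) (i1.add i2) (Eventually.of_forall fun y => by
          simp only [Pi.add_apply]
          nlinarith [sq_nonneg ((εs k)⁻¹ * (bump 0 2 y * hh (ps k) V y i) +
            bump 0 2 y * (b + ⟪v, π0 y⟫))])
      rw [integral_add' i1 i2, integral_const_mul, integral_const_mul] at h6
      linarith
    · refine le_trans ?_ (le_max_right _ _)
      refine (En_sub_mul_le hn hA0 (hU k) h3 two_pos h2 two_pos 1).trans ?_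
      have h5 := h2.en_le hn hA0 (hU k) two_pos
      have h6 : En n (μs k) (fun y => bump 0 2 y * hh (ps k) V y i) ≤ C * εs k ^ 2 := by
        refine le_trans ?_ hk
        unfold EE
        rw [mul_one]
        exact Finset.single_le_sum (f := fun j : Fin d =>
          En n (μs k) (fun y => bump 0 2 y * hh (ps k) V y j)) (fun j _ => En_nonneg _ _ _)
          (Finset.mem_univ i)
      have h7 := mul_le_mul_of_nonneg_left h6 (sq_nonneg (εs k)⁻¹)
      have h8 : (εs k)⁻¹ ^ 2 * (C * εs k ^ 2) = C := by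
        have := (h.eps_pos k).ne'
        field_simp
      rw [En_const_mul]
      linarith
  · intro Φ hΦ hc
    have hb := (bump_test (0 : E d) two_pos).continuous
    have c1 : Continuous fun y => bump 0 2 y * Φ y := hb.mul hΦ
    have s1 : HasCompactSupport fun y => bump (0 : E d) 2 y * Φ y := hc.mul_left
    have c2 : Continuous fun y => bump 0 2 y * (b + ⟪v, π0 y⟫) * Φ y := h2.continuous.mul hΦ
    have s2 : HasCompactSupport fun y => bump (0 : E d) 2 y * (b + ⟪v, π0 y⟫) * Φ y :=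
      hc.mul_left
    have t1 := hw _ c1 (lemb1_le_ww _ c1 s1)
    have t2 := h.conv.2.2 _ c2 (lemb1_le_ww _ c2 s2)
    have e : ∫ y, u y * (bump 0 2 y * Φ y) ∂μ = ∫ y, bump 0 2 y * (b + ⟪v, π0 y⟫) * Φ y ∂μ := by
      refine integral_congr_ae ?_
      filter_upwards [hu] with y hy
      rw [hy]; ring
    have t3 := t1.sub t2
    rw [e, sub_self] at t3
    refine t3.congr fun k => ?_
    obtain ⟨L1, h1⟩ := height_test (ps k) V i two_pos
    have h3 := h1.const_mul (εs k)⁻¹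
    obtain ⟨D, hD⟩ := hΦ.bounded_above_of_compact_support hc
    have i1 : Integrable (fun y => uu ps V εs i k y * (bump 0 2 y * Φ y)) (μs k) := by
      refine ((h3.integrable (hU k)).mul_bdd hΦ.aestronglyMeasurable
        (Eventually.of_forall hD)).congr (Eventually.of_forall fun y => ?_)
      unfold uu
      ring
    have i2 : Integrable (fun y => bump 0 2 y * (b + ⟪v, π0 y⟫) * Φ y) (μs k) :=
      (h2.integrable (hU k)).mul_bdd hΦ.aestronglyMeasurable (Eventually.of_forall hD)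
    rw [← integral_sub i1 i2]
    congr 1
    funext y
    unfold uu
    ring

/-- the linear map with coordinate functionals given by the vectors v i -/
noncomputable def lemb1M {n : ℕ} (v : Fin d → E n) : E n →L[ℝ] E d :=
  (EuclideanSpace.equiv (Fin d) ℝ).symm.toContinuousLinearMap.comp
    (ContinuousLinearMap.pi fun i => innerSL ℝ (v i))

theorem lemb1M_apply {n : ℕ} (v : Fin d → E n) (x : E n) (i : Fin d) :
    lemb1M v x i = ⟪v i, x⟫ := rfl

theorem Seq.approx {n : ℕ} {A : ℝ} (U : Ultrafilter ℕ) {μs : ℕ → Measure (E d)}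
    {μ : Measure (E d)} {ps : ℕ → E d} {εs νs : ℕ → ℝ} {ι : E n →ₗᵢ[ℝ] E d}
    {π0 : E d →L[ℝ] E n} (hn : 1 ≤ n) (hA : 1 ≤ A) (hE : Emb ι π0)
    (h : Seq n A (U : Filter ℕ) μs μ (rg ι) ps εs νs) :
    ∃ (b : E d) (M : E n →L[ℝ] E d),
      Tendsto (fun k => ∫ y in ball (0 : E d) 1,
        ‖(εs k)⁻¹ • hh (ps k) (rg ι) y - (b + M (π0 y))‖ ^ 2 ∂(μs k)) (U : Filter ℕ) (𝓝 0) ∧
      ∀ᶠ k in (U : Filter ℕ),
        ∫ y, ‖b + M (π0 y)‖ ^ 2 * ww (n + 3) y ∂(μs k) ≤ d + 1 := by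
  have hA0 : 0 ≤ A := by linarith
  have hU := h.conv.1
  have hπ := hE.2.2
  choose u hu hw using fun i => exists_wconv hA0 U h.conv (h.wl2 hA i)
  choose b v hbv using fun i => h.affine hn hA hE i (hu i) (hw i)
  have hc : ∀ y i, (WithLp.toLp 2 b + lemb1M v (π0 y) : E d) i = b i + ⟪v i, π0 y⟫ :=
    fun y i => rfl
  refine ⟨WithLp.toLp 2 b, lemb1M v, ?_, ?_⟩
  · have t1 := tendsto_finsetSum Finset.univ fun i (_ : i ∈ Finset.univ) =>
      lemb1_one hn hA hπ h i (hw i) (hbv i)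
    rw [Finset.sum_const_zero] at t1
    refine squeeze_zero (fun k => integral_nonneg fun y => sq_nonneg _) (fun k => ?_) t1
    have hi : ∀ i ∈ (Finset.univ : Finset (Fin d)), Integrable (fun y =>
        ((εs k)⁻¹ * (bump 0 2 y * hh (ps k) (rg ι) y i) -
          1 * (bump 0 2 y * (b i + ⟪v i, π0 y⟫))) ^ 2) (μs k) := fun i _ => by
      obtain ⟨L, hL⟩ := lemb1_test hπ ps (rg ι) εs i (b i) (v i) k
      exact hL.integrable_sq (hU k)
    rw [← integral_finsetSum _ hi]
    refine le_trans (le_of_eq ?_) (setIntegral_le_integral (s := ball (0 : E d) 1)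
      (integrable_finsetSum _ hi)
      (Eventually.of_forall fun y => Finset.sum_nonneg fun i _ => sq_nonneg _))
    refine setIntegral_congr_fun measurableSet_ball fun y hy => ?_
    have h1 : bump (0 : E d) 2 y = 1 := bump_eq_one two_pos (by
      have := mem_ball.1 hy
      linarith)
    simp only [h1, one_mul]
    rw [EuclideanSpace.real_norm_sq_eq]
    rfl
  · have c1 : Continuous fun y : E d =>
        ‖WithLp.toLp 2 b + lemb1M v (π0 y)‖ ^ 2 * ww (n + 3) y :=
      ((continuous_const.add ((lemb1M v).continuous.comp π0.continuous)).norm.pow 2).mul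
        (continuous_ww _)
    have t1 := h.conv.2.2 _ c1 ⟨(‖(WithLp.toLp 2 b : E d)‖ + ‖lemb1M v‖) ^ 2, fun y => by
      have h1 : ‖WithLp.toLp 2 b + lemb1M v (π0 y)‖ ≤
          (‖(WithLp.toLp 2 b : E d)‖ + ‖lemb1M v‖) * (1 + ‖y‖) := by
        refine (norm_add_le _ _).trans ?_
        have h2 := ((lemb1M v).le_opNorm (π0 y)).trans
          (mul_le_mul_of_nonneg_left (hπ y) (norm_nonneg _))
        have h3 := mul_nonneg (norm_nonneg (WithLp.toLp 2 b : E d)) (norm_nonneg y)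
        have h4 := norm_nonneg (lemb1M v)
        nlinarith
      have h2 := pow_le_pow_left₀ (norm_nonneg _) h1 2
      have h3 : (1 + ‖y‖) ^ 2 * ww (n + 3) y = ww (n + 1) y := by
        unfold ww
        have : 0 < 1 + ‖y‖ := by positivity
        field_simp
        ring
      rw [abs_of_nonneg (mul_nonneg (sq_nonneg _) (ww_pos _ _).le), ← h3, ← mul_assoc, ← mul_pow]
      exact mul_le_mul_of_nonneg_right h2 (ww_pos _ _).le⟩
    have e : ∫ y, ‖WithLp.toLp 2 b + lemb1M v (π0 y)‖ ^ 2 * ww (n + 3) y ∂μ =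
        ∑ i, ∫ y, u i y ^ 2 * ww (n + 3) y ∂μ := by
      rw [← integral_finsetSum _ fun i _ => (hu i).2.1]
      refine integral_congr_ae ?_
      filter_upwards [ae_all_iff.2 hbv] with y hy
      rw [EuclideanSpace.real_norm_sq_eq, Finset.sum_mul]
      refine Finset.sum_congr rfl fun i _ => ?_
      rw [hc, hy i]
    have h1 : ∑ i, ∫ y, u i y ^ 2 * ww (n + 3) y ∂μ ≤ ∑ _i : Fin d, (1 : ℝ) :=
      Finset.sum_le_sum fun i _ => (hu i).2.2
    simp only [Finset.sum_const, Finset.card_univ, Fintype.card_fin, nsmul_eq_mul, mul_one] at h1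
    exact (t1.eventually (gt_mem_nhds (by rw [e]; linarith))).mono fun k hk => hk.le

end Vale.Agent.P120
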