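import Vale.Agent.P120.Pull

/-!
P120 LemB2. Overview in notes/P120.md, definitions in Defs.lean.
Name every helper lemma of yours with the file name in front (for example lemb2_aux1).

PLAN.
V = rg ι, h = hh p V, V' = range of the linear map x ↦ ι x + ε • M x (injective because ε |M| < 1, LinearMap.finrank_range_of_inj), p' = Vᗮ.starProjection p + ε • b.
For y put q = p' + ι (π0 y) + ε • M (π0 y); q - p' is in V' and y - q = h y - ε • (b + M (π0 y)) (y - ι (π0 y) = Vᗮ.starProjection y), so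
|hh p' V' y|^2 <= ε^2 |r y|^2 with r y = ε⁻¹ • h y - (b + M (π0 y)) (hh_norm_le). Pointwise: |r y|^2 (1 + |y|/lam)^(-(n+3)) <= 1_(ball 0 1) |r y|^2 +
lam^(n+3) 2^(n+3) 2 (ε^(-2) |h y|^2 + |ℓ y|^2) ww (n+3) y. Integrate (integral_mono; integrability by continuity on the ball, ex_unit_integrable, Up.integrable_of_le).
-/

open MeasureTheory Metric Set Filter Topology
open scoped ENNReal NNReal RealInnerProductSpace

namespace Vale.Agent.P120

variable {d : ℕ}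

theorem lemb2_weight (m : ℕ) {lam : ℝ} (hlam : 0 < lam) (y : E d) (hy : 1 ≤ ‖y‖) :
    ((1 + ‖y - 0‖ / lam) ^ m)⁻¹ ≤ lam ^ m * 2 ^ m * ww m y := by
  have h0 : 0 < 1 + ‖y‖ := by positivity
  have h1 : (1 + ‖y‖) / (lam * 2) ≤ 1 + ‖y - 0‖ / lam := by
    rw [sub_zero, div_le_iff₀ (by positivity)]
    have : (1 + ‖y‖ / lam) * (lam * 2) = 2 * lam + 2 * ‖y‖ := by field_simp
    rw [this]
    linarith
  have h2 : ((1 + ‖y‖) / (lam * 2)) ^ m ≤ (1 + ‖y - 0‖ / lam) ^ m :=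
    pow_le_pow_left₀ (by positivity) h1 m
  have h3 : ((1 + ‖y - 0‖ / lam) ^ m)⁻¹ ≤ (((1 + ‖y‖) / (lam * 2)) ^ m)⁻¹ :=
    inv_anti₀ (by positivity) h2
  refine h3.trans (le_of_eq ?_)
  unfold ww
  rw [div_pow, mul_pow]
  field_simp

theorem lemb2_sq {F : Type*} [NormedAddCommGroup F] (u v : F) :
    ‖u - v‖ ^ 2 ≤ 2 * (‖u‖ ^ 2 + ‖v‖ ^ 2) := by
  have h := norm_sub_le u v
  have h2 : ‖u - v‖ ^ 2 ≤ (‖u‖ + ‖v‖) ^ 2 := pow_le_pow_left₀ (norm_nonneg _) h 2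
  nlinarith [sq_nonneg (‖u‖ - ‖v‖)]

theorem lemb2_lin_int {n : ℕ} {A : ℝ} {μ : Measure (E d)} (hA : 0 ≤ A) (hU : Up n A μ)
    (b : E d) (T : E d →L[ℝ] E d) :
    Integrable (fun y => ‖b + T y‖ ^ 2 * ww (n + 3) y) μ := by
  refine Up.integrable_of_le hA hU (C := (‖b‖ + ‖T‖) ^ 2) ?_ ?_
  · exact (((continuous_const.add T.continuous).norm.pow 2).mul
      (continuous_ww _)).aestronglyMeasurable
  · intro y
    have hw := ww_pos (d := d) (n + 3) y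
    have hw1 := ww_pos (d := d) (n + 1) y
    rw [Real.norm_eq_abs, abs_of_nonneg (by positivity)]
    have h1 : ‖b + T y‖ ≤ (‖b‖ + ‖T‖) * (1 + ‖y‖) := by
      have := norm_add_le b (T y)
      have h2 := T.le_opNorm y
      nlinarith [norm_nonneg b, norm_nonneg T, norm_nonneg y]
    have h2 : ‖b + T y‖ ^ 2 ≤ ((‖b‖ + ‖T‖) * (1 + ‖y‖)) ^ 2 :=
      pow_le_pow_left₀ (norm_nonneg _) h1 2
    have h3 : (1 + ‖y‖) ^ 2 * ww (n + 3) y = ww (n + 1) y := by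
      unfold ww
      have : 0 < 1 + ‖y‖ := by positivity
      field_simp
      ring
    calc ‖b + T y‖ ^ 2 * ww (n + 3) y ≤ ((‖b‖ + ‖T‖) * (1 + ‖y‖)) ^ 2 * ww (n + 3) y :=
          mul_le_mul_of_nonneg_right h2 hw.le
      _ = (‖b‖ + ‖T‖) ^ 2 * ((1 + ‖y‖) ^ 2 * ww (n + 3) y) := by ring
      _ = _ := by rw [h3]

theorem lemb2_ball_int {n : ℕ} {A : ℝ} {μ : Measure (E d)} (hU : Up n A μ) {f : E d → ℝ}
    (hf : Continuous f) : IntegrableOn f (ball (0 : E d) 1) μ := by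
  have := hU.locFin
  exact (hf.continuousOn.integrableOn_compact (isCompact_closedBall (0 : E d) 1)).mono_set
    ball_subset_closedBall

theorem lemb2_geo {n : ℕ} {ι : E n →ₗᵢ[ℝ] E d} {π0 : E d →L[ℝ] E n} (hE : Emb ι π0)
    (p b : E d) (M : E n →L[ℝ] E d) {ε : ℝ} (hε : 0 < ε) (hM : ε * ‖M‖ < 1) :
    ∃ (p' : E d) (V' : Submodule ℝ (E d)), Module.finrank ℝ V' = n ∧ ∀ y,
      ‖hh p' V' y‖ ^ 2 ≤ ε ^ 2 * ‖ε⁻¹ • hh p (rg ι) y - (b + M (π0 y))‖ ^ 2 := by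
  let T : E n →ₗ[ℝ] E d := ι.toLinearMap + ε • (M : E n →ₗ[ℝ] E d)
  have hT : ∀ x, T x = ι x + ε • M x := fun x => rfl
  have hinj : Function.Injective T := by
    rw [injective_iff_map_eq_zero]
    intro x hx
    rw [hT] at hx
    have h1 : ι x = -(ε • M x) := eq_neg_of_add_eq_zero_left hx
    have h2 : ‖x‖ = ε * ‖M x‖ := by
      rw [← ι.norm_map x, h1, norm_neg, norm_smul, Real.norm_eq_abs, abs_of_pos hε]
    have h3 := M.le_opNorm x
    have h4 : ‖x‖ ≤ ε * ‖M‖ * ‖x‖ := by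
      calc ‖x‖ = ε * ‖M x‖ := h2
        _ ≤ ε * (‖M‖ * ‖x‖) := mul_le_mul_of_nonneg_left h3 hε.le
        _ = _ := by ring
    have h5 : ‖x‖ ≤ 0 := by nlinarith [norm_nonneg x]
    exact norm_le_zero_iff.mp h5
  refine ⟨(rg ι)ᗮ.starProjection p + ε • b, LinearMap.range T, ?_, ?_⟩
  · rw [LinearMap.finrank_range_of_inj hinj]
    simp
  · intro y
    have hq : ((rg ι)ᗮ.starProjection p + ε • b + T (π0 y)) -
        ((rg ι)ᗮ.starProjection p + ε • b) ∈ LinearMap.range T := by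
      rw [add_sub_cancel_left]
      exact LinearMap.mem_range_self T _
    have h1 := hh_norm_le hq y
    have h2 : y - ((rg ι)ᗮ.starProjection p + ε • b + T (π0 y)) =
        ε • (ε⁻¹ • hh p (rg ι) y - (b + M (π0 y))) := by
      rw [hT, hE.2.1 y, smul_sub, smul_smul, mul_inv_cancel₀ hε.ne', one_smul]
      unfold hh
      rw [map_sub, Submodule.starProjection_orthogonal_val y, smul_add]
      abel
    rw [h2, norm_smul, Real.norm_eq_abs, abs_of_pos hε] at h1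
    rw [← mul_pow]
    exact pow_le_pow_left₀ (norm_nonneg _) h1 2

theorem flat_of_approx {n : ℕ} {A : ℝ} {μ : Measure (E d)} {ι : E n →ₗᵢ[ℝ] E d}
    {π0 : E d →L[ℝ] E n} (hA : 0 ≤ A) (hU : Up n A μ) (hE : Emb ι π0) (p b : E d)
    (M : E n →L[ℝ] E d) {ε lam τ B : ℝ} (hε : 0 < ε) (hlam : 0 < lam) (hlam1 : lam ≤ 1)
    (hM : ε * ‖M‖ < 1) (hex : ex n μ 0 1 p (rg ι) ≤ ε ^ 2)
    (hτ : ∫ y in ball (0 : E d) 1, ‖ε⁻¹ • hh p (rg ι) y - (b + M (π0 y))‖ ^ 2 ∂μ ≤ τ)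
    (hB : ∫ y, ‖b + M (π0 y)‖ ^ 2 * ww (n + 3) y ∂μ ≤ B) :
    ∃ (p' : E d) (V' : Submodule ℝ (E d)), Module.finrank ℝ V' = n ∧
      ex n μ 0 lam p' V' ≤ ε ^ 2 * (τ / lam ^ (n + 2) + lam * 2 ^ (n + 4) * (1 + B)) := by
  obtain ⟨p', V', hV', hgeo⟩ := lemb2_geo hE p b M hε hM
  refine ⟨p', V', hV', ?_⟩
  set r : E d → E d := fun y => ε⁻¹ • hh p (rg ι) y - (b + M (π0 y)) with hr
  have hrc : Continuous r :=
    ((continuous_hh p (rg ι)).const_smul ε⁻¹).sub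
      (continuous_const.add (M.continuous.comp π0.continuous))
  have i1 : IntegrableOn (fun y => ‖r y‖ ^ 2) (ball (0 : E d) 1) μ :=
    lemb2_ball_int hU (hrc.norm.pow 2)
  have i1' : Integrable ((ball (0 : E d) 1).indicator fun y => ‖r y‖ ^ 2) μ :=
    (integrable_indicator_iff measurableSet_ball).2 i1
  have i2 := ex_unit_integrable hA hU p (rg ι)
  have i3 : Integrable (fun y => ‖b + M (π0 y)‖ ^ 2 * ww (n + 3) y) μ :=
    lemb2_lin_int hA hU b (M.comp π0)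
  set c : ℝ := lam ^ (n + 3) * 2 ^ (n + 3) * 2 with hc
  have hc0 : 0 ≤ c := by positivity
  have key : ∀ y, ‖hh p' V' y‖ ^ 2 * ((1 + ‖y - 0‖ / lam) ^ (n + 3))⁻¹ ≤
      ε ^ 2 * (ball (0 : E d) 1).indicator (fun y => ‖r y‖ ^ 2) y +
        (c * (‖hh p (rg ι) y‖ ^ 2 * ww (n + 3) y) +
          ε ^ 2 * c * (‖b + M (π0 y)‖ ^ 2 * ww (n + 3) y)) := by
    intro y
    have hw := ww_pos (d := d) (n + 3) y
    have hg : ‖hh p' V' y‖ ^ 2 ≤ ε ^ 2 * ‖r y‖ ^ 2 := hgeo y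
    by_cases hy : y ∈ ball (0 : E d) 1
    · rw [indicator_of_mem hy]
      have h1 : ((1 + ‖y - 0‖ / lam) ^ (n + 3))⁻¹ ≤ 1 := by
        apply inv_le_one_of_one_le₀
        apply one_le_pow₀
        have : 0 ≤ ‖y - 0‖ / lam := by positivity
        linarith
      have h2 : ‖hh p' V' y‖ ^ 2 * ((1 + ‖y - 0‖ / lam) ^ (n + 3))⁻¹ ≤ ‖hh p' V' y‖ ^ 2 :=
        mul_le_of_le_one_right (by positivity) h1
      have h3 : 0 ≤ c * (‖hh p (rg ι) y‖ ^ 2 * ww (n + 3) y) +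
          ε ^ 2 * c * (‖b + M (π0 y)‖ ^ 2 * ww (n + 3) y) := by positivity
      linarith
    · rw [indicator_of_notMem hy, mul_zero, zero_add]
      have hy1 : 1 ≤ ‖y‖ := by simpa using hy
      have h1 := lemb2_weight (n + 3) hlam y hy1
      have h2 : ‖r y‖ ^ 2 ≤ 2 * (‖ε⁻¹ • hh p (rg ι) y‖ ^ 2 + ‖b + M (π0 y)‖ ^ 2) :=
        lemb2_sq _ _
      have h3 : ε ^ 2 * ‖ε⁻¹ • hh p (rg ι) y‖ ^ 2 = ‖hh p (rg ι) y‖ ^ 2 := by
        rw [norm_smul, Real.norm_eq_abs, abs_of_pos (inv_pos.2 hε)]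
        field_simp
      have h4 : ‖hh p' V' y‖ ^ 2 ≤
          2 * (‖hh p (rg ι) y‖ ^ 2 + ε ^ 2 * ‖b + M (π0 y)‖ ^ 2) := by
        have := mul_le_mul_of_nonneg_left h2 (sq_nonneg ε)
        nlinarith
      calc ‖hh p' V' y‖ ^ 2 * ((1 + ‖y - 0‖ / lam) ^ (n + 3))⁻¹
          ≤ (2 * (‖hh p (rg ι) y‖ ^ 2 + ε ^ 2 * ‖b + M (π0 y)‖ ^ 2)) *
            (lam ^ (n + 3) * 2 ^ (n + 3) * ww (n + 3) y) :=
            mul_le_mul h4 h1 (by positivity) (by positivity)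
        _ = _ := by rw [hc]; ring
  have hint : ∫ y, ‖hh p' V' y‖ ^ 2 * ((1 + ‖y - 0‖ / lam) ^ (n + 3))⁻¹ ∂μ ≤
      ε ^ 2 * τ + (c * ε ^ 2 + ε ^ 2 * c * B) := by
    have h1 := integral_mono (ex_integrable hA hU 0 hlam p' V')
      ((i1'.const_mul (ε ^ 2)).add ((i2.const_mul c).add (i3.const_mul (ε ^ 2 * c)))) key
    refine h1.trans ?_
    simp only [Pi.add_apply]
    have i23 : Integrable (fun y => c * (‖hh p (rg ι) y‖ ^ 2 * ww (n + 3) y) +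
        ε ^ 2 * c * (‖b + M (π0 y)‖ ^ 2 * ww (n + 3) y)) μ :=
      (i2.const_mul c).add (i3.const_mul (ε ^ 2 * c))
    rw [integral_add (i1'.const_mul (ε ^ 2)) i23,
      integral_add (i2.const_mul c) (i3.const_mul (ε ^ 2 * c)), integral_const_mul,
      integral_const_mul, integral_const_mul, integral_indicator measurableSet_ball,
      ← ex_unit]
    have a1 := mul_le_mul_of_nonneg_left hτ (sq_nonneg ε)
    have a2 := mul_le_mul_of_nonneg_left hex hc0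
    have a3 := mul_le_mul_of_nonneg_left hB (mul_nonneg (sq_nonneg ε) hc0)
    exact add_le_add a1 (add_le_add a2 a3)
  unfold ex
  have hl : 0 < (lam ^ (n + 2))⁻¹ := by positivity
  refine (mul_le_mul_of_nonneg_left hint hl.le).trans (le_of_eq ?_)
  rw [hc]
  field_simp
  ring

end Vale.Agent.P120
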