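import Vale.Agent.P120.LemB1
import Vale.Agent.P120.LemB2
import Vale.Agent.P120.Conv1
import Vale.Agent.P120.Sim3
import Vale.Agent.P120.Mart2

/-!
P120 LemB3. Overview in notes/P120.md, definitions in Defs.lean.
Name every helper lemma of yours with the file name in front (for example lemb3_aux1).

PLAN.
lemB_unit: choose κ >= 2 with sc κ * 2^(n+4) * (d+2) <= 1/8. By contradiction with ε0 = min ε1 (1/(k+1)) (ε1 from ex_point with κ = 1) and CB = k+1: get μ_k, ν_k, ε_k, planes (p_k,V_k).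
Fix ι, π0 (exists_emb, finrank_rg); rotate V_k to rg ι (exists_rot) by resc n μ_k 0 1 U_k (HH.resc, ex_resc, flat_resc_iff with a = 0, sim_self, div_one), and replace the base point p by
pj p V 0 (hh_congr, pj_mem; its norm is |hh p V 0|, small by ex_point). exists_conv along hyperfilter ℕ, build Seq (Nat.hyperfilter_le_atTop, squeeze), Seq.approx, and flat_of_approx at some k
with τ / sc κ ^(n+2) <= 1/8, ε_k |M| < 1: ex <= ε^2/4 = (ε/2)^2, contradiction.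
lemB: HH.resc with U = refl, flat_resc_iff with a = x, r = s and r = sc κ * s (sim_self, div_self, mul_div_cancel).
-/

open MeasureTheory Metric Set Filter Topology
open scoped ENNReal NNReal RealInnerProductSpace

namespace Vale.Agent.P120

variable {d : ℕ}

theorem lemb3_norm {n : ℕ} {A ν ε ε' lam : ℝ} {μ : Measure (E d)} (ι : E n →ₗᵢ[ℝ] E d)
    (hlam : 0 < lam) (h : HH n A μ 0 1 ν) (h1 : Flat n μ 0 1 ε) (h2 : ¬ Flat n μ 0 lam ε') :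
    ∃ (μ' : Measure (E d)) (p : E d), HH n A μ' 0 1 ν ∧ ex n μ' 0 1 p (rg ι) ≤ ε ^ 2 ∧
      ¬ Flat n μ' 0 lam ε' ∧ ‖p‖ = ‖hh p (rg ι) 0‖ := by
  obtain ⟨p, V, hV, hex⟩ := h1
  obtain ⟨U, hU⟩ := exists_rot V (rg ι) (hV.trans (finrank_rg ι).symm)
  have e1 := ex_resc (n := n) (μ := μ) (x := 0) (U := U) one_pos 0 one_pos p V
  have e2 := flat_resc_iff (n := n) (μ := μ) (x := 0) (U := U) one_pos 0 hlam ε'
  rw [sim_self, div_one] at e1 e2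
  rw [hU] at e1
  have e3 := hh_congr (pj_mem (sim 0 1 U p) (rg ι) 0)
  refine ⟨resc n μ 0 1 U, pj (sim 0 1 U p) (rg ι) 0, h.resc one_pos, ?_, fun h3 => h2 (e2.1 h3),
    ?_⟩
  · rw [ex_unit, e3, ← ex_unit, e1]
    exact hex
  · rw [e3, pj, zero_sub, norm_neg]

theorem lemB_unit (n d : ℕ) (hn : 1 ≤ n) (hnd : n ≤ d) (A : ℝ) (hA : 1 ≤ A) :
    ∃ κ : ℕ, 2 ≤ κ ∧ ∃ ε0 : ℝ, 0 < ε0 ∧ ∃ CB : ℝ, 0 < CB ∧
      ∀ (μ : Measure (E d)) (ν ε : ℝ), HH n A μ 0 1 ν → 0 < ε → ε ≤ ε0 → CB * ν ≤ ε →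
        Flat n μ 0 1 ε → Flat n μ 0 (sc κ) (ε / 2) := by
  have hA0 : 0 ≤ A := by linarith
  obtain ⟨κ, hκ, hκ2⟩ : ∃ κ : ℕ, sc κ * 2 ^ (n + 4) * (1 + (d + 1)) ≤ 1 / 8 ∧ 2 ≤ κ := by
    have h1 := (tendsto_sc.mul_const ((2 : ℝ) ^ (n + 4))).mul_const (1 + (d + 1 : ℝ))
    rw [zero_mul, zero_mul] at h1
    exact ((h1.eventually_le_const (by norm_num)).and (eventually_ge_atTop 2)).exists
  obtain ⟨ι, π0, hE⟩ := exists_emb hnd
  obtain ⟨ε1, hε1, hpt⟩ := ex_point n d A hA 1 one_pos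
  refine ⟨κ, hκ2, ?_⟩
  by_contra hcon
  have hex : ∀ k : ℕ, ∃ (μ : Measure (E d)) (ν ε : ℝ) (p : E d), HH n A μ 0 1 ν ∧ 0 < ε ∧
      ε ≤ ε1 ∧ ε ≤ 1 / (k + 1) ∧ (k + 1) * ν ≤ ε ∧ ex n μ 0 1 p (rg ι) ≤ ε ^ 2 ∧
      ¬ Flat n μ 0 (sc κ) (ε / 2) ∧ ‖p‖ = ‖hh p (rg ι) 0‖ := fun k => by
    by_contra hk
    refine hcon ⟨min ε1 (1 / (k + 1)), lt_min hε1 (by positivity), k + 1, by positivity,
      fun μ ν ε a1 a2 a3 a4 a5 => ?_⟩
    by_contra a6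
    obtain ⟨μ', p, b1, b2, b3, b4⟩ := lemb3_norm ι (sc_pos κ) a1 a5 a6
    exact hk ⟨μ', ν, ε, p, b1, a2, a3.trans (min_le_left _ _), a3.trans (min_le_right _ _), a4,
      b2, b3, b4⟩
  choose μs νs εs ps h1 h2 h3 h4 h5 h6 h7 h8 using hex
  have hν0 : ∀ k, 0 ≤ νs k := fun k => (h1 k).2.2.2.1
  have hν1 : ∀ k, νs k ≤ 1 := fun k => by
    have a1 : (1 : ℝ) ≤ k + 1 := by linarith [k.cast_nonneg (α := ℝ)]
    have a2 : 1 / ((k : ℝ) + 1) ≤ 1 := (div_le_one (by positivity)).2 a1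
    linarith [le_mul_of_one_le_left (hν0 k) a1, h4 k, h5 k]
  have hlow : ∀ k, Low n A 1 (μs k) := fun k => (h1 k).2.1 1 (by simpa using hν1 k)
  have hl : Tendsto (fun k : ℕ => 1 / ((k : ℝ) + 1)) (hyperfilter ℕ : Filter ℕ) (𝓝 0) :=
    tendsto_one_div_add_atTop_nhds_zero_nat.mono_left Nat.hyperfilter_le_atTop
  have hε : Tendsto εs (hyperfilter ℕ : Filter ℕ) (𝓝 0) :=
    squeeze_zero (fun k => (h2 k).le) h4 hl
  have hp : ∀ {c e : ℝ}, (∀ μ : Measure (E d), Up n A μ → ∀ (x : E d) (s : ℝ), 0 < s →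
      Low n A s μ → ∀ (p : E d) (V : Submodule ℝ (E d)), ex n μ x s p V ≤ e ^ 2 →
        ∀ y ∈ μ.support, dist y x ≤ 10 * s → ‖hh p V y‖ ≤ c * s) →
      ∀ k, εs k ≤ e → ‖ps k‖ ≤ c := fun H k hk => by
    have := H (μs k) (h1 k).1 0 1 one_pos (hlow k) (ps k) (rg ι)
      ((h6 k).trans (pow_le_pow_left₀ (h2 k).le hk 2)) 0 (h1 k).2.2.1 (by simp)
    rwa [mul_one, ← h8] at this
  obtain ⟨μ, hμ⟩ := exists_conv hA0 (hyperfilter ℕ) μs fun k => (h1 k).1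
  have hS : Seq n A (hyperfilter ℕ : Filter ℕ) μs μ (rg ι) ps εs νs :=
    { conv := hμ
      hyp := h1
      nu_le := hν1
      p_le := fun k => hp hpt k (h3 k)
      p_lim := NormedAddGroup.tendsto_nhds_zero.2 fun c hc => by
        obtain ⟨e, he, H⟩ := ex_point n d A hA (c / 2) (half_pos hc)
        filter_upwards [hε.eventually_le_const he] with k hk
        exact (hp H k hk).trans_lt (half_lt_self hc)
      eps_pos := h2
      eps_lim := hε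
      ratio := squeeze_zero (fun k => div_nonneg (hν0 k) (h2 k).le) (fun k => by
        rw [div_le_div_iff₀ (h2 k) (by positivity)]
        linarith [h5 k]) hl
      ex_le := h6 }
  obtain ⟨b, M, a1, a2⟩ := hS.approx (hyperfilter ℕ) hn hA hE
  have a3 := hε.mul_const ‖M‖
  rw [zero_mul] at a3
  have hs := pow_pos (sc_pos κ) (n + 2)
  obtain ⟨k, b1, b2, b3⟩ := ((a1.eventually_le_const (show 0 < sc κ ^ (n + 2) / 8 by
    positivity)).and (a2.and (a3.eventually_lt_const one_pos))).exists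
  obtain ⟨p', V', c1, c2⟩ := flat_of_approx hA0 (h1 k).1 hE (ps k) b M (h2 k) (sc_pos κ)
    (sc_le_one κ) b3 (h6 k) b1 b2
  refine h7 k ⟨p', V', c1, c2.trans ?_⟩
  have e : sc κ ^ (n + 2) / 8 / sc κ ^ (n + 2) = 1 / 8 := by field_simp
  rw [e]
  calc _ ≤ εs k ^ 2 * (1 / 8 + 1 / 8) := by gcongr
    _ = _ := by ring

theorem lemB (n d : ℕ) (hn : 1 ≤ n) (hnd : n ≤ d) (A : ℝ) (hA : 1 ≤ A) :
    ∃ κ : ℕ, 2 ≤ κ ∧ ∃ ε0 : ℝ, 0 < ε0 ∧ ∃ CB : ℝ, 0 < CB ∧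
      ∀ (μ : Measure (E d)) (x : E d) (s ν ε : ℝ), 0 < s → HH n A μ x s ν → 0 < ε → ε ≤ ε0 →
        CB * ν ≤ ε → Flat n μ x s ε → Flat n μ x (sc κ * s) (ε / 2) := by
  obtain ⟨κ, hκ, ε0, hε0, CB, hCB, H⟩ := lemB_unit n d hn hnd A hA
  refine ⟨κ, hκ, ε0, hε0, CB, hCB, fun μ x s ν ε hs h1 h2 h3 h4 h5 => ?_⟩
  have e1 := flat_resc_iff (n := n) (μ := μ) (x := x) (U := LinearIsometryEquiv.refl ℝ (E d))
    hs x hs ε
  have e2 := flat_resc_iff (n := n) (μ := μ) (x := x) (U := LinearIsometryEquiv.refl ℝ (E d))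
    hs x (mul_pos (sc_pos κ) hs) (ε / 2)
  rw [sim_self, div_self hs.ne'] at e1
  rw [sim_self, mul_div_cancel_right₀ _ hs.ne'] at e2
  exact e2.1 (H _ ν ε (h1.resc hs) h2 h3 h4 (e1.2 h5))

end Vale.Agent.P120
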