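import Vale.Agent.P120.Cacc4
import Vale.Agent.P120.Conv4

/-!
P120 LimEq1. Overview in notes/P120.md, definitions in Defs.lean.
Name every helper lemma of yours with the file name in front (for example limeq1_aux1).

PLAN.
nu_lim: ν = (ν/ε) ε. low: hyp with ρ = 1. wl2: (h y i)^2 <= |h y|^2 (PiLp.norm_apply_le), ex_unit, ex_unit_integrable. limit: Conv.rr; for the support,
|hh 0 V y| <= |hh p V y| + |p| (hh = projection of y - p), so ex μ_k 0 1 0 V <= 2 ε_k^2 + 2 |p_k|^2 Cad A → 0; Conv.ex_tendsto, support_subset_of_ex_zero.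
ee: pick m with 2R <= 2^m, cacc with S = 2^m and ν = 2^m ν_k (eventually 2^m ν_k <= 1 and ν_k <= ε_k).
lam_small: R' = max (2R) 1 (so ψ is a test at (0, R'/2)), φ0 = bump 0 (1/2), c_k = (∫ ψ dμ_k)/(∫ φ0 dμ_k) → 0, ψ_k = ψ - c_k φ0, m with 2^m >= R'.
Dfc gives |Lam μ_k 0 (2^m) 0 ψ_k| <= K ν_k (Test.en_le, Test.integral_sq_le with L + 4, eventually |c_k| <= 1), Lam_eq_of_mean_zero, Lam_sub_mul;
|T (Lam p 1 0 φ0)| <= K ε_k (normal_sing_le with δ = 1, normal_one_le, ee); |T (Lam 0 ψ - Lam δ ψ)| <= K sqrt δ ε_k (normal_sing_le, ee).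
Eventually K ν_k <= sqrt δ ε_k and K |c_k| <= sqrt δ.
-/

open MeasureTheory Metric Set Filter Topology
open scoped ENNReal NNReal RealInnerProductSpace

namespace Vale.Agent.P120

variable {d : ℕ}

variable {n : ℕ} {A : ℝ} {l : Filter ℕ} {μs : ℕ → Measure (E d)} {μ : Measure (E d)}
  {V : Submodule ℝ (E d)} {ps : ℕ → E d} {εs νs : ℕ → ℝ}

theorem Seq.nu_lim (h : Seq n A l μs μ V ps εs νs) : Tendsto νs l (𝓝 0) := by
  have h1 := h.ratio.mul h.eps_lim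
  rw [zero_mul] at h1
  exact h1.congr fun k => div_mul_cancel₀ _ (h.eps_pos k).ne'

theorem Seq.low (h : Seq n A l μs μ V ps εs νs) (k : ℕ) : Low n A 1 (μs k) :=
  (h.hyp k).2.1 1 (by simpa using h.nu_le k)

theorem Seq.wl2 (hA : 1 ≤ A) (h : Seq n A l μs μ V ps εs νs) (i : Fin d) (k : ℕ) :
    WL2 n (μs k) (uu ps V εs i k) 1 := by
  have h1 := (ex_unit_integrable (zero_le_one.trans hA) (h.conv.1 k) (ps k) V).const_mul
    ((εs k)⁻¹ ^ 2)
  have hc : Continuous (uu ps V εs i k) := by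
    have := continuous_hh (ps k) V
    unfold uu
    fun_prop
  have h2 : ∀ y, uu ps V εs i k y ^ 2 * ww (n + 3) y ≤
      (εs k)⁻¹ ^ 2 * (‖hh (ps k) V y‖ ^ 2 * ww (n + 3) y) := fun y => by
    have h3 := (ww_pos (n + 3) y).le
    rw [uu, mul_pow, mul_assoc, ← sq_abs (hh (ps k) V y i)]
    gcongr
    exact PiLp.norm_apply_le (hh (ps k) V y) i
  have h3 : Integrable (fun y => uu ps V εs i k y ^ 2 * ww (n + 3) y) (μs k) :=
    h1.mono' ((hc.pow 2).mul (continuous_ww _)).aestronglyMeasurable (Eventually.of_forall fun y =>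
      (abs_of_nonneg (mul_nonneg (sq_nonneg _) (ww_pos _ y).le)).trans_le (h2 y))
  refine ⟨hc.measurable, h3, (integral_mono h3 h1 h2).trans ?_⟩
  rw [integral_const_mul, ← ex_unit, inv_pow, inv_mul_le_iff₀ (pow_pos (h.eps_pos k) 2), mul_one]
  exact h.ex_le k

theorem Seq.limit [l.NeBot] (hn : 1 ≤ n) (hA : 1 ≤ A) (h : Seq n A l μs μ V ps εs νs) :
    RR n A μ ∧ (0 : E d) ∈ μ.support ∧ μ.support ⊆ (V : Set (E d)) := by
  have hA0 := zero_le_one.trans hA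
  obtain ⟨h1, h2⟩ := h.conv.rr hn hA h.hyp h.nu_lim
  refine ⟨h1, h2, support_subset_of_ex_zero hA0 h1.1 V
    (le_antisymm ?_ (ex_nonneg n μ 0 one_pos 0 V))⟩
  have h3 := ((h.eps_lim.pow 2).const_mul 2).add
    (((h.p_lim.norm.pow 2).const_mul 2).mul_const (Cad n * A))
  simp only [norm_zero, ne_eq, two_ne_zero, not_false_eq_true, zero_pow, mul_zero, zero_mul,
    add_zero] at h3
  refine le_of_tendsto_of_tendsto' (h.conv.ex_tendsto 0 one_pos 0 V) h3 fun k => ?_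
  have h4 := (ex_unit_integrable hA0 (h.conv.1 k) (ps k) V).const_mul 2
  obtain ⟨h5, h6⟩ := (h.conv.1 k).integrable_ww hA0
  have h7 := h.ex_le k
  rw [ex_unit] at h7 ⊢
  refine (integral_mono (ex_unit_integrable hA0 (h.conv.1 k) 0 V)
    (h4.add (h5.const_mul (2 * ‖ps k‖ ^ 2))) fun y => ?_).trans ?_
  · have h8 : ‖hh 0 V y‖ ≤ ‖hh (ps k) V y‖ + ‖ps k‖ := by
      have e : hh 0 V y = hh (ps k) V y + Vᗮ.starProjection (ps k) := by
        rw [hh, hh, ← map_add, sub_zero, sub_add_cancel]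
      rw [e]
      exact norm_add_le_of_le le_rfl (Submodule.norm_starProjection_apply_le _ _)
    have h9 := ww_anti (show n + 1 ≤ n + 3 by omega) y
    have h10 := (ww_pos (n + 3) y).le
    calc _ ≤ (2 * ‖hh (ps k) V y‖ ^ 2 + 2 * ‖ps k‖ ^ 2) * ww (n + 3) y := by
          refine mul_le_mul_of_nonneg_right ((pow_le_pow_left₀ (norm_nonneg _) h8 2).trans ?_) h10
          nlinarith [sq_nonneg (‖hh (ps k) V y‖ - ‖ps k‖)]
      _ = 2 * (‖hh (ps k) V y‖ ^ 2 * ww (n + 3) y) + 2 * ‖ps k‖ ^ 2 * ww (n + 3) y := by ring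
      _ ≤ 2 * (‖hh (ps k) V y‖ ^ 2 * ww (n + 3) y) + 2 * ‖ps k‖ ^ 2 * ww (n + 1) y := by gcongr
  · rw [integral_add' h4 (h5.const_mul _), integral_const_mul, integral_const_mul]
    gcongr

theorem Seq.ee (hn : 1 ≤ n) (hA : 1 ≤ A) (h : Seq n A l μs μ V ps εs νs) {R : ℝ} (hR : 1 ≤ R) :
    ∃ C : ℝ, ∀ᶠ k in l, EE n (μs k) R (ps k) V ≤ C * εs k ^ 2 := by
  obtain ⟨m, hm⟩ := pow_unbounded_of_one_lt (2 * R) (one_lt_two (α := ℝ))
  obtain ⟨C, hC, H⟩ := cacc n d hn A R (2 ^ m * 1) hA hR (by linarith)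
  refine ⟨C * (1 + (2 ^ m) ^ 2), ?_⟩
  filter_upwards [(h.nu_lim.const_mul (2 ^ m)).eventually_le_const (show _ < (1 : ℝ) by simp),
    h.ratio.eventually_le_const one_pos] with k k1 k2
  have h1 := (h.hyp k).2.2.2.1
  rw [div_le_one (h.eps_pos k)] at k2
  refine (H _ (h.conv.1 k) (h.low k) (h.hyp k).2.2.1 _ V _ _ (h.p_le k) (h.eps_pos k).le
    (by positivity) (h.ex_le k) ((h.hyp k).2.2.2.2 m k1)).trans ?_
  rw [mul_assoc, add_mul, one_mul, mul_pow]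
  gcongr

theorem Seq.lam_small (hn : 1 ≤ n) (hA : 1 ≤ A) (h : Seq n A l μs μ V ps εs νs) {ψ : E d → ℝ}
    {R L : ℝ} (hR : 0 < R) (hψ : Test ψ 0 R L) (h0 : ∫ y, ψ y ∂μ = 0) :
    ∃ C : ℝ, ∀ δ : ℝ, 0 < δ → δ ≤ 1 → ∀ᶠ k in l,
      ‖Vᗮ.starProjection (Lam n (μs k) (ps k) 1 δ ψ)‖ ≤ C * √δ * εs k := by
  have hA0 := zero_le_one.trans hA
  obtain ⟨S, hS1, hS⟩ : ∃ S : ℝ, 1 ≤ S ∧ R ≤ S / 2 :=
    ⟨max (2 * R) 1, le_max_right _ _, by linarith [le_max_left (2 * R) 1]⟩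
  have hS0 : 0 < S / 2 := by linarith
  have t1 : Test ψ 0 (S / 2) L := hψ.mono (by simpa using hS) le_rfl hR.le
  have t2 : Test (bump (0 : E d) (1 / 2)) 0 (S / 2) 4 :=
    (bump_test 0 one_half_pos).mono (by rw [dist_self]; linarith) (by norm_num) (by norm_num)
  obtain ⟨m, hm⟩ := pow_unbounded_of_one_lt (S / 2) (one_lt_two (α := ℝ))
  have hs : (0 : ℝ) < 2 ^ m * 1 := by positivity
  obtain ⟨C1, hC1, H1⟩ := normal_sing_le n d hn A S hA hS1
  obtain ⟨C2, H2⟩ := h.ee hn hA hS1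
  obtain ⟨C3, hC3, H3⟩ := normal_one_le n d A (S / 2) hA hS0
  have hb : ∀ k, A⁻¹ * (1 / 2 / 2) ^ n ≤ ∫ y, bump (0 : E d) (1 / 2) y ∂(μs k) := fun k =>
    le_integral_bump (h.conv.1 k) (h.low k) (h.hyp k).2.2.1 one_half_pos (by norm_num)
  have ha : 0 < A⁻¹ * (1 / 2 / 2 : ℝ) ^ n := by positivity
  have c1 : Tendsto (fun k => |(∫ y, ψ y ∂(μs k)) / ∫ y, bump (0 : E d) (1 / 2) y ∂(μs k)|) l
      (𝓝 0) := by
    have c0 := (h.conv.test hψ).abs.div_const (A⁻¹ * (1 / 2 / 2) ^ n)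
    rw [h0, abs_zero, zero_div] at c0
    refine squeeze_zero (fun _ => abs_nonneg _) (fun k => ?_) c0
    rw [abs_div, abs_of_pos (ha.trans_le (hb k))]
    exact div_le_div_of_nonneg_left (abs_nonneg _) ha (hb k)
  refine ⟨C1 * L * (√C2 + 1) + 2, fun δ hδ hδ1 => ?_⟩
  have hq := Real.sqrt_pos.2 hδ
  filter_upwards [H2, (h.nu_lim.const_mul (2 ^ m)).eventually_le_const (show _ < (1 : ℝ) by simp),
    c1.eventually_le_const one_pos,
    (c1.mul_const (C1 * 4 * (√C2 + 1) + C3 * 4)).eventually_le_const (show _ < √δ by simpa),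
    (h.ratio.mul_const (2 ^ m * √((2 ^ m * 1) ^ n) *
      (√(2 ^ m * 1 * (10 * Cad n * A ^ 2 * (L + 4) ^ 2 * (2 ^ m * 1) ^ (n + 1))) +
        √(((L + 4) * (2 ^ m * 1)) ^ 2 * (A * (2 ^ m * 1) ^ n))))).eventually_le_const
      (show _ < √δ by simpa)] with k k0 k1 k2 k3 k4
  have hU := h.conv.1 k
  have he := h.eps_pos k
  have k5 := (ha.trans_le (hb k)).ne'
  generalize hc : (∫ y, ψ y ∂(μs k)) / ∫ y, bump (0 : E d) (1 / 2) y ∂(μs k) = c at k2 k3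
  have t3 : Test (fun y => ψ y - c * bump (0 : E d) (1 / 2) y) 0 (2 ^ m * 1) (L + 4) :=
    (t1.sub_mul t2 c).mono (by simpa using hm.le) (by linarith) hS0.le
  have m0 : ∫ y, (ψ y - c * bump (0 : E d) (1 / 2) y) ∂(μs k) = 0 := by
    rw [integral_sub (t1.integrable hU) ((t2.integrable hU).const_mul c),
      integral_const_mul, ← hc, div_mul_cancel₀ _ k5, sub_self]
  have d1 := (h.hyp k).2.2.2.2 m k1 _ _ t3 m0
  rw [Lam_eq_of_mean_zero hn hA0 hU t3 hs m0 0 (ps k) hs one_pos le_rfl,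
    Lam_sub_mul hn hA0 hU t1 hS0 t2 hS0 c _ one_pos le_rfl] at d1
  have d2 : ‖Lam n (μs k) (ps k) 1 0 ψ - c • Lam n (μs k) (ps k) 1 0 (bump 0 (1 / 2))‖ ≤
      √δ * εs k := by
    rw [div_mul_eq_mul_div, div_le_iff₀ he] at k4
    refine d1.trans (le_trans ?_ k4)
    have d2 := t3.en_le hn hA0 hU hs
    have d3 := t3.integral_sq_le hA0 hU hs
    have d4 := (h.hyp k).2.2.2.1
    rw [mul_comm (2 ^ m) (νs k), mul_assoc, mul_assoc, ← mul_assoc (2 ^ m)]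
    gcongr
  have e1 : √(EE n (μs k) S (ps k) V) + εs k ≤ (√C2 + 1) * εs k := by
    have := Real.sqrt_le_sqrt k0
    rw [Real.sqrt_mul' _ (sq_nonneg _), Real.sqrt_sq he.le] at this
    linarith
  have d3 := (H1 _ hU _ V _ he.le (h.ex_le k) ψ L t1 (ps k) 1 δ one_pos hδ hδ1).trans
    (mul_le_mul_of_nonneg_left e1 (by have := t1.1; positivity))
  have d4 := (H1 _ hU _ V _ he.le (h.ex_le k) _ 4 t2 (ps k) 1 1 one_pos one_pos le_rfl).trans
    (mul_le_mul_of_nonneg_left e1 (by positivity))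
  have d5 := H3 _ hU _ V _ (h.p_le k) he.le (h.ex_le k) _ 4 t2
  have d6 : ‖Vᗮ.starProjection (c • Lam n (μs k) (ps k) 1 0 (bump 0 (1 / 2)))‖ ≤ √δ * εs k := by
    rw [map_sub, Real.sqrt_one] at d4
    have d7 := norm_add_le_of_le d4 d5
    rw [sub_add_cancel] at d7
    rw [map_smul, norm_smul, Real.norm_eq_abs]
    calc _ ≤ |c| * ((C1 * 4 * (√C2 + 1) + C3 * 4) * εs k) :=
          mul_le_mul_of_nonneg_left (d7.trans_eq (by ring)) (abs_nonneg c)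
      _ ≤ _ := by rw [← mul_assoc]; gcongr
  have d8 := norm_sub_le_of_le (norm_add_le_of_le
    ((Vᗮ.norm_starProjection_apply_le _).trans d2) d6) d3
  rw [← map_add, ← map_sub, sub_add_cancel, sub_sub_cancel] at d8
  exact d8.trans_eq (by ring)

end Vale.Agent.P120
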