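import Vale.Agent.P120.LimEq1
import Vale.Agent.P120.Conv6

/-!
P120 LimEq2. Overview in notes/P120.md, definitions in Defs.lean.
Name every helper lemma of yours with the file name in front (for example limeq2_aux1).

PLAN.
By normal_reg_eq and lam_small, |∫ uu k y * ∫ FF δ (p_k) ψ (u,y)| <= C sqrt δ eventually (divide by ε_k; a coordinate is bounded by the norm).
∫ u, FF δ p ψ (u,y) = ∫ u, FF δ 0 ψ (u,y) + m_k (kk 1 (p - y) - kk 1 (0 - y)) with m_k = ∫ ψ dμ_k → 0 (Conv.test), and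
|∫ uu k (kk 1 (p_k - y) - kk 1 (0 - y))| <= K (kk_diff_le_ww with R = 1, WL2.l1). WConv.double with F = FF δ 0 ψ (continuous_FF, FF_bound), and
∫ u, FF δ 0 ψ (u,y) dμ = LL n μ δ ψ y + kk 1 (0 - y) ∫ ψ (kk_sub_comm; kk δ (y - .) is μ-integrable by kk_le_ww). le_of_tendsto.
-/

open MeasureTheory Metric Set Filter Topology
open scoped ENNReal NNReal RealInnerProductSpace

namespace Vale.Agent.P120

variable {d : ℕ}

variable {n : ℕ} {A : ℝ} {l : Filter ℕ} {μs : ℕ → Measure (E d)} {μ : Measure (E d)}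
  {V : Submodule ℝ (E d)} {ps : ℕ → E d} {εs νs : ℕ → ℝ}

theorem limeq2_add (hA : 0 ≤ A) (hU : Up n A μ) {δ : ℝ} (hδ : 0 < δ) {ψ : E d → ℝ} {R L : ℝ}
    (hψ : Test ψ 0 R L) (y : E d) (c : ℝ) :
    ∫ x, (FF n δ 0 ψ (x, y) + ψ x * c) ∂μ = ∫ x, FF n δ 0 ψ (x, y) ∂μ + (∫ x, ψ x ∂μ) * c := by
  obtain ⟨C, hC⟩ := FF_bound n hδ 0 hψ
  rw [integral_add _ ((hψ.integrable hU).mul_const c), integral_mul_const]
  refine hU.integrable_of_le hA (C := C * ww (n + 2) y) (((continuous_FF n hδ 0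
    hψ.continuous).comp (Continuous.prodMk_left y)).aestronglyMeasurable) fun x => ?_
  rw [mul_right_comm]
  exact hC x y

theorem limeq2_shift (hA : 0 ≤ A) (hU : Up n A μ) {δ : ℝ} (hδ : 0 < δ) {ψ : E d → ℝ} {R L : ℝ}
    (hψ : Test ψ 0 R L) {u : E d → ℝ} (hu : WL2 n μ u 1) {p : E d} {K : ℝ}
    (hK : ∀ y, |kk n 1 (p - y) - kk n 1 (0 - y)| ≤ K * ww (n + 2) y) (hK0 : 0 ≤ K) :
    |∫ y, u y * ∫ x, FF n δ 0 ψ (x, y) ∂μ ∂μ| ≤ |∫ y, u y * ∫ x, FF n δ p ψ (x, y) ∂μ ∂μ| +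
      |∫ x, ψ x ∂μ| * (K * √(Cad n * A)) := by
  obtain ⟨C, hC⟩ := FF_bound n hδ 0 hψ
  have e : ∀ y, u y * ∫ x, FF n δ p ψ (x, y) ∂μ = u y * ∫ x, FF n δ 0 ψ (x, y) ∂μ +
      (∫ x, ψ x ∂μ) * (u y * (kk n 1 (p - y) - kk n 1 (0 - y))) := fun y => by
    rw [mul_left_comm, ← mul_add, ← limeq2_add hA hU hδ hψ]
    congr 2
    funext x
    simp only [FF]
    ring
  have c := continuous_kk (d := d) n one_pos
  have i1 := hu.integrable_mul hA hU (hU.continuous_param hA (continuous_FF n hδ 0 hψ.continuous)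
    (conv3_hb hC)).aestronglyMeasurable (conv3_inner hA hU hC)
  have i2 := hu.integrable_mul hA hU (Continuous.aestronglyMeasurable (by fun_prop)) hK
  have b : |∫ y, u y * (kk n 1 (p - y) - kk n 1 (0 - y)) ∂μ| ≤ K * √(Cad n * A) := by
    obtain ⟨j1, j2⟩ := hu.l1 hA hU
    rw [Real.sqrt_one, one_mul] at j2
    rw [← Real.norm_eq_abs]
    refine (norm_integral_le_of_norm_le (j1.const_mul K) (Eventually.of_forall fun y => ?_)).trans
      ((integral_const_mul _ _).trans_le (mul_le_mul_of_nonneg_left j2 hK0))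
    rw [Real.norm_eq_abs, abs_mul, mul_left_comm]
    exact mul_le_mul_of_nonneg_left (hK y) (abs_nonneg _)
  simp only [e]
  rw [integral_add i1 (i2.const_mul _), integral_const_mul]
  refine le_trans ?_ (add_le_add_right (mul_le_mul_of_nonneg_left b (abs_nonneg _)) _)
  rw [← abs_mul]
  exact (congrArg _ (add_sub_cancel_right _ _).symm).trans_le (abs_sub _ _)

theorem Seq.limit_eq [l.NeBot] (hn : 1 ≤ n) (hA : 1 ≤ A) (h : Seq n A l μs μ V ps εs νs)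
    (i : Fin d) {u : E d → ℝ} (hw : WConv n l μs μ (uu ps V εs i) u) {ψ : E d → ℝ} {R L : ℝ}
    (hR : 0 < R) (hψ : Test ψ 0 R L) (h0 : ∫ y, ψ y ∂μ = 0) :
    ∃ C : ℝ, ∀ δ : ℝ, 0 < δ → δ ≤ 1 → |∫ y, u y * LL n μ δ ψ y ∂μ| ≤ C * √δ := by
  have hA0 : 0 ≤ A := by linarith
  obtain ⟨C, hC⟩ := h.lam_small hn hA hR hψ h0
  obtain ⟨K, hK0, hK⟩ := kk_diff_le_ww (d := d) n one_pos one_pos 1
  refine ⟨C, fun δ hδ hδ1 => ?_⟩
  obtain ⟨C', hC'⟩ := FF_bound n hδ 0 hψ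
  have T := WConv.double hA0 h.conv (h.wl2 hA i) hw (continuous_FF n hδ 0 hψ.continuous) hC'
  have e : ∀ y, ∫ x, FF n δ 0 ψ (x, y) ∂μ = LL n μ δ ψ y := fun y => by
    have := limeq2_add hA0 h.conv.2.1 hδ hψ y (-kk n 1 (0 - y))
    rw [h0, zero_mul, add_zero] at this
    rw [← this, LL]
    congr 1
    funext x
    simp only [FF, kk_sub_comm n δ x y]
    ring
  simp only [e] at T
  have T' := ((h.conv.test hψ).abs.mul_const (K * √(Cad n * A))).const_add (C * √δ)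
  rw [h0, abs_zero, zero_mul, add_zero] at T'
  refine le_of_tendsto_of_tendsto T.abs T' ?_
  filter_upwards [hC δ hδ hδ1] with k hk
  refine (limeq2_shift hA0 (h.conv.1 k) hδ hψ (h.wl2 hA i k)
    (fun y => hK (ps k) 0 y (h.p_le k) (by simp)) hK0.le).trans (add_le_add_left ?_ _)
  simp only [uu, mul_assoc]
  rw [integral_const_mul, ← normal_reg_eq hA0 (h.conv.1 k) (ps k) V hψ hδ i, abs_mul,
    abs_of_pos (inv_pos.2 (h.eps_pos k)), inv_mul_le_iff₀' (h.eps_pos k)]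
  exact (PiLp.norm_apply_le _ i).trans hk

end Vale.Agent.P120
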