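import Vale.Agent.P120.LimEq2
import Vale.Agent.P120.Flat5

/-!
P120 LimEq3. Overview in notes/P120.md, definitions in Defs.lean.
Name every helper lemma of yours with the file name in front (for example limeq3_aux1).

PLAN.
Seq.limit and flat_class give μ = ofReal θ • volume.map ι. Integrals: integral_smul_measure, MeasurableEmbedding.integral_map (measurableEmbedding_iota).
WL1 n (u ∘ ι) from WL2.l1 (integrable_smul_measure, MeasurableEmbedding.integrable_map_iff, ww_iota). Harm: for ψ take R, L (exists_test_of_contDiff), ψ' (Test.ext_iota);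
∫ ψ' dμ = θ ∫ ψ = 0 and ∫ u LL μ δ ψ' dμ = θ^2 ∫ (u ∘ ι) LL volume δ ψ (LL_map); limit_eq and squeeze (sqrt δ → 0). liouville, then transfer the a.e. equality
(Measure.ae_smul_measure, MeasurableEmbedding.ae_map_iff, π0 (ι x) = x).
-/

open MeasureTheory Metric Set Filter Topology
open scoped ENNReal NNReal RealInnerProductSpace

namespace Vale.Agent.P120

variable {d : ℕ}

theorem Seq.affine {n : ℕ} {A : ℝ} {l : Filter ℕ} [l.NeBot] {μs : ℕ → Measure (E d)}
    {μ : Measure (E d)} {ps : ℕ → E d} {εs νs : ℕ → ℝ} {ι : E n →ₗᵢ[ℝ] E d}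
    {π0 : E d →L[ℝ] E n} (hn : 1 ≤ n) (hA : 1 ≤ A) (hE : Emb ι π0)
    (h : Seq n A l μs μ (rg ι) ps εs νs) (i : Fin d) {u : E d → ℝ} (hu : WL2 n μ u 1)
    (hw : WConv n l μs μ (uu ps (rg ι) εs i) u) :
    ∃ (b : ℝ) (v : E n), u =ᵐ[μ] fun y => b + ⟪v, π0 y⟫ := by
  obtain ⟨h1, h2, h3⟩ := h.limit hn hA
  obtain ⟨θ, hθ, e⟩ := flat_class hn hA hE h1 h2 h3
  have hm := measurableEmbedding_iota ι
  have hI : ∀ g : E d → ℝ, ∫ y, g y ∂μ = θ * ∫ x, g (ι x) := fun g => by
    rw [e, integral_smul_measure, hm.integral_map, ENNReal.toReal_ofReal hθ.le, smul_eq_mul]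
  have hL : ∀ δ ψ x, LL n μ δ ψ (ι x) = θ * LL n volume δ (fun x => ψ (ι x)) x := fun δ ψ x => by
    rw [← LL_map, LL, LL, hI, hm.integral_map]
  have w1 : WL1 n fun x => u (ι x) := by
    have a := (hu.l1 (zero_le_one.trans hA) h1.1).1
    rw [e, integrable_smul_measure (by simpa using hθ) ENNReal.ofReal_ne_top,
      hm.integrable_map_iff] at a
    exact ⟨(hu.1.comp hm.measurable).aestronglyMeasurable,
      a.congr (ae_of_all _ fun x => by simp only [Function.comp, ww_iota])⟩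
  have w2 : Harm n fun x => u (ι x) := fun ψ c1 c2 c3 => by
    obtain ⟨R, L, hR, hT⟩ := exists_test_of_contDiff (c1.of_le one_le_two) c2
    obtain ⟨ψ', L', hT', e'⟩ := hT.ext_iota hE (by linarith)
    obtain ⟨C, hC⟩ := h.limit_eq hn hA i hw (by linarith) hT' (by simp only [hI, e', c3, mul_zero])
    have t : Tendsto (fun δ : ℝ => C * √δ / θ ^ 2) (𝓝[>] 0) (𝓝 0) := by
      have c : Continuous fun δ : ℝ => C * √δ / θ ^ 2 := by fun_prop
      simpa using (c.tendsto 0).mono_left (nhdsWithin_le_nhds (s := Ioi 0))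
    refine squeeze_zero_norm' ?_ t
    filter_upwards [Ioc_mem_nhdsGT zero_lt_one] with δ hδ
    have a := hC δ hδ.1 hδ.2
    simp only [hI, hL, e', mul_left_comm _ θ, integral_const_mul, abs_mul, abs_of_pos hθ] at a
    rw [Real.norm_eq_abs, le_div_iff₀ (by positivity)]
    linarith
  obtain ⟨b, v, hb⟩ := liouville hn w1 w2
  refine ⟨b, v, ?_⟩
  rw [e]
  refine Measure.ae_smul_measure (hm.ae_map_iff.2 (hb.mono fun x hx => ?_)) _
  simpa only [hE.1] using hx

end Vale.Agent.P120
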