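import Vale.Agent.P120.Defs2
import Vale.Agent.P120.ADInt

/-!
P120 Liou0. Overview in notes/P120.md, definitions in Defs.lean.
Name every helper lemma of yours with the file name in front (for example liou0_aux1).

PLAN.
second_diff_le: apply the mean value inequality (Convex.norm_image_sub_le_of_norm_fderiv_le on closedBall y |a|) to
g w = u (w + b) - u w, whose derivative fderiv u (w + b) - fderiv u w has norm <= M |b| by the mean value inequality for fderiv ℝ u on the convex set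
closedBall y (|a| + |b|) (norm (fderiv (fderiv u) w) = norm (iteratedFDeriv ℝ 2 u w): norm_fderiv_iteratedFDeriv, norm_iteratedFDeriv_fderiv,
norm_iteratedFDeriv_zero). integrable_ww_vol and integrable_kk_vol: up_volume, Up.integrable_ww, kk_le_ww.
Dec lemmas: j = 0 gives the sup bound (norm_iteratedFDeriv_zero). dec_of_schwartz: SchwartzMap.one_add_le_sup_seminorm_apply (or
le_seminorm) and ContinuousLinearMap.norm_iteratedFDeriv_comp_left.
-/

open MeasureTheory Metric Set Filter Topology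
open scoped ENNReal NNReal RealInnerProductSpace
open scoped FourierTransform SchwartzMap

namespace Vale.Agent.P120

variable {d : ℕ}

theorem second_diff_le {G : Type*} [NormedAddCommGroup G] [NormedSpace ℝ G] {u : E d → G}
    (hu : ContDiff ℝ 2 u) (y a b : E d) {M : ℝ}
    (hM : ∀ w, ‖w - y‖ ≤ ‖a‖ + ‖b‖ → ‖iteratedFDeriv ℝ 2 u w‖ ≤ M) :
    ‖u (y + a + b) - u (y + a) - u (y + b) + u y‖ ≤ M * ‖a‖ * ‖b‖ := by
  have h1 : ContDiff ℝ 1 (fderiv ℝ u) := hu.fderiv_right (m := 1) le_rfl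
  have d0 : Differentiable ℝ u := hu.differentiable (by norm_num)
  have d1 : Differentiable ℝ (fderiv ℝ u) := h1.differentiable (by norm_num)
  have key : ∀ w ∈ closedBall y ‖a‖, ‖fderiv ℝ u (w + b) - fderiv ℝ u w‖ ≤ M * ‖b‖ := by
    intro w hw
    rw [mem_closedBall, dist_eq_norm] at hw
    have := (convex_closedBall y (‖a‖ + ‖b‖)).norm_image_sub_le_of_norm_fderiv_le (𝕜 := ℝ)
      (f := fderiv ℝ u) (C := M) (x := w) (y := w + b) (fun z _ => d1 z) (fun z hz => by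
        rw [← norm_iteratedFDeriv_one, norm_iteratedFDeriv_fderiv]
        exact hM z (by rwa [mem_closedBall, dist_eq_norm] at hz))
      (by rw [mem_closedBall, dist_eq_norm]; linarith [norm_nonneg b])
      (by
        rw [mem_closedBall, dist_eq_norm, add_sub_right_comm]
        linarith [norm_add_le (w - y) b])
    rwa [add_sub_cancel_left] at this
  have := (convex_closedBall y ‖a‖).norm_image_sub_le_of_norm_hasFDerivWithin_le (𝕜 := ℝ)
    (f := fun w => u (w + b) - u w) (f' := fun w => fderiv ℝ u (w + b) - fderiv ℝ u w)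
    (x := y) (y := y + a) (fun w _ => (((hasFDerivAt_comp_add_right b).2 (d0 (w + b)).hasFDerivAt).sub
      (d0 w).hasFDerivAt).hasFDerivWithinAt) key (mem_closedBall_self (norm_nonneg a))
    (by rw [mem_closedBall, dist_eq_norm, add_sub_cancel_left])
  rw [add_sub_cancel_left, mul_right_comm] at this
  refine le_of_eq_of_le (congrArg _ ?_) this
  abel

theorem integrable_ww_vol (n : ℕ) : Integrable (ww (n + 1) : E n → ℝ) volume := by
  obtain ⟨A, hA, hU⟩ := up_volume n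
  exact (hU.integrable_ww (by linarith)).1

theorem integrable_kk_vol (n : ℕ) {δ : ℝ} (hδ : 0 < δ) (y : E n) :
    Integrable (fun x : E n => kk n δ (y - x)) volume := by
  obtain ⟨A, hA, hU⟩ := up_volume n
  obtain ⟨C, -, hC⟩ := kk_le_ww (d := n) n hδ ‖y‖
  refine hU.integrable_of_le (by linarith) (C := C)
    ((continuous_kk n hδ).comp (continuous_const.sub continuous_id)).aestronglyMeasurable fun x => ?_
  rw [Real.norm_of_nonneg (kk_nonneg _ _ _)]
  exact hC y x le_rfl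

theorem liou0_ww {N : ℕ} {x : E d} {a B : ℝ} (h : (1 + ‖x‖) ^ N * a ≤ B) : a ≤ B * ww N x := by
  rw [ww, ← div_eq_mul_inv, le_div_iff₀' (by positivity)]
  exact h

theorem Dec.nonneg {N : ℕ} {u : E d → ℝ} {B : ℝ} (h : Dec N u B) : 0 ≤ B := by
  exact le_trans (by positivity) (h.2 0 (by norm_num) 0)

theorem Dec.abs_le {N : ℕ} {u : E d → ℝ} {B : ℝ} (h : Dec N u B) (x : E d) :
    |u x| ≤ B * ww N x := by
  have := h.2 0 (by norm_num) x
  rw [norm_iteratedFDeriv_zero] at this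
  exact liou0_ww this

theorem Dec.snd_le {N : ℕ} {u : E d → ℝ} {B : ℝ} (h : Dec N u B) (x : E d) :
    ‖iteratedFDeriv ℝ 2 u x‖ ≤ B * ww N x := by
  exact liou0_ww (h.2 2 le_rfl x)

theorem Dec.anti {N N' : ℕ} {u : E d → ℝ} {B : ℝ} (h : Dec N u B) (hN : N' ≤ N) :
    Dec N' u B := by
  refine ⟨h.1, fun j hj x => le_trans (mul_le_mul_of_nonneg_right ?_ (norm_nonneg _)) (h.2 j hj x)⟩
  exact pow_le_pow_right₀ (by linarith [norm_nonneg x]) hN

theorem exists_dec_of_compact (N : ℕ) {u : E d → ℝ} (hu : ContDiff ℝ 2 u)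
    (hc : HasCompactSupport u) : ∃ B, Dec N u B := by
  have key : ∀ j : ℕ, ∃ B : ℝ, j ≤ 2 → ∀ x, (1 + ‖x‖) ^ N * ‖iteratedFDeriv ℝ j u x‖ ≤ B := by
    intro j
    by_cases hj : j ≤ 2
    · have h1 : Continuous fun x => (1 + ‖x‖) ^ N * ‖iteratedFDeriv ℝ j u x‖ :=
        ((continuous_const.add continuous_norm).pow N).mul
          (hu.continuous_iteratedFDeriv (by exact_mod_cast hj)).norm
      obtain ⟨B, hB⟩ := h1.bounded_above_of_compact_support (hc.iteratedFDeriv j).norm.mul_left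
      exact ⟨B, fun _ x => (le_abs_self _).trans (hB x)⟩
    · exact ⟨0, fun c => absurd c hj⟩
  choose B hB using key
  refine ⟨max (B 0) (max (B 1) (B 2)), hu, fun j hj x => (hB j hj x).trans ?_⟩
  interval_cases j <;> simp

theorem liou0_schw (N : ℕ) (Ψ : 𝓢(E d, ℂ)) :
    ∃ B, ∀ j ≤ 2, ∀ x, (1 + ‖x‖) ^ N * ‖iteratedFDeriv ℝ j Ψ x‖ ≤ B :=
  ⟨_, fun _ hj x => SchwartzMap.one_add_le_sup_seminorm_apply (𝕜 := ℝ) (m := (N, 2)) le_rfl hj Ψ x⟩

theorem dec_of_schwartz (N : ℕ) (Ψ : 𝓢(E d, ℂ)) (T : ℂ →L[ℝ] ℝ) :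
    ∃ B, Dec N (fun x => T (Ψ x)) B := by
  obtain ⟨B, hB⟩ := liou0_schw N Ψ
  refine ⟨‖T‖ * B, T.contDiff.comp (Ψ.smooth 2), fun j hj x => ?_⟩
  have := T.norm_iteratedFDeriv_comp_left (Ψ.smooth j).contDiffAt (x := x) (n := j) le_rfl
  calc _ ≤ (1 + ‖x‖) ^ N * (‖T‖ * ‖iteratedFDeriv ℝ j Ψ x‖) :=
        mul_le_mul_of_nonneg_left this (by positivity)
    _ = ‖T‖ * ((1 + ‖x‖) ^ N * ‖iteratedFDeriv ℝ j Ψ x‖) := by ring
    _ ≤ _ := mul_le_mul_of_nonneg_left (hB j hj x) (norm_nonneg _)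

theorem schwartz_le_ww (N : ℕ) (Ψ : 𝓢(E d, ℂ)) :
    ∃ B, ∀ x, ‖Ψ x‖ ≤ B * ww N x ∧ ‖iteratedFDeriv ℝ 2 Ψ x‖ ≤ B * ww N x := by
  obtain ⟨B, hB⟩ := liou0_schw N Ψ
  refine ⟨B, fun x => ⟨?_, liou0_ww (hB 2 le_rfl x)⟩⟩
  have := hB 0 (by norm_num) x
  rw [norm_iteratedFDeriv_zero] at this
  exact liou0_ww this

end Vale.Agent.P120
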