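import Vale.Agent.P120.Liou0

/-!
P120 Liou1. Overview in notes/P120.md, definitions in Defs.lean.
Name every helper lemma of yours with the file name in front (for example liou1_aux1).

PLAN.
LL_decay. Substitute x = y - z (integral_sub_left_eq_self) and split kk δ = kk 1 + (kk δ - kk 1), 0 <= kk δ - kk 1 <= kk 0 - kk 1 off 0.
Part 1: u y ∫ kk 1 - ∫ kk 1 (y - x) u x dx, and since ∫ u = 0 the last integral is ∫ (kk 1 (y - x) - kk 1 y) u x dx; by kk_sub_le with
m = (1 + |y|) / (2 (1 + |x|)) (half_add_le_rr, Peetre) its integrand is <= C (1+|x|)^(n+3) ww (n+2) y * B ww (2n+4) x = C B ww (n+2) y ww (n+1) x.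
Part 2: symmetrise z ↦ -z (integral_neg_eq_self, kk_neg): half the integral of (kk δ - kk 1)(z) (2 u y - u (y+z) - u (y-z)).
For |z| <= 1, second_diff_le (a = z, b = -z) with M = B 3^N ww N y (Peetre) and Up.sing for volume (δ = 1). For |z| > 1,
(kk δ - kk 1) z <= (n+1) |z|^(-(n+3)) <= (n+1) 2^(n+3) ww (n+3) z, |u y| <= B ww (n+2) y, and ww (n+3) z |u (y ± z)| <= B ww (n+2) y * ww (n+1) (y ± z)
by Peetre (ww (n+2) z <= (1 + |y ± z|)^(n+2) ww (n+2) y), integrate by translation invariance.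
LL_continuous: continuous_of_dominated after the substitution (bound kk δ z * 2B).
-/

open MeasureTheory Metric Set Filter Topology
open scoped ENNReal NNReal RealInnerProductSpace

namespace Vale.Agent.P120

variable {d : ℕ}

theorem liou1_bdd {N : ℕ} {u : E d → ℝ} {B : ℝ} (hu : Dec N u B) (x : E d) : |u x| ≤ B :=
  (hu.abs_le x).trans (mul_le_of_le_one_right hu.nonneg (ww_le_one N x))

theorem liou1_bdd2 {N : ℕ} {u : E d → ℝ} {B : ℝ} (hu : Dec N u B) (x y : E d) :
    |u x - u y| ≤ 2 * B := by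
  have := abs_sub (u x) (u y)
  linarith [liou1_bdd hu x, liou1_bdd hu y]

theorem liou1_kk (n : ℕ) {δ : ℝ} (hδ : 0 < δ) : Integrable (kk n δ : E n → ℝ) volume := by
  have := integrable_kk_vol n hδ 0
  simpa only [zero_sub, kk_neg] using this

theorem liou1_mul {n : ℕ} {f v : E n → ℝ} (hf : Integrable f volume) (hv : Continuous v) {c : ℝ}
    (hc : ∀ x, |v x| ≤ c) : Integrable (fun x => f x * v x) volume :=
  hf.mul_bdd hv.aestronglyMeasurable (Eventually.of_forall hc)

theorem liou1_int (n : ℕ) {δ : ℝ} (hδ : 0 < δ) {N : ℕ} {u : E n → ℝ} {B : ℝ} (hu : Dec N u B)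
    (y : E n) : Integrable (fun x => kk n δ (y - x) * (u y - u x)) volume :=
  liou1_mul (integrable_kk_vol n hδ y) (continuous_const.sub hu.1.continuous) (liou1_bdd2 hu y)

theorem liou1_sub (n : ℕ) (δ : ℝ) (u : E n → ℝ) (y : E n) :
    LL n volume δ u y = ∫ z, kk n δ z * (u y - u (y - z)) := by
  unfold LL
  rw [← integral_sub_left_eq_self _ volume y]
  simp only [sub_sub_cancel]

theorem liou1_add (n : ℕ) (δ : ℝ) (u : E n → ℝ) (y : E n) :
    LL n volume δ u y = ∫ z, kk n δ z * (u y - u (y + z)) := by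
  rw [liou1_sub, ← integral_neg_eq_self]
  simp only [kk_neg, sub_neg_eq_add]

theorem LL_sub (n : ℕ) {δ : ℝ} (hδ : 0 < δ) {N : ℕ} {u v : E n → ℝ} {B B' : ℝ} (hu : Dec N u B)
    (hv : Dec N v B') (y : E n) :
    LL n volume δ (fun x => u x - v x) y = LL n volume δ u y - LL n volume δ v y := by
  unfold LL
  rw [← integral_sub (liou1_int n hδ hu y) (liou1_int n hδ hv y)]
  refine integral_congr_ae (Eventually.of_forall fun x => ?_)
  ring

theorem LL_continuous (n : ℕ) {δ : ℝ} (hδ : 0 < δ) {N : ℕ} {u : E n → ℝ} {B : ℝ}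
    (hu : Dec N u B) : Continuous (LL n volume δ u) := by
  have e : LL n volume δ u = fun y => ∫ z, kk n δ z * (u y - u (y - z)) :=
    funext (liou1_sub n δ u)
  have hc := hu.1.continuous
  have hk := continuous_kk (d := n) n hδ
  rw [e]
  refine continuous_of_dominated (bound := fun z => kk n δ z * (2 * B))
    (fun y => Continuous.aestronglyMeasurable (by fun_prop))
    (fun y => Eventually.of_forall fun z => ?_) ((liou1_kk n hδ).mul_const _)
    (Eventually.of_forall fun z => by fun_prop)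
  rw [norm_mul, Real.norm_of_nonneg (kk_nonneg _ _ _)]
  exact mul_le_mul_of_nonneg_left (liou1_bdd2 hu _ _) (kk_nonneg _ _ _)

theorem liou1_tri {a b y : E d} (h : ‖y‖ ≤ ‖a‖ + ‖b‖) : 1 + ‖y‖ ≤ (1 + ‖a‖) * (1 + ‖b‖) := by
  nlinarith [mul_nonneg (norm_nonneg a) (norm_nonneg b)]

theorem liou1_peetre (m : ℕ) {a b y : E d} (h : ‖y‖ ≤ ‖a‖ + ‖b‖) : ww m a * ww m b ≤ ww m y := by
  unfold ww
  rw [← mul_inv, ← mul_pow]
  exact inv_anti₀ (by positivity) (pow_le_pow_left₀ (by positivity) (liou1_tri h) m)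

theorem liou1_pt1 (n : ℕ) (x y : E d) : |kk n 1 (y - x) - kk n 1 y| * ww (2 * n + 4) x ≤
    (n + 1) * 2 ^ (n + 2) * ww (n + 2) y * ww (n + 1) x := by
  have hx := norm_nonneg x
  have hy := norm_nonneg y
  have h0 : 0 < (1 + ‖y‖) / (2 * (1 + ‖x‖)) := by positivity
  have h1 : (1 + ‖y‖) / (2 * (1 + ‖x‖)) ≤ rr 1 (y - x) := by
    refine le_trans ?_ (half_add_le_rr zero_le_one _)
    have t : ‖y‖ ≤ ‖y - x‖ + ‖x‖ := by simpa using norm_add_le (y - x) x
    rw [div_le_div_iff₀ (by positivity) (by positivity)]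
    linarith [liou1_tri t]
  have h2 : (1 + ‖y‖) / (2 * (1 + ‖x‖)) ≤ rr 1 y := by
    refine le_trans ?_ (half_add_le_rr zero_le_one _)
    exact div_le_div_of_nonneg_left (by positivity) (by positivity) (by linarith)
  have h3 := kk_sub_le n h0 h1 h2
  have h4 : ‖y - x - y‖ + |(1 : ℝ) - 1| ≤ 1 + ‖x‖ := by
    rw [sub_sub_cancel_left, norm_neg, sub_self, abs_zero]
    linarith
  have h5 : |kk n 1 (y - x) - kk n 1 y| ≤
      (n + 1) * (1 + ‖x‖) * (((1 + ‖y‖) / (2 * (1 + ‖x‖))) ^ (n + 2))⁻¹ :=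
    h3.trans (by gcongr)
  refine (mul_le_mul_of_nonneg_right h5 (ww_pos _ _).le).trans (le_of_eq ?_)
  unfold ww
  have e : (1 + ‖x‖) ^ (2 * n + 4) = (1 + ‖x‖) ^ (n + 2) * (1 + ‖x‖) ^ (n + 1) * (1 + ‖x‖) := by
    ring
  rw [e, div_pow, mul_pow]
  field_simp

theorem liou1_one (n : ℕ) {u : E n → ℝ} {B : ℝ} (hu : Dec (2 * n + 4) u B) (h0 : ∫ x, u x = 0)
    (y : E n) : |LL n volume 1 u y| ≤ ((∫ z : E n, kk n 1 z) +
      (n + 1) * 2 ^ (n + 2) * ∫ z : E n, ww (n + 1) z) * B * ww (n + 2) y := by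
  have hB := hu.nonneg
  have hc := hu.1.continuous
  have iu : Integrable u volume := by
    refine ((integrable_ww_vol n).const_mul B).mono' hc.aestronglyMeasurable
      (Eventually.of_forall fun x => ?_)
    exact (hu.anti (by omega)).abs_le x
  have i1 := integrable_kk_vol n one_pos y
  have i2 : Integrable (fun x => kk n 1 (y - x) * u x) volume := liou1_mul i1 hc (liou1_bdd hu)
  have i3 : Integrable (fun x => kk n 1 y * u x) volume := iu.const_mul _
  have e : LL n volume 1 u y = (∫ z : E n, kk n 1 z) * u y -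
      ∫ x, (kk n 1 (y - x) - kk n 1 y) * u x := by
    unfold LL
    simp only [mul_sub, sub_mul]
    rw [integral_sub (i1.mul_const _) i2, integral_sub i2 i3, integral_mul_const,
      integral_const_mul, h0, integral_sub_left_eq_self (kk n 1) volume y]
    ring
  have b1 : ‖∫ x, (kk n 1 (y - x) - kk n 1 y) * u x‖ ≤
      ∫ x : E n, B * ((n + 1) * 2 ^ (n + 2) * ww (n + 2) y) * ww (n + 1) x := by
    refine norm_integral_le_of_norm_le ((integrable_ww_vol n).const_mul _)
      (Eventually.of_forall fun x => ?_)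
    rw [norm_mul, Real.norm_eq_abs, Real.norm_eq_abs]
    calc _ ≤ |kk n 1 (y - x) - kk n 1 y| * (B * ww (2 * n + 4) x) :=
          mul_le_mul_of_nonneg_left (hu.abs_le x) (abs_nonneg _)
      _ = B * (|kk n 1 (y - x) - kk n 1 y| * ww (2 * n + 4) x) := by ring
      _ ≤ B * ((n + 1) * 2 ^ (n + 2) * ww (n + 2) y * ww (n + 1) x) :=
          mul_le_mul_of_nonneg_left (liou1_pt1 n x y) hB
      _ = _ := by ring
  rw [integral_const_mul, Real.norm_eq_abs] at b1
  have k0 : 0 ≤ ∫ z : E n, kk n 1 z := integral_nonneg fun z => kk_nonneg _ _ _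
  have b2 : |(∫ z : E n, kk n 1 z) * u y| ≤ (∫ z : E n, kk n 1 z) * (B * ww (n + 2) y) := by
    rw [abs_mul, abs_of_nonneg k0]
    exact mul_le_mul_of_nonneg_left ((hu.anti (by omega)).abs_le y) k0
  rw [e]
  refine (abs_sub _ _).trans ((add_le_add b2 b1).trans (le_of_eq ?_))
  ring

theorem liou1_pt2 (n : ℕ) {u : E d → ℝ} {B : ℝ} (hu : Dec (2 * n + 4) u B) {δ : ℝ} (hδ : 0 < δ)
    (hδ1 : δ ≤ 1) (y z : E d) :
    |(kk n δ z - kk n 1 z) * (2 * u y - u (y + z) - u (y - z))| ≤ B * ww (n + 2) y *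
      (3 ^ (n + 2) * (|kk n 0 z - kk n 1 z| * ‖z‖ ^ 2) + (n + 1) * 2 ^ (n + 3) *
        (2 * ww (n + 1) z + ww (n + 1) (y + z) + ww (n + 1) (y - z))) := by
  have hB := hu.nonneg
  have w0 := (ww_pos (n + 2) y).le
  have w1 := (ww_pos (n + 1) z).le
  have w2 := (ww_pos (n + 1) (y + z)).le
  have w3 := (ww_pos (n + 1) (y - z)).le
  rcases eq_or_ne z 0 with rfl | hz
  · have : 2 * u y - u (y + 0) - u (y - 0) = 0 := by
      rw [add_zero, sub_zero]
      ring
    rw [this, mul_zero, abs_zero]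
    positivity
  have d0 : 0 ≤ kk n δ z - kk n 1 z := sub_nonneg.2 (kk_anti n hδ hδ1 z)
  have d1 : kk n δ z - kk n 1 z ≤ kk n 0 z - kk n 1 z := by linarith [kk_le_kk_zero n δ hz]
  rw [abs_mul, abs_of_nonneg d0, mul_add]
  rcases le_or_gt ‖z‖ 1 with h1 | h1
  · have s := second_diff_le hu.1 y z (-z) (M := B * (3 ^ (n + 2) * ww (n + 2) y)) fun w hw => by
      refine ((hu.anti (show n + 2 ≤ 2 * n + 4 by omega)).snd_le w).trans
        (mul_le_mul_of_nonneg_left ?_ hB)
      have p := ww_peetre (n + 2) (y - w) y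
      rw [sub_sub_cancel] at p
      refine p.trans (mul_le_mul_of_nonneg_right
        (pow_le_pow_left₀ (by positivity) ?_ _) w0)
      rw [norm_neg] at hw
      rw [norm_sub_rev]
      linarith
    rw [add_neg_cancel_right, ← sub_eq_add_neg, norm_neg, Real.norm_eq_abs] at s
    have e : 2 * u y - u (y + z) - u (y - z) = u y - u (y + z) - u (y - z) + u y := by ring
    rw [e]
    refine le_trans ?_ (le_add_of_nonneg_right (by positivity))
    calc _ ≤ |kk n 0 z - kk n 1 z| * (B * (3 ^ (n + 2) * ww (n + 2) y) * ‖z‖ * ‖z‖) :=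
          mul_le_mul (d1.trans (le_abs_self _)) s (abs_nonneg _) (abs_nonneg _)
      _ = _ := by ring
  · have d2 : kk n δ z - kk n 1 z ≤ (n + 1) * 2 ^ (n + 3) * ww (n + 3) z := by
      refine d1.trans ((kk_zero_sub_le n 1 hz).trans ?_)
      rw [one_pow, mul_one, mul_assoc]
      refine mul_le_mul_of_nonneg_left ?_ (by positivity)
      unfold ww
      rw [← div_eq_mul_inv, ← div_pow, ← inv_pow]
      refine pow_le_pow_left₀ (by positivity) ?_ _
      rw [le_div_iff₀ (by positivity), inv_mul_le_iff₀ (by positivity)]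
      linarith
    have g : ∀ a : E d, ‖y‖ ≤ ‖z‖ + ‖a‖ →
        ww (n + 3) z * |u a| ≤ B * ww (n + 2) y * ww (n + 1) a := fun a ha => by
      have g1 := (hu.anti (show (n + 2) + (n + 1) ≤ 2 * n + 4 by omega)).abs_le a
      rw [ww_add] at g1
      have g2 := liou1_peetre (n + 2) ha
      have g3 := (ww_pos (n + 1) a).le
      calc _ ≤ ww (n + 2) z * (B * (ww (n + 2) a * ww (n + 1) a)) :=
            mul_le_mul (ww_anti (by omega) z) g1 (abs_nonneg _) (ww_pos _ _).le
        _ = B * (ww (n + 2) z * ww (n + 2) a) * ww (n + 1) a := by ring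
        _ ≤ _ := by gcongr
    have g1 := g (y + z) (by simpa [add_comm] using norm_sub_le (y + z) z)
    have g2 := g (y - z) (by simpa [add_comm] using norm_add_le (y - z) z)
    have g3 : ww (n + 3) z * |u y| ≤ B * ww (n + 2) y * ww (n + 1) z := by
      rw [mul_comm]
      exact mul_le_mul ((hu.anti (by omega)).abs_le y) (ww_anti (by omega) z) (ww_pos _ _).le
        (by positivity)
    have s : |2 * u y - u (y + z) - u (y - z)| ≤ 2 * |u y| + |u (y + z)| + |u (y - z)| := by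
      have s1 := abs_sub (2 * u y - u (y + z)) (u (y - z))
      have s2 := abs_sub (2 * u y) (u (y + z))
      rw [abs_mul, abs_two] at s2
      linarith
    refine le_trans ?_ (le_add_of_nonneg_left (by positivity))
    have w4 := (ww_pos (n + 3) z).le
    calc _ ≤ (n + 1) * 2 ^ (n + 3) * ww (n + 3) z * (2 * |u y| + |u (y + z)| + |u (y - z)|) :=
          mul_le_mul d2 s (abs_nonneg _) (by positivity)
      _ = (n + 1) * 2 ^ (n + 3) * (2 * (ww (n + 3) z * |u y|) + ww (n + 3) z * |u (y + z)| +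
          ww (n + 3) z * |u (y - z)|) := by ring
      _ ≤ (n + 1) * 2 ^ (n + 3) * (2 * (B * ww (n + 2) y * ww (n + 1) z) +
          B * ww (n + 2) y * ww (n + 1) (y + z) + B * ww (n + 2) y * ww (n + 1) (y - z)) := by
          gcongr
      _ = _ := by ring

theorem liou1_two (n : ℕ) (hn : 1 ≤ n) {u : E n → ℝ} {B : ℝ} (hu : Dec (2 * n + 4) u B) {δ : ℝ}
    (hδ : 0 < δ) (hδ1 : δ ≤ 1) (y : E n) :
    2 * |LL n volume δ u y - LL n volume 1 u y| ≤ B * ww (n + 2) y *
      (3 ^ (n + 2) * (∫ z : E n, |kk n 0 z - kk n 1 z| * ‖z‖ ^ 2) + (n + 1) * 2 ^ (n + 3) *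
        (4 * ∫ z : E n, ww (n + 1) z)) := by
  obtain ⟨A, hA, hU⟩ := up_volume n
  have j0 : Integrable (fun z : E n => |kk n 0 z - kk n 1 z| * ‖z‖ ^ 2) volume := by
    simpa only [sub_zero] using (hU.sing hn (by linarith) 0 one_pos).1
  have j1 := integrable_ww_vol n
  have j2 : Integrable (fun z : E n => ww (n + 1) (y + z)) volume := j1.comp_add_left y
  have j3 : Integrable (fun z : E n => ww (n + 1) (y - z)) volume := j1.comp_sub_left y
  have hc := hu.1.continuous
  have i1 : ∀ {t : ℝ}, 0 < t → Integrable (fun z => kk n t z * (u y - u (y + z))) volume :=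
    fun ht => liou1_mul (liou1_kk n ht) (by fun_prop) fun z => liou1_bdd2 hu _ _
  have i2 : ∀ {t : ℝ}, 0 < t → Integrable (fun z => kk n t z * (u y - u (y - z))) volume :=
    fun ht => liou1_mul (liou1_kk n ht) (by fun_prop) fun z => liou1_bdd2 hu _ _
  have e : 2 * (LL n volume δ u y - LL n volume 1 u y) =
      ∫ z, (kk n δ z - kk n 1 z) * (2 * u y - u (y + z) - u (y - z)) := by
    have e1 : 2 * (LL n volume δ u y - LL n volume 1 u y) =
        (∫ z, kk n δ z * (u y - u (y + z))) - (∫ z, kk n 1 z * (u y - u (y + z))) +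
        ((∫ z, kk n δ z * (u y - u (y - z))) - ∫ z, kk n 1 z * (u y - u (y - z))) := by
      rw [← liou1_add, ← liou1_add, ← liou1_sub, ← liou1_sub]
      ring
    rw [e1, ← integral_sub (i1 hδ) (i1 one_pos), ← integral_sub (i2 hδ) (i2 one_pos)]
    refine (integral_add ((i1 hδ).sub (i1 one_pos)) ((i2 hδ).sub (i2 one_pos))).symm.trans ?_
    refine integral_congr_ae (Eventually.of_forall fun z => ?_)
    simp only [Pi.sub_apply]
    ring
  have j4 : Integrable (fun z : E n => 2 * ww (n + 1) z + ww (n + 1) (y + z)) volume :=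
    (j1.const_mul 2).add j2
  have j5 : Integrable
      (fun z : E n => 2 * ww (n + 1) z + ww (n + 1) (y + z) + ww (n + 1) (y - z)) volume :=
    j4.add j3
  have b := norm_integral_le_of_norm_le
    (f := fun z => (kk n δ z - kk n 1 z) * (2 * u y - u (y + z) - u (y - z)))
    (((j0.const_mul (3 ^ (n + 2))).add (j5.const_mul ((n + 1) * 2 ^ (n + 3)))).const_mul
      (B * ww (n + 2) y)) (Eventually.of_forall (liou1_pt2 n hu hδ hδ1 y))
  rw [← e, Real.norm_eq_abs, abs_mul, abs_two, integral_const_mul] at b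
  simp only [Pi.add_apply] at b
  rw [integral_add (j0.const_mul _) (j5.const_mul _), integral_const_mul, integral_const_mul,
    integral_add j4 j3, integral_add (j1.const_mul 2) j2, integral_const_mul,
    integral_add_left_eq_self (ww (n + 1)) y,
    integral_sub_left_eq_self (ww (n + 1)) volume y] at b
  refine b.trans (le_of_eq ?_)
  ring

theorem LL_decay (n : ℕ) (hn : 1 ≤ n) :
    ∃ C : ℝ, 0 < C ∧ ∀ (u : E n → ℝ) (B : ℝ), Dec (2 * n + 4) u B → ∫ x, u x = 0 →
      ∀ δ : ℝ, 0 < δ → δ ≤ 1 → ∀ y, |LL n volume δ u y| ≤ C * B * ww (n + 2) y := by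
  have k0 : 0 ≤ ∫ z : E n, kk n 1 z := integral_nonneg fun z => kk_nonneg _ _ _
  have k1 : 0 ≤ ∫ z : E n, ww (n + 1) z := integral_nonneg fun z => (ww_pos _ _).le
  have k2 : 0 ≤ ∫ z : E n, |kk n 0 z - kk n 1 z| * ‖z‖ ^ 2 :=
    integral_nonneg fun z => by positivity
  refine ⟨1 + ((∫ z : E n, kk n 1 z) + (n + 1) * 2 ^ (n + 2) * ∫ z : E n, ww (n + 1) z) +
    (3 ^ (n + 2) * (∫ z : E n, |kk n 0 z - kk n 1 z| * ‖z‖ ^ 2) + (n + 1) * 2 ^ (n + 3) *
      (4 * ∫ z : E n, ww (n + 1) z)), by positivity, fun u B hu h0 δ hδ hδ1 y => ?_⟩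
  have a1 := liou1_one n hu h0 y
  have a2 := liou1_two n hn hu hδ hδ1 y
  have a3 := abs_add_le (LL n volume 1 u y) (LL n volume δ u y - LL n volume 1 u y)
  rw [add_sub_cancel] at a3
  have a4 := abs_nonneg (LL n volume δ u y - LL n volume 1 u y)
  have a5 := mul_nonneg hu.nonneg (ww_pos (n + 2) y).le
  linarith

end Vale.Agent.P120
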