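import Vale.Agent.P120.Liou1

/-!
P120 Liou2. Overview in notes/P120.md, definitions in Defs.lean.
Name every helper lemma of yours with the file name in front (for example liou2_aux1).

PLAN.
dec_cutoff: χ a ContDiffBump at 0 with rIn = 1, rOut = 2, χ_R x = χ (R⁻¹ • x), ψ0 = a normed bump (ContDiffBump.normed, integral 1).
v = χ_R u - m_R ψ0 with m_R = ∫ χ_R u = - ∫ (1 - χ_R) u. u - v = (1 - χ_R) u + m_R ψ0. The derivatives of order <= 2 of 1 - χ_R are bounded by a
constant K for R >= 1 (ContinuousLinearMap.iteratedFDeriv_comp_right or iteratedFDeriv_comp_const_smul, norm_iteratedFDeriv bounds on a compact support) and the product vanishes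
with its derivatives on ball 0 R (Filter.EventuallyEq.iteratedFDeriv); norm_iteratedFDeriv_mul_le gives (1+|x|)^(2n+4) norm <= 4 K B / R.
|m_R| <= ∫ over |x| >= R of B ww (2n+5) <= (B/R) ∫ ww (n+1). Use exists_dec_of_compact for ψ0.
Harm.extend: for η > 0 take v; for δ <= 1, LL_sub and LL_decay give |∫ h LL δ u - ∫ h LL δ v| <= C η ∫ |h| ww (n+2)
(both integrable by LL_continuous, LL_decay; v is Dec by exists_dec_of_compact); Metric.tendsto_nhds.
-/

open MeasureTheory Metric Set Filter Topology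
open scoped ENNReal NNReal RealInnerProductSpace

namespace Vale.Agent.P120

variable {d : ℕ}

theorem liou2_mono {N : ℕ} {u : E d → ℝ} {B B' : ℝ} (h : Dec N u B) (hB : B ≤ B') :
    Dec N u B' := ⟨h.1, fun j hj x => (h.2 j hj x).trans hB⟩

theorem liou2_le {j : ℕ} (hj : j ≤ 2) : (j : WithTop ℕ∞) ≤ 2 := by exact_mod_cast hj

theorem liou2_add {N : ℕ} {u v : E d → ℝ} {B B' : ℝ} (h : Dec N u B) (h' : Dec N v B') :
    Dec N (fun x => u x + v x) (B + B') := by
  refine ⟨h.1.add h'.1, fun j hj x => ?_⟩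
  rw [fun_iteratedFDeriv_add_apply (h.1.of_le (liou2_le hj)).contDiffAt
    (h'.1.of_le (liou2_le hj)).contDiffAt]
  refine (mul_le_mul_of_nonneg_left (norm_add_le _ _) (by positivity)).trans ?_
  linarith [h.2 j hj x, h'.2 j hj x]

theorem liou2_smul {N : ℕ} {u : E d → ℝ} {B : ℝ} (h : Dec N u B) (c : ℝ) :
    Dec N (fun x => c * u x) (|c| * B) := by
  refine ⟨contDiff_const.mul h.1, fun j hj x => ?_⟩
  have e := iteratedFDeriv_const_smul_apply' (a := c) (x := x)
    (h.1.of_le (liou2_le hj)).contDiffAt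
  simp only [smul_eq_mul] at e
  rw [e, norm_smul, Real.norm_eq_abs, mul_left_comm]
  exact mul_le_mul_of_nonneg_left (h.2 j hj x) (abs_nonneg c)

theorem liou2_int {n N : ℕ} {u : E n → ℝ} {B : ℝ} (h : Dec N u B) (hN : n + 1 ≤ N) :
    Integrable u volume ∧ |∫ x, u x| ≤ B * ∫ x : E n, ww (n + 1) x := by
  have h1 := (integrable_ww_vol n).const_mul B
  have h2 : ∀ x, ‖u x‖ ≤ B * ww (n + 1) x := fun x => (h.anti hN).abs_le x
  refine ⟨h1.mono' h.1.continuous.aestronglyMeasurable (Eventually.of_forall h2), ?_⟩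
  rw [← integral_const_mul]
  exact norm_integral_le_of_norm_le h1 (Eventually.of_forall h2)

theorem liou2_cut (d : ℕ) : ∃ K : ℝ, 0 ≤ K ∧ ∀ R : ℝ, 1 ≤ R → ∃ χ : E d → ℝ, ContDiff ℝ 2 χ ∧
    HasCompactSupport χ ∧ (∀ x, ‖x‖ < R → χ x = 1) ∧
    ∀ j ≤ 2, ∀ x, ‖iteratedFDeriv ℝ j (fun y => 1 - χ y) x‖ ≤ K := by
  let φ : ContDiffBump (0 : E d) := ⟨1, 2, one_pos, one_lt_two⟩
  have hφ : ContDiff ℝ 2 φ := φ.contDiff
  obtain ⟨K, hK⟩ := exists_dec_of_compact 0 hφ φ.hasCompactSupport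
  have hθ : ContDiff ℝ 2 fun y => 1 - φ y := contDiff_const.sub hφ
  have hb : ∀ j ≤ 2, ∀ x, ‖iteratedFDeriv ℝ j (fun y => 1 - φ y) x‖ ≤ 1 + K := by
    intro j hj x
    rw [fun_iteratedFDeriv_sub_apply contDiffAt_const (hφ.of_le (liou2_le hj)).contDiffAt]
    refine (norm_sub_le _ _).trans (add_le_add ?_ (by simpa using hK.2 j hj x))
    rcases eq_or_ne j 0 with rfl | h0
    · simp
    · rw [iteratedFDeriv_const_of_ne h0]; simp
  refine ⟨1 + K, by linarith [hK.nonneg], fun R hR => ?_⟩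
  have hR0 : 0 < R := by linarith
  refine ⟨fun y => φ (R⁻¹ • y), hφ.comp (contDiff_const_smul _),
    φ.hasCompactSupport.comp_smul (inv_ne_zero hR0.ne'), fun x hx => ?_, fun j hj x => ?_⟩
  · refine φ.one_of_mem_closedBall ?_
    rw [mem_closedBall_zero_iff, norm_smul, norm_inv, Real.norm_eq_abs, abs_of_pos hR0,
      inv_mul_le_iff₀ hR0]
    simpa [φ] using hx.le
  · have e := congrFun (iteratedFDeriv_comp_const_smul (f := fun y => 1 - φ y) R⁻¹
      (hθ.of_le (liou2_le hj))) x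
    rw [e, norm_smul, norm_pow, norm_inv, Real.norm_eq_abs, abs_of_pos hR0]
    have h1 : R⁻¹ ^ j ≤ 1 := pow_le_one₀ (by positivity) (inv_le_one_of_one_le₀ hR)
    exact (mul_le_of_le_one_left (norm_nonneg _) h1).trans (hb j hj _)

theorem liou2_prod {N : ℕ} {u θ : E d → ℝ} {B K R : ℝ} (hu : Dec (N + 1) u B) (hR : 0 < R)
    (hK : 0 ≤ K) (hθ : ContDiff ℝ 2 θ) (h0 : ∀ x, ‖x‖ < R → θ x = 0)
    (hb : ∀ j ≤ 2, ∀ x, ‖iteratedFDeriv ℝ j θ x‖ ≤ K) :
    Dec N (fun x => θ x * u x) (4 * K * B / R) := by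
  have hB := hu.nonneg
  refine ⟨hθ.mul hu.1, fun j hj x => ?_⟩
  by_cases hx : ‖x‖ < R
  · have h3 : ∀ᶠ w in 𝓝 x, ‖w‖ < R := (isOpen_lt continuous_norm continuous_const).mem_nhds hx
    have h2 : (fun x => θ x * u x) =ᶠ[𝓝 x] fun _ => 0 :=
      h3.mono fun w hw => by simp only [h0 w hw, zero_mul]
    rw [(h2.iteratedFDeriv ℝ j).eq_of_nhds, iteratedFDeriv_fun_zero]
    simp only [Pi.zero_apply, norm_zero, mul_zero]
    positivity
  · have h1 : ∀ i ≤ 2, (1 + ‖x‖) ^ N * ‖iteratedFDeriv ℝ i u x‖ ≤ B / R := by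
      intro i hi
      have h2 := hu.2 i hi x
      rw [le_div_iff₀ hR]
      refine le_trans ?_ h2
      rw [pow_succ, mul_right_comm _ (1 + ‖x‖)]
      exact mul_le_mul_of_nonneg_left (by linarith [not_lt.1 hx]) (by positivity)
    refine (mul_le_mul_of_nonneg_left (norm_iteratedFDeriv_mul_le hθ hu.1 x (liou2_le hj))
      (by positivity)).trans ?_
    rw [Finset.mul_sum]
    calc _ ≤ ∑ i ∈ Finset.range (j + 1), (j.choose i : ℝ) * (K * (B / R)) := by
          refine Finset.sum_le_sum fun i hi => ?_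
          have hi' : i ≤ 2 := by have := Finset.mem_range.1 hi; omega
          have e : ∀ a b c e : ℝ, a * (b * c * e) = b * (c * (a * e)) := fun a b c e => by ring
          rw [e]
          exact mul_le_mul_of_nonneg_left (mul_le_mul (hb i hi' x) (h1 _ (by omega))
            (by positivity) hK) (by positivity)
      _ = 2 ^ j * (K * (B / R)) := by
          rw [← Finset.sum_mul, ← Nat.cast_sum, Nat.sum_range_choose]; push_cast; rfl
      _ ≤ 2 ^ 2 * (K * (B / R)) :=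
          mul_le_mul_of_nonneg_right (pow_le_pow_right₀ one_le_two hj) (by positivity)
      _ = _ := by ring

theorem dec_cutoff (n : ℕ) {u : E n → ℝ} {B : ℝ} (hu : Dec (2 * n + 5) u B) (h0 : ∫ x, u x = 0)
    {η : ℝ} (hη : 0 < η) :
    ∃ v : E n → ℝ, ContDiff ℝ 2 v ∧ HasCompactSupport v ∧ ∫ x, v x = 0 ∧
      ∫ x, (u x - v x) = 0 ∧ Dec (2 * n + 4) (fun x => u x - v x) η := by
  obtain ⟨K, hK, hcut⟩ := liou2_cut n
  let φ : ContDiffBump (0 : E n) := ⟨1, 2, one_pos, one_lt_two⟩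
  have hψ : ContDiff ℝ 2 (φ.normed volume) := φ.contDiff_normed
  have hψc : HasCompactSupport (φ.normed volume) := φ.hasCompactSupport_normed
  have hψ1 : ∫ x, φ.normed volume x = 1 := φ.integral_normed
  obtain ⟨B0, hB0⟩ := exists_dec_of_compact (2 * n + 4) hψ hψc
  have hB := hu.nonneg
  have hB0' := hB0.nonneg
  set I : ℝ := ∫ x : E n, ww (n + 1) x with hI
  have hI0 : 0 ≤ I := integral_nonneg fun x => (ww_pos _ x).le
  set R : ℝ := 1 + 4 * K * B * (1 + I * B0) / η with hRd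
  have hq : 0 ≤ 4 * K * B * (1 + I * B0) / η := by positivity
  have hR : 1 ≤ R := by linarith
  have hR0 : 0 < R := by linarith
  obtain ⟨χ, hχ, hχc, hχ1, hχb⟩ := hcut R hR
  have hw : Dec (2 * n + 4) (fun x => (1 - χ x) * u x) (4 * K * B / R) :=
    liou2_prod (θ := fun y => 1 - χ y) hu hR0 hK (contDiff_const.sub hχ)
      (fun x hx => by simp only [hχ1 x hx, sub_self]) hχb
  obtain ⟨iw, bw⟩ := liou2_int hw (by omega)
  obtain ⟨iu, -⟩ := liou2_int hu (by omega)
  obtain ⟨iψ, -⟩ := liou2_int hB0 (by omega)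
  set m : ℝ := ∫ x, (1 - χ x) * u x with hm
  have e1 : (fun x => u x - (χ x * u x + m * φ.normed volume x)) =
      fun x => (1 - χ x) * u x + -m * φ.normed volume x := by ext x; ring
  have e2 : (fun x => χ x * u x + m * φ.normed volume x) =
      fun x => (u x - (1 - χ x) * u x) + m * φ.normed volume x := by ext x; ring
  have i3 : Integrable (fun x => u x - (1 - χ x) * u x) volume := iu.sub iw
  refine ⟨fun x => χ x * u x + m * φ.normed volume x, (hχ.mul hu.1).add (contDiff_const.mul hψ),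
    (hχc.mul_right (f' := u)).add (hψc.mul_left (f := fun _ => m)), ?_, ?_, ?_⟩
  · rw [e2, integral_add i3 (iψ.const_mul m), integral_sub iu iw, integral_const_mul, h0, hψ1]
    ring
  · rw [e1, integral_add iw (iψ.const_mul _), integral_const_mul, hψ1]
    ring
  · rw [e1]
    refine liou2_mono (liou2_add hw (liou2_smul hB0 (-m))) ?_
    rw [abs_neg]
    have a1 : |m| * B0 ≤ 4 * K * B / R * I * B0 := mul_le_mul_of_nonneg_right bw hB0'
    have a2 : 4 * K * B / R + 4 * K * B / R * I * B0 = 4 * K * B * (1 + I * B0) / R := by ring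
    have a3 : 4 * K * B * (1 + I * B0) / R ≤ η := by
      rw [div_le_iff₀ hR0, hRd, mul_add η, mul_div_cancel₀ _ hη.ne']
      linarith
    linarith

theorem Harm.extend {n : ℕ} (hn : 1 ≤ n) {h : E n → ℝ} (h1 : WL1 n h) (hH : Harm n h)
    {u : E n → ℝ} {B : ℝ} (hu : Dec (2 * n + 5) u B) (h0 : ∫ x, u x = 0) :
    Tendsto (fun δ : ℝ => ∫ y, h y * LL n volume δ u y) (𝓝[>] 0) (𝓝 0) := by
  obtain ⟨C, hC, hdec⟩ := LL_decay n hn
  set J : ℝ := ∫ y, |h y| * ww (n + 2) y with hJ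
  have hJ0 : 0 ≤ J := integral_nonneg fun y => mul_nonneg (abs_nonneg _) (ww_pos _ y).le
  have key : ∀ (f : E n → ℝ) (b δ : ℝ), Dec (2 * n + 4) f b → ∫ x, f x = 0 → 0 < δ → δ ≤ 1 →
      Integrable (fun y => h y * LL n volume δ f y) volume ∧
        |∫ y, h y * LL n volume δ f y| ≤ C * b * J := by
    intro f b δ hf hf0 hδ hδ1
    have a1 := h1.2.const_mul (C * b)
    have a2 : ∀ y, ‖h y * LL n volume δ f y‖ ≤ C * b * (|h y| * ww (n + 2) y) := by
      intro y
      rw [Real.norm_eq_abs, abs_mul, mul_left_comm]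
      exact mul_le_mul_of_nonneg_left (hdec f b hf hf0 δ hδ hδ1 y) (abs_nonneg _)
    refine ⟨a1.mono' (h1.1.mul (LL_continuous n hδ hf).aestronglyMeasurable)
      (Eventually.of_forall a2), ?_⟩
    rw [hJ, ← integral_const_mul]
    exact norm_integral_le_of_norm_le a1 (Eventually.of_forall a2)
  rw [Metric.tendsto_nhds]
  intro ε hε
  have hη : 0 < ε / (2 * (C * J + 1)) := by positivity
  obtain ⟨v, hv, hvc, hv0, huv0, huv⟩ := dec_cutoff n hu h0 hη
  obtain ⟨b, hb⟩ := exists_dec_of_compact (2 * n + 4) hv hvc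
  have hu' : Dec (2 * n + 4) u B := hu.anti (by omega)
  have t1 := Metric.tendsto_nhds.1 (hH v hv hvc hv0) (ε / 2) (half_pos hε)
  filter_upwards [t1, Ioc_mem_nhdsGT (zero_lt_one' ℝ)] with δ a1 hδ
  rw [Real.dist_eq, sub_zero] at a1 ⊢
  obtain ⟨iu, -⟩ := key u B δ hu' h0 hδ.1 hδ.2
  obtain ⟨iv, -⟩ := key v b δ hb hv0 hδ.1 hδ.2
  obtain ⟨-, a2⟩ := key _ _ δ huv huv0 hδ.1 hδ.2
  simp only [LL_sub n hδ.1 hu' hb, mul_sub] at a2
  rw [integral_sub iu iv] at a2
  have a3 : C * (ε / (2 * (C * J + 1))) * J ≤ ε / 2 := by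
    rw [mul_right_comm, ← mul_div_assoc, div_le_iff₀ (by positivity)]
    nlinarith
  have a4 := abs_sub_abs_le_abs_sub (∫ y, h y * LL n volume δ u y) (∫ y, h y * LL n volume δ v y)
  linarith

end Vale.Agent.P120
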