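import Vale.Agent.P120.Liou0

/-!
P120 Liou3a. Overview in notes/P120.md, definitions in Defs.lean.
Name every helper lemma of yours with the file name in front (for example liou3a_aux1).

PLAN.
m ξ = ∫ kk n 0 z (1 - cos (2π⟪z,ξ⟫)). Integrable: 1 - cos t <= min 2 (t^2/2) (Real.one_sub_sq_div_two_le_cos), Up.near and Up.far for volume (up_volume).
Rotation: for a linear isometry equiv U, m (U ξ) = m ξ (LinearIsometryEquiv.measurePreserving, inner_map_map); any two vectors of equal norm are related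
by a reflection (Submodule.reflection_sub). Scaling: m (r • ξ) = r m ξ for r > 0 (Measure.integral_comp_smul or integral_comp_inv_smul, kk_smul with t = 0,
finrank (E n) = n). c = m e for the unit vector e = EuclideanSpace.single 0 1; c > 0 by integral_pos_iff_support_of_nonneg (the support contains the open
set of z with 0 < ⟪z,e⟫ < 1). Monotone bound kk δ <= kk 0 off 0 and dominated convergence (tendsto_integral_filter_of_dominated_convergence; pointwise
continuity of δ ↦ kk n δ z at 0 for z ≠ 0; at z = 0 the factor 1 - cos is 0).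
-/

open MeasureTheory Metric Set Filter Topology
open scoped ENNReal NNReal RealInnerProductSpace

namespace Vale.Agent.P120

variable {d : ℕ}

/-- the integrand of the multiplier -/
noncomputable def liou3aF (n : ℕ) (δ : ℝ) (ξ z : E n) : ℝ :=
  kk n δ z * (1 - Real.cos (2 * Real.pi * ⟪z, ξ⟫))

theorem liou3a_c0 (t : ℝ) : 0 ≤ 1 - Real.cos t := sub_nonneg.2 (Real.cos_le_one t)

theorem liou3a_nonneg (n : ℕ) (δ : ℝ) (ξ z : E n) : 0 ≤ liou3aF n δ ξ z :=
  mul_nonneg (kk_nonneg _ _ _) (liou3a_c0 _)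

theorem liou3a_meas (n : ℕ) (δ : ℝ) (ξ : E n) : Measurable (liou3aF n δ ξ) := by
  refine (measurable_kk n δ).mul (Continuous.measurable ?_)
  fun_prop

theorem liou3a_zero (n : ℕ) (δ : ℝ) (ξ : E n) : liou3aF n δ ξ 0 = 0 := by
  simp [liou3aF]

theorem liou3a_le (n : ℕ) (δ : ℝ) (ξ z : E n) : liou3aF n δ ξ z ≤ liou3aF n 0 ξ z := by
  by_cases hz : z = 0
  · rw [hz, liou3a_zero, liou3a_zero]
  · exact mul_le_mul_of_nonneg_right (kk_le_kk_zero n δ hz) (liou3a_c0 _)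

theorem liou3a_int (n : ℕ) (hn : 1 ≤ n) (ξ : E n) : Integrable (liou3aF n 0 ξ) volume := by
  obtain ⟨A, hA, hU⟩ := up_volume n
  have hA0 : 0 ≤ A := by linarith
  have h1 := (hU.near hn hA0 0 one_pos).1
  have h2 := (hU.far hA0 0 one_pos).1
  rw [← integrableOn_univ, ← union_compl_self (ball (0 : E n) 1)]
  refine IntegrableOn.union ?_ ?_
  · refine (h1.const_mul (2 * Real.pi ^ 2 * ‖ξ‖ ^ 2)).mono' (liou3a_meas n 0 ξ).aestronglyMeasurable
      (Eventually.of_forall fun z => ?_)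
    rw [Real.norm_of_nonneg (liou3a_nonneg _ _ _ _), sub_zero]
    have e1 := Real.one_sub_sq_div_two_le_cos (x := 2 * Real.pi * ⟪z, ξ⟫)
    have e2 : ⟪z, ξ⟫ ^ 2 ≤ (‖z‖ * ‖ξ‖) ^ 2 := by
      rw [← sq_abs]
      exact pow_le_pow_left₀ (abs_nonneg _) (abs_real_inner_le_norm z ξ) 2
    have e3 : 1 - Real.cos (2 * Real.pi * ⟪z, ξ⟫) ≤ 2 * Real.pi ^ 2 * ‖ξ‖ ^ 2 * ‖z‖ ^ 2 := by
      have e4 := mul_le_mul_of_nonneg_left e2 (by positivity : 0 ≤ 2 * Real.pi ^ 2)
      nlinarith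
    calc liou3aF n 0 ξ z ≤ kk n 0 z * (2 * Real.pi ^ 2 * ‖ξ‖ ^ 2 * ‖z‖ ^ 2) :=
          mul_le_mul_of_nonneg_left e3 (kk_nonneg _ _ _)
      _ = _ := by ring
  · refine (h2.const_mul 2).mono' (liou3a_meas n 0 ξ).aestronglyMeasurable
      (Eventually.of_forall fun z => ?_)
    rw [Real.norm_of_nonneg (liou3a_nonneg _ _ _ _), sub_zero, mul_comm]
    exact mul_le_mul_of_nonneg_left (by linarith [Real.neg_one_le_cos (2 * Real.pi * ⟪z, ξ⟫)])
      (kk_nonneg _ _ _)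

theorem liou3a_rot (n : ℕ) (U : E n ≃ₗᵢ[ℝ] E n) (ξ : E n) :
    ∫ z, liou3aF n 0 (U ξ) z = ∫ z, liou3aF n 0 ξ z := by
  rw [← integral_comp U (liou3aF n 0 (U ξ))]
  refine integral_congr_ae (Eventually.of_forall fun z => ?_)
  simp only [liou3aF, kk_zero_eq, LinearIsometryEquiv.norm_map, LinearIsometryEquiv.inner_map_map]

theorem liou3a_scale (n : ℕ) {r : ℝ} (hr : 0 < r) (ξ : E n) :
    ∫ z, liou3aF n 0 (r • ξ) z = r * ∫ z, liou3aF n 0 ξ z := by
  have h := Measure.integral_comp_smul (volume : Measure (E n)) (liou3aF n 0 ξ) r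
  have e : ∀ z, liou3aF n 0 ξ (r • z) = (r ^ (n + 1))⁻¹ * liou3aF n 0 (r • ξ) z := by
    intro z
    have e1 := kk_smul n hr 0 z
    rw [mul_zero] at e1
    rw [liou3aF, liou3aF, e1, real_inner_smul_left, real_inner_smul_right, mul_assoc]
  simp only [e] at h
  rw [integral_const_mul, finrank_euclideanSpace_fin, abs_of_pos (by positivity), smul_eq_mul] at h
  have h2 : ∫ z, liou3aF n 0 (r • ξ) z =
      r ^ (n + 1) * ((r ^ (n + 1))⁻¹ * ∫ z, liou3aF n 0 (r • ξ) z) := by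
    rw [← mul_assoc, mul_inv_cancel₀ (by positivity), one_mul]
  rw [h2, h, ← mul_assoc]
  congr 1
  rw [pow_succ']
  field_simp

theorem liou3a_pos (n : ℕ) (hn : 1 ≤ n) {e : E n} (he : ‖e‖ = 1) :
    0 < ∫ z, liou3aF n 0 e z := by
  rw [integral_pos_iff_support_of_nonneg (liou3a_nonneg n 0 e) (liou3a_int n hn e)]
  have hc : Continuous fun z : E n => ⟪z, e⟫ := by fun_prop
  have ho : IsOpen {z : E n | 0 < ⟪z, e⟫ ∧ ⟪z, e⟫ < 1} := isOpen_Ioo.preimage hc
  have hne : {z : E n | 0 < ⟪z, e⟫ ∧ ⟪z, e⟫ < 1}.Nonempty := by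
    refine ⟨(1 / 2 : ℝ) • e, ?_⟩
    rw [mem_setOf_eq, real_inner_smul_left, real_inner_self_eq_norm_sq, he]
    norm_num
  refine (ho.measure_pos volume hne).trans_le (measure_mono fun z hz => ?_)
  have hz0 : z ≠ 0 := by
    rintro rfl
    simp at hz
  have hp := Real.pi_pos
  refine mul_ne_zero ?_ (sub_ne_zero.2 fun h => ?_)
  · rw [kk_zero_eq]
    have := norm_pos_iff.2 hz0
    positivity
  · have h1 := mul_pos (mul_pos two_pos hp) hz.1
    have h2 := mul_lt_mul_of_pos_left hz.2 (mul_pos two_pos hp)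
    have h3 := (Real.cos_eq_one_iff_of_lt_of_lt (by linarith) (by linarith)).1 h.symm
    linarith

theorem liou3a_val (n : ℕ) {e : E n} (he : ‖e‖ = 1) (ξ : E n) :
    ∫ z, liou3aF n 0 ξ z = (∫ z, liou3aF n 0 e z) * ‖ξ‖ := by
  by_cases hξ : ξ = 0
  · simp [hξ, liou3aF]
  · have hp := norm_pos_iff.2 hξ
    have h1 : ‖‖ξ‖ • e‖ = ‖ξ‖ := by rw [norm_smul, he, mul_one, norm_norm]
    have h2 := liou3a_rot n (Submodule.reflection (ℝ ∙ (‖ξ‖ • e - ξ))ᗮ) (‖ξ‖ • e)
    rw [Submodule.reflection_sub h1] at h2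
    rw [h2, liou3a_scale n hp, mul_comm]

theorem liou3a_lim (n : ℕ) (ξ z : E n) :
    Tendsto (fun δ : ℝ => liou3aF n δ ξ z) (𝓝[>] 0) (𝓝 (liou3aF n 0 ξ z)) := by
  by_cases hz : z = 0
  · simp only [hz, liou3a_zero]
    exact tendsto_const_nhds
  · refine Tendsto.mono_left ?_ nhdsWithin_le_nhds
    have hp := norm_pos_iff.2 hz
    have hc : ContinuousAt (fun δ : ℝ => kk n δ z) 0 := by
      refine ContinuousAt.inv₀ (f := fun δ : ℝ => rr δ z ^ (n + 1)) ?_ ?_
      · unfold rr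
        fun_prop
      · rw [rr_zero]
        positivity
    exact hc.tendsto.mul_const _

theorem exists_mult (n : ℕ) (hn : 1 ≤ n) :
    ∃ c : ℝ, 0 < c ∧ ∀ ξ : E n,
      (∀ δ : ℝ, 0 < δ → 0 ≤ ∫ z : E n, kk n δ z * (1 - Real.cos (2 * Real.pi * ⟪z, ξ⟫)) ∧
        ∫ z : E n, kk n δ z * (1 - Real.cos (2 * Real.pi * ⟪z, ξ⟫)) ≤ c * ‖ξ‖) ∧
      Tendsto (fun δ : ℝ => ∫ z : E n, kk n δ z * (1 - Real.cos (2 * Real.pi * ⟪z, ξ⟫)))
        (𝓝[>] 0) (𝓝 (c * ‖ξ‖)) := by
  have he : ‖(EuclideanSpace.single (⟨0, hn⟩ : Fin n) (1 : ℝ) : E n)‖ = 1 := by simp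
  refine ⟨_, liou3a_pos n hn he, fun ξ => ?_⟩
  rw [← liou3a_val n he ξ]
  refine ⟨fun δ _ => ⟨integral_nonneg (liou3a_nonneg n δ ξ), ?_⟩, ?_⟩
  · exact integral_mono_of_nonneg (Eventually.of_forall (liou3a_nonneg n δ ξ))
      (liou3a_int n hn ξ) (Eventually.of_forall (liou3a_le n δ ξ))
  · refine tendsto_integral_filter_of_dominated_convergence (F := fun δ => liou3aF n δ ξ)
      (liou3aF n 0 ξ) (Eventually.of_forall fun δ => (liou3a_meas n δ ξ).aestronglyMeasurable)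
      (Eventually.of_forall fun δ => Eventually.of_forall fun z => ?_) (liou3a_int n hn ξ)
      (Eventually.of_forall (liou3a_lim n ξ))
    rw [Real.norm_of_nonneg (liou3a_nonneg _ _ _ _)]
    exact liou3a_le n δ ξ z

end Vale.Agent.P120
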