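import Vale.Agent.P120.Liou3a

/-!
P120 Liou3b. Overview in notes/P120.md, definitions in Defs.lean.
Name every helper lemma of yours with the file name in front (for example liou3b_aux1).

PLAN.
Substitute x = y - z. Fourier inversion: Ψ w = ∫ ξ, 𝐞 ⟪ξ,w⟫ • 𝓕 Ψ ξ (Continuous.fourierInv_fourier_eq or FourierTransform.fourierInv_fourier_eq, Real.fourierInv_eq').
So Ψ y - Ψ (y - z) = ∫ e(⟪ξ,y⟫) (1 - e(-⟪ξ,z⟫)) 𝓕Ψ ξ; Fubini (integral_integral_swap, dominated by 2 kk δ z * norm (𝓕Ψ ξ), Integrable.mul_prod);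
∫ kk δ z (1 - e(-⟪ξ,z⟫)) dz = m_δ ξ because the sine part is odd (integral_neg_eq_self, kk_neg). Dominated convergence in ξ with bound
c |ξ| norm (𝓕Ψ ξ) (SchwartzMap.integrable_pow_mul), m_δ measurable in ξ (StronglyMeasurable.integral_prod_right or continuity).
-/

open MeasureTheory Metric Set Filter Topology
open scoped ENNReal NNReal RealInnerProductSpace
open scoped FourierTransform SchwartzMap

namespace Vale.Agent.P120

variable {d : ℕ}

theorem liou3b_int (n : ℕ) {δ : ℝ} (hδ : 0 < δ) : Integrable (kk n δ : E n → ℝ) volume := by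
  have h := integrable_kk_vol n hδ 0
  simp only [zero_sub, kk_neg] at h
  exact h

theorem liou3b_odd (n : ℕ) {δ : ℝ} (hδ : 0 < δ) (ξ : E n) :
    ∫ z : E n, ((kk n δ z : ℝ) : ℂ) * (1 - Complex.exp (↑(-(2 * Real.pi * ⟪z, ξ⟫)) * Complex.I)) =
      ((∫ z : E n, kk n δ z * (1 - Real.cos (2 * Real.pi * ⟪z, ξ⟫)) : ℝ) : ℂ) := by
  have hk := liou3b_int n hδ
  have i1 : Integrable (fun z : E n => kk n δ z * (1 - Real.cos (2 * Real.pi * ⟪z, ξ⟫))) volume :=
    hk.mul_bdd (c := 2) (by fun_prop) (Eventually.of_forall fun z => by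
      rw [Real.norm_eq_abs, abs_le]
      constructor <;>
        linarith [Real.cos_le_one (2 * Real.pi * ⟪z, ξ⟫), Real.neg_one_le_cos (2 * Real.pi * ⟪z, ξ⟫)])
  have i2 : Integrable (fun z : E n => kk n δ z * Real.sin (2 * Real.pi * ⟪z, ξ⟫)) volume :=
    hk.mul_bdd (c := 1) (by fun_prop) (Eventually.of_forall fun z => Real.abs_sin_le_one _)
  have h0 : ∫ z : E n, kk n δ z * Real.sin (2 * Real.pi * ⟪z, ξ⟫) = 0 := by
    have := integral_neg_eq_self (fun z : E n => kk n δ z * Real.sin (2 * Real.pi * ⟪z, ξ⟫)) volume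
    simp only [kk_neg, inner_neg_left, mul_neg, Real.sin_neg, integral_neg] at this
    linarith
  have e : ∀ z : E n,
      ((kk n δ z : ℝ) : ℂ) * (1 - Complex.exp (↑(-(2 * Real.pi * ⟪z, ξ⟫)) * Complex.I)) =
      ((kk n δ z * (1 - Real.cos (2 * Real.pi * ⟪z, ξ⟫)) : ℝ) : ℂ) +
        ((kk n δ z * Real.sin (2 * Real.pi * ⟪z, ξ⟫) : ℝ) : ℂ) * Complex.I := fun z => by
    rw [Complex.exp_mul_I, ← Complex.ofReal_cos, ← Complex.ofReal_sin, Real.cos_neg, Real.sin_neg]
    generalize Real.cos (2 * Real.pi * ⟪z, ξ⟫) = a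
    generalize Real.sin (2 * Real.pi * ⟪z, ξ⟫) = b
    push_cast
    ring
  simp only [e]
  rw [integral_add i1.ofReal (i2.ofReal.mul_const _), integral_mul_const, integral_complex_ofReal,
    integral_complex_ofReal, h0]
  simp

theorem liou3b_eq (n : ℕ) {δ : ℝ} (hδ : 0 < δ) {g : E n → ℂ} (hg : Integrable g volume)
    (hc : Continuous g) (y : E n) :
    ∫ x : E n, ((kk n δ (y - x) : ℝ) : ℂ) * (𝓕⁻ g y - 𝓕⁻ g x) =
      ∫ ξ : E n, Complex.exp (↑(2 * Real.pi * ⟪ξ, y⟫) * Complex.I) •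
        (((∫ z : E n, kk n δ z * (1 - Real.cos (2 * Real.pi * ⟪z, ξ⟫)) : ℝ) : ℂ) * g ξ) := by
  have hk := liou3b_int n hδ
  have hkc := continuous_kk (d := n) n hδ
  have hi : ∀ w : E n,
      Integrable (fun ξ : E n => Complex.exp (↑(2 * Real.pi * ⟪ξ, w⟫) * Complex.I) • g ξ) volume :=
    fun w => hg.norm.mono' (by fun_prop) (Eventually.of_forall fun ξ => by
      rw [norm_smul, Complex.norm_exp_ofReal_mul_I, one_mul])
  rw [← integral_sub_left_eq_self _ volume y]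
  simp only [sub_sub_cancel]
  have e1 : ∀ z : E n, ((kk n δ z : ℝ) : ℂ) * (𝓕⁻ g y - 𝓕⁻ g (y - z)) =
      ∫ ξ : E n, ((kk n δ z : ℝ) : ℂ) *
        (1 - Complex.exp (↑(-(2 * Real.pi * ⟪z, ξ⟫)) * Complex.I)) *
          (Complex.exp (↑(2 * Real.pi * ⟪ξ, y⟫) * Complex.I) * g ξ) := fun z => by
    rw [Real.fourierInv_eq', Real.fourierInv_eq', ← integral_sub (hi _) (hi _), ← integral_const_mul]
    congr 1; funext ξ
    have : Complex.exp (↑(2 * Real.pi * ⟪ξ, y - z⟫) * Complex.I) =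
        Complex.exp (↑(-(2 * Real.pi * ⟪z, ξ⟫)) * Complex.I) *
          Complex.exp (↑(2 * Real.pi * ⟪ξ, y⟫) * Complex.I) := by
      rw [← Complex.exp_add, inner_sub_right, real_inner_comm z ξ]
      congr 1; push_cast; ring
    rw [this, smul_eq_mul, smul_eq_mul]; ring
  simp only [e1]
  rw [integral_integral_swap]
  · congr 1; funext ξ
    rw [integral_mul_const, liou3b_odd n hδ, smul_eq_mul]; ring
  · refine ((hk.mul_const 2).mul_prod hg.norm).mono' (Continuous.aestronglyMeasurable ?_)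
      (Eventually.of_forall fun p => ?_)
    · unfold Function.uncurry
      fun_prop
    · simp only [Function.uncurry, norm_mul, Complex.norm_exp_ofReal_mul_I, one_mul,
        Complex.norm_real, Real.norm_of_nonneg (kk_nonneg _ _ _)]
      refine mul_le_mul_of_nonneg_right (mul_le_mul_of_nonneg_left ?_ (kk_nonneg _ _ _))
        (norm_nonneg _)
      refine (norm_sub_le _ _).trans ?_
      rw [Complex.norm_exp_ofReal_mul_I, norm_one]; norm_num

theorem LL_fourier (n : ℕ) (hn : 1 ≤ n) :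
    ∃ c : ℝ, 0 < c ∧ ∀ (Ψ : 𝓢(E n, ℂ)) (y : E n),
      Tendsto (fun δ : ℝ => ∫ x : E n, ((kk n δ (y - x) : ℝ) : ℂ) * (Ψ y - Ψ x)) (𝓝[>] 0)
        (𝓝 (𝓕⁻ (fun ξ : E n => ((c * ‖ξ‖ : ℝ) : ℂ) * 𝓕 (Ψ : E n → ℂ) ξ) y)) := by
  obtain ⟨c, hc, h⟩ := exists_mult n hn
  refine ⟨c, hc, fun Ψ y => ?_⟩
  have gi : Integrable (𝓕 (Ψ : E n → ℂ)) volume := (𝓕 Ψ).integrable
  have gc : Continuous (𝓕 (Ψ : E n → ℂ)) := (𝓕 Ψ).continuous
  have g1 : Integrable (fun ξ : E n => ‖ξ‖ ^ 1 * ‖𝓕 (Ψ : E n → ℂ) ξ‖) volume :=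
    (𝓕 Ψ).integrable_pow_mul volume 1
  have inv := Ψ.continuous.fourierInv_fourier_eq Ψ.integrable gi
  generalize 𝓕 (Ψ : E n → ℂ) = g at gi gc g1 inv
  rw [← inv, Real.fourierInv_eq' (fun ξ : E n => ((c * ‖ξ‖ : ℝ) : ℂ) * g ξ)]
  refine Tendsto.congr' (eventually_mem_nhdsWithin.mono fun δ hδ => (liou3b_eq n hδ gi gc y).symm) ?_
  refine tendsto_integral_filter_of_dominated_convergence (fun ξ => c * (‖ξ‖ ^ 1 * ‖g ξ‖))
    (eventually_mem_nhdsWithin.mono fun δ hδ => ?_)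
    (eventually_mem_nhdsWithin.mono fun δ hδ => Eventually.of_forall fun ξ => ?_) (g1.const_mul c)
    (Eventually.of_forall fun ξ => ?_)
  · have hkc := continuous_kk (d := n) n hδ
    have hm : StronglyMeasurable fun ξ : E n =>
        ∫ z : E n, kk n δ z * (1 - Real.cos (2 * Real.pi * ⟪z, ξ⟫)) :=
      StronglyMeasurable.integral_prod_right
        (f := fun ξ z : E n => kk n δ z * (1 - Real.cos (2 * Real.pi * ⟪z, ξ⟫)))
        (Continuous.stronglyMeasurable (by unfold Function.uncurry; fun_prop))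
    have he : Continuous fun ξ : E n => Complex.exp (↑(2 * Real.pi * ⟪ξ, y⟫) * Complex.I) := by
      fun_prop
    exact he.aestronglyMeasurable.smul
      ((Complex.continuous_ofReal.comp_stronglyMeasurable hm).aestronglyMeasurable.mul
        gc.aestronglyMeasurable)
  · obtain ⟨h1, h2⟩ := (h ξ).1 δ hδ
    rw [norm_smul, Complex.norm_exp_ofReal_mul_I, one_mul, norm_mul, Complex.norm_real,
      Real.norm_of_nonneg h1, pow_one, ← mul_assoc]
    exact mul_le_mul_of_nonneg_right h2 (norm_nonneg _)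
  · exact (((Complex.continuous_ofReal.tendsto _).comp (h ξ).2).mul_const _).const_smul _

end Vale.Agent.P120
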