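import Vale.Agent.P120.Liou2
import Vale.Agent.P120.Liou3b

/-!
P120 Liou4. Overview in notes/P120.md, definitions in Defs.lean.
Name every helper lemma of yours with the file name in front (for example liou4_aux1).

PLAN.
g1 ξ = g ξ / (c |ξ|) is smooth (contDiff_iff_contDiffAt: near 0 it is eventually 0 because 0 is not in tsupport g; elsewhere contDiffAt_norm) with compact
support; G1 = HasCompactSupport.toSchwartzMap, Ψ = 𝓕⁻ G1, 𝓕 Ψ = G1 (FourierTransform.fourier_fourierInv_eq, SchwartzMap.fourier_coe), c |ξ| g1 ξ = g ξ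
(also at 0). ∫ Ψ = 𝓕 Ψ 0 = 0 (Real.fourier_eq'). u1 = re Ψ, u2 = im Ψ (Complex.reCLM, imCLM; dec_of_schwartz; means vanish by integral_comp_comm).
The complex integral in LL_fourier equals LL δ u1 y + I * LL δ u2 y, so LL δ u1 y → re (𝓕⁻ g y) etc. Dominated convergence with bound C B |h| ww (n+2)
(LL_decay, LL_continuous; eventually δ <= 1) and Harm.extend give ∫ h re (𝓕⁻ g) = 0 = ∫ h im (𝓕⁻ g); conclude (integrability from the bound, or
integral_re_add_im / Complex.ext with integral_re, integral_im).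
-/

open MeasureTheory Metric Set Filter Topology
open scoped ENNReal NNReal RealInnerProductSpace
open scoped FourierTransform SchwartzMap

namespace Vale.Agent.P120

variable {d : ℕ}

theorem liou4_div {n : ℕ} {g : E n → ℂ} (hg : ContDiff ℝ ((⊤ : ℕ∞) : WithTop ℕ∞) g)
    (hc : HasCompactSupport g) (h0 : (0 : E n) ∉ tsupport g) {c : ℝ} (hc0 : 0 < c) :
    ∃ G : 𝓢(E n, ℂ), G 0 = 0 ∧ ∀ ξ, ((c * ‖ξ‖ : ℝ) : ℂ) * G ξ = g ξ := by
  have hz : g =ᶠ[𝓝 0] 0 := notMem_tsupport_iff_eventuallyEq.1 h0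
  have hg0 : g 0 = 0 := hz.eq_of_nhds
  have h1 : ContDiff ℝ ((⊤ : ℕ∞) : WithTop ℕ∞) fun ξ : E n => (c * ‖ξ‖)⁻¹ • g ξ := by
    refine contDiff_iff_contDiffAt.2 fun ξ => ?_
    by_cases hξ : ξ = 0
    · rw [hξ]
      refine (contDiffAt_const (c := (0 : ℂ))).congr_of_eventuallyEq ?_
      filter_upwards [hz] with w hw
      rw [hw, Pi.zero_apply, smul_zero]
    · exact ((contDiffAt_const.mul (contDiffAt_norm ℝ hξ)).inv
        (mul_pos hc0 (norm_pos_iff.2 hξ)).ne').smul hg.contDiffAt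
  have h2 : HasCompactSupport fun ξ : E n => (c * ‖ξ‖)⁻¹ • g ξ :=
    hc.smul_left (f := fun ξ : E n => (c * ‖ξ‖)⁻¹)
  refine ⟨h2.toSchwartzMap h1, ?_, fun ξ => ?_⟩
  · change (c * ‖(0 : E n)‖)⁻¹ • g 0 = 0
    rw [hg0, smul_zero]
  · change ((c * ‖ξ‖ : ℝ) : ℂ) * ((c * ‖ξ‖)⁻¹ • g ξ) = g ξ
    by_cases hξ : ξ = 0
    · rw [hξ, hg0, smul_zero, mul_zero]
    · rw [← Complex.real_smul, smul_smul, mul_inv_cancel₀ (mul_pos hc0 (norm_pos_iff.2 hξ)).ne',
        one_smul]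

theorem liou4_LL {n : ℕ} {δ : ℝ} (hδ : 0 < δ) (Ψ : 𝓢(E n, ℂ)) (T : ℂ →L[ℝ] ℝ) (y : E n) :
    LL n volume δ (fun x => T (Ψ x)) y =
      T (∫ x : E n, ((kk n δ (y - x) : ℝ) : ℂ) * (Ψ y - Ψ x)) := by
  obtain ⟨B, hB⟩ := schwartz_le_ww 0 Ψ
  have hB' : ∀ x, ‖Ψ x‖ ≤ B := fun x => by simpa [ww] using (hB x).1
  have hi : Integrable (fun x : E n => ((kk n δ (y - x) : ℝ) : ℂ) * (Ψ y - Ψ x)) volume :=
    (integrable_kk_vol n hδ y).ofReal.mul_bdd (c := B + B)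
      (continuous_const.sub Ψ.continuous).aestronglyMeasurable
      (Eventually.of_forall fun x => (norm_sub_le _ _).trans (add_le_add (hB' y) (hB' x)))
  rw [← T.integral_comp_comm hi]
  unfold LL
  refine integral_congr_ae (Eventually.of_forall fun x => ?_)
  change _ = T (((kk n δ (y - x) : ℝ) : ℂ) * (Ψ y - Ψ x))
  rw [← Complex.real_smul, map_smul, map_sub, smul_eq_mul]

theorem liou4_part {n : ℕ} (hn : 1 ≤ n) {h : E n → ℝ} (h1 : WL1 n h) (hH : Harm n h)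
    (Ψ : 𝓢(E n, ℂ)) (h0 : ∫ x, Ψ x = 0) {F : E n → ℂ}
    (hF : ∀ y, Tendsto (fun δ : ℝ => ∫ x : E n, ((kk n δ (y - x) : ℝ) : ℂ) * (Ψ y - Ψ x)) (𝓝[>] 0)
      (𝓝 (F y))) (T : ℂ →L[ℝ] ℝ) : ∫ y, h y * T (F y) = 0 := by
  obtain ⟨B, hB⟩ := dec_of_schwartz (2 * n + 5) Ψ T
  have hm : ∫ x, T (Ψ x) = 0 := by rw [T.integral_comp_comm Ψ.integrable, h0, map_zero]
  obtain ⟨C, -, hC⟩ := LL_decay n hn
  refine tendsto_nhds_unique ?_ (hH.extend hn h1 hB hm)
  refine tendsto_integral_filter_of_dominated_convergence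
    (fun y => C * B * (|h y| * ww (n + 2) y)) ?_ ?_ (h1.2.const_mul _)
    (Eventually.of_forall fun y => ?_)
  · filter_upwards [self_mem_nhdsWithin] with δ hδ
    exact h1.1.mul (LL_continuous n hδ hB).aestronglyMeasurable
  · filter_upwards [Ioc_mem_nhdsGT (zero_lt_one' ℝ)] with δ hδ
    refine Eventually.of_forall fun y => ?_
    rw [Real.norm_eq_abs, abs_mul]
    refine (mul_le_mul_of_nonneg_left (hC _ B (hB.anti (by omega)) hm δ hδ.1 hδ.2 y)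
      (abs_nonneg _)).trans (le_of_eq ?_)
    ring
  · refine (((T.continuous.tendsto _).comp (hF y)).const_mul (h y)).congr' ?_
    filter_upwards [self_mem_nhdsWithin] with δ hδ
    rw [liou4_LL hδ]
    rfl

theorem Harm.kill {n : ℕ} (hn : 1 ≤ n) {h : E n → ℝ} (h1 : WL1 n h) (hH : Harm n h) :
    Kill n h := by
  intro g hg hc h0
  obtain ⟨c, hc0, hL⟩ := LL_fourier n hn
  obtain ⟨G, hG0, hG⟩ := liou4_div hg hc h0 hc0
  have e1 : 𝓕 ((𝓕⁻ G : 𝓢(E n, ℂ)) : E n → ℂ) = G := by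
    rw [← SchwartzMap.fourier_coe, FourierTransform.fourier_fourierInv_eq]
  have e2 : ∫ x, (𝓕⁻ G : 𝓢(E n, ℂ)) x = 0 := by
    have e3 := congrFun e1 0
    rw [Real.fourier_eq', hG0] at e3
    simpa using e3
  have hF : ∀ y, Tendsto (fun δ : ℝ => ∫ x : E n, ((kk n δ (y - x) : ℝ) : ℂ) *
      ((𝓕⁻ G : 𝓢(E n, ℂ)) y - (𝓕⁻ G : 𝓢(E n, ℂ)) x)) (𝓝[>] 0) (𝓝 (𝓕⁻ g y)) := fun y => by
    have e3 := hL (𝓕⁻ G) y
    rwa [e1, funext hG] at e3
  have hi : Integrable (fun y => (h y : ℂ) * 𝓕⁻ g y) volume := by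
    obtain ⟨B, hB⟩ := schwartz_le_ww (n + 2) (𝓕⁻ (hc.toSchwartzMap hg))
    have e4 : ((𝓕⁻ (hc.toSchwartzMap hg) : 𝓢(E n, ℂ)) : E n → ℂ) = 𝓕⁻ g :=
      SchwartzMap.fourierInv_coe _
    have hcont : Continuous (𝓕⁻ g : E n → ℂ) := by
      rw [← e4]
      exact SchwartzMap.continuous _
    refine (h1.2.const_mul B).mono'
      ((Complex.continuous_ofReal.comp_aestronglyMeasurable h1.1).mul hcont.aestronglyMeasurable)
      (Eventually.of_forall fun y => ?_)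
    have h2 := (hB y).1
    rw [e4] at h2
    rw [norm_mul, Complex.norm_real, Real.norm_eq_abs]
    refine (mul_le_mul_of_nonneg_left h2 (abs_nonneg _)).trans (le_of_eq ?_)
    ring
  have key : ∀ T : ℂ →L[ℝ] ℝ, T (∫ y, (h y : ℂ) * 𝓕⁻ g y) = 0 := fun T => by
    rw [← T.integral_comp_comm hi, ← liou4_part hn h1 hH _ e2 hF T]
    refine integral_congr_ae (Eventually.of_forall fun y => ?_)
    change T ((h y : ℂ) * 𝓕⁻ g y) = _
    rw [← Complex.real_smul, map_smul, smul_eq_mul]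
  exact Complex.ext (key Complex.reCLM) (key Complex.imCLM)

end Vale.Agent.P120
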