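import Vale.Agent.P120.Liou0

/-!
P120 Liou5a. Overview in notes/P120.md, definitions in Defs.lean.
Name every helper lemma of yours with the file name in front (for example liou5a_aux1).

PLAN.
χ = a ContDiffBump at 0 (rIn 1, rOut 2) with complex values, X its SchwartzMap (HasCompactSupport.toSchwartzMap), Φ = 𝓕⁻ X; ∫ Φ = 𝓕 Φ 0 = χ 0 = 1.
For s > 0: s^(-n) Φ (s⁻¹ • (x - y)) = 𝓕⁻ (g s) y with g s ζ = exp (-2π i ⟪ζ,x⟫) χ (-(s • ζ)) (Real.fourierInv_eq', change of variables ξ = (-s) • ζ,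
Measure.integral_comp_smul with |(-s)^n|). g s - g 1 is smooth, compactly supported and vanishes near 0 (χ = 1 on the unit ball), so Kill applies;
𝓕⁻ is additive on integrable functions (integral_sub), and h * Φ_s (x - .) is integrable (HS_integrable: schwartz_le_ww with N = n+2 and Peetre).
-/

open MeasureTheory Metric Set Filter Topology
open scoped ENNReal NNReal RealInnerProductSpace
open scoped FourierTransform SchwartzMap

namespace Vale.Agent.P120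

variable {d : ℕ}

theorem liou5a_ww (m : ℕ) {s : ℝ} (hs : 0 < s) (z : E d) :
    ww m (s⁻¹ • z) ≤ (1 + s) ^ m * ww m z := by
  unfold ww
  rw [norm_smul, Real.norm_of_nonneg (inv_pos.2 hs).le, ← div_eq_mul_inv,
    le_div_iff₀ (by positivity), inv_mul_le_iff₀ (by positivity), ← mul_pow]
  refine pow_le_pow_left₀ (by positivity) ?_ m
  have h1 : s⁻¹ * ‖z‖ * s = ‖z‖ := by field_simp
  have h2 : 0 ≤ s⁻¹ * ‖z‖ := by positivity
  nlinarith

theorem HS_integrable {n : ℕ} {h : E n → ℝ} (h1 : WL1 n h) (Φ : 𝓢(E n, ℂ)) {s : ℝ} (hs : 0 < s)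
    (x : E n) :
    Integrable (fun y => (h y : ℂ) * ((((s ^ n)⁻¹ : ℝ) : ℂ) * Φ (s⁻¹ • (x - y)))) volume := by
  obtain ⟨B, hB⟩ := schwartz_le_ww (n + 2) Φ
  have hB0 : 0 ≤ B := by
    have h2 := (norm_nonneg _).trans (hB 0).1
    exact nonneg_of_mul_nonneg_left h2 (ww_pos _ _)
  refine (h1.2.const_mul ((s ^ n)⁻¹ * (B * ((1 + s) ^ (n + 2) * (1 + ‖x‖) ^ (n + 2))))).mono'
    ((Complex.continuous_ofReal.comp_aestronglyMeasurable h1.1).mul
      (Continuous.aestronglyMeasurable (by fun_prop))) (Eventually.of_forall fun y => ?_)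
  have h2 : ww (n + 2) (x - y) ≤ (1 + ‖x‖) ^ (n + 2) * ww (n + 2) y := by
    have h3 := ww_peetre (n + 2) x y
    unfold ww at h3 ⊢
    rwa [norm_sub_rev]
  have h3 : ‖Φ (s⁻¹ • (x - y))‖ ≤ B * ((1 + s) ^ (n + 2) * ((1 + ‖x‖) ^ (n + 2) * ww (n + 2) y)) :=
    (hB _).1.trans (mul_le_mul_of_nonneg_left ((liou5a_ww _ hs _).trans
      (mul_le_mul_of_nonneg_left h2 (by positivity))) hB0)
  rw [norm_mul, norm_mul, Complex.norm_real, Complex.norm_real, Real.norm_eq_abs,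
    Real.norm_of_nonneg (by positivity)]
  calc _ ≤ |h y| * ((s ^ n)⁻¹ *
        (B * ((1 + s) ^ (n + 2) * ((1 + ‖x‖) ^ (n + 2) * ww (n + 2) y)))) := by gcongr
    _ = _ := by ring

/-- the modulated dilate -/
noncomputable def liou5aG {n : ℕ} (X : E n → ℂ) (x : E n) (s : ℝ) (ζ : E n) : ℂ :=
  Complex.exp (((-(2 * Real.pi * ⟪ζ, x⟫) : ℝ) : ℂ) * Complex.I) * X ((-s) • ζ)

theorem liou5a_dil {n : ℕ} (X : E n → ℂ) {s : ℝ} (hs : 0 < s) (x y : E n) :
    ((((s ^ n)⁻¹ : ℝ) : ℂ) * 𝓕⁻ X (s⁻¹ • (x - y))) = 𝓕⁻ (liou5aG X x s) y := by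
  have h := Measure.integral_comp_smul volume (fun ξ : E n =>
    Complex.exp (((2 * Real.pi * ⟪ξ, s⁻¹ • (x - y)⟫ : ℝ) : ℂ) * Complex.I) • X ξ) (-s)
  rw [finrank_euclideanSpace_fin, abs_inv, abs_pow, abs_neg, abs_of_pos hs] at h
  rw [Real.fourierInv_eq', Real.fourierInv_eq', ← Complex.real_smul, ← h]
  refine integral_congr_ae (Eventually.of_forall fun ζ => ?_)
  have e : 2 * Real.pi * ⟪(-s) • ζ, s⁻¹ • (x - y)⟫ =
      2 * Real.pi * ⟪ζ, y⟫ + -(2 * Real.pi * ⟪ζ, x⟫) := by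
    rw [real_inner_smul_left, real_inner_smul_right, inner_sub_right]
    field_simp
    ring
  simp only [liou5aG, smul_eq_mul]
  rw [e, Complex.ofReal_add, add_mul, Complex.exp_add, mul_assoc]

theorem liou5a_smooth {n : ℕ} {X : E n → ℂ} (hX : ContDiff ℝ ((⊤ : ℕ∞) : WithTop ℕ∞) X) (x : E n)
    (s : ℝ) : ContDiff ℝ ((⊤ : ℕ∞) : WithTop ℕ∞) (liou5aG X x s) := by
  have h1 : ContDiff ℝ ((⊤ : ℕ∞) : WithTop ℕ∞) fun ζ : E n => -(2 * Real.pi * ⟪ζ, x⟫) :=
    (contDiff_const.mul (contDiff_id.inner ℝ contDiff_const)).neg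
  exact ((Complex.ofRealCLM.contDiff.comp h1).mul contDiff_const).cexp.mul
    (hX.comp (contDiff_id.const_smul (-s)))

theorem liou5a_supp {n : ℕ} {X : E n → ℂ} (hX : HasCompactSupport X) (x : E n) {s : ℝ}
    (hs : 0 < s) : HasCompactSupport (liou5aG X x s) :=
  (hX.comp_smul (neg_ne_zero.2 hs.ne')).mul_left

theorem liou5a_int {n : ℕ} {g : E n → ℂ} (h1 : Continuous g) (h2 : HasCompactSupport g) (y : E n) :
    Integrable fun v : E n =>
      Complex.exp (((2 * Real.pi * ⟪v, y⟫ : ℝ) : ℂ) * Complex.I) • g v := by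
  have h3 : Continuous fun v : E n =>
      Complex.exp (((2 * Real.pi * ⟪v, y⟫ : ℝ) : ℂ) * Complex.I) := by fun_prop
  exact (h3.mul h1).integrable_of_hasCompactSupport h2.mul_left

theorem exists_HS_const (n : ℕ) :
    ∃ Φ : 𝓢(E n, ℂ), ∫ x, Φ x = 1 ∧ ∀ h : E n → ℝ, WL1 n h → Kill n h →
      ∀ s : ℝ, 0 < s → ∀ x, HS n h Φ s x = HS n h Φ 1 x := by
  let χ : ContDiffBump (0 : E n) := ⟨1, 2, one_pos, one_lt_two⟩
  obtain ⟨X, hX⟩ : ∃ X : E n → ℂ, X = fun ξ => ((χ ξ : ℝ) : ℂ) := ⟨_, rfl⟩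
  have c1 : ContDiff ℝ ((⊤ : ℕ∞) : WithTop ℕ∞) X :=
    hX ▸ Complex.ofRealCLM.contDiff.comp χ.contDiff
  have c2 : HasCompactSupport X :=
    hX ▸ χ.hasCompactSupport.comp_left (g := fun t : ℝ => (t : ℂ)) Complex.ofReal_zero
  have c3 : ∀ ξ, ‖ξ‖ ≤ 1 → X ξ = 1 := fun ξ hξ => by
    rw [hX]
    simp only
    rw [χ.one_of_mem_closedBall (mem_closedBall_zero_iff.2 hξ), Complex.ofReal_one]
  have e : ((𝓕⁻ (c2.toSchwartzMap c1) : 𝓢(E n, ℂ)) : E n → ℂ) = 𝓕⁻ X :=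
    SchwartzMap.fourierInv_coe _
  refine ⟨𝓕⁻ (c2.toSchwartzMap c1), ?_, fun h h1 hK s hs x => ?_⟩
  · have h2 : (𝓕 (𝓕⁻ (c2.toSchwartzMap c1)) : 𝓢(E n, ℂ)) 0 = X 0 := by
      rw [FourierTransform.fourier_fourierInv_eq]
      rfl
    rw [SchwartzMap.fourier_coe, Real.fourier_eq', c3 0 (by simp)] at h2
    simpa using h2
  · have i1 := HS_integrable h1 (𝓕⁻ (c2.toSchwartzMap c1)) hs x
    have i2 := HS_integrable h1 (𝓕⁻ (c2.toSchwartzMap c1)) one_pos x
    have h0 : (0 : E n) ∉ tsupport fun ζ => liou5aG X x s ζ - liou5aG X x 1 ζ := by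
      rw [notMem_tsupport_iff_eventuallyEq]
      filter_upwards [ball_mem_nhds (0 : E n) (show 0 < (1 + s)⁻¹ by positivity)] with ζ hζ
      rw [mem_ball_zero_iff, ← one_div, lt_div_iff₀ (by positivity)] at hζ
      have h3 := norm_nonneg ζ
      have h4 := mul_nonneg h3 hs.le
      simp only [liou5aG, Pi.zero_apply]
      rw [c3 _ (by rw [norm_smul, norm_neg, Real.norm_of_nonneg hs.le]; linarith),
        c3 _ (by rw [norm_smul, norm_neg, norm_one]; linarith), sub_self]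
    have h2 := hK _ ((liou5a_smooth c1 x s).sub (liou5a_smooth c1 x 1))
      ((liou5a_supp c2 x hs).sub (liou5a_supp c2 x one_pos)) h0
    rw [← sub_eq_zero, HS, HS, ← integral_sub i1 i2, ← h2]
    refine integral_congr_ae (Eventually.of_forall fun y => ?_)
    have j := fun t ht => liou5a_int (liou5a_smooth c1 x t).continuous (liou5a_supp c2 x (s := t) ht) y
    simp only [e]
    rw [liou5a_dil X hs, liou5a_dil X one_pos, ← mul_sub, Real.fourierInv_eq',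
      Real.fourierInv_eq', Real.fourierInv_eq', ← integral_sub (j s hs) (j 1 one_pos)]
    simp only [smul_sub]

end Vale.Agent.P120
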