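import Vale.Agent.P120.Defs

/-!
P120 Mart1. Overview in notes/P120.md, definitions in Defs.lean.
Name every helper lemma of yours with the file name in front (for example mart1_aux1).

PLAN.
Abstract martingale estimate in H = Lp ℝ 2 μ. m j = MeasurableSpace.comap (I j) ⊤ is below the ambient σ-algebra (countable ι,
measurable fibres) and increasing in j (hnest: I j = φ ∘ I (j+1)). H j = lpMeas ℝ ℝ (m j) 2 μ, P j = (H j).starProjection
(complete: instance through Fact (m j ≤ _), see condExpL2). D j = a measurable version of P (j+1) g - P j g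
(AEStronglyMeasurable.mk). Orthogonality: Δ j = P (j+1) g - P j g lies in H (j+1) and is orthogonal to H j, so
|P (J) g|^2 = |P 0 g|^2 + sum of |Δ j|^2, which gives the sum bound.
For ψ: (1) P i ψ = 0, i.e. ⟪P i g, ψ⟫ = 0: a member of H i is a.e. equal to an (m i)-measurable function, which is constant
on the fibre {I i = q} (Measurable.factorsThrough or exists_eq_measurable_comp), and ∫ ψ = 0.
(2) φ_l = c ∘ I (i+l) is in L2 (ψ - φ_l has finite square lintegral) and in H (i+l); the fibre indicator times φ_l is in H (i+l)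
too (the fibre is (m (i+l))-measurable by nesting). So ⟪Δ (i+l), ψ⟫ = ∫ over Q of Δ (ψ - φ_l) <= sqrt(∫_Q Δ^2) a θ^l.
(3) ⟪g, ψ⟫ = ⟪g - P (i+l) g, ψ - φ_l⟫ + sum_{l' < l} ⟪Δ (i+l'), ψ⟫, first term <= |g| a θ^l → 0.
Finite Cauchy-Schwarz (Finset.inner_mul_le_norm_mul_norm / Finset.sum_mul_sq_le_sq_mul_sq) with weights θ^l, and
sum_le_tsum (summable since ∫_Q D^2 <= ∫ g^2).
-/

open MeasureTheory Metric Set Filter Topology
open scoped ENNReal NNReal RealInnerProductSpace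

namespace Vale.Agent.P120

variable {d : ℕ}

theorem mart1_inner {X : Type} [MeasurableSpace X] {μ : Measure X} (f h : Lp ℝ 2 μ) {u v : X → ℝ}
    (hf : f =ᵐ[μ] u) (hh : h =ᵐ[μ] v) : ⟪f, h⟫ = ∫ x, u x * v x ∂μ := by
  rw [L2.inner_def]
  refine integral_congr_ae ?_
  filter_upwards [hf, hh] with x a b
  rw [a, b]
  simp [mul_comm]

theorem mart1_norm {X : Type} [MeasurableSpace X] {μ : Measure X} (f : Lp ℝ 2 μ) {u : X → ℝ}
    (hf : f =ᵐ[μ] u) : ‖f‖ ^ 2 = ∫ x, u x ^ 2 ∂μ := by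
  rw [← real_inner_self_eq_norm_sq, mart1_inner f f hf hf]
  simp only [sq]

/-- The closed subspace of the square integrable functions constant on the fibres of `J`. -/
theorem mart1_space {X : Type} [m0 : MeasurableSpace X] {ι : Type} [Countable ι] (μ : Measure X)
    (J : X → ι) (hJ : ∀ q, MeasurableSet {x | J x = q}) :
    ∃ H : Submodule ℝ (Lp ℝ 2 μ), (∀ f : Lp ℝ 2 μ, f ∈ H ↔ ∃ c : ι → ℝ, f =ᵐ[μ] fun x => c (J x)) ∧
      ∀ G : Lp ℝ 2 μ, ∃ p ∈ H, ∀ w ∈ H, ⟪G - p, w⟫ = 0 := by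
  have hm : MeasurableSpace.comap J ⊤ ≤ m0 := by
    have : @Measurable X ι m0 ⊤ J := by
      let _i : MeasurableSpace ι := ⊤
      exact measurable_to_countable' fun q => hJ q
    exact this.comap_le
  have _j : Fact (MeasurableSpace.comap J ⊤ ≤ m0) := ⟨hm⟩
  refine ⟨lpMeas ℝ ℝ (MeasurableSpace.comap J ⊤) 2 μ, fun f => ?_, fun G => ?_⟩
  · rw [mem_lpMeas_iff_aestronglyMeasurable]
    constructor
    · rintro ⟨g, g1, g2⟩
      obtain ⟨e, he⟩ := (Function.factorsThrough_iff g).mp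
        (StronglyMeasurable.factorsThrough (mY := ⊤) g1)
      rw [he] at g2
      exact ⟨e, g2⟩
    · rintro ⟨c, hc⟩
      refine ⟨fun x => c (J x), ?_, hc⟩
      let _i : MeasurableSpace ι := ⊤
      have h1 : Measurable c := measurable_from_top
      exact (h1.comp (comap_measurable J)).stronglyMeasurable
  · obtain ⟨p, hp, hq⟩ := Submodule.HasOrthogonalProjection.exists_orthogonal
      (K := lpMeas ℝ ℝ (MeasurableSpace.comap J ⊤) 2 μ) G
    exact ⟨p, hp, fun w hw => Submodule.inner_left_of_mem_orthogonal hw hq⟩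

theorem mart1_pyth {E : Type*} [NormedAddCommGroup E] [InnerProductSpace ℝ E] {u v : E}
    (h : ⟪u - v, v⟫ = 0) : ‖u‖ ^ 2 = ‖u - v‖ ^ 2 + ‖v‖ ^ 2 := by
  have := norm_add_sq_real (u - v) v
  rw [sub_add_cancel, h] at this
  linarith

theorem mart1_seq {x C M a θ : ℝ} {s : ℕ → ℝ} (ha : 0 ≤ a) (h0 : 0 < θ) (h1 : θ < 1)
    (hs : ∀ l, 0 ≤ s l ∧ s l ≤ M)
    (h : ∀ L, x ≤ C * θ ^ L + ∑ l ∈ Finset.range L, √(s l) * (a * θ ^ l)) :
    x ≤ a * √(1 / (1 - θ)) * √(∑' l, θ ^ l * s l) := by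
  have hg := summable_geometric_of_lt_one h0.le h1
  have hsum : Summable fun l => θ ^ l * s l :=
    Summable.of_nonneg_of_le (fun l => mul_nonneg (pow_nonneg h0.le l) (hs l).1)
      (fun l => mul_le_mul_of_nonneg_left (hs l).2 (pow_nonneg h0.le l)) (hg.mul_right M)
  have key : ∀ L, ∑ l ∈ Finset.range L, √(s l) * (a * θ ^ l) ≤
      a * √(1 / (1 - θ)) * √(∑' l, θ ^ l * s l) := by
    intro L
    have e : ∑ l ∈ Finset.range L, √(s l) * (a * θ ^ l) =
        a * ∑ l ∈ Finset.range L, √(θ ^ l) * √(θ ^ l * s l) := by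
      rw [Finset.mul_sum]
      refine Finset.sum_congr rfl fun l _ => ?_
      rw [Real.sqrt_mul (pow_nonneg h0.le l), ← mul_assoc (√(θ ^ l)),
        Real.mul_self_sqrt (pow_nonneg h0.le l)]
      ring
    rw [e, mul_assoc]
    refine mul_le_mul_of_nonneg_left ?_ ha
    refine (Real.sum_sqrt_mul_sqrt_le _ (fun l => pow_nonneg h0.le l)
      (fun l => mul_nonneg (pow_nonneg h0.le l) (hs l).1)).trans ?_
    refine mul_le_mul (Real.sqrt_le_sqrt ?_) (Real.sqrt_le_sqrt ?_) (Real.sqrt_nonneg _)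
      (Real.sqrt_nonneg _)
    · rw [one_div, ← tsum_geometric_of_lt_one h0.le h1]
      exact hg.sum_le_tsum _ fun l _ => pow_nonneg h0.le l
    · exact hsum.sum_le_tsum _ fun l _ => mul_nonneg (pow_nonneg h0.le l) (hs l).1
  have ht : Tendsto (fun L : ℕ => C * θ ^ L + a * √(1 / (1 - θ)) * √(∑' l, θ ^ l * s l)) atTop
      (𝓝 (C * 0 + a * √(1 / (1 - θ)) * √(∑' l, θ ^ l * s l))) :=
    ((tendsto_pow_atTop_nhds_zero_of_lt_one h0.le h1).const_mul C).add_const _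
  rw [mul_zero, zero_add] at ht
  exact ge_of_tendsto' ht fun L => (h L).trans (add_le_add le_rfl (key L))

theorem mart1_rem {X : Type} [MeasurableSpace X] {μ : Measure X} {r : X → ℝ} {b : ℝ} (hb : 0 ≤ b)
    (hr : AEStronglyMeasurable r μ)
    (h : ∫⁻ x, ENNReal.ofReal (r x ^ 2) ∂μ ≤ ENNReal.ofReal (b ^ 2)) :
    ∃ hm : MemLp r 2 μ, ‖hm.toLp r‖ ≤ b := by
  have hn : 0 ≤ᵐ[μ] fun x => r x ^ 2 := Eventually.of_forall fun x => sq_nonneg _
  have hm : MemLp r 2 μ := (memLp_two_iff_integrable_sq hr).mpr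
    ⟨hr.pow 2, (hasFiniteIntegral_iff_ofReal hn).mpr (h.trans_lt ENNReal.ofReal_lt_top)⟩
  refine ⟨hm, (sq_le_sq₀ (norm_nonneg _) hb).mp ?_⟩
  rw [mart1_norm _ hm.coeFn_toLp, integral_eq_lintegral_of_nonneg_ae hn (hr.pow 2)]
  exact ENNReal.toReal_le_of_le_ofReal (sq_nonneg _) h

theorem mart_abstract {X : Type} [MeasurableSpace X] {ι : Type} [Countable ι] (μ : Measure X)
    (I : ℕ → X → ι) (hI : ∀ j q, MeasurableSet {x | I j x = q})
    (hnest : ∀ j x y, I (j + 1) x = I (j + 1) y → I j x = I j y)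
    (g : X → ℝ) (hg : MemLp g 2 μ) :
    ∃ D : ℕ → X → ℝ, (∀ j, Measurable (D j)) ∧ (∀ j, MemLp (D j) 2 μ) ∧
      (∀ J, ∑ j ∈ Finset.range J, ∫ x, D j x ^ 2 ∂μ ≤ ∫ x, g x ^ 2 ∂μ) ∧
      ∀ (ψ : X → ℝ) (i : ℕ) (q : ι) (a θ : ℝ), MemLp ψ 2 μ → Integrable ψ μ →
        (∀ x, I i x ≠ q → ψ x = 0) → ∫ x, ψ x ∂μ = 0 → 0 ≤ a → 0 < θ → θ < 1 →
        (∀ l : ℕ, ∃ c : ι → ℝ, ∫⁻ x, ENNReal.ofReal ((ψ x - c (I (i + l) x)) ^ 2) ∂μ ≤
          ENNReal.ofReal ((a * θ ^ l) ^ 2)) →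
        |∫ x, g x * ψ x ∂μ| ≤
          a * √(1 / (1 - θ)) * √(∑' l : ℕ, θ ^ l * ∫ x in {x | I i x = q}, D (i + l) x ^ 2 ∂μ) := by
  classical
  choose H hH hP using fun j => mart1_space μ (I j) (hI j)
  obtain ⟨G, hG⟩ : ∃ G : Lp ℝ 2 μ, G =ᵐ[μ] g := ⟨hg.toLp g, hg.coeFn_toLp⟩
  choose p hp ho using fun j => hP j G
  have nest : ∀ i l x y, I (i + l) x = I (i + l) y → I i x = I i y := by
    intro i l
    induction l with
    | zero => exact fun x y h => h
    | succ l ih => exact fun x y h => ih x y (hnest _ x y h)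
  have mono : ∀ j w, w ∈ H j → w ∈ H (j + 1) := by
    intro j w hw
    obtain ⟨c, hc⟩ := (hH j w).mp hw
    refine (hH (j + 1) w).mpr ⟨fun t => if h : ∃ x, I (j + 1) x = t then c (I j h.choose) else 0, ?_⟩
    filter_upwards [hc] with x hx
    have h : ∃ y, I (j + 1) y = I (j + 1) x := ⟨x, rfl⟩
    rw [hx, dif_pos h, hnest j _ _ h.choose_spec]
  have orth : ∀ j w, w ∈ H j → ⟪p (j + 1) - p j, w⟫ = 0 := by
    intro j w hw
    have e : p (j + 1) - p j = (G - p j) - (G - p (j + 1)) := by abel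
    rw [e, inner_sub_left, ho j w hw, ho (j + 1) w (mono j w hw), sub_zero]
  have pyth : ∀ j, ‖G‖ ^ 2 = ‖G - p j‖ ^ 2 + ‖p j‖ ^ 2 := fun j => mart1_pyth (ho j _ (hp j))
  have sumb : ∀ J, ∑ j ∈ Finset.range J, ‖p (j + 1) - p j‖ ^ 2 ≤ ‖p J‖ ^ 2 := by
    intro J
    induction J with
    | zero => simp
    | succ J ih =>
      rw [Finset.sum_range_succ, mart1_pyth (orth J _ (hp J))]
      linarith
  obtain ⟨D, hD1, hD2⟩ : ∃ D : ℕ → X → ℝ, (∀ j, Measurable (D j)) ∧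
      ∀ j, (p (j + 1) - p j : Lp ℝ 2 μ) =ᵐ[μ] D j :=
    ⟨fun j => (Lp.aestronglyMeasurable (p (j + 1) - p j)).mk _,
      fun j => (Lp.aestronglyMeasurable (p (j + 1) - p j)).stronglyMeasurable_mk.measurable,
      fun j => (Lp.aestronglyMeasurable (p (j + 1) - p j)).ae_eq_mk⟩
  have hD3 : ∀ j, MemLp (D j) 2 μ := fun j => (Lp.memLp (p (j + 1) - p j)).ae_eq (hD2 j)
  have hD4 : ∀ J, ∑ j ∈ Finset.range J, ∫ x, D j x ^ 2 ∂μ ≤ ∫ x, g x ^ 2 ∂μ := by
    intro J
    rw [← mart1_norm G hG, ← Finset.sum_congr rfl fun j _ => mart1_norm _ (hD2 j)]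
    have := pyth J
    have := sumb J
    nlinarith [sq_nonneg ‖G - p J‖]
  refine ⟨D, hD1, hD3, hD4, fun ψ i q a θ hψ _ hQ h0 ha t0 t1 hc => ?_⟩
  choose c hc using hc
  obtain ⟨Ψ, hΨ⟩ : ∃ Ψ : Lp ℝ 2 μ, Ψ =ᵐ[μ] ψ := ⟨hψ.toLp ψ, hψ.coeFn_toLp⟩
  have hr : ∀ l, AEStronglyMeasurable (fun x => ψ x - c l (I (i + l) x)) μ := by
    intro l
    refine hψ.1.sub (Measurable.aestronglyMeasurable ?_)
    let _i : MeasurableSpace ι := ⊤
    have h1 : Measurable (c l) := measurable_from_top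
    exact h1.comp (measurable_to_countable' fun q => hI (i + l) q)
  choose hm hR using fun l => mart1_rem (mul_nonneg ha (pow_nonneg t0.le l)) (hr l) (hc l)
  have s1 : ⟪p i, Ψ⟫ = 0 := by
    obtain ⟨e, he⟩ := (hH i _).mp (hp i)
    rw [mart1_inner _ _ he hΨ]
    have : (fun x => e (I i x) * ψ x) = fun x => e q * ψ x := by
      funext x
      by_cases hx : I i x = q
      · rw [hx]
      · rw [hQ x hx, mul_zero, mul_zero]
    rw [this, integral_const_mul, h0, mul_zero]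
  have s2 : ∀ l, |⟪G - p (i + l), Ψ⟫| ≤ ‖G‖ * a * θ ^ l := by
    intro l
    have b1 : Ψ - (hm l).toLp _ ∈ H (i + l) := by
      refine (hH _ _).mpr ⟨c l, ?_⟩
      filter_upwards [Lp.coeFn_sub Ψ ((hm l).toLp _), hΨ, (hm l).coeFn_toLp] with x x1 x2 x3
      rw [x1, Pi.sub_apply, x2, x3]
      ring
    have b2 := ho _ _ b1
    rw [inner_sub_right, sub_eq_zero] at b2
    have b3 : ‖G - p (i + l)‖ ≤ ‖G‖ := by
      refine (sq_le_sq₀ (norm_nonneg _) (norm_nonneg _)).mp ?_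
      nlinarith [pyth (i + l), sq_nonneg ‖p (i + l)‖]
    rw [b2, mul_assoc]
    exact (abs_real_inner_le_norm _ _).trans
      (mul_le_mul b3 (hR l) (norm_nonneg _) (norm_nonneg _))
  have s3 : ∀ l, |⟪p (i + l + 1) - p (i + l), Ψ⟫| ≤
      √(∫ x in {x | I i x = q}, D (i + l) x ^ 2 ∂μ) * (a * θ ^ l) := by
    intro l
    have m1 := (hm l).indicator (hI i q)
    have m2 := (hD3 (i + l)).indicator (hI i q)
    have b1 : Ψ - m1.toLp _ ∈ H (i + l) := by
      refine (hH _ _).mpr ⟨fun t => if ∃ x, I (i + l) x = t ∧ I i x = q then c l t else 0, ?_⟩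
      filter_upwards [Lp.coeFn_sub Ψ (m1.toLp _), hΨ, m1.coeFn_toLp] with x x1 x2 x3
      rw [x1, Pi.sub_apply, x2, x3]
      by_cases hx : I i x = q
      · rw [indicator_of_mem (show x ∈ {x | I i x = q} from hx), if_pos ⟨x, rfl, hx⟩]
        ring
      · rw [indicator_of_notMem (show x ∉ {x | I i x = q} from hx), hQ x hx, if_neg, sub_zero]
        rintro ⟨y, y1, y2⟩
        exact hx ((nest i l y x y1).symm.trans y2)
    have b2 := orth _ _ b1
    rw [inner_sub_right, sub_eq_zero] at b2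
    have b3 : ⟪p (i + l + 1) - p (i + l), m1.toLp _⟫ = ⟪m2.toLp _, (hm l).toLp _⟫ := by
      rw [mart1_inner _ _ (hD2 (i + l)) m1.coeFn_toLp,
        mart1_inner _ _ m2.coeFn_toLp (hm l).coeFn_toLp]
      refine integral_congr_ae (Eventually.of_forall fun x => ?_)
      by_cases hx : x ∈ {x | I i x = q}
      · simp only [indicator_of_mem hx]
      · simp only [indicator_of_notMem hx, mul_zero, zero_mul]
    have b4 : ‖m2.toLp _‖ = √(∫ x in {x | I i x = q}, D (i + l) x ^ 2 ∂μ) := by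
      rw [← Real.sqrt_sq (norm_nonneg (m2.toLp _)), mart1_norm _ m2.coeFn_toLp,
        ← integral_indicator (hI i q)]
      refine congrArg _ (integral_congr_ae (Eventually.of_forall fun x => ?_))
      by_cases hx : x ∈ {x | I i x = q}
      · simp only [indicator_of_mem hx]
      · simp [indicator_of_notMem hx]
    rw [b2, b3, ← b4]
    exact (abs_real_inner_le_norm _ _).trans
      (mul_le_mul_of_nonneg_left (hR l) (norm_nonneg _))
  have s4 : ∀ L, |⟪p (i + L), Ψ⟫| ≤ ∑ l ∈ Finset.range L,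
      √(∫ x in {x | I i x = q}, D (i + l) x ^ 2 ∂μ) * (a * θ ^ l) := by
    intro L
    induction L with
    | zero => simp [s1]
    | succ L ih =>
      have e : ⟪p (i + (L + 1)), Ψ⟫ = ⟪p (i + L), Ψ⟫ + ⟪p (i + L + 1) - p (i + L), Ψ⟫ := by
        rw [inner_sub_left, add_sub_cancel]
        rfl
      rw [Finset.sum_range_succ, e]
      exact (abs_add_le _ _).trans (add_le_add ih (s3 L))
  rw [← mart1_inner G Ψ hG hΨ]
  refine mart1_seq (C := ‖G‖ * a) (M := ∫ x, g x ^ 2 ∂μ) ha t0 t1 (fun l => ⟨?_, ?_⟩) fun L => ?_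
  · exact integral_nonneg fun x => sq_nonneg _
  · refine le_trans (setIntegral_le_integral (hD3 _).integrable_sq
      (Eventually.of_forall fun x => sq_nonneg _)) (le_trans ?_ (hD4 (i + l + 1)))
    exact Finset.single_le_sum (f := fun j => ∫ x, D j x ^ 2 ∂μ)
      (fun j _ => integral_nonneg fun x => sq_nonneg _) (Finset.self_mem_range_succ _)
  · have e : ⟪G, Ψ⟫ = ⟪G - p (i + L), Ψ⟫ + ⟪p (i + L), Ψ⟫ := by
      rw [inner_sub_left, sub_add_cancel]
    rw [e]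
    exact (abs_add_le _ _).trans (add_le_add (s2 L) (s4 L))

end Vale.Agent.P120
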