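import Vale.Agent.P120.Mart2
import Vale.Agent.P120.EnB

/-!
P120 Mart3. Overview in notes/P120.md, definitions in Defs.lean.
Name every helper lemma of yours with the file name in front (for example mart3_aux1).

PLAN.
For q with Q q = {idx α j = q} meeting the support pick z q in it and let c q be the μ-average of ψ over B q = ball (z q) (sc j)
(mass >= A⁻¹ sc j ^ n, Low with sc j <= 1); otherwise c q = 0 (then μ (Q q) = 0, Measure.measure_compl_support).
For y in Q q: (ψ y - c q)^2 <= (1/μ B) ∫_B (ψ y - ψ w)^2 dμ w (Jensen or Cauchy-Schwarz), and for w in B,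
|y - w| <= (8d+1) sc j (idx_dist) so (ψ y - ψ w)^2 <= ((8d+1) sc j)^(n+1) kk n 0 (y - w) (ψ y - ψ w)^2 (trivial if y = w).
Hence for μ-a.e. y (those y in the support are enough) ofReal ((ψ y - c (idx y))^2) <= ofReal (C sc j) * lintegral over w of
ofReal (kk n 0 (y-w) (ψ y - ψ w)^2); integrate in y, lintegral_prod, ofReal_integral_eq_lintegral_ofReal with Test.en_integrable.
C = A (8d+1)^(n+1).
-/

open MeasureTheory Metric Set Filter Topology
open scoped ENNReal NNReal RealInnerProductSpace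

namespace Vale.Agent.P120

variable {d : ℕ}

theorem mart3_avg {ν : Measure (E d)} [IsFiniteMeasure ν] {ψ : E d → ℝ} (h : MemLp ψ 2 ν)
    (h0 : 0 < ν.real univ) (a : ℝ) :
    ENNReal.ofReal (ν.real univ * (a - (∫ w, ψ w ∂ν) / ν.real univ) ^ 2) ≤
      ∫⁻ w, ENNReal.ofReal ((a - ψ w) ^ 2) ∂ν := by
  have h1 : Integrable ψ ν := h.integrable one_le_two
  have h2 : Integrable (fun w => (a - ψ w) ^ 2) ν := ((memLp_const a).sub h).integrable_sq
  rw [← ofReal_integral_eq_lintegral_ofReal h2 (Eventually.of_forall fun w => sq_nonneg _)]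
  refine ENNReal.ofReal_le_ofReal ?_
  obtain ⟨c, hc⟩ : ∃ c, c = (∫ w, ψ w ∂ν) / ν.real univ := ⟨_, rfl⟩
  rw [← hc]
  rw [eq_div_iff h0.ne'] at hc
  have h3 : Integrable (fun w => 2 * (a - c) * ψ w) ν := h1.const_mul _
  have h4 := integral_mono ((integrable_const ((a - c) ^ 2 + 2 * (a - c) * c)).sub h3) h2
    fun w => by
      simp only [Pi.sub_apply]
      nlinarith [sq_nonneg (c - ψ w)]
  simp only [Pi.sub_apply] at h4
  rw [integral_sub (integrable_const _) h3, integral_const, integral_const_mul, ← hc,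
    smul_eq_mul] at h4
  linarith

theorem mart_approx (n d : ℕ) (hn : 1 ≤ n) (A : ℝ) (hA : 1 ≤ A) :
    ∃ C : ℝ, 0 < C ∧ ∀ μ : Measure (E d), Up n A μ → Low n A 1 μ →
      ∀ (α : Fin d → Bool) (j : ℕ) (ψ : E d → ℝ) (x : E d) (s L : ℝ), 0 < s → Test ψ x s L →
        ∃ c : (Fin d → ℤ) → ℝ, ∫⁻ y, ENNReal.ofReal ((ψ y - c (idx α j y)) ^ 2) ∂μ ≤
          ENNReal.ofReal (C * sc j * En n μ ψ) := by
  classical
  have hA0 : 0 < A := by linarith
  refine ⟨A * (8 * d + 1) ^ (n + 1), by positivity, fun μ hU hL α j ψ x s L hs hψ => ?_⟩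
  have := hU.sigmaFinite
  have hr := sc_pos j
  have ex : ∀ q : Fin d → ℤ, ∃ z : E d, (∃ y ∈ μ.support, idx α j y = q) →
      z ∈ μ.support ∧ idx α j z = q := by
    intro q
    by_cases h : ∃ y ∈ μ.support, idx α j y = q
    · obtain ⟨y, hy⟩ := h
      exact ⟨y, fun _ => hy⟩
    · exact ⟨0, fun c => absurd c h⟩
  choose z hz using ex
  refine ⟨fun q => (∫ w in ball (z q) (sc j), ψ w ∂μ) / μ.real (ball (z q) (sc j)), ?_⟩
  have hI := hψ.en_integrable hn hA0.le hU hs
  have hF : ∀ y w : E d, 0 ≤ kk n 0 (y - w) * (ψ y - ψ w) ^ 2 := fun y w =>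
    mul_nonneg (kk_nonneg _ _ _) (sq_nonneg _)
  have hC : 0 ≤ A * (8 * d + 1) ^ (n + 1) * sc j := by positivity
  rw [ENNReal.ofReal_mul hC, En, ofReal_integral_eq_lintegral_ofReal hI
    (Eventually.of_forall fun z => hF z.1 z.2),
    lintegral_prod _ hI.aestronglyMeasurable.aemeasurable.ennreal_ofReal,
    ← lintegral_const_mul' _ _ ENNReal.ofReal_ne_top]
  refine lintegral_mono_ae (mem_of_superset μ.support_mem_ae fun y hy => ?_)
  obtain ⟨z1, z2⟩ := hz (idx α j y) ⟨y, hy, rfl⟩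
  have hm := hL.real_ball_ge hU z1 hr (sc_le_one j)
  have hm0 : 0 < A⁻¹ * sc j ^ n := by positivity
  have : IsFiniteMeasure (μ.restrict (ball (z (idx α j y)) (sc j))) :=
    isFiniteMeasure_restrict.2 (hU.ball_lt_top _ _).ne
  have h1 := mart3_avg (ν := μ.restrict (ball (z (idx α j y)) (sc j))) ((hψ.memLp hU).restrict _)
    (by rw [measureReal_restrict_apply_univ]; linarith) (ψ y)
  rw [measureReal_restrict_apply_univ] at h1
  have h2 : ∫⁻ w in ball (z (idx α j y)) (sc j), ENNReal.ofReal ((ψ y - ψ w) ^ 2) ∂μ ≤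
      ENNReal.ofReal (((8 * d + 1) * sc j) ^ (n + 1)) *
        ∫⁻ w, ENNReal.ofReal (kk n 0 (y - w) * (ψ y - ψ w) ^ 2) ∂μ := by
    rw [← lintegral_const_mul' _ _ ENNReal.ofReal_ne_top]
    refine le_trans (setLIntegral_mono' measurableSet_ball fun w hw => ?_)
      (setLIntegral_le_lintegral _ _)
    rw [← ENNReal.ofReal_mul (by positivity), ← mul_assoc]
    refine ENNReal.ofReal_le_ofReal ?_
    by_cases e : y = w
    · simp [e]
    refine le_mul_of_one_le_left (sq_nonneg _) ?_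
    have n0 : 0 < ‖y - w‖ := norm_pos_iff.2 (sub_ne_zero.2 e)
    rw [kk_zero_eq, ← div_eq_mul_inv, one_le_div (by positivity)]
    refine pow_le_pow_left₀ n0.le ?_ _
    have d1 := idx_dist α j y _ z2.symm
    have d2 := dist_triangle_right y w (z (idx α j y))
    have d3 := mem_ball.1 hw
    rw [← dist_eq_norm]
    linarith
  have e : A * (8 * d + 1) ^ (n + 1) * sc j =
      (A⁻¹ * sc j ^ n)⁻¹ * ((8 * d + 1) * sc j) ^ (n + 1) := by
    rw [mul_pow]
    field_simp
    ring
  change ENNReal.ofReal _ ≤ _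
  rw [e, ENNReal.ofReal_mul (inv_nonneg.2 hm0.le), mul_assoc]
  refine le_trans ?_ (mul_le_mul_right (h1.trans h2) _)
  rw [← ENNReal.ofReal_mul (inv_nonneg.2 hm0.le), ← mul_assoc]
  refine ENNReal.ofReal_le_ofReal (le_mul_of_one_le_left (sq_nonneg _) ?_)
  rw [inv_mul_eq_div, one_le_div hm0]
  exact hm

end Vale.Agent.P120
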