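import Vale.Agent.P120.Mart1
import Vale.Agent.P120.Mart3

/-!
P120 Mart4. Overview in notes/P120.md, definitions in Defs.lean.
Name every helper lemma of yours with the file name in front (for example mart4_aux1).

PLAN.
For each α get D α from mart_abstract with I = idx α. Put θ = 3/4 (θ^2 >= 1/2, so C sc (i+l) En <= (a θ^l)^2 with
a = sqrt (C sc i En)), S α i q = ∑' l, θ^l ∫ over {idx α i = q} of (D α (i+l))^2, and
N x i = sqrt (4 C (sc i ^ n)⁻¹ ∑ α, S α i (idx α i x)). It is measurable as a function of the countable-valued maps idx α i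
(measurable_of_countable composed with the measurable map idx α i, or measurable_to_countable').
Test bound: idx_ball gives α, with q = idx α i x; sqrt (1/(1-θ)) = 2.
Integral bound, in ENNReal: for fixed α, i, l, lintegral over x of ofReal (∫ over the cube of x of D^2) = ∑' q, μ (Q q) * (...)
<= ofReal (A (8d+1)^n sc i ^ n) * lintegral of D^2 (a nonempty cube lies in ball y ((8d+1) sc i), idx_dist; use
lintegral_iUnion or lintegral_map / lintegral_countable'; an alternative is Tonelli on the set {idx x = idx y}).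
Then sum over i and l: ∑' i, ∑' l, θ^l e (i+l) <= 4 ∑' j, e j <= 4 ∫ g^2 (ENNReal.tsum_comm, tsum_le_of_sum_range_le).
Note tl N x 0 = ∑' l, ofReal (N x (0 + l) ^ 2).
-/

open MeasureTheory Metric Set Filter Topology
open scoped ENNReal NNReal RealInnerProductSpace

namespace Vale.Agent.P120

variable {d : ℕ}

theorem mart4_meas {X ι Y : Type} [MeasurableSpace X] [MeasurableSpace Y] [Countable ι]
    {I : X → ι} (hI : ∀ q, MeasurableSet {x | I x = q}) (F : ι → Y) :
    Measurable fun x => F (I x) := by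
  letI : MeasurableSpace ι := ⊤
  exact (measurable_from_top (f := F)).comp (measurable_to_countable' hI)

theorem mart4_part {X ι : Type} [MeasurableSpace X] [Countable ι] (μ : Measure X)
    {I : X → ι} (hI : ∀ q, MeasurableSet {x | I x = q}) (f : X → ℝ≥0∞) :
    ∫⁻ x, f x ∂μ = ∑' q, ∫⁻ x in {x | I x = q}, f x ∂μ := by
  rw [← lintegral_iUnion hI, ← setLIntegral_univ]
  · congr 2
    ext x
    simp
  · intro q q' hq
    refine Set.disjoint_left.2 fun x h1 h2 => hq ?_
    exact (show I x = q from h1).symm.trans h2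

theorem mart4_cube {X ι : Type} [MeasurableSpace X] [Countable ι] (μ : Measure X)
    {I : X → ι} (hI : ∀ q, MeasurableSet {x | I x = q}) {M : ℝ≥0∞}
    (hM : ∀ q, μ {x | I x = q} ≤ M) (f : X → ℝ≥0∞) :
    ∫⁻ x, (∫⁻ y in {y | I y = I x}, f y ∂μ) ∂μ ≤ M * ∫⁻ x, f x ∂μ := by
  rw [mart4_part μ hI, mart4_part μ hI f, ← ENNReal.tsum_mul_left]
  refine ENNReal.tsum_le_tsum fun q => ?_
  rw [setLIntegral_congr_fun (hI q) (g := fun _ => ∫⁻ y in {y | I y = q}, f y ∂μ)
    (fun x hx => by rw [show I x = q from hx]), setLIntegral_const, mul_comm]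
  exact mul_le_mul_left (hM q) _

theorem mart4_ofReal_tsum {f : ℕ → ℝ} (hf : ∀ l, 0 ≤ f l) :
    ENNReal.ofReal (∑' l, f l) ≤ ∑' l, ENNReal.ofReal (f l) := by
  by_cases h : Summable f
  · exact (ENNReal.ofReal_tsum_of_nonneg hf h).le
  · rw [tsum_eq_zero_of_not_summable h, ENNReal.ofReal_zero]
    exact zero_le

theorem mart4_geom : ∑' l : ℕ, ENNReal.ofReal ((3 / 4 : ℝ) ^ l) = ENNReal.ofReal 4 := by
  rw [← ENNReal.ofReal_tsum_of_nonneg (fun l => by positivity)
    (summable_geometric_of_lt_one (by norm_num) (by norm_num)),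
    tsum_geometric_of_lt_one (by norm_num) (by norm_num)]
  norm_num

theorem mart4_dbl (e : ℕ → ℝ≥0∞) :
    ∑' i, ∑' l, ENNReal.ofReal ((3 / 4 : ℝ) ^ l) * e (i + l) ≤ ENNReal.ofReal 4 * ∑' j, e j := by
  rw [ENNReal.tsum_comm, ← mart4_geom, ← ENNReal.tsum_mul_right]
  refine ENNReal.tsum_le_tsum fun l => ?_
  rw [ENNReal.tsum_mul_left]
  exact mul_le_mul_right (ENNReal.tsum_comp_le_tsum_of_injective (add_left_injective l) e) _

theorem mart4_sq {X : Type} [MeasurableSpace X] {μ : Measure X} {D : X → ℝ} (hD : MemLp D 2 μ)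
    (s : Set X) :
    ENNReal.ofReal (∫ x in s, D x ^ 2 ∂μ) = ∫⁻ x in s, ENNReal.ofReal (D x ^ 2) ∂μ :=
  ofReal_integral_eq_lintegral_ofReal hD.integrable_sq.integrableOn
    (Eventually.of_forall fun _ => sq_nonneg _)

theorem mart4_cube_le {n : ℕ} {A : ℝ} {μ : Measure (E d)} (hU : Up n A μ) (α : Fin d → Bool)
    (i : ℕ) (q : Fin d → ℤ) :
    μ {x | idx α i x = q} ≤ ENNReal.ofReal (A * ((8 * d + 1) * sc i) ^ n) := by
  rcases Set.eq_empty_or_nonempty {x : E d | idx α i x = q} with h | ⟨y, hy⟩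
  · rw [h, measure_empty]
    exact zero_le
  · have hs := sc_pos i
    refine (measure_mono fun x hx => ?_).trans (hU y _ (by positivity))
    have h := idx_dist α i x y ((show idx α i x = q from hx).trans (show idx α i y = q from hy).symm)
    rw [mem_ball]
    linarith

/-- the square function of one lattice -/
noncomputable def mart4S (μ : Measure (E d)) (α : Fin d → Bool) (D : ℕ → E d → ℝ) (i : ℕ)
    (q : Fin d → ℤ) : ℝ :=
  ∑' l : ℕ, (3 / 4 : ℝ) ^ l * ∫ x in {x | idx α i x = q}, D (i + l) x ^ 2 ∂μ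

theorem mart4S_nonneg (μ : Measure (E d)) (α : Fin d → Bool) (D : ℕ → E d → ℝ) (i : ℕ)
    (q : Fin d → ℤ) : 0 ≤ mart4S μ α D i q :=
  tsum_nonneg fun _ => mul_nonneg (by positivity) (integral_nonneg fun _ => sq_nonneg _)

theorem mart4_level {n : ℕ} {A : ℝ} {μ : Measure (E d)} (hU : Up n A μ) (α : Fin d → Bool)
    {D : ℕ → E d → ℝ} (hD : ∀ j, MemLp (D j) 2 μ) (i : ℕ) :
    ∫⁻ x, ENNReal.ofReal (mart4S μ α D i (idx α i x)) ∂μ ≤
      ENNReal.ofReal (A * ((8 * d + 1) * sc i) ^ n) *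
        ∑' l, ENNReal.ofReal ((3 / 4 : ℝ) ^ l) * ENNReal.ofReal (∫ x, D (i + l) x ^ 2 ∂μ) := by
  have h1 : ∀ x, ENNReal.ofReal (mart4S μ α D i (idx α i x)) ≤
      ∑' l, ENNReal.ofReal ((3 / 4 : ℝ) ^ l) *
        ∫⁻ y in {y | idx α i y = idx α i x}, ENNReal.ofReal (D (i + l) y ^ 2) ∂μ := by
    intro x
    refine (mart4_ofReal_tsum fun l =>
      mul_nonneg (by positivity) (integral_nonneg fun _ => sq_nonneg _)).trans (le_of_eq ?_)
    refine tsum_congr fun l => ?_
    rw [ENNReal.ofReal_mul (by positivity), mart4_sq (hD _)]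
  refine (lintegral_mono h1).trans ?_
  have hm : ∀ l, Measurable fun x =>
      ∫⁻ y in {y | idx α i y = idx α i x}, ENNReal.ofReal (D (i + l) y ^ 2) ∂μ := fun l =>
    mart4_meas (idx_meas α i)
      fun q => ∫⁻ y in {y | idx α i y = q}, ENNReal.ofReal (D (i + l) y ^ 2) ∂μ
  rw [lintegral_tsum fun l => ((hm l).const_mul _).aemeasurable, ← ENNReal.tsum_mul_left]
  refine ENNReal.tsum_le_tsum fun l => ?_
  rw [lintegral_const_mul _ (hm l), mul_left_comm]
  refine mul_le_mul_right ?_ _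
  have h2 := mart4_sq (hD (i + l)) univ
  rw [Measure.restrict_univ] at h2
  rw [h2]
  exact mart4_cube μ (idx_meas α i) (mart4_cube_le hU α i) _

theorem mart4_all {n : ℕ} {A : ℝ} {μ : Measure (E d)} (hA : 0 ≤ A) (hU : Up n A μ)
    (α : Fin d → Bool) {D : ℕ → E d → ℝ} (hD : ∀ j, MemLp (D j) 2 μ) {G : ℝ}
    (hG : ∀ J, ∑ j ∈ Finset.range J, ∫ x, D j x ^ 2 ∂μ ≤ G) {c : ℝ} (hc : 0 ≤ c) :
    ∑' i, ENNReal.ofReal (c * (sc i ^ n)⁻¹) *
        ∫⁻ x, ENNReal.ofReal (mart4S μ α D i (idx α i x)) ∂μ ≤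
      ENNReal.ofReal (c * (A * (8 * d + 1) ^ n) * 4 * G) := by
  have h1 : ∀ i, ENNReal.ofReal (c * (sc i ^ n)⁻¹) *
      ∫⁻ x, ENNReal.ofReal (mart4S μ α D i (idx α i x)) ∂μ ≤
      ENNReal.ofReal (c * (A * (8 * d + 1) ^ n)) *
        ∑' l, ENNReal.ofReal ((3 / 4 : ℝ) ^ l) * ENNReal.ofReal (∫ x, D (i + l) x ^ 2 ∂μ) := by
    intro i
    have hs := sc_pos i
    refine (mul_le_mul_right (mart4_level hU α hD i) _).trans (le_of_eq ?_)
    rw [← mul_assoc, ← ENNReal.ofReal_mul (by positivity)]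
    congr 2
    rw [mul_pow]
    field_simp
  refine (ENNReal.tsum_le_tsum h1).trans ?_
  rw [ENNReal.tsum_mul_left, mul_assoc (c * _), ENNReal.ofReal_mul (p := c * _) (by positivity),
    ENNReal.ofReal_mul (p := 4) (by norm_num)]
  refine mul_le_mul_right ((mart4_dbl fun j => ENNReal.ofReal (∫ x, D j x ^ 2 ∂μ)).trans
    (mul_le_mul_right ?_ _)) _
  refine ENNReal.tsum_le_of_sum_range_le fun J => ?_
  rw [← ENNReal.ofReal_sum_of_nonneg fun j _ => integral_nonneg fun _ => sq_nonneg _]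
  exact ENNReal.ofReal_le_ofReal (hG J)

theorem mart4_pow (l : ℕ) : sc l ≤ ((3 / 4 : ℝ) ^ l) ^ 2 := by
  rw [← pow_mul, mul_comm, pow_mul]
  exact pow_le_pow_left₀ (by norm_num) (by norm_num) l

theorem mart (n d : ℕ) (hn : 1 ≤ n) (A : ℝ) (hA : 1 ≤ A) :
    ∃ C : ℝ, 0 < C ∧ ∀ μ : Measure (E d), Up n A μ → Low n A 1 μ →
      ∀ g : E d → ℝ, MemLp g 2 μ → ∃ N : E d → ℕ → ℝ,
        (∀ i, Measurable fun x => N x i) ∧ (∀ x i, 0 ≤ N x i) ∧
        ∫⁻ x, tl N x 0 ∂μ ≤ ENNReal.ofReal (C * ∫ y, g y ^ 2 ∂μ) ∧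
        ∀ (x : E d) (i : ℕ) (ψ : E d → ℝ) (L : ℝ), Test ψ x (sc i) L → ∫ y, ψ y ∂μ = 0 →
          |∫ y, g y * ψ y ∂μ| ≤ N x i * √(sc i ^ n) * √(sc i * En n μ ψ) := by
  obtain ⟨C, hC, hap⟩ := mart_approx n d hn A hA
  have hA0 : 0 < A := by linarith
  refine ⟨2 ^ d * (4 * C * (A * (8 * d + 1) ^ n) * 4), by positivity, fun μ hU hL g hg => ?_⟩
  choose D hDm hD2 hDs hDt using fun α : Fin d → Bool =>
    mart_abstract μ (idx α) (idx_meas α) (idx_nest α) g hg
  have hm : ∀ α i, Measurable fun x => mart4S μ α (D α) i (idx α i x) := fun α i =>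
    mart4_meas (idx_meas α i) (mart4S μ α (D α) i)
  have hnn : ∀ x i, 0 ≤ 4 * C * (sc i ^ n)⁻¹ * ∑ α, mart4S μ α (D α) i (idx α i x) := by
    intro x i
    have hs := sc_pos i
    exact mul_nonneg (by positivity) (Finset.sum_nonneg fun α _ => mart4S_nonneg _ _ _ _ _)
  refine ⟨fun x i => √(4 * C * (sc i ^ n)⁻¹ * ∑ α, mart4S μ α (D α) i (idx α i x)),
    fun i => ((Finset.measurable_sum _ fun α _ => hm α i).const_mul _).sqrt,
    fun x i => Real.sqrt_nonneg _, ?_, fun x i ψ L hψ h0 => ?_⟩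
  · have e1 : ∀ x, tl (fun x i =>
        √(4 * C * (sc i ^ n)⁻¹ * ∑ α, mart4S μ α (D α) i (idx α i x))) x 0 =
        ∑' i, ∑ α, ENNReal.ofReal (4 * C * (sc i ^ n)⁻¹) *
          ENNReal.ofReal (mart4S μ α (D α) i (idx α i x)) := by
      intro x
      refine tsum_congr fun i => ?_
      have hs := sc_pos i
      rw [zero_add, Real.sq_sqrt (hnn x i), ENNReal.ofReal_mul (by positivity),
        ENNReal.ofReal_sum_of_nonneg fun α _ => mart4S_nonneg _ _ _ _ _, Finset.mul_sum]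
    have hm' : ∀ α i, Measurable fun x => ENNReal.ofReal (4 * C * (sc i ^ n)⁻¹) *
        ENNReal.ofReal (mart4S μ α (D α) i (idx α i x)) := fun α i =>
      (hm α i).ennreal_ofReal.const_mul _
    simp only [e1]
    rw [lintegral_tsum fun i => (Finset.measurable_sum _ fun α _ => hm' α i).aemeasurable]
    have e2 : ∀ i, ∫⁻ x, ∑ α, ENNReal.ofReal (4 * C * (sc i ^ n)⁻¹) *
        ENNReal.ofReal (mart4S μ α (D α) i (idx α i x)) ∂μ =
        ∑ α, ENNReal.ofReal (4 * C * (sc i ^ n)⁻¹) *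
          ∫⁻ x, ENNReal.ofReal (mart4S μ α (D α) i (idx α i x)) ∂μ := by
      intro i
      rw [lintegral_finsetSum _ fun α _ => hm' α i]
      exact Finset.sum_congr rfl fun α _ => lintegral_const_mul _ (hm α i).ennreal_ofReal
    simp only [e2]
    rw [Summable.tsum_finsetSum fun _ _ => ENNReal.summable]
    refine (Finset.sum_le_sum fun α _ =>
      mart4_all hA0.le hU α (hD2 α) (hDs α) (c := 4 * C) (by positivity)).trans (le_of_eq ?_)
    rw [Finset.sum_const, Finset.card_univ, nsmul_eq_mul, mul_assoc (2 ^ d : ℝ),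
      ENNReal.ofReal_mul (p := 2 ^ d) (by positivity)]
    congr 1
    rw [ENNReal.ofReal_pow (by norm_num)]
    simp
  · obtain ⟨α, hα⟩ := idx_ball x i
    have hs := sc_pos i
    have hE := En_nonneg n μ ψ
    have h := hDt α ψ i (idx α i x) √(C * sc i * En n μ ψ) (3 / 4) (hψ.memLp hU)
      (hψ.integrable hU) (fun y hy => hψ.2.2.2 y (not_lt.1 fun h => hy (hα y h))) h0
      (Real.sqrt_nonneg _) (by norm_num) (by norm_num) (fun l => by
        obtain ⟨c, hc⟩ := hap μ hU hL α (i + l) ψ x (sc i) L hs hψ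
        refine ⟨c, hc.trans (ENNReal.ofReal_le_ofReal ?_)⟩
        rw [mul_pow, Real.sq_sqrt (by positivity), sc_add]
        calc C * (sc i * sc l) * En n μ ψ = C * sc i * En n μ ψ * sc l := by ring
          _ ≤ _ := mul_le_mul_of_nonneg_left (mart4_pow l) (by positivity))
    refine h.trans ?_
    change √(C * sc i * En n μ ψ) * √(1 / (1 - 3 / 4)) * √(mart4S μ α (D α) i (idx α i x)) ≤ _
    have hS := mart4S_nonneg μ α (D α) i (idx α i x)
    have hle : mart4S μ α (D α) i (idx α i x) ≤ ∑ α, mart4S μ α (D α) i (idx α i x) :=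
      Finset.single_le_sum (f := fun α => mart4S μ α (D α) i (idx α i x))
        (fun α _ => mart4S_nonneg _ _ _ _ _) (Finset.mem_univ α)
    rw [← Real.sqrt_mul (by positivity), ← Real.sqrt_mul (by positivity),
      ← Real.sqrt_mul (hnn x i), ← Real.sqrt_mul (mul_nonneg (hnn x i) (by positivity))]
    refine Real.sqrt_le_sqrt ?_
    calc C * sc i * En n μ ψ * (1 / (1 - 3 / 4)) * mart4S μ α (D α) i (idx α i x)
        ≤ C * sc i * En n μ ψ * (1 / (1 - 3 / 4)) * ∑ α, mart4S μ α (D α) i (idx α i x) :=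
          mul_le_mul_of_nonneg_left hle (by positivity)
      _ = _ := by
          field_simp
          ring

end Vale.Agent.P120
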