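import Vale.Agent.P120.ParD
import Vale.Agent.P120.Exc

/-!
P120 Par1. Overview in notes/P120.md, definitions in Defs.lean.
Name every helper lemma of yours with the file name in front (for example par1_aux1).

PLAN.
Write P p, P0 for the orthogonal projections, Q = 1 - P, A p = pj (pp p) (VV p), A0 = pj p0 V0, w = y - y'. Since the weights sum to 1, sig y = ∑ φ p y • A p y, and
sig y - sig y' - P0 w = ∑ φ p y • (P p w - P0 w) + ∑ (φ p y - φ p y') • (A p y' - A0 y') (pj_sub; the weights differences sum to 0). Terms with φ p y = φ p y' = 0 vanish.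
First claim: Near. Second: P0 (P p w - P0 w) = - P0 (Q p w) = - (P0 - P p) (Q p w), and |Q p w| <= |Q p (P0 w)| + |Q0 w| <= (b + θ)|w| as Q p P0 = Q p (P0 - P p);
P0 (A p y' - A0 y') = - P0 (hh p y') + P0 (hh0 y') = - (P0 - P p)(hh p y') (hh_mem). Third: hh p0 V0 is affine, hh p0 V0 (sig y') = ∑ φ p y' • hh p0 V0 (A p y'), and
hh_norm_le with q = A0 y' (pj_mem).
-/

open MeasureTheory Metric Set Filter Topology
open scoped ENNReal NNReal RealInnerProductSpace

namespace Vale.Agent.P120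

variable {d : ℕ}

theorem par1_w (S : Finset (E d)) (ψ : E d → ℝ) (c : E d → E d) (γ : ℝ)
    (h : ∀ p ∈ S, ψ p ≠ 0 → ‖c p‖ ≤ γ) : ‖∑ p ∈ S, ψ p • c p‖ ≤ (∑ p ∈ S, |ψ p|) * γ := by
  rw [Finset.sum_mul]
  refine (norm_sum_le _ _).trans (Finset.sum_le_sum fun p hp => ?_)
  rw [norm_smul, Real.norm_eq_abs]
  by_cases h0 : ψ p = 0
  · simp [h0]
  · exact mul_le_mul_of_nonneg_left (h p hp h0) (abs_nonneg _)

theorem par1_p {V V0 : Submodule ℝ (E d)} {b : ℝ} (h : ‖V.starProjection - V0.starProjection‖ ≤ b)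
    {u : E d} (hu : u ∈ Vᗮ) : ‖V0.starProjection u‖ ≤ b * ‖u‖ := by
  have e := (V.starProjection - V0.starProjection).le_opNorm u
  rw [ContinuousLinearMap.sub_apply, (V.starProjection_apply_eq_zero_iff).2 hu, zero_sub,
    norm_neg] at e
  exact e.trans (mul_le_mul_of_nonneg_right h (norm_nonneg _))

theorem par1_a {V V0 : Submodule ℝ (E d)} {b θ : ℝ}
    (h : ‖V.starProjection - V0.starProjection‖ ≤ b) {w : E d}
    (hw : ‖V0ᗮ.starProjection w‖ ≤ θ * ‖w‖) :
    ‖V0.starProjection (V.starProjection w - V0.starProjection w)‖ ≤ b * ((b + θ) * ‖w‖) := by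
  have hb : 0 ≤ b := (norm_nonneg _).trans h
  have e1 : V0.starProjection (V.starProjection w - V0.starProjection w) =
      -V0.starProjection (Vᗮ.starProjection w) := by
    rw [Submodule.starProjection_orthogonal_val, map_sub, map_sub,
      Submodule.starProjection_eq_self_iff.2 (V0.starProjection_apply_mem w), neg_sub]
  have e2 : Vᗮ.starProjection w = Vᗮ.starProjection (V0ᗮ.starProjection w) -
      Vᗮ.starProjection ((V.starProjection - V0.starProjection) w) := by
    have z : Vᗮ.starProjection (V.starProjection w) = 0 :=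
      (Vᗮ.starProjection_apply_eq_zero_iff).2
        (V.le_orthogonal_orthogonal (V.starProjection_apply_mem w))
    rw [V0.starProjection_orthogonal_val, ContinuousLinearMap.sub_apply, map_sub, map_sub, z]
    abel
  have k1 := Vᗮ.norm_starProjection_apply_le (V0ᗮ.starProjection w)
  have k2 := Vᗮ.norm_starProjection_apply_le ((V.starProjection - V0.starProjection) w)
  have k3 := ((V.starProjection - V0.starProjection).le_opNorm w).trans
    (mul_le_mul_of_nonneg_right h (norm_nonneg _))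
  have k4 : ‖Vᗮ.starProjection w‖ ≤ (b + θ) * ‖w‖ := by
    rw [e2]
    refine (norm_sub_le _ _).trans ?_
    linarith
  rw [e1, norm_neg]
  exact (par1_p h (Vᗮ.starProjection_apply_mem w)).trans (mul_le_mul_of_nonneg_left k4 hb)

theorem one_step (S : Finset (E d)) (φ : E d → E d → ℝ) (pp : E d → E d)
    (VV : E d → Submodule ℝ (E d)) (p0 : E d) (V0 : Submodule ℝ (E d)) (x y y' : E d)
    {t L b θ : ℝ} (ht : 0 < t) (hL : 0 ≤ L) (hb : 0 ≤ b) (hθ : 0 ≤ θ) (hφ : ∀ p z, 0 ≤ φ p z)
    (h1 : ∑ p ∈ S, φ p y = 1) (h1' : ∑ p ∈ S, φ p y' = 1)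
    (hLip : ∑ p ∈ S, |φ p y - φ p y'| ≤ L * dist y y' / t) (hy' : dist y' x ≤ 4 * t)
    (hN : ∀ p ∈ S, (φ p y ≠ 0 ∨ φ p y' ≠ 0) →
      Near (pp p) (VV p) p0 V0 x t b ∧ ‖hh (pp p) (VV p) y'‖ ≤ θ * t)
    (hw : ‖V0ᗮ.starProjection (y - y')‖ ≤ θ * ‖y - y'‖) :
    ‖sig S φ pp VV y - sig S φ pp VV y' - V0.starProjection (y - y')‖ ≤ (1 + L) * b * ‖y - y'‖ ∧
    ‖V0.starProjection (sig S φ pp VV y - sig S φ pp VV y' - V0.starProjection (y - y'))‖ ≤
      (1 + L) * (b ^ 2 + b * θ) * ‖y - y'‖ ∧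
    ‖hh p0 V0 (sig S φ pp VV y')‖ ≤ b * t := by
  have hs : ∀ z, ∑ p ∈ S, φ p z = 1 → sig S φ pp VV z = ∑ p ∈ S, φ p z • pj (pp p) (VV p) z := by
    intro z hz
    simp only [sig, pj, smul_sub, Finset.sum_sub_distrib, ← Finset.sum_smul, hz, one_smul]
  have ha : ∀ z, ∑ p ∈ S, φ p z = 1 → ∑ p ∈ S, |φ p z| = 1 := fun z hz => by
    rw [← hz]
    exact Finset.sum_congr rfl fun p _ => abs_of_nonneg (hφ p z)
  have hD : sig S φ pp VV y - sig S φ pp VV y' - V0.starProjection (y - y') =
      ∑ p ∈ S, φ p y • ((VV p).starProjection (y - y') - V0.starProjection (y - y')) +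
        ∑ p ∈ S, (φ p y - φ p y') • (pj (pp p) (VV p) y' - pj p0 V0 y') := by
    have e : ∀ p, (VV p).starProjection (y - y') = pj (pp p) (VV p) y - pj (pp p) (VV p) y' :=
      fun p => (pj_sub _ _ _ _).symm
    rw [hs y h1, hs y' h1']
    simp only [e, smul_sub, sub_smul, Finset.sum_sub_distrib, ← Finset.sum_smul, h1, h1', one_smul]
    abel
  have hact : ∀ p, φ p y - φ p y' ≠ 0 → φ p y ≠ 0 ∨ φ p y' ≠ 0 := fun p h => by
    by_contra hn
    push Not at hn
    exact h (by rw [hn.1, hn.2, sub_zero])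
  have hLip' : ∀ γ : ℝ, 0 ≤ γ → (∑ p ∈ S, |φ p y - φ p y'|) * (γ * t) ≤ L * γ * ‖y - y'‖ :=
    fun γ hγ => by
      refine (mul_le_mul_of_nonneg_right hLip (by positivity)).trans_eq ?_
      rw [dist_eq_norm]
      field_simp
  have hn := norm_nonneg (y - y')
  refine ⟨?_, ?_, ?_⟩
  · rw [hD]
    have k1 := par1_w S (fun p => φ p y)
      (fun p => (VV p).starProjection (y - y') - V0.starProjection (y - y')) (b * ‖y - y'‖)
      fun p hp h => (((VV p).starProjection - V0.starProjection).le_opNorm (y - y')).trans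
        (mul_le_mul_of_nonneg_right (hN p hp (Or.inl h)).1.1 hn)
    have k2 := par1_w S (fun p => φ p y - φ p y') (fun p => pj (pp p) (VV p) y' - pj p0 V0 y')
      (b * t) fun p hp h => (hN p hp (hact p h)).1.2 y' hy'
    rw [ha y h1] at k1
    have k3 := hLip' b hb
    refine (norm_add_le _ _).trans ?_
    linarith
  · rw [hD, map_add, map_sum, map_sum]
    simp only [map_smul]
    have k1 := par1_w S (fun p => φ p y) (fun p => V0.starProjection
      ((VV p).starProjection (y - y') - V0.starProjection (y - y'))) (b * ((b + θ) * ‖y - y'‖))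
      fun p hp h => par1_a (hN p hp (Or.inl h)).1.1 hw
    have k2 := par1_w S (fun p => φ p y - φ p y')
      (fun p => V0.starProjection (pj (pp p) (VV p) y' - pj p0 V0 y')) (b * θ * t)
      fun p hp h => by
        obtain ⟨n1, n2⟩ := hN p hp (hact p h)
        have e : V0.starProjection (pj (pp p) (VV p) y' - pj p0 V0 y') =
            -V0.starProjection (hh (pp p) (VV p) y') := by
          simp only [pj, map_sub, (V0.starProjection_apply_eq_zero_iff).2 (hh_mem p0 V0 y')]
          abel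
        rw [e, norm_neg, mul_assoc]
        exact (par1_p n1.1 (hh_mem _ _ _)).trans (mul_le_mul_of_nonneg_left n2 hb)
    rw [ha y h1] at k1
    have k3 := hLip' (b * θ) (by positivity)
    have k4 : 0 ≤ L * b ^ 2 * ‖y - y'‖ := by positivity
    refine (norm_add_le _ _).trans ?_
    linarith
  · refine (hh_norm_le (pj_mem p0 V0 y') _).trans ?_
    have e : sig S φ pp VV y' - pj p0 V0 y' =
        ∑ p ∈ S, φ p y' • (pj (pp p) (VV p) y' - pj p0 V0 y') := by
      rw [hs y' h1']
      simp only [smul_sub, Finset.sum_sub_distrib, ← Finset.sum_smul, h1', one_smul]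
    have k := par1_w S (fun p => φ p y') (fun p => pj (pp p) (VV p) y' - pj p0 V0 y') (b * t)
      fun p hp h => (hN p hp (Or.inr h)).1.2 y' hy'
    rw [ha y' h1', one_mul] at k
    rw [e]
    exact k

end Vale.Agent.P120
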