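import Vale.Agent.P120.ParD
import Vale.Agent.P120.Pack

/-!
P120 Par2. Overview in notes/P120.md, definitions in Defs.lean.
Name every helper lemma of yours with the file name in front (for example par2_aux1).

PLAN.
S from exists_net (radius max R 0, separation t). ψ p y = max 0 (min 1 (4 - 2 dist y p / t)): (2/t)-Lipschitz, equal to 1 for dist <= 3t/2, 0 for dist >= 2t.
s y = ∑ p in S, ψ p y, M y = max 1 (s y), φ p y = ψ p y / M y. At most 5^d points of S are within 2t of a given point (card_le_of_sep on S.filter), so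
∑ p, |ψ p y - ψ p y'| <= 2 * 5^d * (2/t) dist y y' =: K. Then |M y - M y'| <= K and
φ p y - φ p y' = (ψ p y - ψ p y') / M y + ψ p y' (M y' - M y)/(M y M y'), whose absolute values sum to at most 2K (s y' <= M y'). L = 8 * 5^d.
-/

open MeasureTheory Metric Set Filter Topology
open scoped ENNReal NNReal RealInnerProductSpace

namespace Vale.Agent.P120

variable {d : ℕ}

/-- the bump -/
noncomputable def par2psi (t : ℝ) (p y : E d) : ℝ := max 0 (min 1 (4 - 2 * dist y p / t))

theorem par2_nonneg (t : ℝ) (p y : E d) : 0 ≤ par2psi t p y := le_max_left _ _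

theorem par2_lip {t : ℝ} (ht : 0 < t) (p y y' : E d) :
    |par2psi t p y - par2psi t p y'| ≤ 2 * dist y y' / t := by
  unfold par2psi
  rw [max_comm 0, max_comm 0]
  refine (abs_max_sub_max_le_abs _ _ _).trans ?_
  refine (abs_min_sub_min_le_max _ _ _ _).trans ?_
  rw [sub_self, abs_zero]
  refine max_le (by positivity) ?_
  have e : 4 - 2 * dist y p / t - (4 - 2 * dist y' p / t) = 2 * (dist y' p - dist y p) / t := by
    ring
  rw [e, abs_div, abs_mul, abs_of_pos ht, abs_two]
  refine div_le_div_of_nonneg_right (mul_le_mul_of_nonneg_left ?_ zero_le_two) ht.le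
  rw [dist_comm y y']
  exact abs_dist_sub_le _ _ _

theorem par2_supp {t : ℝ} (ht : 0 < t) {p y : E d} (h : par2psi t p y ≠ 0) : dist y p < 2 * t := by
  by_contra h'
  apply h
  unfold par2psi
  refine max_eq_left ((min_le_right _ _).trans ?_)
  have : 4 ≤ 2 * dist y p / t := by
    rw [le_div_iff₀ ht]
    linarith [not_lt.1 h']
  linarith

theorem par2_one {t : ℝ} (ht : 0 < t) {p y : E d} (h : dist y p ≤ 3 * t / 2) :
    par2psi t p y = 1 := by
  unfold par2psi
  have : 2 * dist y p / t ≤ 3 := by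
    rw [div_le_iff₀ ht]
    linarith
  rw [min_eq_left (by linarith), max_eq_right zero_le_one]

theorem par2_sum {t : ℝ} (ht : 0 < t) (S : Finset (E d))
    (hsep : ∀ p ∈ S, ∀ q ∈ S, p ≠ q → t ≤ dist p q) (y y' : E d) :
    ∑ p ∈ S, |par2psi t p y - par2psi t p y'| ≤ 2 * 5 ^ d * (2 * dist y y' / t) := by
  classical
  have hc : ∀ z : E d, ((S.filter fun p => dist z p < 2 * t).card : ℝ) ≤ 5 ^ d := by
    intro z
    have h := card_le_of_sep (S.filter fun p => dist z p < 2 * t) z (R := 2 * t) (by positivity) ht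
      (fun p hp => by rw [dist_comm]; exact (Finset.mem_filter.1 hp).2.le)
      fun p hp q hq => hsep p (Finset.mem_filter.1 hp).1 q (Finset.mem_filter.1 hq).1
    rw [finrank_euclideanSpace, Fintype.card_fin,
      show 2 * (2 * t) / t + 1 = 5 by field_simp; norm_num] at h
    exact h
  have hsub : (S.filter fun p => dist y p < 2 * t) ∪ (S.filter fun p => dist y' p < 2 * t) ⊆ S :=
    Finset.union_subset (Finset.filter_subset _ _) (Finset.filter_subset _ _)
  rw [← Finset.sum_subset hsub]
  · refine (Finset.sum_le_card_nsmul _ _ _ fun p _ => par2_lip ht p y y').trans ?_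
    rw [nsmul_eq_mul]
    refine mul_le_mul_of_nonneg_right ?_ (by positivity)
    have h1 : (((S.filter fun p => dist y p < 2 * t) ∪
        (S.filter fun p => dist y' p < 2 * t)).card : ℝ) ≤
        (S.filter fun p => dist y p < 2 * t).card + (S.filter fun p => dist y' p < 2 * t).card := by
      exact_mod_cast Finset.card_union_le _ _
    linarith [hc y, hc y']
  · intro p hp hn
    rw [Finset.mem_union, Finset.mem_filter, Finset.mem_filter] at hn
    have a1 : par2psi t p y = 0 := by
      by_contra h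
      exact hn (Or.inl ⟨hp, par2_supp ht h⟩)
    have a2 : par2psi t p y' = 0 := by
      by_contra h
      exact hn (Or.inr ⟨hp, par2_supp ht h⟩)
    rw [a1, a2, sub_self, abs_zero]

theorem par2_term {a b M M' : ℝ} (hb : 0 ≤ b) (hM : 1 ≤ M) (hM' : 1 ≤ M') :
    |a / M - b / M'| ≤ |a - b| + b / M' * |M - M'| := by
  have M0 : 0 < M := by linarith
  have M1 : 0 < M' := by linarith
  have e : a / M - b / M' = (a - b) / M + b / M' * ((M' - M) / M) := by
    field_simp
    ring
  rw [e]
  refine (abs_add_le _ _).trans (add_le_add ?_ ?_)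
  · rw [abs_div, abs_of_pos M0]
    exact div_le_self (abs_nonneg _) hM
  · rw [abs_mul, abs_of_nonneg (by positivity : 0 ≤ b / M'), abs_div, abs_of_pos M0,
      abs_sub_comm]
    exact mul_le_mul_of_nonneg_left (div_le_self (abs_nonneg _) hM) (by positivity)

theorem par2_norm {α : Type*} (S : Finset α) (f g : α → ℝ) (hg : ∀ p, 0 ≤ g p) {K : ℝ}
    (h : ∑ p ∈ S, |f p - g p| ≤ K) :
    ∑ p ∈ S, |f p / max 1 (∑ q ∈ S, f q) - g p / max 1 (∑ q ∈ S, g q)| ≤ 2 * K := by
  have h1 : |max 1 (∑ q ∈ S, f q) - max 1 (∑ q ∈ S, g q)| ≤ K := by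
    rw [max_comm 1, max_comm 1]
    refine (abs_max_sub_max_le_abs _ _ _).trans ?_
    rw [← Finset.sum_sub_distrib]
    exact (Finset.abs_sum_le_sum_abs _ _).trans h
  have h2 : (∑ q ∈ S, g q) / max 1 (∑ q ∈ S, g q) ≤ 1 :=
    div_le_one_of_le₀ (le_max_right _ _) (zero_le_one.trans (le_max_left _ _))
  have h3 : 0 ≤ (∑ q ∈ S, g q) / max 1 (∑ q ∈ S, g q) :=
    div_nonneg (Finset.sum_nonneg fun p _ => hg p) (zero_le_one.trans (le_max_left _ _))
  refine (Finset.sum_le_sum fun p _ => par2_term (hg p) (le_max_left _ _) (le_max_left _ _)).trans ?_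
  rw [Finset.sum_add_distrib, ← Finset.sum_mul, ← Finset.sum_div]
  have h4 := mul_le_mul h2 h1 (abs_nonneg _) zero_le_one
  linarith

theorem exists_pu (d : ℕ) :
    ∃ L : ℝ, 0 ≤ L ∧ ∀ (Y : Set (E d)) (x0 : E d) (R t : ℝ), 0 < t → (∀ y ∈ Y, dist y x0 ≤ R) →
      ∃ (S : Finset (E d)) (φ : E d → E d → ℝ), PU Y t L S φ := by
  refine ⟨8 * 5 ^ d, by positivity, fun Y x0 R t ht hY => ?_⟩
  obtain ⟨S, hS, hsep, hcov, -⟩ := exists_net Y x0 (le_max_right R 0) ht
    fun y hy => (hY y hy).trans (le_max_left _ _)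
  have hM : ∀ y : E d, 0 < max 1 (∑ q ∈ S, par2psi t q y) := fun y =>
    zero_lt_one.trans_le (le_max_left _ _)
  refine ⟨S, fun p y => par2psi t p y / max 1 (∑ q ∈ S, par2psi t q y), hS,
    fun p y => div_nonneg (par2_nonneg t p y) (hM y).le, fun y => ?_, fun p y h => ?_,
    fun x hx y hy => ?_, fun y y' => ?_⟩
  · rw [← Finset.sum_div]
    exact div_le_one_of_le₀ (le_max_right _ _) (hM y).le
  · exact par2_supp ht fun e => h (by simp only [e, zero_div])
  · obtain ⟨p, hp, hxp⟩ := hcov x hx
    have h1 : par2psi t p y = 1 := par2_one ht (by linarith [dist_triangle y x p])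
    have h2 : 1 ≤ ∑ q ∈ S, par2psi t q y :=
      h1 ▸ Finset.single_le_sum (f := fun q => par2psi t q y) (fun q _ => par2_nonneg t q y) hp
    rw [← Finset.sum_div, max_eq_right h2, div_self (by linarith)]
  · refine (par2_norm S (fun p => par2psi t p y) (fun p => par2psi t p y')
      (fun p => par2_nonneg t p y') (par2_sum ht S hsep y y')).trans (le_of_eq ?_)
    ring

end Vale.Agent.P120
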