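import Vale.Agent.P120.ParD

/-!
P120 Par3. Overview in notes/P120.md, definitions in Defs.lean.
Name every helper lemma of yours with the file name in front (for example par3_aux1).

PLAN.
Let P j be the projection on Q j. θ J = θ0, θ j = 2 (2+L) (b j + b (j+1)) for j < J, e j = θ j^2 + (1+L)(b j^2 + b j θ j). Choose η, θ0 so small that ∑_{j<=J} e j <= 1/4,
(1+L) b j <= 1 and b j <= 1/8 (b j^2 <= η; use (a+b)^2 <= 2a^2 + 2b^2, 2ab <= a^2 + b^2, and both ∑_{j<J} b j^2, ∑_{j<J} b (j+1)^2 <= η).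
Downward induction on j (for instance on k = J - j): the angle bound |Q_jᗮ w (j+1)| <= θ j |w (j+1)| holds. From it: |P j (w (j+1))| >= (1 - θ^2)|w (j+1)| (Pythagoras,
Submodule.norm_sq_eq_add_norm_sq_starProjection; if θ > 1 it is trivial), so |w j| >= |P j (w j)| >= (1 - e j) |w (j+1)| >= |w (j+1)|/2, and
|Q_(j-1)ᗮ (w j)| <= (b (j-1) + (1+L) b j)|w (j+1)| since (1 - P (j-1)) P j = (P j - P (j-1)) P j. Also |w j| >= (1 - ∑_{j<=i<=J} e i) |w (J+1)|.
Finally |Pt (w 0)| >= |P 0 (w 0)| - b 0 |w 0| >= (1 - e 0 - 2 b 0) |w 1| >= |w 1| / 2 >= (3/8) |w (J+1)|.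
-/

open MeasureTheory Metric Set Filter Topology
open scoped ENNReal NNReal RealInnerProductSpace

namespace Vale.Agent.P120

variable {d : ℕ}

theorem par3_step (Q : Submodule ℝ (E d)) {u v : E d} {θ c : ℝ}
    (h1 : ‖Qᗮ.starProjection v‖ ≤ θ * ‖v‖)
    (h2 : ‖Q.starProjection (u - Q.starProjection v)‖ ≤ c * ‖v‖) :
    (1 - (θ ^ 2 + c)) * ‖v‖ ≤ ‖Q.starProjection u‖ := by
  have h3 : (1 - θ ^ 2) * ‖v‖ ≤ ‖Q.starProjection v‖ := by
    rcases (norm_nonneg v).eq_or_lt with h | h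
    · rw [← h, mul_zero]
      exact norm_nonneg _
    refine le_of_mul_le_mul_right ?_ h
    have e := Submodule.norm_sq_eq_add_norm_sq_starProjection v Q
    have h4 := pow_le_pow_left₀ (norm_nonneg _) h1 2
    have h5 := mul_le_mul_of_nonneg_left (Q.norm_starProjection_apply_le v)
      (norm_nonneg (Q.starProjection v))
    nlinarith
  have e : Q.starProjection v =
      Q.starProjection u - Q.starProjection (u - Q.starProjection v) := by
    rw [map_sub, Submodule.starProjection_eq_self_iff.2 (Q.starProjection_apply_mem v)]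
    abel
  have h4 := norm_sub_le (Q.starProjection u) (Q.starProjection (u - Q.starProjection v))
  rw [← e] at h4
  linarith

theorem par3_angle (Q Q' : Submodule ℝ (E d)) {u v : E d} {β c : ℝ}
    (h1 : ‖Q'.starProjection - Q.starProjection‖ ≤ β) (h2 : ‖u - Q.starProjection v‖ ≤ c * ‖v‖) :
    ‖Q'ᗮ.starProjection u‖ ≤ (β + c) * ‖v‖ := by
  have e : Q'ᗮ.starProjection u = Q'ᗮ.starProjection (u - Q.starProjection v) -
      (Q'.starProjection - Q.starProjection) (Q.starProjection v) := by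
    rw [map_sub, Submodule.starProjection_orthogonal_val (Q.starProjection v),
      sub_apply,
      Submodule.starProjection_eq_self_iff.2 (Q.starProjection_apply_mem v)]
    abel
  have h3 := Q'ᗮ.norm_starProjection_apply_le (u - Q.starProjection v)
  have h4 := ((Q'.starProjection - Q.starProjection).le_opNorm (Q.starProjection v)).trans
    (mul_le_mul h1 (Q.norm_starProjection_apply_le v) (norm_nonneg _) ((norm_nonneg _).trans h1))
  rw [e]
  refine (norm_sub_le _ _).trans ?_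
  linarith

theorem par3_sum {K : ℝ} (hK : 1 ≤ K) {J : ℕ} {b θ : ℕ → ℝ}
    (hb : ∑ j ∈ Finset.range (J + 1), b j ^ 2 ≤ 1 / (272 * K ^ 3)) (h0 : θ J = 1 / (4 * K))
    (h1 : ∀ j < J, θ j = 2 * K * (b j + b (j + 1))) :
    ∑ j ∈ Finset.range (J + 1), (θ j ^ 2 + K * (b j ^ 2 + b j * θ j)) ≤ 1 / 4 := by
  have hK0 : 0 < K := by linarith
  have a1 : ∑ j ∈ Finset.range J, b j ^ 2 ≤ 1 / (272 * K ^ 3) := by
    rw [Finset.sum_range_succ] at hb
    linarith [sq_nonneg (b J)]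
  have a2 : ∑ j ∈ Finset.range J, b (j + 1) ^ 2 ≤ 1 / (272 * K ^ 3) := by
    rw [Finset.sum_range_succ'] at hb
    linarith [sq_nonneg (b 0)]
  have a3 : ∑ j ∈ Finset.range J, θ j ^ 2 ≤
      ∑ j ∈ Finset.range J, 8 * K ^ 2 * (b j ^ 2 + b (j + 1) ^ 2) :=
    Finset.sum_le_sum fun j hj => by
      rw [h1 j (Finset.mem_range.1 hj)]
      nlinarith [mul_nonneg (sq_nonneg K) (sq_nonneg (b j - b (j + 1)))]
  rw [← Finset.mul_sum, Finset.sum_add_distrib] at a3
  have a4 : ∑ j ∈ Finset.range (J + 1), θ j ^ 2 ≤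
      8 * K ^ 2 * (1 / (272 * K ^ 3) + 1 / (272 * K ^ 3)) + (1 / (4 * K)) ^ 2 := by
    rw [Finset.sum_range_succ, h0]
    refine add_le_add (a3.trans ?_) le_rfl
    gcongr
  calc _ ≤ ∑ j ∈ Finset.range (J + 1), 2 * K * (θ j ^ 2 + b j ^ 2) :=
        Finset.sum_le_sum fun j _ => by
          nlinarith [mul_nonneg hK0.le (sq_nonneg (b j - θ j)),
            mul_nonneg (sub_nonneg.2 hK) (sq_nonneg (θ j)), mul_nonneg hK0.le (sq_nonneg (θ j)),
            mul_nonneg hK0.le (sq_nonneg (b j))]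
    _ ≤ 2 * K * (8 * K ^ 2 * (1 / (272 * K ^ 3) + 1 / (272 * K ^ 3)) + (1 / (4 * K)) ^ 2 +
        1 / (272 * K ^ 3)) := by
        rw [← Finset.mul_sum, Finset.sum_add_distrib]
        gcongr
    _ = 2 / 17 + 1 / 8 * (1 / K) + 1 / 136 * (1 / K ^ 2) := by
        field_simp
        ring
    _ ≤ 2 / 17 + 1 / 8 * 1 + 1 / 136 * 1 := by
        gcongr
        · exact (div_le_one hK0).2 hK
        · exact (div_le_one (by positivity)).2 (one_le_pow₀ hK)
    _ = _ := by norm_num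

theorem chain (L : ℝ) (hL : 0 ≤ L) :
    ∃ η : ℝ, 0 < η ∧ ∃ θ0 : ℝ, 0 < θ0 ∧ ∀ (d J : ℕ) (w : ℕ → E d) (Q : ℕ → Submodule ℝ (E d))
      (Vt : Submodule ℝ (E d)) (b : ℕ → ℝ), (∀ j, 0 ≤ b j) →
      ∑ j ∈ Finset.range (J + 1), b j ^ 2 ≤ η →
      ‖(Q J)ᗮ.starProjection (w (J + 1))‖ ≤ θ0 * ‖w (J + 1)‖ →
      (∀ j < J, ‖(Q j).starProjection - (Q (j + 1)).starProjection‖ ≤ b j) →
      ‖Vt.starProjection - (Q 0).starProjection‖ ≤ b 0 →
      (∀ j ≤ J, ∀ θ : ℝ, (if j = J then θ0 else b j + b (j + 1)) ≤ θ →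
        ‖(Q j)ᗮ.starProjection (w (j + 1))‖ ≤ θ * ‖w (j + 1)‖ →
          ‖w j - (Q j).starProjection (w (j + 1))‖ ≤ (1 + L) * b j * ‖w (j + 1)‖ ∧
          ‖(Q j).starProjection (w j - (Q j).starProjection (w (j + 1)))‖ ≤
            (1 + L) * (b j ^ 2 + b j * θ) * ‖w (j + 1)‖) →
      ‖w (J + 1)‖ ≤ 3 * ‖Vt.starProjection (w 0)‖ := by
  set K := 1 + L
  have hK : 1 ≤ K := by simp [K, hL]
  refine ⟨1 / (272 * K ^ 3), by positivity, 1 / (4 * K), by positivity,
    fun d J w Q Vt b hb0 hb hJ hQ hV H => ?_⟩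
  set θ : ℕ → ℝ := fun j => if j = J then 1 / (4 * K) else 2 * K * (b j + b (j + 1)) with hθ
  set e : ℕ → ℝ := fun j => θ j ^ 2 + K * (b j ^ 2 + b j * θ j) with he
  have θ0 : ∀ j, 0 ≤ θ j := fun j => by
    have := hb0 j
    have := hb0 (j + 1)
    simp only [hθ]
    split_ifs <;> positivity
  have e0 : ∀ j, 0 ≤ e j := fun j => by
    have := hb0 j
    have := θ0 j
    positivity
  have hs : ∑ j ∈ Finset.range (J + 1), e j ≤ 1 / 4 :=
    par3_sum hK hb (if_pos rfl) fun j hj => if_neg hj.ne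
  have e1 : ∀ j ≤ J, e j ≤ 1 / 4 := fun j hj =>
    (Finset.single_le_sum (fun i _ => e0 i) (Finset.mem_range.2 (by omega))).trans hs
  have H' := fun j hj => H j hj (θ j) (by
    simp only [hθ]
    split_ifs
    · exact le_rfl
    · exact le_mul_of_one_le_left (add_nonneg (hb0 _) (hb0 _)) (by linarith))
  have key : ∀ k j, j + k = J → ‖(Q j)ᗮ.starProjection (w (j + 1))‖ ≤ θ j * ‖w (j + 1)‖ ∧
      (1 - ∑ i ∈ Finset.Ico (j + 1) (J + 1), e i) * ‖w (J + 1)‖ ≤ ‖w (j + 1)‖ := by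
    intro k
    induction k with
    | zero =>
      rintro j (rfl : j = J)
      exact ⟨by simpa [hθ] using hJ, by simp⟩
    | succ k ih =>
      intro j hj
      obtain ⟨i1, i2⟩ := ih (j + 1) (by omega)
      obtain ⟨i3, i4⟩ := H' (j + 1) (by omega) i1
      have i5 : (1 - e (j + 1)) * ‖w (j + 1 + 1)‖ ≤ ‖w (j + 1)‖ :=
        (par3_step _ i1 i4).trans ((Q (j + 1)).norm_starProjection_apply_le _)
      have i6 := e1 (j + 1) (by omega)
      have n0 := norm_nonneg (w (j + 1 + 1))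
      refine ⟨(par3_angle _ _ (hQ j (by omega)) i3).trans ?_, ?_⟩
      · have i7 : ‖w (j + 1 + 1)‖ ≤ 2 * ‖w (j + 1)‖ := by nlinarith
        have i8 : b j + K * b (j + 1) ≤ K * (b j + b (j + 1)) := by
          nlinarith [mul_nonneg (sub_nonneg.2 hK) (hb0 j)]
        simp only [hθ, if_neg (show j ≠ J by omega)]
        refine (mul_le_mul i8 i7 n0 (mul_nonneg (by linarith) (add_nonneg (hb0 _) (hb0 _)))).trans_eq
          (by ring)
      · rw [Finset.sum_eq_sum_Ico_succ_bot (by omega)]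
        have i7 := mul_le_mul_of_nonneg_left i2 (show 0 ≤ 1 - e (j + 1) by linarith)
        have i8 := mul_nonneg (mul_nonneg (e0 (j + 1)) (Finset.sum_nonneg
          (s := Finset.Ico (j + 1 + 1) (J + 1)) fun i _ => e0 i)) (norm_nonneg (w (J + 1)))
        nlinarith
  obtain ⟨i1, i2⟩ := key J 0 (zero_add J)
  obtain ⟨i3, i4⟩ := H' 0 J.zero_le i1
  have i5 : (1 - e 0) * ‖w (0 + 1)‖ ≤ _ := par3_step _ i1 i4
  have i6 := e1 0 J.zero_le
  have i7 : ∑ i ∈ Finset.Ico (0 + 1) (J + 1), e i ≤ 1 / 4 := by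
    refine le_trans (Finset.sum_le_sum_of_subset_of_nonneg (fun i hi => ?_) fun i _ _ => e0 i) hs
    exact Finset.mem_range.2 (Finset.mem_Ico.1 hi).2
  have b1 : K * b 0 ≤ 1 / 16 := by
    have b2 := (Finset.single_le_sum (f := fun j => b j ^ 2) (fun i _ => sq_nonneg _)
      (Finset.mem_range.2 J.succ_pos)).trans hb
    rw [le_div_iff₀ (by positivity)] at b2
    refine abs_le_of_sq_le_sq' ?_ (by norm_num) |>.2
    nlinarith [mul_nonneg (sub_nonneg.2 hK) (sq_nonneg (K * b 0)), sq_nonneg (K * b 0)]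
  have b2 : b 0 ≤ 1 / 16 := (le_mul_of_one_le_left (hb0 0) hK).trans b1
  have n0 := norm_nonneg (w (0 + 1))
  have n1 := norm_nonneg (w (J + 1))
  have c1 : ‖w 0‖ ≤ 2 * ‖w (0 + 1)‖ := by
    have := norm_le_norm_add_norm_sub' (w 0) ((Q 0).starProjection (w (0 + 1)))
    have := (Q 0).norm_starProjection_apply_le (w (0 + 1))
    nlinarith
  have c2 := ((Vt.starProjection - (Q 0).starProjection).le_opNorm (w 0)).trans
    (mul_le_mul (hV.trans b2) c1 (norm_nonneg _) (by norm_num))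
  have c3 := norm_le_norm_add_norm_sub (Vt.starProjection (w 0)) ((Q 0).starProjection (w 0))
  rw [sub_apply] at c2
  nlinarith

end Vale.Agent.P120
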