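import Vale.Agent.P120.ParD
import Vale.Agent.P120.Exc

/-!
P120 Par4a. Overview in notes/P120.md, definitions in Defs.lean.
Name every helper lemma of yours with the file name in front (for example par4a_aux1).

PLAN.
Induction on m, generalising j. With y = cmp σ (j+1) m x, dist y x <= 2 κ lam t_j <= κ t_j / 2. If φ j p y ≠ 0 then dist x p <= 4 t_j, p is in X with D p < t_j (PU first clause), so
|hh y| <= |hh x| + |y - x| <= 3 κ t_j / 2 (hh_lip, ParFlat); the weights are >= 0 with sum <= 1.
-/

open MeasureTheory Metric Set Filter Topology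
open scoped ENNReal NNReal RealInnerProductSpace

namespace Vale.Agent.P120

variable {d : ℕ}

theorem cmp_dist_le {lam κ t L : ℝ} (hlam : 0 < lam) (hlam' : lam ≤ 1 / 4) (hκ : 0 ≤ κ)
    (hκ' : κ ≤ 1) (ht : 0 < t) {X : Set (E d)} {D : E d → ℝ} {pp : ℕ → E d → E d}
    {VV : ℕ → E d → Submodule ℝ (E d)} {S : ℕ → Finset (E d)} {φ : ℕ → E d → E d → ℝ}
    (hPU : ∀ j, PU {x ∈ X | D x < lam ^ j * t} (lam ^ j * t) L (S j) (φ j))
    (hF : ParFlat lam κ t X D pp VV) {x : E d} (hx : x ∈ X) (m j : ℕ) :
    dist (cmp (fun j => sig (S j) (φ j) (pp j) (VV j)) j m x) x ≤ 2 * κ * (lam ^ j * t) := by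
  induction m generalizing j with
  | zero => rw [cmp, dist_self]; positivity
  | succ m ih =>
    have h1 := ih (j + 1)
    rw [cmp]
    generalize cmp (fun j => sig (S j) (φ j) (pp j) (VV j)) (j + 1) m x = y at h1
    obtain ⟨u1, u2, u3, u4, -, -⟩ := hPU j
    have hq : 0 < lam ^ j * t := by positivity
    have e : lam ^ (j + 1) * t = lam * (lam ^ j * t) := by ring
    rw [e] at h1
    have hF' := hF j
    generalize lam ^ j * t = q at *
    have hk : 0 ≤ κ * q := by positivity
    have h2 : dist y x ≤ κ * q / 2 := by nlinarith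
    have h3 : κ * q ≤ q := by nlinarith
    have h4 : ‖∑ p ∈ S j, φ j p y • hh (pp j p) (VV j p) y‖ ≤ 3 / 2 * (κ * q) := by
      calc _ ≤ ∑ p ∈ S j, φ j p y * (3 / 2 * (κ * q)) := by
            refine norm_sum_le_of_le _ fun p hp => ?_
            rw [norm_smul, Real.norm_of_nonneg (u2 p y)]
            by_cases h0 : φ j p y = 0
            · simp [h0]
            refine mul_le_mul_of_nonneg_left ?_ (u2 p y)
            have a1 := u4 p y h0
            have a2 := dist_triangle_left x p y
            have a3 := hF' p (u1 hp).1 (u1 hp).2 x hx (by linarith)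
            have a4 := hh_lip (pp j p) (VV j p) y x
            have a5 := norm_sub_norm_le (hh (pp j p) (VV j p) y) (hh (pp j p) (VV j p) x)
            rw [← dist_eq_norm y x] at a4
            linarith
        _ ≤ 3 / 2 * (κ * q) := by
            rw [← Finset.sum_mul]
            exact mul_le_of_le_one_left (by positivity) (u3 y)
    have h5 : dist (sig (S j) (φ j) (pp j) (VV j) y) y ≤ 3 / 2 * (κ * q) := by
      rw [dist_eq_norm, sig, sub_sub_cancel_left, norm_neg]; exact h4
    have h6 := dist_triangle (sig (S j) (φ j) (pp j) (VV j) y) y x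
    linarith

end Vale.Agent.P120
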