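import Vale.Agent.P120.Par1
import Vale.Agent.P120.Par3
import Vale.Agent.P120.Par4a

/-!
P120 Par4b. Overview in notes/P120.md, definitions in Defs.lean.
Name every helper lemma of yours with the file name in front (for example par4b_aux1).

PLAN.
η, θ0 from chain; κ = min (1/2400) (θ0 / (400/lam + 800)) (so also 3κ <= θ0). r = dist x x'; r = 0 is trivial. t_j = lam^j t, σ j = sig ..
Case t < 100 r: for every m, |Pt (y0 - y0')| >= r - |hh x| - |hh x'| - 4κt >= r - 6κt >= r/4 (ParFlat at j = 0 with p = ps, cmp_dist_le, hh_sub, v = P v + Q v).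
Case 100 r <= t: J with t_(J+1) < 100 r <= t_J (Nat.find; lam^j → 0), D x < t_J. Take b from ParClose for x, J. For m >= J+1 put y j = cmp σ j (m - j) x, y' j likewise, so y j = σ j (y (j+1)) for j <= J,
w j = y j - y' j, Q j = VV j x (reference plane pp j x + VV j x; x itself is admissible), Vt = VV 0 ps. For j <= J both y (j+1), y' (j+1) are within t_j/2 of x, so the weights sum to 1, and
φ j p (..) ≠ 0 gives dist p x <= 3 t_j. Distance bound needed in one_step: for j = J, |hh (j,p) (y' (J+1))| <= κ t_J + κ t_J/2 (ParFlat with z = x'); for j < J,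
|hh (j,p) z| <= |hh (j+1,x) z| + |pj (j+1,x) z - pj (j,p) z| <= b (j+1) t_(j+1) + b j t_j at z = y' (j+1), where the bound on |hh (j+1,x) (y' (j+1))| is the third claim of one_step at level j+1
(it holds for any admissible θ, e.g. a huge one: θ = 1 + |hh ..| / t works for the third claim; or prove it separately). Angle at J: |Q (w (J+1))| <= 2κ t_J + 4κ t_(J+1) <= (200/lam + 400) κ r and
|w (J+1)| >= r - 400 κ r >= 3r/4. chain gives r <= (4/3) |w (J+1)| <= 4 |Pt (w 0)|.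
-/

open MeasureTheory Metric Set Filter Topology
open scoped ENNReal NNReal RealInnerProductSpace

namespace Vale.Agent.P120

variable {d : ℕ}

theorem par4b_succ {lam t : ℝ} (hlam : 0 < lam) (hlam' : lam ≤ 1 / 4) (ht : 0 < t) (j : ℕ) :
    lam ^ (j + 1) * t ≤ lam ^ j * t / 4 := by
  have h := mul_le_mul_of_nonneg_right hlam' (show 0 ≤ lam ^ j * t by positivity)
  rw [pow_succ]
  linarith

theorem par4b_anti {lam t : ℝ} (hlam : 0 < lam) (hlam' : lam ≤ 1 / 4) (ht : 0 < t) {i j : ℕ}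
    (h : i ≤ j) : lam ^ j * t ≤ lam ^ i * t :=
  mul_le_mul_of_nonneg_right (pow_le_pow_of_le_one hlam.le (by linarith) h) ht.le

theorem par4b_proj (p : E d) (V : Submodule ℝ (E d)) {x x' y y' : E d} {a c : ℝ}
    (h1 : ‖hh p V x‖ ≤ a) (h2 : ‖hh p V x'‖ ≤ a) (h3 : dist y x ≤ c) (h4 : dist y' x' ≤ c) :
    dist x x' - 2 * a - 2 * c ≤ ‖V.starProjection (y - y')‖ ∧ dist x x' - 2 * c ≤ ‖y - y'‖ ∧
      ‖Vᗮ.starProjection (y - y')‖ ≤ 2 * a + 2 * c := by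
  have k1 : ‖(y - y') - (x - x')‖ ≤ 2 * c := by
    rw [sub_sub_sub_comm]
    rw [dist_eq_norm] at h3 h4
    linarith [norm_sub_le (y - x) (y' - x')]
  have k2 : ‖Vᗮ.starProjection (x - x')‖ ≤ 2 * a := by
    rw [← hh_sub p]
    linarith [norm_sub_le (hh p V x) (hh p V x')]
  have k3 : ∀ W : Submodule ℝ (E d),
      ‖W.starProjection (y - y') - W.starProjection (x - x')‖ ≤ 2 * c := fun W => by
    rw [← map_sub]
    exact (W.norm_starProjection_apply_le _).trans k1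
  have k4 := norm_add_le (V.starProjection (x - x')) (Vᗮ.starProjection (x - x'))
  rw [V.starProjection_add_starProjection_orthogonal] at k4
  rw [dist_eq_norm]
  exact ⟨by linarith [k3 V, norm_le_insert (V.starProjection (y - y')) (V.starProjection (x - x'))],
    by linarith [norm_le_insert (y - y') (x - x')],
    by linarith [k3 Vᗮ, norm_le_insert' (Vᗮ.starProjection (y - y')) (Vᗮ.starProjection (x - x'))]⟩

theorem par4b_third {S : Finset (E d)} {φ : E d → E d → ℝ} {pp : E d → E d}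
    {VV : E d → Submodule ℝ (E d)} {p0 : E d} {V0 : Submodule ℝ (E d)} {x y : E d} {t b : ℝ}
    (ht : 0 < t) (hb : 0 ≤ b) (hφ : ∀ p z, 0 ≤ φ p z) (h1 : ∑ p ∈ S, φ p y = 1)
    (hy : dist y x ≤ 4 * t) (hN : ∀ p ∈ S, φ p y ≠ 0 → Near (pp p) (VV p) p0 V0 x t b) :
    ‖hh p0 V0 (sig S φ pp VV y)‖ ≤ b * t := by
  have h0 : 0 ≤ ∑ p ∈ S, ‖hh (pp p) (VV p) y‖ := Finset.sum_nonneg fun p _ => norm_nonneg _
  refine (one_step S φ pp VV p0 V0 x y y (L := 0) (θ := (∑ p ∈ S, ‖hh (pp p) (VV p) y‖) / t) ht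
    le_rfl hb (div_nonneg h0 ht.le) hφ h1 h1 (by simp) hy
    (fun p hp h => ⟨hN p hp (h.elim id id), ?_⟩) (by simp)).2.2
  rw [div_mul_cancel₀ _ ht.ne']
  exact Finset.single_le_sum (f := fun p => ‖hh (pp p) (VV p) y‖) (fun p _ => norm_nonneg _) hp

theorem par4b_step {lam κ t L θ0 : ℝ} (hlam : 0 < lam) (hlam' : lam ≤ 1 / 4) (hL : 0 ≤ L)
    (hκ : 0 < κ) (hκ' : κ ≤ 1 / 2) (hθ : 2 * κ ≤ θ0) (ht : 0 < t) {X : Set (E d)} {D : E d → ℝ}
    {pp : ℕ → E d → E d} {VV : ℕ → E d → Submodule ℝ (E d)} {S : ℕ → Finset (E d)}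
    {φ : ℕ → E d → E d → ℝ}
    (hPU : ∀ j, PU {x ∈ X | D x < lam ^ j * t} (lam ^ j * t) L (S j) (φ j))
    (hF : ParFlat lam κ t X D pp VV) {x x' : E d} (hx : x ∈ X) (hx' : x' ∈ X) {J : ℕ}
    (hJ : 100 * dist x x' ≤ lam ^ J * t) (hD : D x < lam ^ J * t) {b : ℕ → ℝ} (hb0 : ∀ j, 0 ≤ b j)
    (hb2 : ∀ j ≤ J, ∀ p ∈ X, ∀ q ∈ X, D p < lam ^ j * t → D q < lam ^ j * t →
      dist p x ≤ 3 * (lam ^ j * t) → dist q x ≤ 3 * (lam ^ j * t) →
        Near (pp j p) (VV j p) (pp j q) (VV j q) x (lam ^ j * t) (b j))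
    (hb3 : ∀ j < J, ∀ p ∈ X, ∀ q ∈ X, D p < lam ^ j * t → D q < lam ^ (j + 1) * t →
      dist p x ≤ 3 * (lam ^ j * t) → dist q x ≤ 3 * (lam ^ (j + 1) * t) →
        Near (pp j p) (VV j p) (pp (j + 1) q) (VV (j + 1) q) x (lam ^ j * t) (b j))
    {y y' : ℕ → E d} (hy : ∀ j, dist (y j) x ≤ 2 * κ * (lam ^ j * t))
    (hy' : ∀ j, dist (y' j) x' ≤ 2 * κ * (lam ^ j * t))
    (hs : ∀ j ≤ J, y j = sig (S j) (φ j) (pp j) (VV j) (y (j + 1)))
    (hs' : ∀ j ≤ J, y' j = sig (S j) (φ j) (pp j) (VV j) (y' (j + 1))) :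
    ∀ j ≤ J, ∀ θ : ℝ, (if j = J then θ0 else b j + b (j + 1)) ≤ θ →
      ‖(VV j x)ᗮ.starProjection (y (j + 1) - y' (j + 1))‖ ≤ θ * ‖y (j + 1) - y' (j + 1)‖ →
        ‖y j - y' j - (VV j x).starProjection (y (j + 1) - y' (j + 1))‖ ≤
          (1 + L) * b j * ‖y (j + 1) - y' (j + 1)‖ ∧
        ‖(VV j x).starProjection (y j - y' j - (VV j x).starProjection (y (j + 1) - y' (j + 1)))‖ ≤
          (1 + L) * (b j ^ 2 + b j * θ) * ‖y (j + 1) - y' (j + 1)‖ := by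
  have hT : ∀ j : ℕ, 0 < lam ^ j * t := fun j => by positivity
  have hDj : ∀ j ≤ J, D x < lam ^ j * t := fun j hj => hD.trans_le (par4b_anti hlam hlam' ht hj)
  have hxx : ∀ j : ℕ, dist x x ≤ 3 * (lam ^ j * t) := fun j => by
    rw [dist_self]; exact (mul_pos three_pos (hT j)).le
  have a0 : ∀ j : ℕ, 2 * κ * (lam ^ (j + 1) * t) ≤ lam ^ j * t / 4 := fun j => by
    have := mul_le_mul_of_nonneg_right hκ' (hT (j + 1)).le
    linarith [par4b_succ hlam hlam' ht j]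
  have a1 : ∀ j, dist (y (j + 1)) x ≤ lam ^ j * t / 2 := fun j => by
    linarith [hy (j + 1), a0 j, hT j]
  have a2 : ∀ j ≤ J, dist (y' (j + 1)) x ≤ lam ^ j * t / 2 := fun j hj => by
    have := dist_triangle_right (y' (j + 1)) x x'
    linarith [hy' (j + 1), a0 j, hT j, par4b_anti hlam hlam' ht hj]
  have a3 : ∀ j, ∀ p ∈ S j, ∀ z, dist z x ≤ lam ^ j * t / 2 → φ j p z ≠ 0 →
      p ∈ X ∧ D p < lam ^ j * t ∧ dist p x ≤ 3 * (lam ^ j * t) := fun j p hp z hz h => by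
    have k1 := (hPU j).1 hp
    have k2 := (hPU j).2.2.2.1 p z h
    exact ⟨k1.1, k1.2, by linarith [dist_triangle_left p x z, hT j]⟩
  have a4 : ∀ j ≤ J, ∀ z, dist z x ≤ lam ^ j * t / 2 → ∑ p ∈ S j, φ j p z = 1 := fun j hj z hz =>
    (hPU j).2.2.2.2.1 x ⟨hx, hDj j hj⟩ z hz
  have a5 : ∀ j ≤ J, ∀ p, (p ∈ X ∧ D p < lam ^ j * t ∧ dist p x ≤ 3 * (lam ^ j * t)) →
      Near (pp j p) (VV j p) (pp j x) (VV j x) x (lam ^ j * t) (b j) := fun j hj p hp =>
    hb2 j hj p hp.1 x hx hp.2.1 (hDj j hj) hp.2.2 (hxx j)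
  have a6 : ∀ j ≤ J, ‖hh (pp j x) (VV j x) (y' j)‖ ≤ b j * (lam ^ j * t) := fun j hj => by
    rw [hs' j hj]
    exact par4b_third (hT j) (hb0 j) (hPU j).2.1 (a4 j hj _ (a2 j hj)) (by linarith [a2 j hj, hT j])
      fun p hp h => a5 j hj p (a3 j p hp _ (a2 j hj) h)
  intro j hj θ h1 h2
  have hθ0 : 0 ≤ θ := by
    refine le_trans ?_ h1
    split_ifs
    · linarith
    · exact add_nonneg (hb0 _) (hb0 _)
  have a7 : dist (y' (j + 1)) x ≤ 4 * (lam ^ j * t) := by linarith [a2 j hj, hT j]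
  have key := one_step (S j) (φ j) (pp j) (VV j) (pp j x) (VV j x) x (y (j + 1)) (y' (j + 1))
    (hT j) hL (hb0 j) hθ0 (hPU j).2.1 (a4 j hj _ (a1 j)) (a4 j hj _ (a2 j hj))
    ((hPU j).2.2.2.2.2 _ _) a7 (fun p hp h => ?_) h2
  · rw [← hs j hj, ← hs' j hj] at key
    exact ⟨key.1, key.2.1⟩
  have k1 := h.elim (a3 j p hp _ (a1 j)) (a3 j p hp _ (a2 j hj))
  refine ⟨a5 j hj p k1, le_trans ?_ (mul_le_mul_of_nonneg_right h1 (hT j).le)⟩
  split_ifs with e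
  · subst e
    have k2 := hF j p k1.1 k1.2.1 x' hx' (by linarith [dist_triangle_left x' p x, dist_comm x p, k1.2.2, hT j])
    have k3 := hh_lip (pp j p) (VV j p) (y' (j + 1)) x'
    rw [← dist_eq_norm (y' (j + 1))] at k3
    have k4 := mul_le_mul_of_nonneg_left (par4b_succ hlam hlam' ht j) hκ.le
    have k5 := mul_le_mul_of_nonneg_right hθ (hT j).le
    have k6 := mul_pos hκ (hT j)
    linarith [hy' (j + 1), norm_le_insert' (hh (pp j p) (VV j p) (y' (j + 1))) (hh (pp j p) (VV j p) x')]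
  · have hj' : j < J := lt_of_le_of_ne hj e
    have k2 := (hb3 j hj' p k1.1 x hx k1.2.1 (hDj _ hj') k1.2.2 (hxx _)).2 _ a7
    have k3 := a6 (j + 1) hj'
    have k4 := mul_le_mul_of_nonneg_left (par4b_anti hlam hlam' ht (Nat.le_add_right j 1)) (hb0 (j + 1))
    rw [pj, pj, sub_sub_sub_cancel_left] at k2
    linarith [norm_le_insert (hh (pp (j + 1) x) (VV (j + 1) x) (y' (j + 1)))
      (hh (pp j p) (VV j p) (y' (j + 1)))]

theorem pair_le (lam L : ℝ) (hlam : 0 < lam) (hlam' : lam ≤ 1 / 4) (hL : 0 ≤ L) :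
    ∃ κ : ℝ, 0 < κ ∧ κ ≤ 1 / 2 ∧ ∃ η : ℝ, 0 < η ∧ ∀ (d : ℕ) (X : Set (E d)) (x0 : E d) (t : ℝ)
      (D : E d → ℝ) (pp : ℕ → E d → E d) (VV : ℕ → E d → Submodule ℝ (E d))
      (S : ℕ → Finset (E d)) (φ : ℕ → E d → E d → ℝ), 0 < t → (∀ x ∈ X, dist x x0 ≤ t) →
      (∀ x ∈ X, 0 ≤ D x ∧ D x < t) →
      (∀ j, PU {x ∈ X | D x < lam ^ j * t} (lam ^ j * t) L (S j) (φ j)) →
      ParFlat lam κ t X D pp VV → ParClose lam η t X D pp VV →
      ∀ ps ∈ X, ∀ x ∈ X, ∀ x' ∈ X, D x + D x' ≤ 40 * dist x x' →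
        ∀ᶠ m in atTop, dist x x' ≤ 4 * ‖(VV 0 ps).starProjection
          (cmp (fun j => sig (S j) (φ j) (pp j) (VV j)) 0 m x -
            cmp (fun j => sig (S j) (φ j) (pp j) (VV j)) 0 m x')‖ :=
by
  obtain ⟨η, hη, θ0, hθ0, hch⟩ := chain L hL
  obtain ⟨κ, hκ0, hκ1, hκ2⟩ : ∃ κ : ℝ, 0 < κ ∧ κ ≤ 1 / 2400 ∧ κ ≤ θ0 * lam / 600 :=
    ⟨min (1 / 2400) (θ0 * lam / 600), lt_min (by norm_num) (by positivity), min_le_left _ _,
      min_le_right _ _⟩
  refine ⟨κ, hκ0, by linarith, η, hη, ?_⟩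
  intro d X x0 t D pp VV S φ ht hX hD hPU hF hC ps hps x hx x' hx' hDD
  have hc := fun z (hz : z ∈ X) => cmp_dist_le hlam hlam' hκ0.le (by linarith) ht hPU hF hz
  have h2t : ∀ z ∈ X, dist z ps ≤ 2 * (lam ^ 0 * t) := fun z hz => by
    rw [pow_zero, one_mul]
    linarith [dist_triangle_right z ps x0, hX z hz, hX ps hps]
  have hDps : D ps < lam ^ 0 * t := by rw [pow_zero, one_mul]; exact (hD ps hps).2
  rcases lt_or_ge t (100 * dist x x') with h | h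
  · refine Eventually.of_forall fun m => ?_
    have h0 : 0 < lam ^ 0 * t := by positivity
    have k1 := hF 0 ps hps hDps x hx (by linarith [h2t x hx])
    have k2 := hF 0 ps hps hDps x' hx' (by linarith [h2t x' hx'])
    have k3 := par4b_proj (pp 0 ps) (VV 0 ps) k1 k2 (hc x hx m 0) (hc x' hx' m 0)
    rw [pow_zero, one_mul] at k3
    have k4 := mul_le_mul_of_nonneg_right hκ1 ht.le
    linarith [k3.1]
  rcases eq_or_lt_of_le (dist_nonneg (x := x) (y := x')) with h0 | h0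
  · exact Eventually.of_forall fun m => h0 ▸ by positivity
  have hex : ∃ j : ℕ, lam ^ (j + 1) * t < 100 * dist x x' := by
    obtain ⟨j, hj⟩ := exists_pow_lt_of_lt_one (show 0 < 100 * dist x x' / t by positivity)
      (show lam < 1 by linarith)
    exact ⟨j, (par4b_anti hlam hlam' ht (Nat.le_succ j)).trans_lt ((lt_div_iff₀ ht).1 hj)⟩
  obtain ⟨J, hJ1, hJ2⟩ : ∃ J : ℕ, lam ^ (J + 1) * t < 100 * dist x x' ∧
      100 * dist x x' ≤ lam ^ J * t := by
    refine ⟨Nat.find hex, Nat.find_spec hex, ?_⟩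
    rcases Nat.eq_zero_or_eq_succ_pred (Nat.find hex) with e | e
    · rw [e, pow_zero, one_mul]; exact h
    · rw [e]; exact not_lt.1 (Nat.find_min hex (by omega))
  have hDx : D x < lam ^ J * t := by linarith [(hD x' hx').1]
  obtain ⟨b, hb0, hb1, hb2, hb3⟩ := hC x hx J hDx
  refine eventually_atTop.2 ⟨J + 1, fun m hm => ?_⟩
  have hT : ∀ j : ℕ, 0 < lam ^ j * t := fun j => by positivity
  have hDj : ∀ j ≤ J, D x < lam ^ j * t := fun j hj => hDx.trans_le (par4b_anti hlam hlam' ht hj)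
  have hxx : ∀ j : ℕ, dist x x ≤ 3 * (lam ^ j * t) := fun j => by
    rw [dist_self]; exact (mul_pos three_pos (hT j)).le
  obtain ⟨y, hy⟩ : ∃ y : E d → ℕ → E d, ∀ z j,
      y z j = cmp (fun j => sig (S j) (φ j) (pp j) (VV j)) j (m - j) z := ⟨_, fun _ _ => rfl⟩
  have hyd : ∀ z ∈ X, ∀ j, dist (y z j) z ≤ 2 * κ * (lam ^ j * t) := fun z hz j =>
    hy z j ▸ hc z hz _ j
  have hys : ∀ z, ∀ j ≤ J, y z j = sig (S j) (φ j) (pp j) (VV j) (y z (j + 1)) := fun z j hj => by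
    rw [hy, hy, show m - j = m - (j + 1) + 1 by omega]; rfl
  have k1 := hF J x hx hDx x hx (by rw [dist_self]; exact (mul_pos four_pos (hT J)).le)
  have k2 := hF J x hx hDx x' hx' (by rw [dist_comm]; linarith)
  have k3 := par4b_proj (pp J x) (VV J x) k1 k2 (hyd x hx (J + 1)) (hyd x' hx' (J + 1))
  have k4 := mul_le_mul_of_nonneg_right hκ1 (hT (J + 1)).le
  have k5 : 3 / 4 * dist x x' ≤ ‖y x (J + 1) - y x' (J + 1)‖ := by linarith [k3.2.1]
  have k6 : ‖(VV J x)ᗮ.starProjection (y x (J + 1) - y x' (J + 1))‖ ≤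
      θ0 * ‖y x (J + 1) - y x' (J + 1)‖ := by
    have a1 := mul_le_mul_of_nonneg_left (par4b_succ hlam hlam' ht J) hκ0.le
    have a2 := mul_le_mul_of_nonneg_right hκ2 (hT J).le
    have a3 : θ0 * lam / 600 * (lam ^ J * t) = θ0 * (lam ^ (J + 1) * t) / 600 := by ring
    have a4 := mul_le_mul_of_nonneg_left hJ1.le hθ0.le
    have a5 := mul_le_mul_of_nonneg_left k5 hθ0.le
    have a6 := mul_pos hθ0 h0
    linarith [k3.2.2]
  have hθ : 2 * κ ≤ θ0 := by nlinarith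
  have key := hch d J (fun j => y x j - y x' j) (fun j => VV j x) (VV 0 ps) b hb0 hb1 k6
    (fun j hj => (hb3 j hj x hx x hx (hDj j hj.le) (hDj _ hj) (hxx j) (hxx _)).1)
    (hb2 0 J.zero_le ps hps x hx hDps (hDj 0 J.zero_le)
      (by rw [dist_comm]; linarith [h2t x hx, hT 0]) (hxx 0)).1
    (par4b_step hlam hlam' hL hκ0 (by linarith) hθ ht hPU hF hx hx' hJ2 hDx hb0 hb2 hb3
      (hyd x hx) (hyd x' hx') (hys x) (hys x'))
  simp only [hy _ 0, Nat.sub_zero] at key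
  linarith

end Vale.Agent.P120
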