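import Vale.Agent.P120.Par2
import Vale.Agent.P120.Par4b

/-!
P120 Par4c. Overview in notes/P120.md, definitions in Defs.lean.
Name every helper lemma of yours with the file name in front (for example par4c_aux1).

PLAN.
L from exists_pu, κ η from pair_le. If X is empty take π = 0. Otherwise fix ps in X, V = VV 0 ps, a linear isometry equiv T : V ≃ E n ((stdOrthonormalBasis ℝ V).reindex (finCongr _)).repr,
choose S, φ. π m x = T (V.orthogonalProjection (cmp σ 0 m x - x0)) has norm <= t + 2κt <= 2t on X (cmp_dist_le). Along hyperfilter ℕ the sequence π m x converges in the compact closedBall 0 (2t)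
(IsCompact.ultrafilter_le_nhds on the mapped ultrafilter); choose the limit π x; pass to the limit in pair_le (ge_of_tendsto, Nat.hyperfilter_le_atTop).
-/

open MeasureTheory Metric Set Filter Topology
open scoped ENNReal NNReal RealInnerProductSpace

namespace Vale.Agent.P120

variable {d : ℕ}

theorem param (n d : ℕ) (lam : ℝ) (hlam : 0 < lam) (hlam' : lam ≤ 1 / 4) :
    ∃ κ : ℝ, 0 < κ ∧ ∃ η : ℝ, 0 < η ∧ ∀ (X : Set (E d)) (x0 : E d) (t : ℝ) (D : E d → ℝ)
      (pp : ℕ → E d → E d) (VV : ℕ → E d → Submodule ℝ (E d)), 0 < t →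
      (∀ x ∈ X, dist x x0 ≤ t) → (∀ x ∈ X, 0 ≤ D x ∧ D x < t) →
      (∀ j p, Module.finrank ℝ (VV j p) = n) → ParFlat lam κ t X D pp VV →
      ParClose lam η t X D pp VV → ParMap n t X D := by
  obtain ⟨L, hL, hPU⟩ := exists_pu d
  obtain ⟨κ, hκ, hκ', η, hη, H⟩ := pair_le lam L hlam hlam' hL
  refine ⟨κ, hκ, η, hη, fun X x0 t D pp VV ht hX hD hV hF hC => ?_⟩
  rcases X.eq_empty_or_nonempty with rfl | ⟨ps, hps⟩
  · exact ⟨0, by simp, by simp⟩
  choose S φ hS using fun j : ℕ => hPU {x ∈ X | D x < lam ^ j * t} x0 t (lam ^ j * t)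
    (by positivity) fun y hy => hX y hy.1
  set c := cmp (fun j => sig (S j) (φ j) (pp j) (VV j)) 0 with hc
  let T := ((stdOrthonormalBasis ℝ (VV 0 ps)).reindex (finCongr (hV 0 ps))).repr
  set π : E d → ℕ → E n := fun x m => T ((VV 0 ps).orthogonalProjectionOnto (c m x - x0)) with hπ
  have h1 : ∀ x ∈ X, ∃ z ∈ closedBall (0 : E n) (2 * t), Tendsto (π x) (hyperfilter ℕ) (𝓝 z) := by
    intro x hx
    refine (isCompact_closedBall _ _).ultrafilter_le_nhds' ((hyperfilter ℕ).map (π x))
      (Ultrafilter.mem_map.2 (univ_mem' fun m => mem_closedBall_zero_iff.2 ?_))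
    have h2 := cmp_dist_le hlam hlam' hκ.le (by linarith) ht hS hF hx m 0
    rw [hπ, T.norm_map]
    refine ((VV 0 ps).norm_starProjection_apply_le _).trans ?_
    rw [← dist_eq_norm]
    nlinarith [dist_triangle (c m x) x x0, hX x hx]
  choose! z hz hz' using h1
  refine ⟨z, fun x hx => mem_closedBall_zero_iff.1 (hz x hx), fun x hx y hy h => ?_⟩
  refine ge_of_tendsto (((hz' x hx).dist (hz' y hy)).const_mul 4)
    (((H d X x0 t D pp VV S φ ht hX hD hS hF hC ps hps x hx y hy h).filter_mono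
      Nat.hyperfilter_le_atTop).mono fun m hm => hm.trans_eq ?_)
  rw [hπ, T.dist_map, dist_eq_norm, ← map_sub, sub_sub_sub_cancel_right]
  rfl

end Vale.Agent.P120
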