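import Vale.Agent.P120.Lam1
import Vale.Agent.P120.Stmt

/-!
P120 Riesz1. Overview in notes/P120.md, definitions in Defs.lean.
Name every helper lemma of yours with the file name in front (for example riesz1_aux1).

PLAN.
Let B = ball x0 r, g = B.indicator 1 (in L2, norm^2 <= A r^n), ε_k = 1/(k+1), T_k = Stmt.rieszT n μ ε_k g.
T_k is strongly measurable (write it as an integral over μ of an indicator in (x,y), StronglyMeasurable.integral_prod_right;
Stmt.rieszK n = KK n 0 by kk_zero_eq) and eLpNorm T_k <= C sqrt(A r^n), so T_k defines a bounded sequence in the Hilbert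
space H = Lp (E d) 2 μ. Weak limit along the ultrafilter hyperfilter ℕ: for v in H the bounded real sequence ⟪T_k, v⟫ has an
ultralimit (IsCompact.ultrafilter_le_nhds or Ultrafilter.lim on a closed interval); this is a bounded linear functional
(LinearMap.mkContinuous), represented by f through InnerProductSpace.toDual, with norm <= C sqrt(A r^n).
For a test ψ and a vector e take v = ψ • e: ⟪T_k, v⟫ = ⟪∫ ψ • T_k, e⟫. By Fubini (bounded kernel, finite measures)
∫ ψ • T_k = integral over B ×ˢ B of 1(ε_k < |z.1-z.2|) ψ z.1 • K(z.1-z.2) = half the integral of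
1(ε_k < |z.1-z.2|) (ψ z.1 - ψ z.2) • K (swap symmetry, KK_neg); dominated convergence with bound
L kk n 0 (z.1-z.2) |z.1-z.2|^2 (Up.near with radius 2r; on the diagonal the integrand is 0). Conclude with ext_inner_right.
-/

open MeasureTheory Metric Set Filter Topology
open scoped ENNReal NNReal RealInnerProductSpace

namespace Vale.Agent.P120

variable {d : ℕ}

/-- L2 bound with constant C for the truncated Riesz transforms -/
def RB (n : ℕ) (μ : Measure (E d)) (C : ℝ) : Prop :=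
  ∀ f : E d → ℝ, MemLp f 2 μ → ∀ ε : ℝ, 0 < ε →
    eLpNorm (Stmt.rieszT n μ ε f) 2 μ ≤ ENNReal.ofReal C * eLpNorm f 2 μ

theorem riesz1_weak {H : Type*} [NormedAddCommGroup H] [InnerProductSpace ℝ H] [CompleteSpace H]
    (u : ℕ → H) {M : ℝ} (hu : ∀ k, ‖u k‖ ≤ M) :
    ∃ f : H, ‖f‖ ≤ M ∧ ∀ (v : H) (c : ℝ), Tendsto (fun k => ⟪u k, v⟫) atTop (𝓝 c) →
      ⟪f, v⟫ = c := by
  let φ : ℕ → WeakDual ℝ H := fun k => StrongDual.toWeakDual (InnerProductSpace.toDual ℝ H (u k))
  have hK := WeakDual.isCompact_closedBall (𝕜 := ℝ) (0 : StrongDual ℝ H) M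
  obtain ⟨a, ha, hl⟩ := hK.ultrafilter_le_nhds ((hyperfilter ℕ).map φ) (by
    rw [Ultrafilter.coe_map, le_principal_iff, mem_map]
    refine Eventually.of_forall fun k => ?_
    change InnerProductSpace.toDual ℝ H (u k) ∈ closedBall (0 : StrongDual ℝ H) M
    rw [mem_closedBall_zero_iff, LinearIsometryEquiv.norm_map]
    exact hu k)
  refine ⟨(InnerProductSpace.toDual ℝ H).symm (WeakDual.toStrongDual a), ?_, fun v c hc => ?_⟩
  · rw [LinearIsometryEquiv.norm_map]
    exact mem_closedBall_zero_iff.1 ha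
  · rw [InnerProductSpace.toDual_symm_apply]
    have h1 : Tendsto (fun k => ⟪u k, v⟫) (hyperfilter ℕ) (𝓝 (a v)) :=
      ((WeakDual.eval_continuous v).tendsto a).comp hl
    have h2 : Tendsto (fun k => ⟪u k, v⟫) (hyperfilter ℕ) (𝓝 c) :=
      hc.mono_left (hyperfilter_le_cofinite.trans Nat.cofinite_eq_atTop.le)
    exact tendsto_nhds_unique h1 h2

theorem riesz1_pair {μ : Measure (E d)} {F : E d → E d} (hF : MemLp F 2 μ) {ψ : E d → ℝ}
    (hψ : MemLp ψ 2 μ) (e : E d) (hv : MemLp (fun y => ψ y • e) 2 μ) :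
    ⟪hF.toLp F, hv.toLp _⟫ = ⟪∫ y, ψ y • F y ∂μ, e⟫ := by
  have hi : Integrable (fun y => ψ y • F y) μ := memLp_one_iff_integrable.1 (hF.smul hψ)
  rw [real_inner_comm (∫ y, ψ y • F y ∂μ) e |>.symm, ← integral_inner hi, L2.inner_def]
  refine integral_congr_ae ?_
  filter_upwards [hF.coeFn_toLp, hv.coeFn_toLp] with y h1 h2
  rw [h1, h2, real_inner_smul_right, real_inner_smul_right, real_inner_comm]

/-- The truncated kernel. -/
noncomputable def riesz1K (n : ℕ) (ε : ℝ) (z : E d) : E d := if ε < ‖z‖ then KK n 0 z else 0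

theorem riesz1K_meas (n : ℕ) (ε : ℝ) : Measurable (riesz1K n ε : E d → E d) :=
  Measurable.ite (measurableSet_lt measurable_const measurable_norm) (measurable_KK n 0)
    measurable_const

theorem riesz1K_le (n : ℕ) {ε : ℝ} (hε : 0 < ε) (z : E d) : ‖riesz1K n ε z‖ ≤ (ε ^ n)⁻¹ := by
  unfold riesz1K
  split_ifs with h
  · exact norm_KK_le n hε (by rw [rr_zero]; exact h.le)
  · rw [norm_zero]
    positivity

theorem riesz1K_neg (n : ℕ) (ε : ℝ) (z : E d) : riesz1K n ε (-z) = -riesz1K n ε z := by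
  unfold riesz1K
  rw [norm_neg, KK_neg]
  split_ifs
  · rfl
  · rw [neg_zero]

theorem riesz1_eq (n : ℕ) (μ : Measure (E d)) (ε : ℝ) {B : Set (E d)} (hB : MeasurableSet B)
    (x : E d) : Stmt.rieszT n μ ε (B.indicator fun _ => 1) x =
      ∫ y in B, riesz1K n ε (x - y) ∂μ := by
  have hm : MeasurableSet {y : E d | ε < ‖x - y‖} :=
    measurableSet_lt measurable_const (measurable_const.sub measurable_id).norm
  unfold Stmt.rieszT
  rw [← integral_indicator hm, ← integral_indicator hB]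
  refine integral_congr_ae (Eventually.of_forall fun y => ?_)
  by_cases h1 : ε < ‖x - y‖ <;> by_cases h2 : y ∈ B <;>
    simp [riesz1K, h1, h2, Stmt.rieszK, KK, kk_zero_eq]

theorem riesz1_sym (n : ℕ) (ν : Measure (E d)) [IsFiniteMeasure ν] {ε : ℝ} (hε : 0 < ε)
    {ψ : E d → ℝ} (hψ : Measurable ψ) {M : ℝ} (hM : ∀ y, |ψ y| ≤ M) :
    ∫ x, ψ x • ∫ y, riesz1K n ε (x - y) ∂ν ∂ν =
      (1 / 2 : ℝ) • ∫ z : E d × E d, (ψ z.1 - ψ z.2) • riesz1K n ε (z.1 - z.2) ∂(ν.prod ν) := by
  have hk : Measurable fun z : E d × E d => riesz1K n ε (z.1 - z.2) :=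
    (riesz1K_meas n ε).comp (measurable_fst.sub measurable_snd)
  have hb : ∀ (a : E d) (z : E d), ‖ψ a • riesz1K n ε z‖ ≤ M * (ε ^ n)⁻¹ := fun a z => by
    rw [norm_smul]
    exact mul_le_mul (hM a) (riesz1K_le n hε z) (norm_nonneg _) ((abs_nonneg _).trans (hM a))
  have h1 : Integrable (fun z : E d × E d => ψ z.1 • riesz1K n ε (z.1 - z.2)) (ν.prod ν) :=
    Integrable.of_bound ((hψ.comp measurable_fst).smul hk).aestronglyMeasurable _
      (Eventually.of_forall fun z => hb _ _)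
  have h2 : Integrable (fun z : E d × E d => ψ z.2 • riesz1K n ε (z.1 - z.2)) (ν.prod ν) :=
    Integrable.of_bound ((hψ.comp measurable_snd).smul hk).aestronglyMeasurable _
      (Eventually.of_forall fun z => hb _ _)
  have h3 : ∫ z : E d × E d, ψ z.2 • riesz1K n ε (z.1 - z.2) ∂(ν.prod ν) =
      -∫ z : E d × E d, ψ z.1 • riesz1K n ε (z.1 - z.2) ∂(ν.prod ν) := by
    rw [← integral_prod_swap, ← integral_neg]
    refine integral_congr_ae (Eventually.of_forall fun z => ?_)
    change ψ z.1 • riesz1K n ε (z.2 - z.1) = -(ψ z.1 • riesz1K n ε (z.1 - z.2))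
    rw [← neg_sub, riesz1K_neg, smul_neg]
  simp only [sub_smul]
  rw [integral_sub h1 h2, h3, sub_neg_eq_add, ← two_smul ℝ, smul_smul, one_div,
    inv_mul_cancel₀ (two_ne_zero), one_smul, integral_prod _ h1]
  refine integral_congr_ae (Eventually.of_forall fun x => ?_)
  exact (integral_smul (ψ x) fun y => riesz1K n ε (x - y)).symm

theorem riesz1_dom {n : ℕ} {A : ℝ} {μ : Measure (E d)} (hn : 1 ≤ n) (hA : 0 ≤ A) (hU : Up n A μ)
    (x0 : E d) {r : ℝ} (hr : 0 < r) :
    Integrable (fun z : E d × E d => kk n 0 (z.2 - z.1) * ‖z.2 - z.1‖ ^ 2)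
      ((μ.restrict (ball x0 r)).prod (μ.restrict (ball x0 r))) := by
  have : IsFiniteMeasure (μ.restrict (ball x0 r)) :=
    isFiniteMeasure_restrict.2 (hU.ball_lt_top x0 r).ne
  have hs : Measurable fun z : E d × E d => z.2 - z.1 := measurable_snd.sub measurable_fst
  have hm : Measurable fun z : E d × E d => kk n 0 (z.2 - z.1) * ‖z.2 - z.1‖ ^ 2 :=
    ((measurable_kk n 0).comp hs).mul (hs.norm.pow_const 2)
  have hsub : ∀ x ∈ ball x0 r, ball x0 r ⊆ ball x (2 * r) := fun x hx =>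
    ball_subset_ball' (by rw [dist_comm]; linarith [mem_ball.1 hx])
  have h0 : ∀ x y : E d, 0 ≤ kk n 0 (y - x) * ‖y - x‖ ^ 2 := fun x y =>
    mul_nonneg (kk_nonneg _ _ _) (sq_nonneg _)
  rw [integrable_prod_iff hm.aestronglyMeasurable]
  constructor
  · filter_upwards [ae_restrict_mem measurableSet_ball] with x hx
    exact (hU.near hn hA x (r := 2 * r) (by positivity)).1.mono_set (hsub x hx)
  · refine Integrable.of_bound
      hm.stronglyMeasurable.norm.integral_prod_right'.aestronglyMeasurable (Cad n * A * (2 * r)) ?_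
    filter_upwards [ae_restrict_mem measurableSet_ball] with x hx
    have h1 := hU.near hn hA x (r := 2 * r) (by positivity)
    rw [Real.norm_of_nonneg (integral_nonneg fun y => norm_nonneg _)]
    simp only [Real.norm_of_nonneg (h0 x _)]
    exact (setIntegral_mono_set h1.1 (Eventually.of_forall fun y => h0 x y)
      (hsub x hx).eventuallyLE).trans h1.2

theorem riesz1_lim {n : ℕ} {A : ℝ} {μ : Measure (E d)} (hn : 1 ≤ n) (hA : 0 ≤ A) (hU : Up n A μ)
    (x0 : E d) {r : ℝ} (hr : 0 < r) {ψ : E d → ℝ} {L : ℝ} (h : Test ψ x0 r L) :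
    Tendsto (fun k : ℕ => ∫ z : E d × E d, (ψ z.1 - ψ z.2) • riesz1K n (1 / ((k : ℝ) + 1)) (z.1 - z.2)
        ∂((μ.restrict (ball x0 r)).prod (μ.restrict (ball x0 r)))) atTop
      (𝓝 (∫ z : E d × E d, (ψ z.1 - ψ z.2) • KK n 0 (z.1 - z.2)
        ∂((μ.restrict (ball x0 r)).prod (μ.restrict (ball x0 r))))) := by
  refine tendsto_integral_of_dominated_convergence _ (fun k => ?_)
    ((riesz1_dom hn hA hU x0 hr).const_mul L) (fun k => Eventually.of_forall fun z => ?_)
    (Eventually.of_forall fun z => ?_)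
  · exact (((h.measurable.comp measurable_fst).sub (h.measurable.comp measurable_snd)).smul
      ((riesz1K_meas n _).comp (measurable_fst.sub measurable_snd))).aestronglyMeasurable
  · have h1 : ‖riesz1K n (1 / ((k : ℝ) + 1)) (z.1 - z.2)‖ ≤ kk n 0 (z.2 - z.1) * ‖z.2 - z.1‖ := by
      unfold riesz1K
      split_ifs
      · rw [KK, norm_smul, Real.norm_of_nonneg (kk_nonneg _ _ _), kk_sub_comm, norm_sub_rev]
      · rw [norm_zero]
        exact mul_nonneg (kk_nonneg _ _ _) (norm_nonneg _)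
    have h2 := h.2.1 z.1 z.2
    rw [dist_eq_norm, norm_sub_rev] at h2
    rw [norm_smul]
    refine (mul_le_mul h2 h1 (norm_nonneg _) (mul_nonneg h.1 (norm_nonneg _))).trans (le_of_eq ?_)
    ring
  · by_cases hz : z.1 = z.2
    · simp only [hz, sub_self, zero_smul]
      exact tendsto_const_nhds
    · refine tendsto_const_nhds.congr' ?_
      filter_upwards [tendsto_one_div_add_atTop_nhds_zero_nat.eventually
        (gt_mem_nhds (norm_pos_iff.2 (sub_ne_zero.2 hz)))] with k hk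
      rw [riesz1K, if_pos hk]

theorem exists_riesz_f {n : ℕ} {A C : ℝ} {μ : Measure (E d)} (hn : 1 ≤ n) (hA : 0 ≤ A)
    (hC : 0 ≤ C) (hU : Up n A μ) (hR : RB n μ C) (x0 : E d) {r : ℝ} (hr : 0 < r) :
    ∃ f : E d → E d, MemLp f 2 μ ∧ ∫ y, ‖f y‖ ^ 2 ∂μ ≤ C ^ 2 * A * r ^ n ∧
      ∀ (ψ : E d → ℝ) (L : ℝ), Test ψ x0 r L →
        ∫ y, ψ y • f y ∂μ = (1 / 2 : ℝ) • ∫ z in ball x0 r ×ˢ ball x0 r,
          (ψ z.1 - ψ z.2) • KK n 0 (z.1 - z.2) ∂(μ.prod μ) := by
  have := hU.sigmaFinite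
  have : IsFiniteMeasure (μ.restrict (ball x0 r)) :=
    isFiniteMeasure_restrict.2 (hU.ball_lt_top x0 r).ne
  have hε : ∀ k : ℕ, (0 : ℝ) < 1 / ((k : ℝ) + 1) := fun k => Nat.one_div_pos_of_nat
  have hAr : 0 ≤ A * r ^ n := by positivity
  let T : ℕ → E d → E d := fun k x => ∫ y in ball x0 r, riesz1K n (1 / ((k : ℝ) + 1)) (x - y) ∂μ
  have hg : MemLp ((ball x0 r).indicator fun _ => (1 : ℝ)) 2 μ :=
    memLp_indicator_const 2 measurableSet_ball 1 (Or.inr (hU.ball_lt_top x0 r).ne)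
  have hg' : eLpNorm ((ball x0 r).indicator fun _ => (1 : ℝ)) 2 μ ≤
      ENNReal.ofReal (√(A * r ^ n)) := by
    refine (eLpNorm_indicator_const_le _ _).trans ?_
    rw [enorm_one, one_mul, Real.sqrt_eq_rpow, ← ENNReal.ofReal_rpow_of_nonneg hAr (by norm_num)]
    exact ENNReal.rpow_le_rpow (hU x0 r hr) (by norm_num)
  have hT : ∀ k, eLpNorm (T k) 2 μ ≤ ENNReal.ofReal (C * √(A * r ^ n)) := fun k => by
    have h1 := hR _ hg _ (hε k)
    rw [funext (riesz1_eq n μ _ measurableSet_ball)] at h1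
    rw [ENNReal.ofReal_mul hC]
    exact h1.trans (mul_le_mul_right hg' _)
  have hm : ∀ k, MemLp (T k) 2 μ := fun k =>
    ⟨(((riesz1K_meas n _).comp (measurable_fst.sub measurable_snd)).stronglyMeasurable
      |>.integral_prod_right').aestronglyMeasurable, (hT k).trans_lt ENNReal.ofReal_lt_top⟩
  obtain ⟨f, hf, hl⟩ := riesz1_weak (fun k => (hm k).toLp (T k)) (M := C * √(A * r ^ n))
    fun k => by
      rw [Lp.norm_toLp]
      exact ENNReal.toReal_le_of_le_ofReal (by positivity) (hT k)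
  refine ⟨f, Lp.memLp f, ?_, fun ψ L h => ?_⟩
  · have h1 : ∫ y, ‖f y‖ ^ 2 ∂μ = ‖f‖ ^ 2 := by
      rw [← real_inner_self_eq_norm_sq, L2.inner_def]
      simp only [real_inner_self_eq_norm_sq]
    rw [h1, mul_assoc, ← Real.sq_sqrt hAr, ← mul_pow]
    exact pow_le_pow_left₀ (norm_nonneg _) hf 2
  · refine ext_inner_right ℝ fun e => ?_
    have hψ := h.memLp hU
    have hv : MemLp (fun y => ψ y • e) 2 μ :=
      (ContinuousLinearMap.toSpanSingleton ℝ e).comp_memLp' hψ
    rw [← riesz1_pair (Lp.memLp f) hψ e hv, Lp.toLp_coeFn]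
    refine hl _ _ ?_
    simp only [riesz1_pair _ hψ e hv]
    rw [← Measure.prod_restrict]
    refine Tendsto.inner (((riesz1_lim hn hA hU x0 hr h).const_smul (1 / 2 : ℝ)).congr fun k => ?_)
      tendsto_const_nhds
    rw [← riesz1_sym n _ (hε k) h.measurable h.2.2.1]
    refine setIntegral_eq_integral_of_forall_compl_eq_zero fun x hx => ?_
    rw [h.2.2.2 x (not_lt.1 hx), zero_smul]

end Vale.Agent.P120
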