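import Vale.Agent.P120.ADInt

/-!
P120 Sim1. Overview in notes/P120.md, definitions in Defs.lean.
Name every helper lemma of yours with the file name in front (for example sim1_aux1).

PLAN.
sim x s U is a homeomorphism (inverse y ↦ x + s • U.symm y); package it as a MeasurableEquiv (Homeomorph.toMeasurableEquiv)
so that MeasurableEquiv.map_apply, integral_map_equiv, integrable_map_equiv apply to all sets and functions.
The scalar (ofReal (s^n))⁻¹ is neither 0 nor ∞ and its toReal is (s^n)⁻¹ (integral_smul_measure,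
integrable_smul_measure). Product: Measure.prod_smul_left/right, Measure.map_prod_map, MeasurableEquiv.prodCongr.
sim ⁻¹' ball (sim y) r = ball y (r s). Support: Measure.mem_support_iff_forall with balls.
-/

open MeasureTheory Metric Set Filter Topology
open scoped ENNReal NNReal RealInnerProductSpace

namespace Vale.Agent.P120

variable {d : ℕ}

variable {n : ℕ} {A : ℝ} {μ : Measure (E d)} {x : E d} {s : ℝ} {U : E d ≃ₗᵢ[ℝ] E d}

theorem continuous_sim (x : E d) (s : ℝ) (U : E d ≃ₗᵢ[ℝ] E d) : Continuous (sim x s U) := by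
  unfold sim
  fun_prop
theorem sim_self (x : E d) (s : ℝ) (U : E d ≃ₗᵢ[ℝ] E d) : sim x s U x = 0 := by
  simp [sim]
theorem sim_sub (x : E d) (s : ℝ) (U : E d ≃ₗᵢ[ℝ] E d) (y z : E d) :
    sim x s U y - sim x s U z = s⁻¹ • U (y - z) := by
  unfold sim
  rw [← smul_sub, ← map_sub, sub_sub_sub_cancel_right]
theorem dist_sim (hs : 0 < s) (y z : E d) :
    dist (sim x s U y) (sim x s U z) = dist y z / s := by
  rw [dist_eq_norm, sim_sub, norm_smul, LinearIsometryEquiv.norm_map, dist_eq_norm, norm_inv,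
    Real.norm_of_nonneg hs.le, div_eq_inv_mul]
theorem norm_sim (hs : 0 < s) (y : E d) : ‖sim x s U y‖ = dist y x / s := by
  rw [← dist_sim (x := x) (U := U) hs, sim_self, dist_zero_right]
theorem sim_inv (hs : 0 < s) (y : E d) : sim x s U (x + s • U.symm y) = y := by
  unfold sim
  rw [add_sub_cancel_left, map_smul, LinearIsometryEquiv.apply_symm_apply, smul_smul,
    inv_mul_cancel₀ hs.ne', one_smul]
theorem sim_injective (hs : 0 < s) : Function.Injective (sim x s U) := by
  intro y z h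
  have h1 := dist_sim (x := x) (U := U) hs y z
  rw [h, dist_self] at h1
  have h2 : dist y z = 0 := by
    rcases div_eq_zero_iff.1 h1.symm with h3 | h3
    · exact h3
    · exact absurd h3 hs.ne'
  exact dist_eq_zero.1 h2

/-- the similarity as a homeomorphism -/
noncomputable def sim1_homeo (x : E d) {s : ℝ} (hs : 0 < s) (U : E d ≃ₗᵢ[ℝ] E d) :
    E d ≃ₜ E d where
  toFun := sim x s U
  invFun := fun y => x + s • U.symm y
  left_inv := fun y => sim_injective (x := x) (U := U) hs (sim_inv hs _)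
  right_inv := fun y => sim_inv hs y
  continuous_toFun := continuous_sim x s U
  continuous_invFun := by fun_prop

/-- the similarity as a measurable equivalence -/
noncomputable def sim1_meq (x : E d) {s : ℝ} (hs : 0 < s) (U : E d ≃ₗᵢ[ℝ] E d) :
    E d ≃ᵐ E d := (sim1_homeo x hs U).toMeasurableEquiv

theorem sim1_meq_coe (x : E d) {s : ℝ} (hs : 0 < s) (U : E d ≃ₗᵢ[ℝ] E d) :
    ⇑(sim1_meq x hs U) = sim x s U := rfl

theorem sim1_ne_zero (_hs : 0 < s) (n : ℕ) : (ENNReal.ofReal (s ^ n))⁻¹ ≠ 0 :=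
  ENNReal.inv_ne_zero.2 ENNReal.ofReal_ne_top

theorem sim1_ne_top (hs : 0 < s) (n : ℕ) : (ENNReal.ofReal (s ^ n))⁻¹ ≠ ∞ :=
  ENNReal.inv_ne_top.2 (ENNReal.ofReal_pos.2 (pow_pos hs n)).ne'

theorem sim1_toReal (hs : 0 < s) (n : ℕ) : ((ENNReal.ofReal (s ^ n))⁻¹).toReal = (s ^ n)⁻¹ := by
  rw [ENNReal.toReal_inv, ENNReal.toReal_ofReal (pow_pos hs n).le]

theorem resc_apply (hs : 0 < s) (S : Set (E d)) :
    resc n μ x s U S = (ENNReal.ofReal (s ^ n))⁻¹ * μ (sim x s U ⁻¹' S) := by
  unfold resc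
  rw [Measure.smul_apply, smul_eq_mul, ← sim1_meq_coe x hs U, MeasurableEquiv.map_apply]

theorem integral_resc {G : Type*} [NormedAddCommGroup G] [NormedSpace ℝ G] (hs : 0 < s)
    (φ : E d → G) :
    ∫ y, φ y ∂(resc n μ x s U) = (s ^ n)⁻¹ • ∫ y, φ (sim x s U y) ∂μ := by
  unfold resc
  rw [integral_smul_measure, sim1_toReal hs, ← sim1_meq_coe x hs U, integral_map_equiv]

theorem integrable_resc_iff {G : Type*} [NormedAddCommGroup G] (hs : 0 < s) (φ : E d → G) :
    Integrable φ (resc n μ x s U) ↔ Integrable (fun y => φ (sim x s U y)) μ := by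
  unfold resc
  rw [integrable_smul_measure (sim1_ne_zero hs n) (sim1_ne_top hs n), ← sim1_meq_coe x hs U,
    integrable_map_equiv]
  rfl

theorem memLp_resc_iff {G : Type*} [NormedAddCommGroup G] (hs : 0 < s) (φ : E d → G) :
    MemLp φ 2 (resc n μ x s U) ↔ MemLp (fun y => φ (sim x s U y)) 2 μ := by
  have h1 : MemLp φ 2 (μ.map (sim x s U)) ↔ MemLp (fun y => φ (sim x s U y)) 2 μ := by
    rw [← sim1_meq_coe x hs U, MeasurableEquiv.memLp_map_measure_iff]
    rfl
  rw [← h1]
  unfold resc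
  constructor
  · intro h
    have h2 := h.smul_measure (c := ENNReal.ofReal (s ^ n)) ENNReal.ofReal_ne_top
    rwa [smul_smul, ENNReal.mul_inv_cancel (ENNReal.ofReal_pos.2 (pow_pos hs n)).ne'
      ENNReal.ofReal_ne_top, one_smul] at h2
  · intro h
    exact h.smul_measure (sim1_ne_top hs n)

theorem sim1_prod_smul {α : Type*} [MeasurableSpace α] (ν : Measure α) [SFinite ν] (c : ℝ≥0∞) :
    (c • ν).prod (c • ν) = (c * c) • ν.prod ν := by
  rw [Measure.prod_smul_left, Measure.prod_smul_right, smul_smul]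

theorem integral_resc_prod [SFinite μ] {G : Type*} [NormedAddCommGroup G] [NormedSpace ℝ G]
    (hs : 0 < s) (φ : E d × E d → G) :
    ∫ z, φ z ∂((resc n μ x s U).prod (resc n μ x s U)) =
      ((s ^ n)⁻¹ * (s ^ n)⁻¹) • ∫ z : E d × E d, φ (sim x s U z.1, sim x s U z.2) ∂(μ.prod μ) := by
  unfold resc
  have hm : Measurable (sim x s U) := (continuous_sim x s U).measurable
  rw [sim1_prod_smul, integral_smul_measure, ENNReal.toReal_mul, sim1_toReal hs,
    Measure.map_prod_map _ _ hm hm]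
  have h := integral_map_equiv (μ := μ.prod μ)
    ((sim1_meq x hs U).prodCongr (sim1_meq x hs U)) φ
  exact congrArg _ h

theorem sim1_preimage_ball (hs : 0 < s) (y : E d) (r : ℝ) :
    sim x s U ⁻¹' ball (sim x s U y) r = ball y (r * s) := by
  ext z
  rw [mem_preimage, mem_ball, mem_ball, dist_sim hs, div_lt_iff₀ hs]

theorem sim1_ball (hs : 0 < s) (y : E d) (r : ℝ) :
    resc n μ x s U (ball (sim x s U y) r) = (ENNReal.ofReal (s ^ n))⁻¹ * μ (ball y (r * s)) := by
  rw [resc_apply hs, sim1_preimage_ball hs]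

theorem sim1_cancel (hs : 0 < s) (n : ℕ) (B r : ℝ) :
    (ENNReal.ofReal (s ^ n))⁻¹ * ENNReal.ofReal (B * (r * s) ^ n) = ENNReal.ofReal (B * r ^ n) := by
  rw [mul_pow, ← mul_assoc, ENNReal.ofReal_mul' (pow_pos hs n).le, mul_comm,
    mul_assoc, ENNReal.mul_inv_cancel (ENNReal.ofReal_pos.2 (pow_pos hs n)).ne'
      ENNReal.ofReal_ne_top, mul_one]

theorem Up.resc (hU : Up n A μ) (hs : 0 < s) : Up n A (resc n μ x s U) := by
  intro y r hr
  rw [← sim_inv (x := x) (U := U) hs y, sim1_ball hs, ← sim1_cancel hs n A r]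
  exact mul_le_mul_right (hU _ _ (mul_pos hr hs)) _

theorem sim1_mem_support_iff (ν : Measure (E d)) (y : E d) :
    y ∈ ν.support ↔ ∀ r : ℝ, 0 < r → 0 < ν (ball y r) := by
  rw [Measure.mem_support_iff_forall]
  constructor
  · intro h r hr
    exact h _ (ball_mem_nhds y hr)
  · intro h V hV
    obtain ⟨r, hr, hsub⟩ := Metric.mem_nhds_iff.1 hV
    exact (h r hr).trans_le (measure_mono hsub)

theorem mem_support_resc (hs : 0 < s) (y : E d) :
    sim x s U y ∈ (resc n μ x s U).support ↔ y ∈ μ.support := by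
  rw [sim1_mem_support_iff, sim1_mem_support_iff]
  constructor
  · intro h r hr
    have h1 := h (r / s) (div_pos hr hs)
    rw [sim1_ball hs, div_mul_cancel₀ r hs.ne'] at h1
    exact (ENNReal.mul_pos_iff.1 h1).2
  · intro h r hr
    rw [sim1_ball hs]
    exact ENNReal.mul_pos (sim1_ne_zero hs n) (h _ (mul_pos hr hs)).ne'

theorem Low.resc {ρ : ℝ} (hL : Low n A ρ μ) (hs : 0 < s) :
    Low n A (ρ / s) (resc n μ x s U) := by
  intro y hy r hr hrρ
  rw [← sim_inv (x := x) (U := U) hs y] at hy ⊢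
  rw [mem_support_resc hs] at hy
  rw [sim1_ball hs, ← sim1_cancel hs n A⁻¹ r]
  exact mul_le_mul_right (hL _ hy _ (mul_pos hr hs) ((le_div_iff₀ hs).1 hrρ)) _

end Vale.Agent.P120
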