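import Vale.Agent.P120.ADInt

/-!
P120 TestB. Overview in notes/P120.md, definitions in Defs.lean.
Name every helper lemma of yours with the file name in front (for example testb_aux1).

PLAN.
Routine facts on test functions and the bump. Test.mul: if y is in the ball write
η y g y - η z g z = (η y - η z) g y + η z (g y - g z); if z is in the ball use the symmetric form; else both vanish.
exists_test_of_contDiff: ContDiff.lipschitzWith_of_hasCompactSupport, bounded support, enlarge L so that the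
sup bound holds. integral_abs_le: Cauchy-Schwarz against the indicator of the ball (integral_mul_le_Lp_mul_Lq or
the elementary inequality 2|a| <= a^2 / c + c).
-/

open MeasureTheory Metric Set Filter Topology
open scoped ENNReal NNReal RealInnerProductSpace

namespace Vale.Agent.P120

variable {d : ℕ}

variable {n : ℕ} {A : ℝ} {μ : Measure (E d)} {ψ : E d → ℝ} {x : E d} {s L : ℝ}

theorem testb_lip {f : E d → ℝ} {L : ℝ} (hL : 0 ≤ L) (h : ∀ y z, |f y - f z| ≤ L * dist y z) :
    Continuous f :=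
  (LipschitzWith.of_dist_le_mul (K := ⟨L, hL⟩) fun y z => by
    rw [Real.dist_eq]; exact h y z).continuous

theorem testb_supp {f : E d → ℝ} (h0 : ∀ y, s ≤ dist y x → f y = 0) : HasCompactSupport f :=
  HasCompactSupport.intro (isCompact_closedBall x s) fun y hy =>
    h0 y (le_of_lt (not_le.1 fun h => hy (mem_closedBall.2 h)))

theorem testb_ind (hU : Up n A μ) (x : E d) (s c : ℝ) :
    Integrable ((ball x s).indicator fun _ => c) μ :=
  (integrable_indicator_iff measurableSet_ball).2 (integrableOn_const (hU.ball_lt_top x s).ne)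

theorem testb_int_le {f : E d → ℝ} {c : ℝ} (hU : Up n A μ) (hf : Integrable f μ)
    (h1 : ∀ y, f y ≤ c) (h0 : ∀ y, s ≤ dist y x → f y = 0) :
    ∫ y, f y ∂μ ≤ c * μ.real (ball x s) := by
  have h2 : ∫ y, f y ∂μ ≤ ∫ y, (ball x s).indicator (fun _ => c) y ∂μ := by
    refine integral_mono hf (testb_ind hU x s c) fun y => ?_
    by_cases hy : y ∈ ball x s
    · simp only [indicator_of_mem hy]; exact h1 y
    · simp only [indicator_of_notMem hy]; exact (h0 y (not_lt.1 hy)).le
  rwa [integral_indicator_const _ measurableSet_ball, smul_eq_mul, mul_comm] at h2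

theorem Test.continuous (h : Test ψ x s L) : Continuous ψ := testb_lip h.1 h.2.1
theorem Test.measurable (h : Test ψ x s L) : Measurable ψ := h.continuous.measurable
theorem Test.hasCompactSupport (h : Test ψ x s L) : HasCompactSupport ψ := testb_supp h.2.2.2
theorem Test.integrable (h : Test ψ x s L) (hU : Up n A μ) : Integrable ψ μ :=
  haveI := hU.locFin
  h.continuous.integrable_of_hasCompactSupport h.hasCompactSupport
theorem Test.memLp (h : Test ψ x s L) (hU : Up n A μ) : MemLp ψ 2 μ :=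
  haveI := hU.locFin
  h.continuous.memLp_of_hasCompactSupport h.hasCompactSupport
theorem Test.integrable_sq (h : Test ψ x s L) (hU : Up n A μ) :
    Integrable (fun y => ψ y ^ 2) μ := (h.memLp hU).integrable_sq
theorem Test.le_ww (h : Test ψ x s L) (m : ℕ) : ∃ C : ℝ, ∀ y, |ψ y| ≤ C * ww m y := by
  refine ⟨|L * s| * (1 + ‖x‖ + |s|) ^ m, fun y => ?_⟩
  have h0 : 0 < (1 + ‖y‖) ^ m := by positivity
  unfold ww
  by_cases hy : s ≤ dist y x
  · rw [h.2.2.2 y hy, abs_zero]; positivity
  · rw [← div_eq_mul_inv, le_div_iff₀ h0]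
    have h1 : ‖y‖ ≤ ‖x‖ + |s| := by
      have h2 := norm_le_norm_add_norm_sub' y x
      rw [← dist_eq_norm] at h2
      linarith [le_abs_self s, not_le.1 hy]
    exact mul_le_mul ((h.2.2.1 y).trans (le_abs_self _))
      (pow_le_pow_left₀ (by positivity) (by linarith) m) h0.le (abs_nonneg _)
theorem Test.integral_sq_le (h : Test ψ x s L) (hA : 0 ≤ A) (hU : Up n A μ) (hs : 0 < s) :
    ∫ y, ψ y ^ 2 ∂μ ≤ (L * s) ^ 2 * (A * s ^ n) := by
  refine (testb_int_le (x := x) (s := s) (c := (L * s) ^ 2) hU (h.integrable_sq hU) (fun y => ?_)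
    (fun y hy => by rw [h.2.2.2 y hy]; ring)).trans
    (mul_le_mul_of_nonneg_left (hU.real_ball_le hA x hs) (sq_nonneg _))
  rw [← sq_abs]
  exact pow_le_pow_left₀ (abs_nonneg _) (h.2.2.1 y) 2
theorem testb_abs_le (h : Test ψ x s L) (hU : Up n A μ) :
    ∫ y, |ψ y| ∂μ ≤ L * s * μ.real (ball x s) :=
  testb_int_le hU (h.integrable hU).abs h.2.2.1 fun y hy => by rw [h.2.2.2 y hy, abs_zero]
theorem Test.integral_abs_le (h : Test ψ x s L) (hA : 0 ≤ A) (hU : Up n A μ) (hs : 0 < s) :
    ∫ y, |ψ y| ∂μ ≤ √(A * s ^ n) * √(∫ y, ψ y ^ 2 ∂μ) := by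
  have hm := hU.real_ball_le hA x hs
  have hI : 0 ≤ ∫ y, |ψ y| ∂μ := integral_nonneg fun y => abs_nonneg _
  have hJ : 0 ≤ ∫ y, ψ y ^ 2 ∂μ := integral_nonneg fun y => sq_nonneg _
  have key : ∀ t : ℝ, 2 * t * ∫ y, |ψ y| ∂μ ≤ ∫ y, ψ y ^ 2 ∂μ + t ^ 2 * μ.real (ball x s) := by
    intro t
    have h1 : ∫ y, 2 * t * |ψ y| ∂μ ≤
        ∫ y, (ψ y ^ 2 + (ball x s).indicator (fun _ => t ^ 2) y) ∂μ := by
      refine integral_mono ((h.integrable hU).abs.const_mul _)
        ((h.integrable_sq hU).add (testb_ind hU x s _)) fun y => ?_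
      by_cases hy : y ∈ ball x s
      · simp only [indicator_of_mem hy]
        nlinarith [sq_nonneg (|ψ y| - t), sq_abs (ψ y)]
      · simp only [indicator_of_notMem hy, h.2.2.2 y (not_lt.1 hy)]
        simp
    rwa [integral_const_mul, integral_add (h.integrable_sq hU) (testb_ind hU x s _),
      integral_indicator_const _ measurableSet_ball, smul_eq_mul, mul_comm (μ.real _)] at h1
  rw [← Real.sqrt_mul (by positivity)]
  refine Real.le_sqrt_of_sq_le ?_
  rcases (measureReal_nonneg (μ := μ) (s := ball x s)).eq_or_lt with h0 | h0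
  · have h1 := testb_abs_le h hU
    rw [← h0, mul_zero] at h1
    rw [le_antisymm h1 hI]
    have : 0 ≤ A * s ^ n * ∫ y, ψ y ^ 2 ∂μ := by positivity
    simpa using this
  · have h1 := key ((∫ y, |ψ y| ∂μ) / μ.real (ball x s))
    set I := ∫ y, |ψ y| ∂μ
    set J := ∫ y, ψ y ^ 2 ∂μ
    set m := μ.real (ball x s)
    have h2 : I ^ 2 / m ≤ J := by
      have e1 : 2 * (I / m) * I = 2 * (I ^ 2 / m) := by ring
      have e2 : (I / m) ^ 2 * m = I ^ 2 / m := by field_simp
      linarith
    rw [div_le_iff₀ h0] at h2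
    nlinarith
theorem Test.integral_abs_le' (h : Test ψ x s L) (hA : 0 ≤ A) (hU : Up n A μ) (hs : 0 < s) :
    ∫ y, |ψ y| ∂μ ≤ L * s * (A * s ^ n) :=
  (testb_abs_le h hU).trans
    (mul_le_mul_of_nonneg_left (hU.real_ball_le hA x hs) (mul_nonneg h.1 hs.le))
theorem Test.mono (h : Test ψ x s L) {x' : E d} {s' L' : ℝ} (hs : dist x x' + s ≤ s')
    (hL : L ≤ L') (hs0 : 0 ≤ s) : Test ψ x' s' L' := by
  have h0 := h.1
  refine ⟨h0.trans hL, fun y z => (h.2.1 y z).trans (mul_le_mul_of_nonneg_right hL dist_nonneg),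
    fun y => (h.2.2.1 y).trans (mul_le_mul hL (by linarith [dist_nonneg (x := x) (y := x')]) hs0
      (h0.trans hL)), fun y hy => h.2.2.2 y ?_⟩
  linarith [dist_triangle y x x']
theorem Test.const_mul (h : Test ψ x s L) (c : ℝ) : Test (fun y => c * ψ y) x s (|c| * L) := by
  refine ⟨mul_nonneg (abs_nonneg c) h.1, fun y z => ?_, fun y => ?_, fun y hy => ?_⟩
  · simp only [← mul_sub, abs_mul, mul_assoc]
    exact mul_le_mul_of_nonneg_left (h.2.1 y z) (abs_nonneg c)
  · simp only [abs_mul, mul_assoc]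
    exact mul_le_mul_of_nonneg_left (h.2.2.1 y) (abs_nonneg c)
  · simp only [h.2.2.2 y hy, mul_zero]
theorem Test.sub_mul {φ : E d → ℝ} {M : ℝ} (h : Test ψ x s L) (h' : Test φ x s M) (c : ℝ) :
    Test (fun y => ψ y - c * φ y) x s (L + |c| * M) := by
  have h2 := h'.const_mul c
  refine ⟨add_nonneg h.1 h2.1, fun y z => ?_, fun y => ?_, fun y hy => ?_⟩
  · have e : ψ y - c * φ y - (ψ z - c * φ z) = (ψ y - ψ z) - (c * φ y - c * φ z) := by ring
    simp only [e]
    refine (abs_sub _ _).trans ?_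
    linarith [h.2.1 y z, h2.2.1 y z]
  · refine (abs_sub _ _).trans ?_
    linarith [h.2.2.1 y, h2.2.2.1 y]
  · simp only [h.2.2.2 y hy, h'.2.2.2 y hy, mul_zero, sub_zero]
theorem Test.mul {g : E d → ℝ} {B M : ℝ} (h : Test ψ x s L) (hs : 0 ≤ s) (h1 : ∀ y, |ψ y| ≤ 1)
    (hM : 0 ≤ M) (hB : 0 ≤ B) (hg : ∀ y z, |g y - g z| ≤ M * dist y z)
    (hgB : ∀ y, dist y x < s → |g y| ≤ B) :
    Test (fun y => ψ y * g y) x s (L * B + M) := by
  have h0 := h.1
  have key : ∀ y z, dist y x < s → |ψ y * g y - ψ z * g z| ≤ (L * B + M) * dist y z := by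
    intro y z hy
    have e : ψ y * g y - ψ z * g z = (ψ y - ψ z) * g y + ψ z * (g y - g z) := by ring
    rw [e]
    refine (abs_add_le _ _).trans ?_
    rw [abs_mul, abs_mul]
    have a1 : |ψ y - ψ z| * |g y| ≤ L * dist y z * B :=
      mul_le_mul (h.2.1 y z) (hgB y hy) (abs_nonneg _) (by positivity)
    have a2 : |ψ z| * |g y - g z| ≤ 1 * (M * dist y z) :=
      mul_le_mul (h1 z) (hg y z) (abs_nonneg _) zero_le_one
    linarith
  refine ⟨by positivity, fun y z => ?_, fun y => ?_, fun y hy => ?_⟩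
  · by_cases hy : dist y x < s
    · exact key y z hy
    by_cases hz : dist z x < s
    · rw [abs_sub_comm, dist_comm]; exact key z y hz
    simp only [h.2.2.2 y (not_lt.1 hy), h.2.2.2 z (not_lt.1 hz), zero_mul, sub_zero, abs_zero]
    positivity
  · by_cases hy : dist y x < s
    · simp only [abs_mul]
      have a1 : |ψ y| * |g y| ≤ L * s * B :=
        mul_le_mul (h.2.2.1 y) (hgB y hy) (abs_nonneg _) (by positivity)
      nlinarith [mul_nonneg hM hs]
    · simp only [h.2.2.2 y (not_lt.1 hy), zero_mul, abs_zero]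
      positivity
  · simp only [h.2.2.2 y hy, zero_mul]
theorem exists_test_of_contDiff (h : ContDiff ℝ 1 ψ) (hc : HasCompactSupport ψ) :
    ∃ R L : ℝ, 1 ≤ R ∧ Test ψ 0 R L := by
  obtain ⟨K, hK⟩ := h.lipschitzWith_of_hasCompactSupport hc one_ne_zero
  obtain ⟨R, hR⟩ := hc.isCompact.isBounded.subset_ball (0 : E d)
  obtain ⟨C, hC⟩ := hc.exists_bound_of_continuous h.continuous
  have hC0 : 0 ≤ C := (norm_nonneg _).trans (hC 0)
  have hK0 : (0 : ℝ) ≤ K := K.2
  refine ⟨max 1 R, K + C, le_max_left _ _, by positivity, fun y z => ?_, fun y => ?_,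
    fun y hy => ?_⟩
  · have h1 := hK.dist_le_mul y z
    rw [Real.dist_eq] at h1
    nlinarith [dist_nonneg (x := y) (y := z)]
  · have h1 : |ψ y| ≤ C := hC y
    nlinarith [le_max_left 1 R]
  · by_contra h0
    have h1 := mem_ball.1 (hR (subset_tsupport ψ h0))
    linarith [le_max_right 1 R]

theorem bump_nonneg (x : E d) (r : ℝ) (y : E d) : 0 ≤ bump x r y := le_max_left _ _
theorem bump_le_one (x : E d) (r : ℝ) (y : E d) : bump x r y ≤ 1 :=
  max_le zero_le_one (min_le_left _ _)
theorem abs_bump_le_one (x : E d) (r : ℝ) (y : E d) : |bump x r y| ≤ 1 := by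
  rw [abs_of_nonneg (bump_nonneg x r y)]; exact bump_le_one x r y
theorem bump_eq_one {r : ℝ} (hr : 0 < r) {x y : E d} (h : dist y x ≤ r / 2) :
    bump x r y = 1 := by
  have h1 : 2 * dist y x / r ≤ 1 := by rw [div_le_one hr]; linarith
  unfold bump
  rw [min_eq_left (by linarith), max_eq_right zero_le_one]
theorem bump_eq_zero {r : ℝ} (hr : 0 < r) {x y : E d} (h : r ≤ dist y x) :
    bump x r y = 0 := by
  have h1 : 2 ≤ 2 * dist y x / r := by rw [le_div_iff₀ hr]; linarith
  unfold bump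
  exact max_eq_left ((min_le_right _ _).trans (by linarith))
theorem bump_test (x : E d) {r : ℝ} (hr : 0 < r) : Test (bump x r) x r (2 / r) := by
  refine ⟨by positivity, fun y z => ?_, fun y => ?_, fun y hy => bump_eq_zero hr hy⟩
  · unfold bump
    rw [max_comm 0, max_comm 0]
    refine (abs_max_sub_max_le_abs _ _ _).trans ((abs_min_sub_min_le_max _ _ _ _).trans ?_)
    have e : 2 - 2 * dist y x / r - (2 - 2 * dist z x / r) = 2 / r * (dist z x - dist y x) := by
      ring
    rw [sub_self, abs_zero, max_eq_right (abs_nonneg _), e, abs_mul,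
      abs_of_nonneg (by positivity : 0 ≤ 2 / r), dist_comm y z]
    exact mul_le_mul_of_nonneg_left (abs_dist_sub_le z y x) (by positivity)
  · rw [div_mul_cancel₀ _ hr.ne']
    linarith [abs_bump_le_one x r y]
theorem integral_bump_le (hA : 0 ≤ A) (hU : Up n A μ) (x : E d) {r : ℝ} (hr : 0 < r) :
    ∫ y, bump x r y ∂μ ≤ A * r ^ n := by
  have h1 := testb_int_le hU ((bump_test x hr).integrable hU) (bump_le_one x r)
    (fun y hy => bump_eq_zero hr hy)
  linarith [hU.real_ball_le hA x hr]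
theorem le_integral_bump {ρ : ℝ} (hU : Up n A μ) (hL : Low n A ρ μ) (hx : x ∈ μ.support) {r : ℝ}
    (hr : 0 < r) (hρ : r / 2 ≤ ρ) : A⁻¹ * (r / 2) ^ n ≤ ∫ y, bump x r y ∂μ := by
  refine (hL.real_ball_ge hU hx (half_pos hr) hρ).trans ?_
  have h2 : ∫ y, (ball x (r / 2)).indicator (fun _ => (1 : ℝ)) y ∂μ ≤ ∫ y, bump x r y ∂μ := by
    refine integral_mono (testb_ind hU x _ 1) ((bump_test x hr).integrable hU) fun y => ?_
    by_cases hy : y ∈ ball x (r / 2)
    · simp only [indicator_of_mem hy]; exact (bump_eq_one hr (mem_ball.1 hy).le).ge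
    · simp only [indicator_of_notMem hy]; exact bump_nonneg x r y
  rwa [integral_indicator_const _ measurableSet_ball, smul_eq_mul, mul_one] at h2

end Vale.Agent.P120
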