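import Vale.Agent.P120.Rfl1
import Vale.Agent.P120.Exc

/-!
P120 Touch. Overview in notes/P120.md, definitions in Defs.lean.
Name every helper lemma of yours with the file name in front (for example touch_aux1).

PLAN.
Write z = y - y0, g y = |z|^2/(2 r0) - ⟪z, e⟫ >= 0 on the support (a.e.). For 0 < r <= 1, c y0 r - c y0 1 = ∫ (kk r z - kk 1 z) • z (KK_neg),
kk r - kk 1 >= 0 (kk_anti) and |z|^2 (kk r - kk 1) <= |kk 0 - kk 1| |z|^2 (Up.sing with δ = 1), so
∫ g (kk r - kk 1) <= Cad A/(2 r0) + 2C. Fatou (lintegral_liminf_le) or monotone convergence along r = 1/(k+1) gives a finite lintegral of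
g (kk 0 - kk 1); on 0 < |z| < 1, kk 1 z <= kk 0 z / 2 (rr 1 z ^2 >= 2 |z|^2, n >= 1). With |⟪z,e⟫| <= g + |z|^2/(2 r0) and Up.near:
G y = |⟪z,e⟫| kk 0 z is integrable on ball y0 1 (touch_aux1).
The norm of hh y0 (span e)ᗮ y is |⟪z,e⟫| (Submodule.orthogonal_orthogonal, starProjection_singleton / starProjection_unit_singleton).
Then the integrand of ex times s^(-(n+2)) is at most G y * a_s(y) with a_s = (|z|/s)^(n+2) (1+|z|/s)^(-(n+3)) <= min 1 (s/|z|): dominated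
convergence on the ball (tendsto_integral_filter_of_dominated_convergence along 𝓝[>] 0), and outside the ball it is at most s kk 0 z (Up.far).
-/

open MeasureTheory Metric Set Filter Topology
open scoped ENNReal NNReal RealInnerProductSpace

namespace Vale.Agent.P120

variable {d : ℕ}

theorem touch_half {n : ℕ} (hn : 1 ≤ n) {z : E d} (hz : z ≠ 0) (h1 : ‖z‖ < 1) :
    kk n 0 z ≤ 2 * (kk n 0 z - kk n 1 z) := by
  obtain ⟨m, rfl⟩ := Nat.exists_eq_add_of_le' hn
  have hp : 0 < ‖z‖ := norm_pos_iff.2 hz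
  have h2 : 2 * ‖z‖ ^ (m + 1 + 1) ≤ rr 1 z ^ (m + 1 + 1) := by
    have a1 : ‖z‖ ^ m ≤ rr 1 z ^ m := pow_le_pow_left₀ hp.le (norm_le_rr 1 z) m
    have a2 : 2 * ‖z‖ ^ 2 ≤ rr 1 z ^ 2 := by
      rw [rr_sq]; nlinarith
    calc 2 * ‖z‖ ^ (m + 1 + 1) = ‖z‖ ^ m * (2 * ‖z‖ ^ 2) := by ring
      _ ≤ rr 1 z ^ m * rr 1 z ^ 2 := mul_le_mul a1 a2 (by positivity) (pow_nonneg (rr_nonneg _ _) _)
      _ = _ := by ring
  have h3 : kk (m + 1) 1 z ≤ (2 * ‖z‖ ^ (m + 1 + 1))⁻¹ := inv_anti₀ (by positivity) h2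
  rw [mul_inv, ← kk_zero_eq] at h3
  linarith

theorem touch_lim (n : ℕ) {z : E d} (hz : z ≠ 0) :
    Tendsto (fun k : ℕ => kk n (1 / ((k : ℝ) + 1)) z) atTop (𝓝 (kk n 0 z)) := by
  have hp : 0 < ‖z‖ := norm_pos_iff.2 hz
  have h1 : ContinuousAt (fun t : ℝ => kk n t z) 0 := by
    unfold kk
    refine ContinuousAt.inv₀ (ContinuousAt.pow ?_ _) ?_
    · unfold rr
      fun_prop
    · rw [rr_zero]
      positivity
  exact h1.tendsto.comp tendsto_one_div_add_atTop_nhds_zero_nat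

theorem touch_fatou {μ : Measure (E d)} {f : ℕ → E d → ℝ} {g : E d → ℝ} {B : ℝ}
    (hf : ∀ k, Integrable (f k) μ) (h0 : ∀ k, 0 ≤ᵐ[μ] f k) (hB : ∀ k, ∫ y, f k y ∂μ ≤ B)
    (hl : ∀ y, Tendsto (fun k => f k y) atTop (𝓝 (g y))) : Integrable g μ := by
  have hg : AEStronglyMeasurable g μ :=
    aestronglyMeasurable_of_tendsto_ae atTop (fun k => (hf k).1) (ae_of_all _ hl)
  refine ⟨hg, ?_⟩
  have h1 : eLpNorm g 1 μ ≤ ENNReal.ofReal B := by
    refine Lp.eLpNorm_le_of_ae_tendsto (u := atTop) (f := f) (Eventually.of_forall fun k => ?_)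
      (fun k => (hf k).1) (ae_of_all _ hl)
    rw [eLpNorm_one_eq_lintegral_enorm, ← ofReal_integral_norm_eq_lintegral_enorm (hf k)]
    refine ENNReal.ofReal_le_ofReal (le_of_eq_of_le (integral_congr_ae ?_) (hB k))
    filter_upwards [h0 k] with y hy
    exact Real.norm_of_nonneg hy
  rw [eLpNorm_one_eq_lintegral_enorm] at h1
  exact h1.trans_lt ENNReal.ofReal_lt_top

theorem touch_aux1 {n : ℕ} {A : ℝ} {μ : Measure (E d)} (hn : 1 ≤ n) (hA : 1 ≤ A) (h : RR n A μ)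
    (h0 : (0 : E d) ∈ μ.support) {y0 e : E d} (hy0 : y0 ∈ μ.support) {r0 : ℝ}
    (hr0 : 0 < r0) (ht : ∀ y ∈ μ.support, ⟪y - y0, e⟫ ≤ ‖y - y0‖ ^ 2 / (2 * r0)) :
    IntegrableOn (fun y => |⟪y - y0, e⟫| * kk n 0 (y - y0)) (ball y0 1) μ := by
  have hA0 : 0 ≤ A := zero_le_one.trans hA
  have hU := h.1
  obtain ⟨C, C0, hC⟩ := RR.exists_c n d hn A hA
  obtain ⟨c, -, c2, c3⟩ := hC μ h h0
  set g : E d → ℝ := fun y => ‖y - y0‖ ^ 2 / (2 * r0) - ⟪y - y0, e⟫ with hg
  have g0 : ∀ᵐ y ∂μ, 0 ≤ g y := by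
    filter_upwards [μ.support_mem_ae] with y hy
    exact sub_nonneg.2 (ht y hy)
  obtain ⟨s1, s2⟩ := hU.sing hn hA0 y0 one_pos
  have key : ∀ r : ℝ, 0 < r → r ≤ 1 →
      Integrable (fun y => g y * (kk n r (y - y0) - kk n 1 (y - y0))) μ ∧
      ∫ y, g y * (kk n r (y - y0) - kk n 1 (y - y0)) ∂μ ≤
        Cad n * A * 1 / (2 * r0) + (C + C) * ‖e‖ := by
    intro r r0' r1
    have e1 : ∀ y, KK n 1 (y0 - y) - KK n r (y0 - y) =
        (kk n r (y - y0) - kk n 1 (y - y0)) • (y - y0) := fun y => by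
      rw [← neg_sub y y0, KK_neg, KK_neg]
      unfold KK
      module
    have i1 := KK_diff_integrable hA0 hU y0 y0 r0' one_pos
    have j1 := c3 y0 y0 r 1 r0' one_pos
    have j2 := integral_inner (𝕜 := ℝ) i1 e
    have i2 := i1.const_inner (𝕜 := ℝ) e
    rw [← j1] at j2
    simp only [e1, real_inner_smul_right] at j2 i2
    have b1 : -((C + C) * ‖e‖) ≤ ⟪e, c y0 r - c y0 1⟫ := by
      have a1 := abs_real_inner_le_norm e (c y0 r - c y0 1)
      have a2 : ‖c y0 r - c y0 1‖ ≤ C + C :=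
        (norm_sub_le _ _).trans (add_le_add (c2 y0 hy0 r r0') (c2 y0 hy0 1 one_pos))
      have a3 := mul_le_mul_of_nonneg_left a2 (norm_nonneg e)
      have a4 := neg_abs_le ⟪e, c y0 r - c y0 1⟫
      linarith
    have b2 : ∀ y, |(kk n r (y - y0) - kk n 1 (y - y0)) * ‖y - y0‖ ^ 2| ≤
        |kk n 0 (y - y0) - kk n 1 (y - y0)| * ‖y - y0‖ ^ 2 := fun y => by
      by_cases hz : y - y0 = 0
      · simp [hz]
      rw [abs_mul, abs_of_nonneg (sub_nonneg.2 (kk_anti n r0' r1 _)), abs_of_nonneg (sq_nonneg _)]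
      refine mul_le_mul_of_nonneg_right (le_trans ?_ (le_abs_self _)) (sq_nonneg _)
      linarith [kk_le_kk_zero n r hz]
    have i3 : Integrable (fun y => (kk n r (y - y0) - kk n 1 (y - y0)) * ‖y - y0‖ ^ 2) μ :=
      s1.mono' (((adint_meas n r y0).sub (adint_meas n 1 y0)).mul
        ((adint_meas_norm y0).pow_const 2)).aestronglyMeasurable (ae_of_all _ b2)
    have b3 : ∫ y, (kk n r (y - y0) - kk n 1 (y - y0)) * ‖y - y0‖ ^ 2 ∂μ ≤ Cad n * A * 1 :=
      (integral_mono i3 s1 fun y => (le_abs_self _).trans (b2 y)).trans s2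
    have e2 : (fun y => g y * (kk n r (y - y0) - kk n 1 (y - y0))) = fun y =>
        (kk n r (y - y0) - kk n 1 (y - y0)) * ‖y - y0‖ ^ 2 / (2 * r0) -
          (kk n r (y - y0) - kk n 1 (y - y0)) * ⟪e, y - y0⟫ := by
      funext y
      rw [hg, real_inner_comm]
      ring
    rw [e2]
    refine ⟨(i3.div_const _).sub i2, ?_⟩
    rw [integral_sub (i3.div_const _) i2, integral_div, j2]
    have b4 := div_le_div_of_nonneg_right b3 (by positivity : 0 ≤ 2 * r0)
    linarith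
  have hk : ∀ k : ℕ, 0 < 1 / ((k : ℝ) + 1) ∧ 1 / ((k : ℝ) + 1) ≤ 1 := fun k =>
    ⟨by positivity, by
      rw [div_le_one (by positivity)]
      linarith [k.cast_nonneg (α := ℝ)]⟩
  have i4 : Integrable (fun y => g y * (kk n 0 (y - y0) - kk n 1 (y - y0))) μ := by
    refine touch_fatou (fun k => (key _ (hk k).1 (hk k).2).1) (fun k => ?_)
      (fun k => (key _ (hk k).1 (hk k).2).2) fun y => ?_
    · filter_upwards [g0] with y hy
      exact mul_nonneg hy (sub_nonneg.2 (kk_anti n (hk k).1 (hk k).2 _))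
    · by_cases hz : y - y0 = 0
      · simp [hg, hz]
      exact ((touch_lim n hz).sub_const _).const_mul _
  have i5 := ((hU.near hn hA0 y0 one_pos).1.div_const (2 * r0)).add
    ((i4.integrableOn (s := ball y0 1)).const_mul 2)
  refine i5.mono' ?_ ?_
  · refine (Measurable.mul ?_ (adint_meas n 0 y0)).aestronglyMeasurable
    exact (by fun_prop : Continuous fun y : E d => |⟪y - y0, e⟫|).measurable
  · filter_upwards [ae_restrict_of_ae g0, ae_restrict_mem measurableSet_ball] with y hy hb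
    rw [mem_ball_iff_norm] at hb
    by_cases hz : y - y0 = 0
    · simp [hg, hz]
    have k0 := kk_nonneg n 0 (y - y0)
    have a1 := mul_le_mul_of_nonneg_left (touch_half hn hz hb) hy
    have a2 : |⟪y - y0, e⟫| ≤ ‖y - y0‖ ^ 2 / (2 * r0) + g y := by
      have a3 : 0 ≤ ‖y - y0‖ ^ 2 / (2 * r0) := by positivity
      have a4 : g y = ‖y - y0‖ ^ 2 / (2 * r0) - ⟪y - y0, e⟫ := rfl
      rw [abs_le]
      constructor <;> linarith
    have a5 := mul_le_mul_of_nonneg_right a2 k0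
    rw [Real.norm_of_nonneg (mul_nonneg (abs_nonneg _) k0)]
    simp only [Pi.add_apply]
    have a6 : (‖y - y0‖ ^ 2 / (2 * r0) + g y) * kk n 0 (y - y0) =
      kk n 0 (y - y0) * ‖y - y0‖ ^ 2 / (2 * r0) + g y * kk n 0 (y - y0) := by ring
    linarith

theorem touch_hh {y0 e : E d} (he : ‖e‖ = 1) (y : E d) :
    ‖hh y0 (ℝ ∙ e)ᗮ y‖ = |⟪y - y0, e⟫| := by
  have e1 : hh y0 (ℝ ∙ e)ᗮ y = (ℝ ∙ e).starProjection (y - y0) := by
    unfold hh
    simp only [Submodule.orthogonal_orthogonal]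
  rw [e1, Submodule.starProjection_unit_singleton ℝ he, norm_smul, he, mul_one, real_inner_comm,
    Real.norm_eq_abs]

theorem touch_pt (n : ℕ) {s a b : ℝ} (hs : 0 < s) (ha : 0 ≤ a) (hab : a ≤ b) :
    (s ^ (n + 2))⁻¹ * (a ^ 2 * ((1 + b / s) ^ (n + 3))⁻¹) ≤ a * (b ^ (n + 1))⁻¹ ∧
    (s ^ (n + 2))⁻¹ * (a ^ 2 * ((1 + b / s) ^ (n + 3))⁻¹) ≤ s * (b ^ (n + 1))⁻¹ := by
  rcases ha.eq_or_lt with rfl | ha
  · refine ⟨by simp, ?_⟩
    simp only [ne_eq, OfNat.ofNat_ne_zero, not_false_eq_true, zero_pow, zero_mul, mul_zero]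
    positivity
  have hb : 0 < b := ha.trans_le hab
  have hq : 0 < b / s := by positivity
  constructor
  · have h1 : (b / s) ^ (n + 2) ≤ (1 + b / s) ^ (n + 3) :=
      (pow_le_pow_left₀ hq.le (by linarith) _).trans
        (pow_le_pow_right₀ (by linarith) (by omega))
    calc _ ≤ (s ^ (n + 2))⁻¹ * (a * b * ((b / s) ^ (n + 2))⁻¹) := by
          rw [sq]
          gcongr
      _ = _ := by
          rw [div_pow]
          field_simp
          ring
  · calc _ ≤ (s ^ (n + 2))⁻¹ * (b ^ 2 * ((b / s) ^ (n + 3))⁻¹) := by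
          gcongr
          linarith
      _ = _ := by
          rw [div_pow]
          field_simp
          ring

theorem touch {n : ℕ} {A : ℝ} {μ : Measure (E d)} (hn : 1 ≤ n) (hA : 1 ≤ A) (h : RR n A μ)
    (h0 : (0 : E d) ∈ μ.support) {y0 e : E d} (hy0 : y0 ∈ μ.support) (he : ‖e‖ = 1) {r0 : ℝ}
    (hr0 : 0 < r0) (ht : ∀ y ∈ μ.support, ⟪y - y0, e⟫ ≤ ‖y - y0‖ ^ 2 / (2 * r0)) :
    Tendsto (fun s : ℝ => ex n μ y0 s y0 (ℝ ∙ e)ᗮ) (𝓝[>] 0) (𝓝 0) := by
  have hA0 : 0 ≤ A := zero_le_one.trans hA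
  have hU := h.1
  have i1 := touch_aux1 hn hA h h0 hy0 hr0 ht
  have i2 := (hU.far hA0 y0 one_pos).1
  have hab : ∀ y : E d, |⟪y - y0, e⟫| ≤ ‖y - y0‖ := fun y => by
    simpa [he] using abs_real_inner_le_norm (y - y0) e
  have hb := fun (s : ℝ) (hs : 0 < s) (y : E d) => touch_pt n hs (abs_nonneg _) (hab y)
  have key := tendsto_integral_filter_of_dominated_convergence (μ := μ) (l := 𝓝[>] (0 : ℝ))
    (F := fun s y => (s ^ (n + 2))⁻¹ * (|⟪y - y0, e⟫| ^ 2 * ((1 + ‖y - y0‖ / s) ^ (n + 3))⁻¹))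
    (f := fun _ => (0 : ℝ))
    ((ball y0 1).indicator (fun y => |⟪y - y0, e⟫| * kk n 0 (y - y0)) +
      (ball y0 1)ᶜ.indicator fun y => kk n 0 (y - y0)) ?_ ?_
    ((i1.integrable_indicator measurableSet_ball).add
      (i2.integrable_indicator measurableSet_ball.compl)) ?_
  · simp only [integral_zero] at key
    refine key.congr fun s => ?_
    unfold ex
    simp only [touch_hh he]
    rw [integral_const_mul]
  · filter_upwards [self_mem_nhdsWithin] with s hs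
    have h1 := exc_cont y0 hs y0 (ℝ ∙ e)ᗮ (n + 3)
    simp only [touch_hh he] at h1
    exact (continuous_const.mul h1).aestronglyMeasurable
  · filter_upwards [Ioc_mem_nhdsGT one_pos] with s hs
    refine ae_of_all _ fun y => ?_
    have s0 := hs.1
    rw [Real.norm_of_nonneg (by positivity), Pi.add_apply]
    by_cases hy : y ∈ ball y0 1
    · rw [indicator_of_mem hy, indicator_of_notMem (notMem_compl_iff.2 hy), add_zero, kk_zero_eq]
      exact (hb s s0 y).1
    · rw [indicator_of_notMem hy, indicator_of_mem (mem_compl hy), zero_add, kk_zero_eq]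
      exact (hb s s0 y).2.trans (mul_le_of_le_one_left (by positivity) hs.2)
  · refine ae_of_all _ fun y => ?_
    have h1 : Tendsto (fun s : ℝ => s * (‖y - y0‖ ^ (n + 1))⁻¹) (𝓝[>] 0) (𝓝 0) := by
      have h2 : Continuous fun s : ℝ => s * (‖y - y0‖ ^ (n + 1))⁻¹ := by fun_prop
      simpa using (h2.tendsto 0).mono_left nhdsWithin_le_nhds
    refine squeeze_zero' ?_ ?_ h1
    · filter_upwards [self_mem_nhdsWithin] with s hs
      have s0 : 0 < s := hs
      positivity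
    · filter_upwards [self_mem_nhdsWithin] with s hs
      exact (hb s hs y).2

end Vale.Agent.P120
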